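import Crest.Agent.H1.CubeA

/-! The Bonami lemma on the biased cube. -/

set_option autoImplicit false

noncomputable section

namespace Crest.Agent.H1.Cube

open Finset Crest.FinProb

variable {ι : Type*} [Fintype ι] [DecidableEq ι] {p : ℝ}

lemma one_point (h0 : 0 < p) (h1 : p < 1) {ρ : ℝ} (hρ : ρ ^ 2 = sg p / 2) (a b : ℝ) :
    p * (a + ρ * ph p true * b) ^ 4 + (1 - p) * (a + ρ * ph p false * b) ^ 4 ≤
      (a ^ 2 + b ^ 2) ^ 2 := by
  have h2 := sg_sq h0 h1
  have h3 := sg_pos h0 h1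
  have h4 := sg_le h0 h1
  have m1 := ph_m1 (p := p)
  have m2 := ph_m2 h0 h1
  set m3 := p * ph p true ^ 3 + (1 - p) * ph p false ^ 3 with hm3
  set m4 := p * ph p true ^ 4 + (1 - p) * ph p false ^ 4 with hm4
  have e1 : sg p * ph p true = 1 - p := by
    simp only [ph, if_true]; field_simp
  have e0 : sg p * ph p false = -p := by
    simp only [ph, Bool.false_eq_true, if_false]; field_simp
  have e3 : sg p * m3 = 1 - 2 * p := by
    have : sg p ^ 2 * (sg p * m3) = sg p ^ 2 * (1 - 2 * p) := by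
      calc sg p ^ 2 * (sg p * m3) = p * (sg p * ph p true) ^ 3 +
            (1 - p) * (sg p * ph p false) ^ 3 := by rw [hm3]; ring
        _ = _ := by rw [e1, e0, h2]; ring
    exact mul_left_cancel₀ (by positivity) this
  have e4 : sg p ^ 2 * m4 = (1 - p) ^ 3 + p ^ 3 := by
    have : sg p ^ 2 * (sg p ^ 2 * m4) = sg p ^ 2 * ((1 - p) ^ 3 + p ^ 3) := by
      calc sg p ^ 2 * (sg p ^ 2 * m4) = p * (sg p * ph p true) ^ 4 +
            (1 - p) * (sg p * ph p false) ^ 4 := by rw [hm4]; ring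
        _ = _ := by rw [e1, e0, h2]; ring
    exact mul_left_cancel₀ (by positivity) this
  have e5 : ρ ^ 4 * m4 ≤ 1 / 4 := by
    have : ρ ^ 4 * m4 = (sg p ^ 2 * m4) / 4 := by
      calc ρ ^ 4 * m4 = (ρ ^ 2) ^ 2 * m4 := by ring
        _ = _ := by rw [hρ]; ring
    rw [this, e4]
    have : 0 < p * (1 - p) := mul_pos h0 (by linarith)
    nlinarith
  have e6 : ρ ^ 4 * m3 ^ 2 ≤ 1 / 4 := by
    have : ρ ^ 4 * m3 ^ 2 = (sg p * m3) ^ 2 / 4 := by
      calc ρ ^ 4 * m3 ^ 2 = (ρ ^ 2) ^ 2 * m3 ^ 2 := by ring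
        _ = _ := by rw [hρ]; ring
    rw [this, e3]
    nlinarith
  have e7 : ρ ^ 2 ≤ 1 / 4 := by linarith
  have key : p * (a + ρ * ph p true * b) ^ 4 + (1 - p) * (a + ρ * ph p false * b) ^ 4 =
      a ^ 4 + 6 * ρ ^ 2 * (a ^ 2 * b ^ 2) + 4 * ρ ^ 3 * m3 * a * b ^ 3 + ρ ^ 4 * m4 * b ^ 4 := by
    rw [hm3, hm4]
    linear_combination (4 * ρ * a ^ 3 * b) * m1 + (6 * ρ ^ 2 * a ^ 2 * b ^ 2) * m2
  rw [key]
  have f1 : 4 * ρ ^ 3 * m3 * a * b ^ 3 ≤
      2 * ρ ^ 2 * (a ^ 2 * b ^ 2) + 2 * (ρ ^ 4 * m3 ^ 2) * b ^ 4 := by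
    nlinarith [sq_nonneg (ρ * a * b - ρ ^ 2 * m3 * b ^ 2)]
  have f2 : 0 ≤ a ^ 2 * b ^ 2 := by positivity
  have f3 : 0 ≤ b ^ 4 := by positivity
  have f4 := mul_le_mul_of_nonneg_right e5 f3
  have f5 := mul_le_mul_of_nonneg_right e6 f3
  have f6 := mul_le_mul_of_nonneg_right e7 f2
  nlinarith

/-- damped polynomial -/
def dp (p ρ : ℝ) (R : Finset ι) (c : Finset ι → ℝ) (x : ι → Bool) : ℝ :=
  ∑ T ∈ R.powerset, c T * ρ ^ #T * chi p T x

omit [Fintype ι] in
lemma dp_insert (ρ : ℝ) {R : Finset ι} {e : ι} (he : e ∉ R) (c : Finset ι → ℝ) (x : ι → Bool) :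
    dp p ρ (insert e R) c x =
      dp p ρ R c x + ρ * ph p (x e) * dp p ρ R (fun T => c (insert e T)) x := by
  rw [dp, sum_powerset_insert he, dp, dp, mul_sum]
  congr 1
  refine sum_congr rfl fun T hT => ?_
  have h : e ∉ T := fun h => he (mem_powerset.1 hT h)
  rw [card_insert_of_notMem h, chi, prod_insert h, chi]
  ring

omit [Fintype ι] in
lemma dp_update (ρ : ℝ) {R : Finset ι} {e : ι} (he : e ∉ R) (c : Finset ι → ℝ) (x : ι → Bool)
    (b : Bool) : dp p ρ R c (Function.update x e b) = dp p ρ R c x := by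
  refine sum_congr rfl fun T hT => ?_
  congr 1
  refine prod_congr rfl fun e' he' => ?_
  rw [Function.update_of_ne]
  rintro rfl
  exact he (mem_powerset.1 hT he')

lemma bonami_aux (h0 : 0 < p) (h1 : p < 1) {ρ : ℝ} (hρ : ρ ^ 2 = sg p / 2) (R : Finset ι) :
    ∀ c : Finset ι → ℝ, Ex p (fun x => dp p ρ R c x ^ 4) ≤ (∑ T ∈ R.powerset, c T ^ 2) ^ 2 := by
  induction R using Finset.induction_on with
  | empty =>
    intro c
    simp only [dp, powerset_empty, sum_singleton, card_empty, pow_zero, mul_one, chi_empty,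
      Ex_const]
    exact le_of_eq (by ring)
  | insert e R he ih =>
    intro c
    set c' : Finset ι → ℝ := fun T => c (insert e T) with hc'
    rw [← Ex_av h0 h1 {e}, sum_powerset_insert he]
    have hA := ih c
    have hB := ih c'
    set A := ∑ T ∈ R.powerset, c T ^ 2
    set B := ∑ T ∈ R.powerset, c' T ^ 2
    have hA0 : 0 ≤ A := sum_nonneg fun _ _ => sq_nonneg _
    have hB0 : 0 ≤ B := sum_nonneg fun _ _ => sq_nonneg _
    have h2 : Ex p (av p {e} fun x => dp p ρ (insert e R) c x ^ 4) ≤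
        Ex p (fun x => dp p ρ R c x ^ 4 + 2 * (dp p ρ R c x ^ 2 * dp p ρ R c' x ^ 2) +
          dp p ρ R c' x ^ 4) := by
      refine Ex_mono h0.le h1.le fun x => ?_
      rw [av_single]
      simp only [dp_insert ρ he, dp_update ρ he, Function.update_self]
      refine (one_point h0 h1 hρ _ _).trans (le_of_eq ?_)
      ring
    rw [Ex_add, Ex_add, Ex_const_mul] at h2
    have h3 := Ex_cs h0.le h1.le (fun x => dp p ρ R c x ^ 2) (fun x => dp p ρ R c' x ^ 2)
    simp only [← pow_mul] at h3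
    have h4 : (Ex p fun x => dp p ρ R c x ^ 2 * dp p ρ R c' x ^ 2) ≤ A * B := by
      refine abs_le_of_sq_le_sq' (h3.trans ?_) (mul_nonneg hA0 hB0) |>.2
      rw [mul_pow]
      exact mul_le_mul hA hB (Ex_nonneg h0.le h1.le fun x => Even.pow_nonneg (by decide) _)
        (sq_nonneg _)
    nlinarith

lemma bonami (h0 : 0 < p) (h1 : p < 1) (D : ℕ) (d : Finset ι → ℝ)
    (hd : ∀ T, D < #T → d T = 0) :
    Ex p (fun x => (∑ T, d T * chi p T x) ^ 4) ≤ ((2 / sg p) ^ D * ∑ T, d T ^ 2) ^ 2 := by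
  have h3 := sg_pos h0 h1
  have h4 := sg_le h0 h1
  set ρ := √(sg p / 2)
  have hρ : ρ ^ 2 = sg p / 2 := Real.sq_sqrt (by positivity)
  have hρ0 : 0 < ρ := Real.sqrt_pos.2 (by positivity)
  have h := bonami_aux h0 h1 hρ univ (fun T => d T / ρ ^ #T)
  have h5 : ∀ x, dp p ρ univ (fun T => d T / ρ ^ #T) x = ∑ T, d T * chi p T x := by
    intro x
    rw [dp, powerset_univ]
    refine sum_congr rfl fun T _ => ?_
    rw [div_mul_cancel₀ _ (by positivity)]
  simp only [h5, powerset_univ] at h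
  refine h.trans (pow_le_pow_left₀ (sum_nonneg fun _ _ => sq_nonneg _) ?_ 2)
  rw [mul_sum]
  refine sum_le_sum fun T _ => ?_
  by_cases hT : D < #T
  · simp [hd T hT]
  · rw [div_pow, ← pow_mul, mul_comm (#T) 2, pow_mul, hρ, div_eq_mul_inv, ← inv_pow, inv_div,
      mul_comm]
    refine mul_le_mul_of_nonneg_right (pow_le_pow_right₀ ?_ (by omega)) (sq_nonneg _)
    rw [le_div_iff₀ h3]
    linarith

end Crest.Agent.H1.Cube
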