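import Crest.Agent.H1.CubeB

/-! The star lemma and restrictions. -/

set_option autoImplicit false

noncomputable section

namespace Crest.Agent.H1.Cube

open Finset Crest.FinProb

variable {ι : Type*} [Fintype ι] [DecidableEq ι] {p : ℝ}

lemma star_l1l2 (h0 : 0 < p) (h1 : p < 1) {F : (ι → Bool) → ℝ} (hF : IsBool F) (R : Finset ι)
    (D : ℕ) {η : ℝ} (hη : 0 ≤ η)
    (hb : (∑ T, if T ≠ ∅ ∧ T ⊆ R then fc p F T ^ 2 else 0) ≤ η ^ 2) :
    (∑ T, if T ≠ ∅ ∧ T ⊆ R ∧ #T ≤ D then fc p F T ^ 2 else 0) ≤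
      (2 / sg p) ^ D * (2 * η) * ∑ T, if Disjoint T R then 0 else fc p F T ^ 2 := by
  have h3 := sg_pos h0 h1
  set G := av p Rᶜ fun x => F x - av p R F x with hG
  have hGc : ∀ T, fc p G T = if T ≠ ∅ ∧ T ⊆ R then fc p F T else 0 := by
    intro T
    rw [hG, fc_av h0 h1, fc_sub, fc_av h0 h1]
    have e1 : Disjoint T Rᶜ ↔ T ⊆ R := disjoint_compl_right_iff
    by_cases hT : T ⊆ R
    · rw [if_pos (e1.2 hT)]
      by_cases hT0 : T = ∅
      · subst hT0
        simp
      · have : ¬ Disjoint T R := fun h => hT0 (by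
          simpa using h.eq_bot_of_le hT)
        rw [if_neg this, if_pos ⟨hT0, hT⟩, sub_zero]
    · rw [if_neg (fun h => hT (e1.1 h)), if_neg (fun h => hT h.2)]
  set d : Finset ι → ℝ := fun T => if T ≠ ∅ ∧ T ⊆ R ∧ #T ≤ D then fc p F T else 0 with hd
  set h : (ι → Bool) → ℝ := fun x => ∑ T, d T * chi p T x with hh
  set W := ∑ T, if T ≠ ∅ ∧ T ⊆ R ∧ #T ≤ D then fc p F T ^ 2 else 0 with hW
  have hW1 : ∑ T, d T ^ 2 = W := sum_congr rfl fun T _ => by
    simp only [hd]
    split_ifs <;> simp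
  have hW0 : 0 ≤ W := hW1 ▸ sum_nonneg fun _ _ => sq_nonneg _
  have hW2 : Ex p (fun x => G x * h x) = W := by
    rw [plancherel h0 h1]
    refine sum_congr rfl fun T _ => ?_
    rw [hh, fc_sum h0 h1, hGc]
    simp only [hd]
    by_cases hT : T ≠ ∅ ∧ T ⊆ R ∧ #T ≤ D
    · rw [if_pos hT, if_pos hT, if_pos ⟨hT.1, hT.2.1⟩, sq]
    · rw [if_neg hT, if_neg hT, mul_zero]
  have hG2 : Ex p (fun x => G x ^ 2) ≤ η ^ 2 := by
    rw [parseval h0 h1]
    refine le_trans (le_of_eq (sum_congr rfl fun T _ => ?_)) hb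
    rw [hGc]
    split_ifs <;> simp
  have hG1 : Ex p (fun x => |G x|) ≤ 2 * ∑ T, if Disjoint T R then 0 else fc p F T ^ 2 := by
    rw [← Ex_abs_sub_av h0 h1 R hF]
    exact Ex_abs_av_le h0 h1 _ _
  have hh4 := bonami h0 h1 D d (fun T hT => by
    simp only [hd]
    rw [if_neg (fun h => by omega)])
  rw [hW1] at hh4
  set Z := ∑ T, if Disjoint T R then 0 else fc p F T ^ 2
  set C := (2 / sg p) ^ D
  have hC : 0 ≤ C := by positivity
  have c1 := Ex_cs h0.le h1.le (fun x => √|G x|) (fun x => √|G x| * |h x|)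
  have c2 := Ex_cs h0.le h1.le (fun x => |G x|) (fun x => h x ^ 2)
  simp only [mul_pow, Real.sq_sqrt (abs_nonneg _), sq_abs, ← mul_assoc,
    Real.mul_self_sqrt (abs_nonneg _), ← pow_mul] at c1 c2
  have c3 : W ≤ Ex p fun x => |G x| * |h x| := by
    rw [← hW2]
    exact Ex_mono h0.le h1.le fun x => by rw [← abs_mul]; exact le_abs_self _
  have c4 : (Ex p fun x => |G x| * h x ^ 2) ≤ η * (C * W) := by
    refine (abs_le_of_sq_le_sq' (c2.trans ?_) (by positivity)).2
    rw [mul_pow]
    exact mul_le_mul hG2 hh4 (Ex_nonneg h0.le h1.le fun x => Even.pow_nonneg (by decide) _)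
      (sq_nonneg _)
  have c5 : 0 ≤ Ex p fun x => |G x| := Ex_nonneg h0.le h1.le fun x => abs_nonneg _
  have c6 : W ^ 2 ≤ (2 * Z) * (η * (C * W)) := by
    refine (pow_le_pow_left₀ hW0 c3 2).trans (c1.trans ?_)
    exact mul_le_mul hG1 c4 (Ex_nonneg h0.le h1.le fun x => by positivity) (by linarith)
  rcases hW0.eq_or_lt with h | h
  · rw [← h]
    have : 0 ≤ Z := by linarith
    positivity
  · refine le_of_mul_le_mul_right ?_ h
    calc W * W = W ^ 2 := by ring
      _ ≤ _ := c6
      _ = _ := by ring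

lemma restrict_fc (h0 : 0 < p) (h1 : p < 1) (f : (ι → Bool) → ℝ) (J T : Finset ι)
    (y : ι → Bool) : fc p (fun x => f (J.piecewise y x)) T =
      ∑ S, if S \ J = T then fc p f S * chi p (S ∩ J) y else 0 := by
  have : (fun x => f (J.piecewise y x) * chi p T x) = fun x => ∑ S, fc p f S * chi p (S ∩ J) y *
      (chi p (S \ J) x * chi p T x) := by
    ext x
    rw [expand h0 h1 f, sum_mul]
    exact sum_congr rfl fun S _ => by rw [chi_piecewise]; ring
  rw [fc, this, Ex_sum]
  refine sum_congr rfl fun S _ => ?_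
  rw [Ex_const_mul, Ex_chi_mul h0 h1, mul_ite, mul_one, mul_zero]

lemma restrict_sq (h0 : 0 < p) (h1 : p < 1) (f : (ι → Bool) → ℝ) (J T : Finset ι) :
    Ex p (fun y => fc p (fun x => f (J.piecewise y x)) T ^ 2) =
      ∑ S, if S \ J = T then fc p f S ^ 2 else 0 := by
  simp only [restrict_fc h0 h1, sq, sum_mul_sum, Ex_sum]
  refine sum_congr rfl fun S _ => ?_
  have : ∀ S', Ex p (fun y => (if S \ J = T then fc p f S * chi p (S ∩ J) y else 0) *
      if S' \ J = T then fc p f S' * chi p (S' ∩ J) y else 0) =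
      if S = S' then (if S \ J = T then fc p f S * fc p f S else 0) else 0 := by
    intro S'
    by_cases hS : S \ J = T
    · by_cases hS' : S' \ J = T
      · simp only [hS, hS', if_true]
        have e : (fun y => fc p f S * chi p (S ∩ J) y * (fc p f S' * chi p (S' ∩ J) y)) =
            fun y => fc p f S * fc p f S' * (chi p (S ∩ J) y * chi p (S' ∩ J) y) := by
          ext y
          ring
        rw [e, Ex_const_mul, Ex_chi_mul h0 h1]
        by_cases h : S = S'
        · subst h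
          simp
        · rw [if_neg h, if_neg, mul_zero]
          intro h2
          apply h
          rw [← sdiff_union_inter S J, ← sdiff_union_inter S' J, h2, hS, hS']
      · have : S ≠ S' := fun h => hS' (h ▸ hS)
        simp [hS', this, Ex_const]
    · simp [hS, Ex_const]
  simp only [this]
  simp

lemma restrict_sum (h0 : 0 < p) (h1 : p < 1) (f : (ι → Bool) → ℝ) (J : Finset ι)
    (P : Finset ι → Prop) [DecidablePred P] :
    Ex p (fun y => ∑ T, if P T then fc p (fun x => f (J.piecewise y x)) T ^ 2 else 0) =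
      ∑ S, if P (S \ J) then fc p f S ^ 2 else 0 := by
  rw [Ex_sum]
  have : ∀ T, Ex p (fun y => if P T then fc p (fun x => f (J.piecewise y x)) T ^ 2 else 0) =
      ∑ S, if S \ J = T then (if P (S \ J) then fc p f S ^ 2 else 0) else 0 := by
    intro T
    by_cases hT : P T
    · simp only [hT, if_true]
      rw [restrict_sq h0 h1]
      refine sum_congr rfl fun S _ => ?_
      by_cases h : S \ J = T
      · rw [if_pos h, if_pos h, if_pos (h ▸ hT)]
      · rw [if_neg h, if_neg h]
    · simp only [hT, if_false, Ex_const]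
      refine (sum_eq_zero fun S _ => ?_).symm
      by_cases h : S \ J = T
      · rw [if_pos h, if_neg (h ▸ hT)]
      · rw [if_neg h]
  simp only [this]
  rw [sum_comm]
  simp

variable {n : ℕ}

/-- vertex symmetry of `f` -/
def Symm (inc : ι → Finset (Fin n)) (f : (ι → Bool) → ℝ) : Prop :=
  ∀ v w : Fin n, ∃ σ : ι ≃ ι, (∀ x, f (x ∘ σ) = f x) ∧
    ∀ e, inc (σ e) = (inc e).map (Equiv.swap v w).toEmbedding

/-- slots meeting `A` exactly in `v` -/
def star (inc : ι → Finset (Fin n)) (A : Finset (Fin n)) (v : Fin n) : Finset ι :=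
  univ.filter fun e => inc e ∩ A = {v}

lemma map_swap_self {A : Finset (Fin n)} {v w : Fin n} (hv : v ∈ A ↔ w ∈ A) :
    A.map (Equiv.swap v w).toEmbedding = A := by
  ext u
  rw [mem_map_equiv, Equiv.symm_swap, Equiv.swap_apply_def]
  split_ifs with h1 h2
  · rw [h1, hv]
  · rw [h2, hv]
  · rfl

lemma star_bound (h0 : 0 < p) (h1 : p < 1) {F : (ι → Bool) → ℝ} (hF : IsBool F)
    (inc : ι → Finset (Fin n)) (A : Finset (Fin n))
    (hs : ∀ v ∈ A, ∀ w ∈ A, ∃ σ : ι ≃ ι, (∀ x, F (x ∘ σ) = F x) ∧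
      ∀ e, inc (σ e) = (inc e).map (Equiv.swap v w).toEmbedding) {v : Fin n} (hv : v ∈ A) :
    (∑ T, if T ≠ ∅ ∧ T ⊆ star inc A v then fc p F T ^ 2 else 0) ≤ 1 / (4 * #A) := by
  have hA : (0 : ℝ) < #A := by exact_mod_cast card_pos.2 ⟨v, hv⟩
  have e1 : ∀ w ∈ A, (∑ T, if T ≠ ∅ ∧ T ⊆ star inc A v then fc p F T ^ 2 else 0) =
      ∑ T, if T ≠ ∅ ∧ T ⊆ star inc A w then fc p F T ^ 2 else 0 := by
    intro w hw
    obtain ⟨σ, hσ, hσ2⟩ := hs v hv w hw
    refine Fintype.sum_equiv σ.finsetCongr _ _ fun T => ?_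
    rw [Equiv.finsetCongr_apply, fc_map σ hσ]
    have e2 : ∀ e, σ e ∈ star inc A w ↔ e ∈ star inc A v := by
      intro e
      simp only [star, mem_filter, mem_univ, true_and]
      rw [hσ2]
      have e3 : ({w} : Finset (Fin n)) = ({v} : Finset (Fin n)).map
          (Equiv.swap v w).toEmbedding := by simp
      conv_lhs => rw [← map_swap_self (A := A) (v := v) (w := w) (by simp [hv, hw]), ← map_inter,
        e3]
      exact map_inj
    have e4 : (T ≠ ∅ ∧ T ⊆ star inc A v) ↔
        (T.map σ.toEmbedding ≠ ∅ ∧ T.map σ.toEmbedding ⊆ star inc A w) := by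
      refine and_congr (by simp) ⟨fun h e he => ?_, fun h e he => ?_⟩
      · obtain ⟨e', he', rfl⟩ := mem_map.1 he
        exact (e2 e').2 (h he')
      · exact (e2 e).1 (h (mem_map_of_mem _ he))
    simp only [e4]
  have e5 : ∑ w ∈ A, (∑ T, if T ≠ ∅ ∧ T ⊆ star inc A w then fc p F T ^ 2 else 0) ≤ 1 / 4 := by
    refine le_trans ?_ (var_le h0 h1 hF)
    rw [sum_comm, var]
    refine sum_le_sum fun T _ => ?_
    by_cases hT : T = ∅
    · simp [hT]
    · rw [if_neg hT, ← sum_filter, sum_const, nsmul_eq_mul]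
      refine mul_le_of_le_one_left (sq_nonneg _) ?_
      have : #{w ∈ A | T ≠ ∅ ∧ T ⊆ star inc A w} ≤ 1 := by
        refine card_le_one.2 fun a ha b hb => ?_
        obtain ⟨e, he⟩ := nonempty_iff_ne_empty.2 hT
        have h2 := (mem_filter.1 ((mem_filter.1 ha).2.2 he)).2
        have h3 := (mem_filter.1 ((mem_filter.1 hb).2.2 he)).2
        exact singleton_injective (h2.symm.trans h3)
      exact_mod_cast this
  rw [← sum_congr rfl e1, sum_const, nsmul_eq_mul] at e5
  rw [le_div_iff₀ (by positivity)]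
  linarith

/-- degree of a vertex -/
def deg (inc : ι → Finset (Fin n)) (S : Finset ι) (v : Fin n) : ℕ := #{e ∈ S | v ∈ inc e}

lemma fixed_A (h0 : 0 < p) (h1 : p < 1) {f : (ι → Bool) → ℝ} (hf : IsBool f)
    {inc : ι → Finset (Fin n)} (hinj : Function.Injective inc) (hs : Symm inc f)
    (A : Finset (Fin n)) {v : Fin n} (hv : v ∈ A) (D : ℕ) :
    (∑ S, if S.biUnion inc ∩ A = {v} ∧ deg inc S v ≤ D then fc p f S ^ 2 else 0) ≤
      (2 / sg p) ^ D * (√(#A : ℝ))⁻¹ * ∑ S, (deg inc S v : ℝ) * fc p f S ^ 2 := by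
  have h3 := sg_pos h0 h1
  have hA : (0 : ℝ) < #A := by exact_mod_cast card_pos.2 ⟨v, hv⟩
  set J : Finset ι := univ.filter fun e => inc e ∩ A = ∅ with hJ
  have key : ∀ y : ι → Bool, (∑ T, if T ≠ ∅ ∧ T ⊆ star inc A v ∧ #T ≤ D then
      fc p (fun x => f (J.piecewise y x)) T ^ 2 else 0) ≤
      (2 / sg p) ^ D * (√(#A : ℝ))⁻¹ * ∑ T, if ¬ Disjoint T (star inc A v) then
        fc p (fun x => f (J.piecewise y x)) T ^ 2 else 0 := by
    intro y
    have hb := star_bound h0 h1 (F := fun x => f (J.piecewise y x)) (fun x => hf _) inc A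
      (fun v hv w hw => by
        obtain ⟨σ, hσ, hσ2⟩ := hs v w
        refine ⟨σ, fun x => ?_, hσ2⟩
        rw [← hσ (J.piecewise y x)]
        congr 1
        ext e
        have e1 : inc (σ e) ∩ A = (inc e ∩ A).map (Equiv.swap v w).toEmbedding := by
          rw [hσ2, map_inter, map_swap_self (A := A) (by simp [hv, hw])]
        by_cases he : e ∈ J
        · have e2 : inc e ∩ A = ∅ := (mem_filter.1 he).2
          have e3 : σ e = e := by
            apply hinj
            rw [hσ2, map_swap_self]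
            constructor
            · intro h
              exact absurd (mem_inter.2 ⟨h, hv⟩) (by simp [e2])
            · intro h
              exact absurd (mem_inter.2 ⟨h, hw⟩) (by simp [e2])
          rw [Function.comp_apply, e3, piecewise_eq_of_mem _ _ _ he,
            piecewise_eq_of_mem _ _ _ he]
        · have e2 : σ e ∉ J := by
            simp only [hJ, mem_filter, mem_univ, true_and] at he ⊢
            rwa [e1, map_eq_empty]
          rw [Function.comp_apply, piecewise_eq_of_notMem _ _ _ he,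
            piecewise_eq_of_notMem _ _ _ e2, Function.comp_apply]) hv
    have := star_l1l2 h0 h1 (F := fun x => f (J.piecewise y x)) (fun x => hf _) (star inc A v) D
      (η := (√(#A : ℝ))⁻¹ / 2) (by positivity) (hb.trans (le_of_eq (by
        rw [div_pow, inv_pow, Real.sq_sqrt hA.le]
        field_simp
        norm_num)))
    simp only [ite_not]
    refine this.trans (le_of_eq ?_)
    ring
  have k2 := Ex_mono h0.le h1.le key
  rw [Ex_const_mul, restrict_sum h0 h1 f J (fun T => T ≠ ∅ ∧ T ⊆ star inc A v ∧ #T ≤ D),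
    restrict_sum h0 h1 f J (fun T => ¬ Disjoint T (star inc A v))] at k2
  refine le_trans (sum_le_sum fun S _ => ?_) (k2.trans (mul_le_mul_of_nonneg_left
    (sum_le_sum fun S _ => ?_) (by positivity)))
  · by_cases hS : S.biUnion inc ∩ A = {v} ∧ deg inc S v ≤ D
    · rw [if_pos hS, if_pos]
      have e1 : ∀ e ∈ S, inc e ∩ A ⊆ {v} := fun e he => by
        rw [← hS.1]
        exact inter_subset_inter_right (subset_biUnion_of_mem inc he)
      have e2 : S \ J = {e ∈ S | v ∈ inc e} := by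
        ext e
        simp only [hJ, mem_sdiff, mem_filter, mem_univ, true_and]
        refine and_congr_right fun he => ⟨fun h => ?_, fun h h2 => ?_⟩
        · obtain ⟨u, hu⟩ := nonempty_iff_ne_empty.2 h
          have := mem_singleton.1 (e1 e he hu)
          exact this ▸ (mem_inter.1 hu).1
        · exact absurd (mem_inter.2 ⟨h, hv⟩) (by simp [h2])
      rw [e2]
      refine ⟨?_, fun e he => ?_, hS.2⟩
      · have : v ∈ S.biUnion inc ∩ A := by simp [hS.1]
        obtain ⟨e, he, he2⟩ := mem_biUnion.1 (mem_inter.1 this).1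
        exact ne_empty_of_mem (mem_filter.2 ⟨he, he2⟩)
      · obtain ⟨he1, he2⟩ := mem_filter.1 he
        refine mem_filter.2 ⟨mem_univ _, Subset.antisymm (e1 e he1) ?_⟩
        simp [he2, hv]
    · rw [if_neg hS]
      split_ifs <;> positivity
  · split_ifs with h
    · positivity
    · refine le_mul_of_one_le_left (sq_nonneg _) ?_
      obtain ⟨e, he1, he2⟩ := not_disjoint_iff.1 h
      have : v ∈ inc e ∩ A := by rw [(mem_filter.1 he2).2]; simp
      have : 0 < deg inc S v := card_pos.2 ⟨e, mem_filter.2 ⟨(mem_sdiff.1 he1).1,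
        (mem_inter.1 this).1⟩⟩
      exact_mod_cast this

end Crest.Agent.H1.Cube
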