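import Crest.Agent.H1.CubeC

/-! Averaging over a random vertex set; the main inequality. -/

set_option autoImplicit false

noncomputable section

namespace Crest.Agent.H1.Cube

open Finset Crest.FinProb

variable {ι : Type*} [Fintype ι] [DecidableEq ι] {p : ℝ} {n : ℕ}

/-- the vertex set coded by `a` -/
def vs (a : Fin n → Bool) : Finset (Fin n) := univ.filter fun v => a v = true

lemma prob_inter {θ : ℝ} (h0 : 0 < θ) (h1 : θ < 1) (V : Finset (Fin n)) {v : Fin n} (hv : v ∈ V)
    (hV : θ * #V ≤ 1 / 2) : θ / 2 ≤ Ex θ fun a => if V ∩ vs a = {v} then 1 else 0 := by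
  have e1 : (fun a : Fin n → Bool => if V ∩ vs a = {v} then (1 : ℝ) else 0) = fun a =>
      ∏ w, (fun w (b : Bool) => if w = v then (if b then (1 : ℝ) else 0) else
        if w ∈ V then (if b then 0 else 1) else 1) w (a w) := by
    ext a
    split_ifs with h
    · refine (prod_eq_one fun w _ => ?_).symm
      have : w ∈ V ∩ vs a ↔ w = v := by simp [h]
      simp only [vs, mem_inter, mem_filter, mem_univ, true_and] at this
      by_cases h2 : w = v
      · have h3 := (this.2 h2).2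
        beta_reduce
        rw [if_pos h2, if_pos h3]
      · by_cases h3 : w ∈ V
        · have : ¬ a w = true := fun h4 => h2 (this.1 ⟨h3, h4⟩)
          simp [h2, this]
        · simp [h2, h3]
    · by_contra h2
      apply h
      have h3 := prod_ne_zero_iff.1 (Ne.symm h2)
      ext w
      have h4 := h3 w (mem_univ _)
      simp only [vs, mem_inter, mem_filter, mem_univ, true_and, mem_singleton]
      by_cases h5 : w = v
      · subst h5
        simpa [hv] using h4
      · by_cases h6 : w ∈ V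
        · simpa [h5, h6] using h4
        · simp [h5, h6]
  rw [e1, Ex_prod (fun w (b : Bool) => if w = v then (if b then (1 : ℝ) else 0) else
        if w ∈ V then (if b then 0 else 1) else 1), ← mul_prod_erase _ _ (mem_univ v),
    ← prod_subset (s₁ := V.erase v) (erase_subset_erase v (subset_univ V))]
  · rw [prod_congr rfl (g := fun _ => 1 - θ), prod_const]
    · have h2 := one_add_mul_le_pow (a := -θ) (by linarith) #(V.erase v)
      have h3 : (#(V.erase v) : ℝ) ≤ #V := by exact_mod_cast card_erase_le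
      have h4 : 1 / 2 ≤ (1 - θ) ^ #(V.erase v) := by
        rw [← sub_eq_add_neg] at h2
        nlinarith
      simp only [if_true, Bool.false_eq_true, if_false]
      nlinarith
    · intro w hw
      simp [(mem_erase.1 hw).1, (mem_erase.1 hw).2]
  · intro w hw hw2
    have h2 : w ≠ v := (mem_erase.1 hw).1
    have h3 : w ∉ V := fun h => hw2 (mem_erase.2 ⟨h2, h⟩)
    simp [h2, h3]

lemma ex_inv_sqrt {θ : ℝ} (h0 : 0 < θ) (h1 : θ < 1) (v : Fin n) :
    (Ex θ fun a => if v ∈ vs a then (√(#(vs a) : ℝ))⁻¹ else 0) ≤ √(θ / n) := by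
  have hn : (0 : ℝ) < n := by exact_mod_cast v.pos
  have e1 : ∀ w : Fin n, (Ex θ fun a => if v ∈ vs a then (#(vs a) : ℝ)⁻¹ else 0) =
      Ex θ fun a => if w ∈ vs a then (#(vs a) : ℝ)⁻¹ else 0 := by
    intro w
    rw [← Ex_comp (Equiv.swap v w)]
    congr 1
    ext a
    have : #(vs (a ∘ Equiv.swap v w)) = #(vs a) := by
      refine card_bijective (Equiv.swap v w) (Equiv.bijective _) fun i => ?_
      simp [vs]
    rw [this]
    simp [vs]
  have e2 : ∑ w : Fin n, (Ex θ fun a => if w ∈ vs a then (#(vs a) : ℝ)⁻¹ else 0) ≤ 1 := by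
    rw [← Ex_sum, ← Ex_const (ι := Fin n) (p := θ) 1]
    refine Ex_mono h0.le h1.le fun a => ?_
    rw [sum_ite_mem, univ_inter, sum_const, nsmul_eq_mul]
    exact mul_inv_le_one
  rw [← sum_congr rfl (fun w _ => e1 w), sum_const, nsmul_eq_mul, card_univ,
    Fintype.card_fin] at e2
  have e3 := Ex_cs h0.le h1.le (fun a => if v ∈ vs a then (1 : ℝ) else 0)
    (fun a => if v ∈ vs a then (√(#(vs a) : ℝ))⁻¹ else 0)
  have e4 : (Ex θ fun a => (if v ∈ vs a then (1 : ℝ) else 0) ^ 2) = θ := by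
    have := Ex_coord (p := θ) v (fun b => if b then (1 : ℝ) else 0)
    simp only [if_true, Bool.false_eq_true, if_false, mul_one, mul_zero, add_zero] at this
    refine Eq.trans ?_ this
    simp [vs]
  have e5 : (fun a => (if v ∈ vs a then (√(#(vs a) : ℝ))⁻¹ else 0) ^ 2) =
      fun a => if v ∈ vs a then (#(vs a) : ℝ)⁻¹ else 0 := by
    ext a
    split_ifs
    · rw [inv_pow, Real.sq_sqrt (Nat.cast_nonneg _)]
    · simp
  have e6 : (fun a => (if v ∈ vs a then (1 : ℝ) else 0) *
      (if v ∈ vs a then (√(#(vs a) : ℝ))⁻¹ else 0)) =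
      fun a => if v ∈ vs a then (√(#(vs a) : ℝ))⁻¹ else 0 := by
    ext a
    split_ifs <;> simp
  rw [e4, e5, e6] at e3
  refine Real.le_sqrt_of_sq_le (e3.trans ?_)
  rw [le_div_iff₀ hn]
  nlinarith

omit [Fintype ι] [DecidableEq ι] in
lemma sum_deg {r : ℕ} {inc : ι → Finset (Fin n)} (hr : ∀ e, #(inc e) = r) (S : Finset ι) :
    ∑ v, deg inc S v = r * #S := by
  simp only [deg, card_filter]
  rw [sum_comm]
  simp [hr, mul_comm]

omit [Fintype ι] [DecidableEq ι] in
lemma exists_low_deg {r : ℕ} (hr0 : 1 ≤ r) {inc : ι → Finset (Fin n)}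
    (hinj : Function.Injective inc)
    (hr : ∀ e, #(inc e) = r) {S : Finset ι} (hS : S ≠ ∅) :
    ∃ v ∈ S.biUnion inc, deg inc S v ^ r ≤ (r * #S) ^ (r - 1) := by
  obtain ⟨e0, he0⟩ := nonempty_iff_ne_empty.2 hS
  obtain ⟨v0, hv0⟩ : (inc e0).Nonempty := card_pos.1 (by rw [hr]; omega)
  obtain ⟨v, hv, hmin⟩ := exists_min_image (S.biUnion inc) (deg inc S)
    ⟨v0, mem_biUnion.2 ⟨e0, he0, hv0⟩⟩
  refine ⟨v, hv, ?_⟩
  have e1 : #(S.biUnion inc) * deg inc S v ≤ r * #S := by
    rw [← sum_deg hr, ← smul_eq_mul, ← sum_const]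
    exact (sum_le_sum hmin).trans (sum_le_sum_of_subset (subset_univ _))
  have e2 : deg inc S v ≤ #(S.biUnion inc) ^ (r - 1) := by
    refine le_trans ?_ (Nat.choose_le_pow _ _)
    rw [← card_powersetCard]
    refine card_le_card_of_injOn (fun e => (inc e).erase v) (fun e he => ?_) (fun e he e' he' h => ?_)
    · simp only [coe_filter, Set.mem_ofPred_eq] at he
      simp only [mem_coe, mem_powersetCard]
      exact ⟨(erase_subset _ _).trans (subset_biUnion_of_mem inc he.1),
        by rw [card_erase_of_mem he.2, hr]⟩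
    · simp only [coe_filter, Set.mem_ofPred_eq] at he he'
      apply hinj
      rw [← insert_erase he.2, ← insert_erase he'.2]
      exact congrArg _ h
  calc deg inc S v ^ r = deg inc S v * deg inc S v ^ (r - 1) := by
        rw [← pow_succ']; congr 1; omega
    _ ≤ #(S.biUnion inc) ^ (r - 1) * deg inc S v ^ (r - 1) := Nat.mul_le_mul_right _ e2
    _ = (#(S.biUnion inc) * deg inc S v) ^ (r - 1) := (mul_pow _ _ _).symm
    _ ≤ _ := Nat.pow_le_pow_left e1 _

lemma averaged (h0 : 0 < p) (h1 : p < 1) {f : (ι → Bool) → ℝ} (hf : IsBool f) {r : ℕ}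
    (hr0 : 1 ≤ r) {inc : ι → Finset (Fin n)} (hinj : Function.Injective inc)
    (hr : ∀ e, #(inc e) = r) (hs : Symm inc f) {K θ : ℝ} (hθ0 : 0 < θ) (hθ1 : θ < 1)
    (hθ : θ * (r * K) ≤ 1 / 2) (D : ℕ)
    (hD : ∀ d : ℕ, (d : ℝ) ^ r ≤ (r * K) ^ (r - 1) → d ≤ D) :
    θ / 2 * (∑ S, if S ≠ ∅ ∧ (#S : ℝ) ≤ K then fc p f S ^ 2 else 0) ≤
      (2 / sg p) ^ D * √(θ / n) * (r * ∑ S, (#S : ℝ) * fc p f S ^ 2) := by
  have h3 := sg_pos h0 h1
  have k1 : ∀ v : Fin n, (∑ S, (Ex θ fun a => if S.biUnion inc ∩ vs a = {v} then 1 else 0) *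
      (if deg inc S v ≤ D then fc p f S ^ 2 else 0)) ≤
      (2 / sg p) ^ D * √(θ / n) * ∑ S, (deg inc S v : ℝ) * fc p f S ^ 2 := by
    intro v
    have hZ : 0 ≤ ∑ S, (deg inc S v : ℝ) * fc p f S ^ 2 := sum_nonneg fun _ _ => by positivity
    simp only [← Ex_mul_const]
    rw [← Ex_sum]
    refine le_trans (Ex_mono hθ0.le hθ1.le (g := fun a => (2 / sg p) ^ D *
      (if v ∈ vs a then (√(#(vs a) : ℝ))⁻¹ else 0) * ∑ S, (deg inc S v : ℝ) * fc p f S ^ 2)
      fun a => ?_) ?_
    · by_cases hv : v ∈ vs a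
      · rw [if_pos hv]
        refine le_trans (le_of_eq (sum_congr rfl fun S _ => ?_))
          (fixed_A h0 h1 hf hinj hs (vs a) hv D)
        by_cases e1 : S.biUnion inc ∩ vs a = {v} <;> by_cases e2 : deg inc S v ≤ D <;>
          simp [e1, e2]
      · rw [if_neg hv, mul_zero, zero_mul]
        refine le_of_eq (sum_eq_zero fun S _ => ?_)
        rw [if_neg, zero_mul]
        intro h
        have : v ∈ S.biUnion inc ∩ vs a := by simp [h]
        exact hv (mem_inter.1 this).2
    · rw [Ex_mul_const, Ex_const_mul]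
      exact mul_le_mul_of_nonneg_right (mul_le_mul_of_nonneg_left (ex_inv_sqrt hθ0 hθ1 v)
        (by positivity)) hZ
  have k2 := sum_le_sum fun v (_ : v ∈ univ) => k1 v
  rw [← mul_sum, sum_comm, sum_comm (s := univ) (t := univ)
    (f := fun v S => (deg inc S v : ℝ) * fc p f S ^ 2)] at k2
  have k3 : ∑ S, ∑ v, (deg inc S v : ℝ) * fc p f S ^ 2 = r * ∑ S, (#S : ℝ) * fc p f S ^ 2 := by
    rw [mul_sum]
    refine sum_congr rfl fun S _ => ?_
    rw [← sum_mul, ← Nat.cast_sum, sum_deg hr]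
    push_cast
    ring
  rw [k3] at k2
  refine le_trans ?_ k2
  rw [mul_sum]
  refine sum_le_sum fun S _ => ?_
  have hnn : ∀ v ∈ (univ : Finset (Fin n)), 0 ≤ (Ex θ fun a =>
      if S.biUnion inc ∩ vs a = {v} then 1 else 0) *
      (if deg inc S v ≤ D then fc p f S ^ 2 else 0) := fun v _ =>
    mul_nonneg (Ex_nonneg hθ0.le hθ1.le fun a => by split_ifs <;> norm_num)
      (by split_ifs <;> positivity)
  split_ifs with hS
  · obtain ⟨v, hv, hv2⟩ := exists_low_deg hr0 hinj hr hS.1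
    refine le_trans ?_ (single_le_sum hnn (mem_univ v))
    have e1 : (r : ℝ) * #S ≤ r * K := mul_le_mul_of_nonneg_left hS.2 (Nat.cast_nonneg _)
    have e2 : deg inc S v ≤ D := by
      refine hD _ (le_trans ?_ (pow_le_pow_left₀ (by positivity) e1 _))
      exact_mod_cast hv2
    rw [if_pos e2]
    refine mul_le_mul_of_nonneg_right (prob_inter hθ0 hθ1 _ hv (le_trans ?_ hθ)) (sq_nonneg _)
    refine mul_le_mul_of_nonneg_left (le_trans ?_ e1) hθ0.le
    have : #(S.biUnion inc) ≤ r * #S := by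
      refine card_biUnion_le.trans (le_of_eq ?_)
      simp [hr, mul_comm]
    exact_mod_cast this
  · rw [mul_zero]
    exact sum_nonneg hnn

lemma main_n (h0 : 0 < p) (h1 : p < 1) {f : (ι → Bool) → ℝ} (hf : IsBool f) {r : ℕ}
    (hr0 : 1 ≤ r) (hn : 1 ≤ n) {inc : ι → Finset (Fin n)} (hinj : Function.Injective inc)
    (hr : ∀ e, #(inc e) = r) (hs : Symm inc f) (hv : 0 < var p f) {κ : ℝ}
    (hκ : κ * var p f = ∑ S, (#S : ℝ) * fc p f S ^ 2) (D : ℕ)
    (hD : ∀ d : ℕ, (d : ℝ) ^ r ≤ (r * (2 * κ)) ^ (r - 1) → d ≤ D) :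
    1 ≤ κ ∧ (n : ℝ) ≤ 64 * r ^ 3 * κ ^ 3 * ((2 / sg p) ^ D) ^ 2 := by
  have h3 := sg_pos h0 h1
  have hκ1 : 1 ≤ κ := by
    refine le_of_mul_le_mul_right ?_ hv
    rw [hκ, one_mul, var]
    refine sum_le_sum fun T _ => ?_
    split_ifs with h
    · positivity
    · refine le_mul_of_one_le_left (sq_nonneg _) ?_
      exact_mod_cast card_pos.2 (nonempty_iff_ne_empty.2 h)
  refine ⟨hκ1, ?_⟩
  have hr1 : (1 : ℝ) ≤ r := by exact_mod_cast hr0
  have hn1 : (1 : ℝ) ≤ n := by exact_mod_cast hn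
  have hrκ : 1 ≤ r * κ := by nlinarith
  set θ : ℝ := 1 / (4 * (r * κ)) with hθ
  have hθ0 : 0 < θ := by positivity
  have hθ1 : θ < 1 := by
    rw [hθ, div_lt_one (by positivity)]
    linarith
  have hθ2 : θ * (r * κ) = 1 / 4 := by
    rw [hθ]
    field_simp
  have k := averaged h0 h1 hf hr0 hinj hr hs (K := 2 * κ) hθ0 hθ1 (by linarith) D hD
  have mk : var p f / 2 ≤ ∑ S, if S ≠ ∅ ∧ (#S : ℝ) ≤ 2 * κ then fc p f S ^ 2 else 0 := by
    have : 2 * κ * var p f ≤ 2 * κ * (∑ S, if S ≠ ∅ ∧ (#S : ℝ) ≤ 2 * κ then fc p f S ^ 2 else 0)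
        + κ * var p f := by
      rw [hκ, var, mul_sum, mul_sum, ← sum_add_distrib]
      refine sum_le_sum fun S _ => ?_
      have := sq_nonneg (fc p f S)
      by_cases hS : S = ∅
      · simp [hS]
      · by_cases h2 : (#S : ℝ) ≤ 2 * κ
        · rw [if_neg hS, if_pos ⟨hS, h2⟩]
          have : 0 ≤ (#S : ℝ) * fc p f S ^ 2 := by positivity
          linarith
        · rw [if_neg hS, if_neg (fun h => h2 h.2)]
          push Not at h2
          nlinarith
    nlinarith
  rw [← hκ] at k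
  set C := (2 / sg p) ^ D
  have hC : 0 ≤ C := by positivity
  have k2 : θ / 4 ≤ C * √(θ / n) * (r * κ) := by
    refine le_of_mul_le_mul_right ?_ hv
    calc θ / 4 * var p f = θ / 2 * (var p f / 2) := by ring
      _ ≤ _ := mul_le_mul_of_nonneg_left mk (by positivity)
      _ ≤ _ := k
      _ = _ := by ring
  have k3 := pow_le_pow_left₀ (by positivity) k2 2
  rw [mul_pow, mul_pow, Real.sq_sqrt (by positivity)] at k3
  have k4 : θ * n ≤ 16 * C ^ 2 * (r * κ) ^ 2 := by
    refine le_of_mul_le_mul_right ?_ (show 0 < θ / (16 * n) by positivity)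
    calc θ * n * (θ / (16 * n)) = (θ / 4) ^ 2 := by field_simp; norm_num
      _ ≤ _ := k3
      _ = _ := by field_simp
  calc (n : ℝ) = θ * n * (4 * (r * κ)) := by rw [hθ]; field_simp
    _ ≤ 16 * C ^ 2 * (r * κ) ^ 2 * (4 * (r * κ)) := mul_le_mul_of_nonneg_right k4 (by positivity)
    _ = _ := by ring

theorem main_log (h0 : 0 < p) (h1 : p < 1) {f : (ι → Bool) → ℝ} (hf : IsBool f) {r : ℕ}
    (hr0 : 2 ≤ r) (hn : 1 ≤ n) {inc : ι → Finset (Fin n)} (hinj : Function.Injective inc)
    (hr : ∀ e, #(inc e) = r) (hs : Symm inc f) :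
    var p f * Real.log n ^ ((r : ℝ) / (r - 1)) ≤
      (11 * r + 11) ^ ((r : ℝ) / (r - 1)) * ∑ e, inf p f e := by
  have h3 := sg_pos h0 h1
  have h4 := sg_le h0 h1
  have hr2 : (2 : ℝ) ≤ r := by exact_mod_cast hr0
  have hn1 : (1 : ℝ) ≤ n := by exact_mod_cast hn
  have hI : 0 ≤ ∑ e, inf p f e := sum_nonneg fun e _ =>
    Ex_nonneg h0.le h1.le fun x => sq_nonneg _
  rcases (var_nonneg (p := p) f).eq_or_lt with hv | hv
  · rw [← hv, zero_mul]
    positivity
  set X := (∑ e, inf p f e) / var p f with hX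
  set κ := sg p ^ 2 * X with hκ
  have hκ1 : κ * var p f = ∑ S, (#S : ℝ) * fc p f S ^ 2 := by
    rw [sum_card_fc h0 h1, hκ, hX]
    field_simp
  have hX0 : 0 ≤ X := by positivity
  have hκ0 : 0 ≤ κ := by positivity
  set s : ℝ := (r - 1) / r with hs'
  have hs0 : 1 / 2 ≤ s := by
    rw [hs', le_div_iff₀ (by positivity)]
    linarith
  have hs1 : s ≤ 1 := by
    rw [hs', div_le_one (by positivity)]
    linarith
  set D := ⌊(r * (2 * κ)) ^ s⌋₊ with hD
  obtain ⟨k1, k2⟩ := main_n h0 h1 hf (by omega) hn hinj hr hs hv hκ1 D (fun d hd => by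
    refine Nat.le_floor ?_
    refine le_of_pow_le_pow_left₀ (n := r) (by omega) (by positivity) (hd.trans (le_of_eq ?_))
    rw [← Real.rpow_natCast, ← Real.rpow_natCast, ← Real.rpow_mul (by positivity), hs',
      Nat.cast_sub (by omega)]
    congr 1
    field_simp
    simp)
  have hκX : κ ≤ X := by
    rw [hκ]
    refine mul_le_of_le_one_left hX0 ?_
    nlinarith
  have hX1 : 1 ≤ X := k1.trans hκX
  have hY : 1 ≤ X ^ s := Real.one_le_rpow hX1 (by linarith)
  have l1 : Real.log κ ≤ 2 * X ^ s := by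
    have := Real.log_le_rpow_div hX0 (show 0 < s by linarith)
    refine (Real.log_le_log (by linarith) hκX).trans (this.trans ?_)
    rw [div_le_iff₀ (by linarith)]
    nlinarith
  have l2 : (D : ℝ) ≤ 2 * r * sg p * X ^ s := by
    refine (Nat.floor_le (by positivity)).trans ?_
    have e1 : (r : ℝ) * (2 * κ) = (2 * r) * (sg p ^ (2 : ℝ) * X) := by
      rw [hκ, Real.rpow_two]; ring
    rw [e1, Real.mul_rpow (by positivity) (by positivity),
      Real.mul_rpow (x := sg p ^ (2 : ℝ)) (by positivity) (by positivity), ← Real.rpow_mul h3.le,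
      ← mul_assoc]
    refine mul_le_mul_of_nonneg_right (mul_le_mul ?_ ?_ (by positivity) (by positivity))
      (by positivity)
    · exact Real.rpow_le_self_of_one_le (by linarith) hs1
    · exact Real.rpow_le_self_of_le_one h3.le (by linarith) (by linarith)
  have l3 : sg p * Real.log (2 / sg p) ≤ 2 := by
    have := Real.log_le_self (show 0 ≤ 2 / sg p by positivity)
    calc sg p * Real.log (2 / sg p) ≤ sg p * (2 / sg p) := mul_le_mul_of_nonneg_left this h3.le
      _ = 2 := by field_simp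
  have l4 : 0 ≤ Real.log (2 / sg p) := Real.log_nonneg (by rw [le_div_iff₀ h3]; linarith)
  have l5 : Real.log 64 ≤ 5 := by
    have : Real.log 64 = 6 * Real.log 2 := by
      rw [show (64 : ℝ) = 2 ^ 6 by norm_num, Real.log_pow]; norm_num
    have := Real.log_two_lt_d9
    linarith
  have l6 : Real.log r ≤ r := Real.log_le_self (by positivity)
  have l7 : Real.log n ≤ (11 * r + 11) * X ^ s := by
    refine (Real.log_le_log (by linarith) k2).trans ?_
    rw [Real.log_mul (by positivity) (by positivity), Real.log_mul (by positivity) (by positivity),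
      Real.log_mul (by positivity) (by positivity), Real.log_pow, Real.log_pow, Real.log_pow,
      Real.log_pow]
    have e1 : (D : ℝ) * Real.log (2 / sg p) ≤ 4 * r * X ^ s := by
      calc (D : ℝ) * Real.log (2 / sg p) ≤ 2 * r * sg p * X ^ s * Real.log (2 / sg p) :=
            mul_le_mul_of_nonneg_right l2 l4
        _ = 2 * r * X ^ s * (sg p * Real.log (2 / sg p)) := by ring
        _ ≤ 2 * r * X ^ s * 2 := mul_le_mul_of_nonneg_left l3 (by positivity)
        _ = _ := by ring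
    push_cast
    nlinarith
  have l8 := Real.rpow_le_rpow (Real.log_nonneg hn1) l7
    (show 0 ≤ (r : ℝ) / (r - 1) by apply div_nonneg <;> linarith)
  rw [Real.mul_rpow (by positivity) (by positivity), ← Real.rpow_mul hX0] at l8
  have e2 : s * ((r : ℝ) / (r - 1)) = 1 := by
    have : (r : ℝ) - 1 ≠ 0 := by linarith
    rw [hs']
    field_simp
  rw [e2, Real.rpow_one] at l8
  calc _ ≤ var p f * ((11 * r + 11) ^ ((r : ℝ) / (r - 1)) * X) :=
        mul_le_mul_of_nonneg_left l8 hv.le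
    _ = _ := by rw [hX]; field_simp

end Crest.Agent.H1.Cube
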