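import Crest.Agent.H1.CubeD

/-! Indicators, and the Margulis–Russo formula. -/

set_option autoImplicit false

noncomputable section

namespace Crest.Agent.H1.Cube

open Finset Crest.FinProb

variable {ι : Type*} [Fintype ι] [DecidableEq ι] {p : ℝ}

open Classical in
/-- the indicator of an event -/
def ind (E : Set (ι → Bool)) (x : ι → Bool) : ℝ := if x ∈ E then 1 else 0

lemma prob_eq (p : ℝ) (E : Set (ι → Bool)) : bernoulliProb p E = Ex p (ind E) := by
  simp only [bernoulliProb, Ex, ind, sum_filter, mul_ite, mul_one, mul_zero]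

omit [Fintype ι] [DecidableEq ι] in
lemma ind_isBool (E : Set (ι → Bool)) : IsBool (ind E) := fun x => by
  unfold ind
  split_ifs <;> simp

omit [Fintype ι] [DecidableEq ι] in
lemma ind_congr {E : Set (ι → Bool)} {x y : ι → Bool} (h : x ∈ E ↔ y ∈ E) : ind E x = ind E y := by
  by_cases h2 : y ∈ E
  · simp [ind, h2, h.2 h2]
  · simp [ind, h2, mt h.1 h2]

lemma inf_ind (p : ℝ) (E : Set (ι → Bool)) (e : ι) : inf p (ind E) e =
    bernoulliProb p {x | ¬ (Function.update x e true ∈ E ↔ Function.update x e false ∈ E)} := by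
  rw [prob_eq, inf]
  congr 1
  ext x
  by_cases h1 : Function.update x e true ∈ E <;> by_cases h2 : Function.update x e false ∈ E <;>
    simp [ind, h1, h2]

lemma continuous_Ex (f : (ι → Bool) → ℝ) : Continuous fun t => Ex t f := by
  unfold Ex bernoulliWeight
  refine continuous_finsetSum _ fun x _ => Continuous.mul
    (continuous_finsetProd _ fun i _ => ?_) continuous_const
  split_ifs <;> fun_prop

lemma russo (h0 : 0 < p) (h1 : p < 1) {f : (ι → Bool) → ℝ} (hf : IsBool f)
    (hm : ∀ x e, f (Function.update x e false) ≤ f (Function.update x e true)) :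
    HasDerivAt (fun t => Ex t f) (∑ e, inf p f e) p := by
  have h2 := sg_sq h0 h1
  have h3 := sg_pos h0 h1
  have hq : 1 - p ≠ 0 := by linarith
  have hp : p ≠ 0 := h0.ne'
  have d1 : ∀ x : ι → Bool, HasDerivAt (fun t => bernoulliWeight t x)
      (∑ e, bernoulliWeight p x * (if x e then p⁻¹ else -(1 - p)⁻¹)) p := by
    intro x
    have := HasDerivAt.fun_finsetProd (u := univ) (f := fun i t => if x i then t else 1 - t)
      (f' := fun i => if x i then 1 else -1) (x := p) (fun i _ => by
        by_cases h : x i = true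
        · simp only [h, if_true]
          exact hasDerivAt_id p
        · simp only [h, if_false, Bool.false_eq_true]
          simpa using (hasDerivAt_id p).const_sub 1)
    refine this.congr_deriv (sum_congr rfl fun e _ => ?_)
    rw [bernoulliWeight, ← mul_prod_erase _ _ (mem_univ e), smul_eq_mul]
    by_cases h : x e = true
    · simp only [h, if_true]
      field_simp
    · simp only [h, if_false, Bool.false_eq_true]
      field_simp
  have d2 := HasDerivAt.fun_sum (u := univ) fun x _ => (d1 x).mul_const (f x)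
  refine d2.congr_deriv ?_
  simp only [sum_mul]
  rw [sum_comm]
  refine sum_congr rfl fun e _ => ?_
  have e1 : ∑ x : ι → Bool, bernoulliWeight p x * (if x e then p⁻¹ else -(1 - p)⁻¹) * f x =
      Ex p fun x => (if x e then p⁻¹ else -(1 - p)⁻¹) * f x := by
    simp only [Ex, mul_assoc]
  rw [e1, ← Ex_av h0 h1 {e}, inf]
  congr 1
  ext x
  rw [av_single]
  simp only [Function.update_self, if_true, Bool.false_eq_true, if_false]
  have := hm x e
  rcases hf (Function.update x e true) with h | h <;>
    rcases hf (Function.update x e false) with h' | h' <;> rw [h, h'] at this ⊢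
  · simp
  · linarith
  · field_simp
    simp
  · field_simp
    simp

lemma threshold {f : (ι → Bool) → ℝ} (hf : IsBool f)
    (hm : ∀ x e, f (Function.update x e false) ≤ f (Function.update x e true)) {L : ℝ}
    (hL : ∀ t, 0 < t → t < 1 → var t f * L ≤ ∑ e, inf t f e) {ε p q : ℝ} (hε0 : 0 < ε)
    (hε : ε < 1 / 2) (hp0 : 0 ≤ p) (hpq : p ≤ q) (hq1 : q ≤ 1) (hp : ε ≤ Ex p f)
    (hq : 4 * Real.log (1 / (2 * ε)) ≤ L * (q - p)) : 1 - ε ≤ Ex q f := by
  by_contra hc
  push Not at hc
  have hmono : MonotoneOn (fun t => Ex t f) (Set.Icc 0 1) := by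
    refine monotoneOn_of_deriv_nonneg (convex_Icc 0 1) (continuous_Ex f).continuousOn
      (fun t ht => ?_) (fun t ht => ?_)
    · rw [interior_Icc] at ht
      exact (russo ht.1 ht.2 hf hm).differentiableAt.differentiableWithinAt
    · rw [interior_Icc] at ht
      rw [(russo ht.1 ht.2 hf hm).deriv]
      exact sum_nonneg fun e _ => Ex_nonneg ht.1.le ht.2.le fun x => sq_nonneg _
  have hb : ∀ t ∈ Set.Icc p q, ε ≤ Ex t f ∧ Ex t f < 1 - ε := fun t ht =>
    ⟨hp.trans (hmono ⟨hp0, hpq.trans hq1⟩ ⟨hp0.trans ht.1, ht.2.trans hq1⟩ ht.1),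
      lt_of_le_of_lt (hmono ⟨hp0.trans ht.1, ht.2.trans hq1⟩ ⟨hp0.trans hpq, hq1⟩ ht.2) hc⟩
  have hd : ∀ t ∈ Set.Ioo p q, HasDerivAt (fun t => Real.log (Ex t f) - Real.log (1 - Ex t f))
      ((∑ e, inf t f e) / Ex t f - (-∑ e, inf t f e) / (1 - Ex t f)) t := by
    intro t ht
    have h := hb t ⟨ht.1.le, ht.2.le⟩
    have hr := russo (hp0.trans_lt ht.1) (ht.2.trans_le hq1) hf hm
    exact (hr.log (by linarith [h.1])).sub ((hr.const_sub 1).log (by linarith [h.2]))
  have key := (convex_Icc p q).mul_sub_le_image_sub_of_le_deriv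
    (f := fun t => Real.log (Ex t f) - Real.log (1 - Ex t f)) (C := L)
    (ContinuousOn.sub ((continuous_Ex f).continuousOn.log fun t ht => by linarith [(hb t ht).1])
      (ContinuousOn.log (f := fun t => 1 - Ex t f)
        (continuous_const.sub (continuous_Ex f)).continuousOn
        fun t ht => by linarith [(hb t ht).2]))
    (fun t ht => by
      rw [interior_Icc] at ht
      exact (hd t ht).differentiableAt.differentiableWithinAt)
    (fun t ht => by
      rw [interior_Icc] at ht
      have h := hb t ⟨ht.1.le, ht.2.le⟩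
      have t0 := hp0.trans_lt ht.1
      have t1 := ht.2.trans_le hq1
      have h2 := hL t t0 t1
      rw [var_eq t0 t1 hf] at h2
      have a0 : 0 < Ex t f := by linarith [h.1]
      have a1 : 0 < 1 - Ex t f := by linarith [h.2]
      rw [(hd t ht).deriv, div_sub_div _ _ a0.ne' a1.ne', le_div_iff₀ (by positivity)]
      linarith)
    p ⟨le_rfl, hpq⟩ q ⟨hpq, le_rfl⟩ hpq
  have b1 := hb p ⟨le_rfl, hpq⟩
  have b2 := hb q ⟨hpq, le_rfl⟩
  have l1 : Real.log (Ex q f) < Real.log (1 - ε) := Real.log_lt_log (by linarith) b2.2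
  have l2 : Real.log ε ≤ Real.log (1 - Ex q f) := Real.log_le_log hε0 (by linarith)
  have l3 : Real.log ε ≤ Real.log (Ex p f) := Real.log_le_log hε0 b1.1
  have l4 : Real.log (1 - Ex p f) ≤ Real.log (1 - ε) := Real.log_le_log (by linarith) (by linarith)
  have l5 : Real.log (1 - ε) - Real.log ε ≤ 2 * Real.log (1 / (2 * ε)) := by
    rw [← Real.log_div (by linarith) hε0.ne', show (2 : ℝ) = ((2 : ℕ) : ℝ) by norm_num,
      ← Real.log_pow]
    refine Real.log_le_log (div_pos (by linarith) hε0) ?_
    rw [div_pow, div_le_div_iff₀ hε0 (by positivity)]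
    push_cast
    nlinarith [mul_nonneg hε0.le (sq_nonneg (2 * ε - 1))]
  linarith

end Crest.Agent.H1.Cube
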