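import Crest.Agent.H1.PP

/-! Probability tools: Fubini on the cube, marginals, Chernoff bounds. -/

set_option autoImplicit false
set_option linter.unusedSectionVars false

noncomputable section

namespace Crest.Agent.H1.Cube

open Finset Crest.FinProb
open Classical

variable {ι : Type*} [Fintype ι] [DecidableEq ι] {p : ℝ}

lemma Ex_comm {κ : Type*} [Fintype κ] [DecidableEq κ] (q : ℝ) (F : (ι → Bool) → (κ → Bool) → ℝ) :
    (Ex p fun x => Ex q fun y => F x y) = Ex q fun y => Ex p fun x => F x y := by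
  simp only [Ex, mul_sum]
  rw [sum_comm]
  exact sum_congr rfl fun _ _ => sum_congr rfl fun _ _ => mul_left_comm _ _ _

lemma Ex_pw (h0 : 0 < p) (h1 : p < 1) (J : Finset ι) (f : (ι → Bool) → ℝ) :
    Ex p f = Ex p fun x => Ex p fun y => f (J.piecewise x y) := by
  rw [Ex_comm, ← Ex_av h0 h1 J f]
  rfl

lemma Ex_inj {κ : Type*} [Fintype κ] [DecidableEq κ] (s : κ → ι) (hs : Function.Injective s)
    (F : (κ → Bool) → ℝ) : Ex p (fun x => F (fun k => x (s k))) = Ex p F := by
  have h1 : ∀ x : ι → Bool, F (fun k => x (s k)) =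
      ∑ z, F z * ∏ e, ∏ k with s k = e, if x e = z k then (1 : ℝ) else 0 := fun x => by
    have : ∀ z : κ → Bool, ∏ e, ∏ k with s k = e, (if x e = z k then (1 : ℝ) else 0) =
        if (fun k => x (s k)) = z then 1 else 0 := fun z => by
      rw [prod_congr rfl fun e _ => prod_congr rfl (g := fun k => if x (s k) = z k then (1 : ℝ)
        else 0) fun k hk => by rw [(mem_filter.1 hk).2], prod_fiberwise]
      simp only [prod_ite_zero, mem_univ, forall_const, prod_const_one, ← funext_iff]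
    simp [this]
  simp only [h1, Ex_sum, Ex_const_mul]
  rw [Ex]
  refine sum_congr rfl fun z _ => ?_
  rw [mul_comm, Ex_prod (fun e b => ∏ k with s k = e, if b = z k then (1 : ℝ) else 0),
    bernoulliWeight, ← prod_fiberwise (g := s)]
  congr 1
  refine prod_congr rfl fun e _ => ?_
  by_cases h : ∃ k, s k = e
  · obtain ⟨k, rfl⟩ := h
    have : ({k' | s k' = s k} : Finset κ) = {k} := by
      ext k'
      simp [hs.eq_iff]
    rw [this]
    cases hz : z k <;> simp [hz]
  · have : ({k' | s k' = e} : Finset κ) = ∅ := filter_eq_empty_iff.2 fun k _ hk => h ⟨k, hk⟩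
    simp [this]

lemma Ex_curry {Y A : Type*} [Fintype Y] [DecidableEq Y] [Fintype A] [DecidableEq A]
    (F : (Y → A → Bool) → ℝ) :
    Ex p (fun x : Y × A → Bool => F (fun y a => x (y, a))) =
      ∑ ω : Y → A → Bool, (∏ y, bernoulliWeight p (ω y)) * F ω := by
  rw [Ex]
  refine Fintype.sum_equiv (Equiv.curry Y A Bool) _ _ fun x => ?_
  rw [bernoulliWeight, Fintype.prod_prod_type]
  rfl

lemma Ex_ind_compl (E : Set (ι → Bool)) : Ex p (ind Eᶜ) = 1 - Ex p (ind E) := by
  rw [← Ex_const (ι := ι) (p := p) 1, ← Ex_sub]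
  congr 1
  ext x
  by_cases h : x ∈ E <;> simp [ind, h]

lemma ind_nonneg (E : Set (ι → Bool)) (x : ι → Bool) : 0 ≤ ind E x := by
  unfold ind
  split_ifs <;> norm_num

lemma ind_le_one (E : Set (ι → Bool)) (x : ι → Bool) : ind E x ≤ 1 := by
  unfold ind
  split_ifs <;> norm_num

lemma ind_mono {κ : Type*} {E : Set (ι → Bool)} {E' : Set (κ → Bool)} {x : ι → Bool}
    {y : κ → Bool} (h : x ∈ E → y ∈ E') : ind E x ≤ ind E' y := by
  unfold ind
  split_ifs with h1 h2 <;> first | exact absurd (h h1) h2 | norm_num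

lemma sum_wt (p : ℝ) : ∑ x : ι → Bool, bernoulliWeight p x = 1 := by
  simpa [Ex] using Ex_const (ι := ι) (p := p) 1

lemma wt_pos (h0 : 0 < p) (h1 : p < 1) (x : ι → Bool) : 0 < bernoulliWeight p x :=
  prod_pos fun i _ => by split_ifs <;> linarith

lemma exp_le_two {x : ℝ} (h0 : 0 ≤ x) (h1 : x ≤ 1) : Real.exp x ≤ 1 + 2 * x := by
  have := convexOn_exp.2 (Set.mem_univ 0) (Set.mem_univ 1) (sub_nonneg.2 h1) h0 (by ring)
  simp only [smul_eq_mul, mul_zero, mul_one, zero_add, Real.exp_zero] at this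
  nlinarith [Real.exp_one_lt_three]

lemma exp_neg_le {x : ℝ} (h0 : 0 ≤ x) (h1 : x ≤ 1) : Real.exp (-x) ≤ 1 - x / 2 := by
  have h2 := Real.add_one_le_exp x
  rw [Real.exp_neg, inv_le_comm₀ (Real.exp_pos _) (by linarith)]
  refine le_trans ?_ h2
  rw [inv_le_iff_one_le_mul₀ (by linarith)]
  nlinarith

section
variable {β Ω : Type*} [Fintype β] [DecidableEq β] [Fintype Ω]

lemma sum_prod_mul (w g : β → Ω → ℝ) :
    ∑ ω : β → Ω, (∏ b, w b (ω b)) * ∏ b, g b (ω b) = ∏ b, ∑ o, w b o * g b o := by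
  rw [prod_univ_sum, Fintype.piFinset_univ]
  exact sum_congr rfl fun ω _ => prod_mul_distrib.symm

lemma chernoff_up (w X : β → Ω → ℝ) (hw : ∀ b o, 0 ≤ w b o) (hw1 : ∀ b, ∑ o, w b o = 1) {κ : ℝ}
    (hκ : 0 < κ) (hX : ∀ b o, 0 ≤ X b o ∧ X b o ≤ κ) (hm : ∑ b, ∑ o, w b o * X b o ≤ 1 / 4) :
    ∑ ω : β → Ω, (∏ b, w b (ω b)) * (if 1 < ∑ b, X b (ω b) then 1 else 0) ≤
      Real.exp (-(1 / (2 * κ))) := by
  calc _ ≤ ∑ ω : β → Ω, Real.exp (-(1 / κ)) *
        ((∏ b, w b (ω b)) * ∏ b, Real.exp (X b (ω b) / κ)) := by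
        refine sum_le_sum fun ω _ => ?_
        rw [mul_left_comm]
        refine mul_le_mul_of_nonneg_left ?_ (prod_nonneg fun b _ => hw _ _)
        rw [← Real.exp_sum, ← Real.exp_add, ← sum_div]
        split_ifs with h
        · refine Real.one_le_exp ?_
          have := div_le_div_of_nonneg_right h.le hκ.le
          linarith
        · positivity
    _ ≤ Real.exp (-(1 / κ)) * ∏ b, Real.exp (2 / κ * ∑ o, w b o * X b o) := by
        rw [← mul_sum, sum_prod_mul w fun b o => Real.exp (X b o / κ)]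
        refine mul_le_mul_of_nonneg_left (prod_le_prod (fun b _ => sum_nonneg fun o _ =>
          mul_nonneg (hw _ _) (Real.exp_pos _).le) fun b _ => ?_) (Real.exp_pos _).le
        refine le_trans ?_ (Real.add_one_le_exp _)
        rw [← hw1 b, mul_sum, ← sum_add_distrib]
        refine sum_le_sum fun o _ => ?_
        have h1 := exp_le_two (div_nonneg (hX b o).1 hκ.le) ((div_le_one hκ).2 (hX b o).2)
        refine (mul_le_mul_of_nonneg_left h1 (hw b o)).trans (le_of_eq (by ring))
    _ ≤ _ := by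
        rw [← Real.exp_sum, ← Real.exp_add, ← mul_sum]
        refine Real.exp_le_exp.2 ?_
        have := mul_le_mul_of_nonneg_left hm (by positivity : 0 ≤ 2 / κ)
        refine (add_le_add_right this _).trans (le_of_eq ?_)
        field_simp
        ring

lemma chernoff_low (w X : β → Ω → ℝ) (hw : ∀ b o, 0 ≤ w b o) (hw1 : ∀ b, ∑ o, w b o = 1) {κ : ℝ}
    (hκ : 0 < κ) (hX : ∀ b o, 0 ≤ X b o ∧ X b o ≤ κ) (hm : 4 ≤ ∑ b, ∑ o, w b o * X b o) :
    ∑ ω : β → Ω, (∏ b, w b (ω b)) * (if ∑ b, X b (ω b) < 1 then 1 else 0) ≤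
      Real.exp (-(1 / κ)) := by
  calc _ ≤ ∑ ω : β → Ω, Real.exp (1 / κ) *
        ((∏ b, w b (ω b)) * ∏ b, Real.exp (-(X b (ω b) / κ))) := by
        refine sum_le_sum fun ω _ => ?_
        rw [mul_left_comm]
        refine mul_le_mul_of_nonneg_left ?_ (prod_nonneg fun b _ => hw _ _)
        rw [← Real.exp_sum, ← Real.exp_add, sum_neg_distrib, ← sum_div]
        split_ifs with h
        · refine Real.one_le_exp ?_
          have := div_le_div_of_nonneg_right h.le hκ.le
          linarith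
        · positivity
    _ ≤ Real.exp (1 / κ) * ∏ b, Real.exp (-(1 / (2 * κ)) * ∑ o, w b o * X b o) := by
        rw [← mul_sum, sum_prod_mul w fun b o => Real.exp (-(X b o / κ))]
        refine mul_le_mul_of_nonneg_left (prod_le_prod (fun b _ => sum_nonneg fun o _ =>
          mul_nonneg (hw _ _) (Real.exp_pos _).le) fun b _ => ?_) (Real.exp_pos _).le
        refine le_trans ?_ (Real.add_one_le_exp _)
        have e : -(1 / (2 * κ)) * ∑ o, w b o * X b o + 1 =
            ∑ o, (-(1 / (2 * κ)) * (w b o * X b o) + w b o) := by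
          rw [sum_add_distrib, ← mul_sum, hw1]
        rw [e]
        refine sum_le_sum fun o _ => ?_
        have h1 := exp_neg_le (div_nonneg (hX b o).1 hκ.le) ((div_le_one hκ).2 (hX b o).2)
        refine (mul_le_mul_of_nonneg_left h1 (hw b o)).trans (le_of_eq ?_)
        field_simp
        ring
    _ ≤ _ := by
        rw [← Real.exp_sum, ← Real.exp_add, ← mul_sum]
        refine Real.exp_le_exp.2 ?_
        have := mul_le_mul_of_nonneg_left hm (by positivity : 0 ≤ 1 / (2 * κ))
        have e : 1 / (2 * κ) * 4 = 2 * (1 / κ) := by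
          field_simp
          ring
        linarith

end

end Crest.Agent.H1.Cube
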