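import Mathlib

/-! Layer-cake comparison and a theorem of the alternative. -/

set_option autoImplicit false

noncomputable section

namespace Crest.Agent.H1

open Finset

lemma layer_int {a T : ℝ} (h0 : 0 ≤ a) (h1 : a ≤ T) :
    ∫ s in (0 : ℝ)..T, (if s < a then (1 : ℝ) else 0) = a := by
  have hi : ∀ x y : ℝ, IntervalIntegrable (fun s => if s < a then (1 : ℝ) else 0)
      MeasureTheory.volume x y := fun x y => by
    refine Antitone.intervalIntegrable fun s t hst => ?_
    split_ifs with h2 h3 h3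
    · rfl
    · exact absurd (hst.trans_lt h2) h3
    · norm_num
    · rfl
  rw [← intervalIntegral.integral_add_adjacent_intervals (hi 0 a) (hi a T)]
  have e1 : ∫ s in (0 : ℝ)..a, (if s < a then (1 : ℝ) else 0) = ∫ _ in (0 : ℝ)..a, (1 : ℝ) := by
    refine intervalIntegral.integral_congr_ae ?_
    have : ∀ᵐ s : ℝ, s ≠ a := by simp [MeasureTheory.ae_iff]
    filter_upwards [this] with s hs hs2
    rw [Set.uIoc_of_le h0] at hs2
    rw [if_pos (lt_of_le_of_ne hs2.2 hs)]
  have e2 : ∫ s in a..T, (if s < a then (1 : ℝ) else 0) = ∫ _ in a..T, (0 : ℝ) := by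
    refine intervalIntegral.integral_congr fun s hs => ?_
    rw [Set.uIcc_of_le h1] at hs
    exact if_neg (not_lt.2 hs.1)
  rw [e1, e2]
  simp

lemma layer_cake {ι κ : Type*} (A : Finset ι) (B : Finset κ) (a f : ι → ℝ) (b g : κ → ℝ)
    (hf : ∀ i ∈ A, 0 ≤ f i) (hg : ∀ j ∈ B, 0 ≤ g j)
    (h : ∀ s, 0 ≤ s → ∑ i ∈ A, a i * (if s < f i then 1 else 0) ≤
      ∑ j ∈ B, b j * (if s < g j then 1 else 0)) :
    ∑ i ∈ A, a i * f i ≤ ∑ j ∈ B, b j * g j := by
  set T := ∑ i ∈ A, f i + ∑ j ∈ B, g j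
  have hA := sum_nonneg hf
  have hB := sum_nonneg hg
  have hi : ∀ c a : ℝ, IntervalIntegrable (fun s => c * if s < a then (1 : ℝ) else 0)
      MeasureTheory.volume 0 T := fun c a => by
    refine IntervalIntegrable.const_mul (Antitone.intervalIntegrable fun s t hst => ?_) c
    split_ifs with h2 h3 h3
    · rfl
    · exact absurd (hst.trans_lt h2) h3
    · norm_num
    · rfl
  have e1 : ∑ i ∈ A, a i * f i =
      ∫ s in (0 : ℝ)..T, ∑ i ∈ A, a i * (if s < f i then 1 else 0) := by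
    rw [intervalIntegral.integral_finsetSum fun i _ => hi _ _]
    refine sum_congr rfl fun i hi => ?_
    rw [intervalIntegral.integral_const_mul, layer_int (hf i hi)]
    linarith [single_le_sum hf hi]
  have e2 : ∑ j ∈ B, b j * g j =
      ∫ s in (0 : ℝ)..T, ∑ j ∈ B, b j * (if s < g j then 1 else 0) := by
    rw [intervalIntegral.integral_finsetSum fun i _ => hi _ _]
    refine sum_congr rfl fun i hi => ?_
    rw [intervalIntegral.integral_const_mul, layer_int (hg i hi)]
    linarith [single_le_sum hg hi]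
  rw [e1, e2]
  refine intervalIntegral.integral_mono_on (by linarith) ?_ ?_ fun s hs => h s hs.1
  · have := IntervalIntegrable.sum A fun i _ => hi (a i) (f i)
    rwa [Finset.sum_fn] at this
  · have := IntervalIntegrable.sum B fun i _ => hi (b i) (g i)
    rwa [Finset.sum_fn] at this

lemma alternative {O I : Type*} [Fintype O] [Fintype I] (V : O → I → ℝ) (cap : I → ℝ)
    (h : ∀ φ : I → ℝ, (∀ i, 0 ≤ φ i) → ∃ o, ∑ i, φ i * V o i ≤ ∑ i, φ i * cap i) :
    ∃ Γ : O → ℝ, (∀ o, 0 ≤ Γ o) ∧ ∑ o, Γ o = 1 ∧ ∀ i, ∑ o, Γ o * V o i ≤ cap i := by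
  classical
  by_contra hc
  let Λ : (O → ℝ) →ₗ[ℝ] (I → ℝ) :=
    { toFun := fun Γ i => ∑ o, Γ o * V o i
      map_add' := fun x y => by ext i; simp [add_mul, sum_add_distrib]
      map_smul' := fun c x => by ext i; simp [mul_sum, mul_assoc] }
  have hK : IsCompact (Λ '' stdSimplex ℝ O) :=
    (isCompact_stdSimplex ℝ O).image Λ.continuous_of_finiteDimensional
  obtain ⟨φ, u, v, h1, h2, h3⟩ := geometric_hahn_banach_closed_compact (convex_Iic cap)
    isClosed_Iic ((convex_stdSimplex ℝ O).linear_image Λ) hK (by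
      rw [Set.disjoint_left]
      rintro _ h1 ⟨Γ, hΓ, rfl⟩
      exact hc ⟨Γ, hΓ.1, hΓ.2, h1⟩)
  have hφ : ∀ z : I → ℝ, φ z = ∑ i, φ (Pi.single i 1) * z i := fun z => by
    conv_lhs => rw [pi_eq_sum_univ' z]
    simp [mul_comm]
  have h0 : ∀ i, 0 ≤ φ (Pi.single i 1) := fun i => by
    by_contra h4
    push Not at h4
    have := h1 (cap - ((u - φ cap) / -φ (Pi.single i 1)) • Pi.single i 1) (by
      have h5 : φ cap < u := h1 cap (le_refl cap)
      have h6 : 0 ≤ (u - φ cap) / -φ (Pi.single i 1) :=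
        div_nonneg (sub_nonneg.2 h5.le) (neg_nonneg.2 h4.le)
      intro j
      simp only [Pi.sub_apply, Pi.smul_apply, smul_eq_mul]
      refine sub_le_self _ (mul_nonneg h6 ?_)
      rw [Pi.single_apply]
      split_ifs <;> norm_num)
    rw [map_sub, map_smul, smul_eq_mul, div_neg, neg_mul, div_mul_cancel₀ _ h4.ne] at this
    linarith
  obtain ⟨o, ho⟩ := h _ h0
  have h4 := h3 (V o) ⟨Pi.single o 1, single_mem_stdSimplex ℝ o, by
    ext i
    simp [Λ, Pi.single_apply]⟩
  have h5 := h1 cap (le_refl cap)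
  rw [← hφ, ← hφ] at ho
  linarith

end Crest.Agent.H1
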