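import Crest.Agent.H1.DecA
import Crest.Agent.H1.Layer

/-! A spread family of sets can be split in two so that each half is matched into random sets. -/

set_option autoImplicit false
set_option linter.unusedSectionVars false

noncomputable section

namespace Crest.Agent.H1.Cube

open Finset Crest.FinProb
open Classical

variable {A B : Type} [Fintype A] [DecidableEq A] [Fintype B] [DecidableEq B] {r : ℝ}

def MM (r : ℝ) (S : Finset A) (x y : A → Bool) : ℝ :=
  ∏ e ∈ S, (1 + -((1 - r) / r) * (ph r (x e) * ph r (y e)))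

lemma MM_id (a : (A → Bool) → ℝ) (S : Finset A) :
    (Ex r fun x => Ex r fun y => a x * a y * MM r S x y) =
      ∑ I ∈ S.powerset, (-((1 - r) / r)) ^ #I * fc r a I ^ 2 := by
  have e2 : ∀ x y, a x * a y * MM r S x y =
      ∑ I ∈ S.powerset, (-((1 - r) / r)) ^ #I * ((a x * chi r I x) * (a y * chi r I y)) := by
    intro x y
    rw [MM, prod_one_add, mul_sum]
    refine sum_congr rfl fun I _ => ?_
    rw [prod_mul_distrib, prod_mul_distrib, prod_const, chi, chi]
    ring
  simp only [e2, Ex_sum, Ex_const_mul, Ex_mul_const, fc, sq]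

lemma ph_mul (h0 : 0 < r) (h1 : r < 1) (b c : Bool) :
    ph r b * ph r c = if b then (if c then (1 - r) / r else -1) else
      (if c then -1 else r / (1 - r)) := by
  have h4 := sg_sq h0 h1
  have h5 := sg_pos h0 h1
  have h6 : 0 < 1 - r := by linarith
  cases b <;> cases c <;> simp only [ph, Bool.false_eq_true, if_false, if_true] <;>
    field_simp <;> rw [h4]

lemma MM_zero (h0 : 0 < r) (h1 : r < 1) {S : Finset A} {x y : A → Bool} {e : A} (he : e ∈ S)
    (hx : x e = false) (hy : y e = false) : MM r S x y = 0 := by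
  refine prod_eq_zero he ?_
  have h6 : 0 < 1 - r := by linarith
  rw [hx, hy, ph_mul h0 h1]
  simp only [Bool.false_eq_true, if_false]
  field_simp
  ring

lemma MM_le (h0 : 0 < r) (h1 : r < 1) (S : Finset A) (x y : A → Bool) :
    MM r S x y ≤ ((1 / r) ^ #S) ^ 2 := by
  refine (le_abs_self _).trans ?_
  rw [MM, abs_prod, ← pow_mul, mul_comm, pow_mul, ← prod_const]
  refine prod_le_prod (fun _ _ => abs_nonneg _) fun e _ => ?_
  have h6 : 0 < 1 - r := by linarith
  have h7 : 1 ≤ 1 / r := by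
    rw [le_div_iff₀ h0]
    linarith
  have h8 : (1 - r) / r = 1 / r - 1 := by field_simp
  have h9 : (1 - r) / r * (r / (1 - r)) = 1 := by field_simp
  rw [ph_mul h0 h1, abs_le]
  cases x e <;> cases y e <;> simp only [Bool.false_eq_true, if_false, if_true]
  · rw [neg_mul, h9]
    constructor <;> nlinarith
  all_goals
    rw [h8]
    constructor <;> nlinarith

lemma tail_bound (h0 : 0 < r) (h1 : r < 1) (G : B → Finset A) {m l : ℝ}
    (hs1 : (Fintype.card B : ℝ) ≤ m) (hs2 : ∀ I, I ≠ ∅ → (#{b | I ⊆ G b} : ℝ) ≤ m * r ^ #I)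
    (hl : ∀ b, ((1 / r) ^ #(G b)) ^ 2 ≤ l) (hl0 : 0 ≤ l) (E : Set (A → Bool))
    (F : B → Set (A → Bool)) (B' : Finset B)
    (hB : ∀ b ∈ B', ∀ x y, x ∈ E → x ∈ F b → y ∈ E → y ∈ F b →
      ∃ e ∈ G b, x e = false ∧ y e = false) :
    (#B' : ℝ) ≤ 8 * (m * Ex r (ind Eᶜ) + l * ∑ b, Ex r (ind (F b)ᶜ)) := by
  have hm : 0 ≤ m := le_trans (Nat.cast_nonneg _) hs1
  have hF : ∀ b, 0 ≤ Ex r (ind (F b)ᶜ) := fun b => Ex_nonneg h0.le h1.le (ind_nonneg _)
  have hS : 0 ≤ l * ∑ b, Ex r (ind (F b)ᶜ) := mul_nonneg hl0 (sum_nonneg fun b _ => hF b)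
  have hB' : (#B' : ℝ) ≤ m := le_trans (by exact_mod_cast card_le_univ _) hs1
  rw [Ex_ind_compl]
  set a := Ex r (ind E) with ha
  have ha1 : a ≤ 1 := by
    have := Ex_mono h0.le h1.le (ind_le_one E)
    rwa [Ex_const] at this
  rcases le_total a (1 / 2) with h | h
  · nlinarith
  have key : ∀ b ∈ B', a ^ 2 ≤ 2 * l * Ex r (ind (F b)ᶜ) +
      ∑ I, if I = ∅ then 0 else (if I ⊆ G b then 1 else 0) * ((1 / r) ^ #I * fc r (ind E) I ^ 2) := by
    intro b hb
    have e1 := MM_id (r := r) (ind E) (G b)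
    have e2 : (Ex r fun x => Ex r fun y => ind E x * ind E y * MM r (G b) x y) ≤
        2 * l * Ex r (ind (F b)ᶜ) := by
      have : (Ex r fun x => Ex r fun y => l * (ind (F b)ᶜ x + ind (F b)ᶜ y)) =
          2 * l * Ex r (ind (F b)ᶜ) := by
        simp only [Ex_const_mul, Ex_add, Ex_const]
        ring
      rw [← this]
      refine Ex_mono h0.le h1.le fun x => Ex_mono h0.le h1.le fun y => ?_
      have h2 := ind_nonneg (F b)ᶜ x
      have h3 := ind_nonneg (F b)ᶜ y
      have h4 := (MM_le h0 h1 (G b) x y).trans (hl b)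
      by_cases hx : x ∈ E
      swap
      · rw [ind, if_neg hx, zero_mul, zero_mul]
        positivity
      by_cases hy : y ∈ E
      swap
      · rw [ind.eq_1 E y, if_neg hy, mul_zero, zero_mul]
        positivity
      rw [ind, ind.eq_1 E y, if_pos hx, if_pos hy, one_mul, one_mul]
      by_cases hx2 : x ∈ F b
      swap
      · rw [ind.eq_1 _ x, if_pos (show x ∈ (F b)ᶜ from hx2)]
        nlinarith
      by_cases hy2 : y ∈ F b
      swap
      · rw [ind.eq_1 _ y, if_pos (show y ∈ (F b)ᶜ from hy2)]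
        nlinarith
      obtain ⟨e, he, h5, h6⟩ := hB b hb x y hx hx2 hy hy2
      rw [MM_zero h0 h1 he h5 h6]
      positivity
    rw [e1, ← add_sum_erase _ _ (empty_mem_powerset _), card_empty, pow_zero, one_mul,
      fc_empty] at e2
    have e3 : -∑ I ∈ (G b).powerset.erase ∅, (-((1 - r) / r)) ^ #I * fc r (ind E) I ^ 2 ≤
        ∑ I, if I = ∅ then 0 else
          (if I ⊆ G b then 1 else 0) * ((1 / r) ^ #I * fc r (ind E) I ^ 2) := by
      rw [← sum_neg_distrib]
      refine le_trans (sum_le_sum fun I hI => ?_) (sum_le_sum_of_subset_of_nonneg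
        (subset_univ ((G b).powerset.erase ∅)) fun I _ _ => by split_ifs <;> positivity)
      rw [if_neg (mem_erase.1 hI).1, if_pos (mem_powerset.1 (mem_erase.1 hI).2), one_mul,
        ← neg_mul]
      refine mul_le_mul_of_nonneg_right ((neg_le_abs _).trans ?_) (sq_nonneg _)
      rw [abs_pow, abs_neg, abs_of_nonneg (div_nonneg (by linarith) h0.le)]
      exact pow_le_pow_left₀ (div_nonneg (by linarith) h0.le)
        (div_le_div_of_nonneg_right (by linarith) h0.le) _
    linarith
  have h2 := sum_le_sum key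
  rw [sum_const, nsmul_eq_mul, sum_add_distrib, ← mul_sum, sum_comm] at h2
  have h3 : ∑ b ∈ B', Ex r (ind (F b)ᶜ) ≤ ∑ b, Ex r (ind (F b)ᶜ) :=
    sum_le_sum_of_subset_of_nonneg (subset_univ _) fun b _ _ => hF b
  have h4 : (∑ I, ∑ b ∈ B', if I = ∅ then 0 else
      (if I ⊆ G b then 1 else 0) * ((1 / r) ^ #I * fc r (ind E) I ^ 2)) ≤ m * var r (ind E) := by
    rw [var, mul_sum]
    refine sum_le_sum fun I _ => ?_
    split_ifs with hI
    · simp
    rw [← sum_mul, sum_boole]
    have h5 : (#{b ∈ B' | I ⊆ G b} : ℝ) ≤ m * r ^ #I :=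
      le_trans (by exact_mod_cast card_le_card (filter_subset_filter _ (subset_univ _))) (hs2 I hI)
    refine (mul_le_mul_of_nonneg_right h5 (by positivity)).trans (le_of_eq ?_)
    rw [one_div_pow]
    field_simp
  rw [var_eq h0 h1 (ind_isBool _), ← ha] at h4
  have h5 := mul_le_mul_of_nonneg_left h3 hl0
  have h6 : (#B' : ℝ) * a ^ 2 ≤ 2 * (l * ∑ b, Ex r (ind (F b)ᶜ)) + m * (a * (1 - a)) := by
    linarith
  have h7 : 0 ≤ m * (1 - a) := mul_nonneg hm (by linarith)
  have h8 : (0 : ℝ) ≤ #B' := Nat.cast_nonneg _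
  have h9 : 1 / 4 ≤ a ^ 2 := by nlinarith
  nlinarith

/-- covering pairs -/
def CP (G : B → Finset A) : Type :=
  {o : B → (A → Bool) × (A → Bool) // ∀ b, ∀ e ∈ G b, (o b).1 e = true ∨ (o b).2 e = true}

instance (G : B → Finset A) : Fintype (CP G) := by
  unfold CP
  infer_instance

lemma exists_coupling (h0 : 0 < r) (h1 : r < 1) (G : B → Finset A) {m l : ℝ}
    (hs1 : (Fintype.card B : ℝ) ≤ m) (hs2 : ∀ I, I ≠ ∅ → (#{b | I ⊆ G b} : ℝ) ≤ m * r ^ #I)
    (hl : ∀ b, ((1 / r) ^ #(G b)) ^ 2 ≤ l) (hl0 : 0 ≤ l) :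
    ∃ Γ : CP G → ℝ, (∀ o, 0 ≤ Γ o) ∧ ∑ o, Γ o = 1 ∧
      (∀ W, ∑ b, ∑ o, Γ o * ((if (o.1 b).1 = W then 1 else 0) + if (o.1 b).2 = W then 1 else 0) ≤
        32 * m * bernoulliWeight r W) ∧
      ∀ b W, ∑ o, Γ o * ((if (o.1 b).1 = W then 1 else 0) + if (o.1 b).2 = W then 1 else 0) ≤
        32 * l * bernoulliWeight r W := by
  have hm : 0 ≤ m := le_trans (Nat.cast_nonneg _) hs1
  obtain ⟨Γ, g0, g1, g2⟩ := alternative (O := CP G) (I := (A → Bool) ⊕ B × (A → Bool))
    (fun o => Sum.elim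
      (fun W => ∑ b, ((if (o.1 b).1 = W then 1 else 0) + if (o.1 b).2 = W then 1 else 0))
      (fun q => (if (o.1 q.1).1 = q.2 then 1 else 0) + if (o.1 q.1).2 = q.2 then 1 else 0))
    (Sum.elim (fun W => 32 * m * bernoulliWeight r W) fun q => 32 * l * bernoulliWeight r q.2)
    (fun φ hφ => by
      have hex : ∀ b, ∃ w : (A → Bool) × (A → Bool),
          (∀ e ∈ G b, w.1 e = true ∨ w.2 e = true) ∧ ∀ w' : (A → Bool) × (A → Bool),
          (∀ e ∈ G b, w'.1 e = true ∨ w'.2 e = true) →
          max (max (φ (.inl w.1)) (φ (.inr (b, w.1)))) (max (φ (.inl w.2)) (φ (.inr (b, w.2)))) ≤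
          max (max (φ (.inl w'.1)) (φ (.inr (b, w'.1))))
            (max (φ (.inl w'.2)) (φ (.inr (b, w'.2)))) := fun b => by
        obtain ⟨w, hw, h⟩ := exists_min_image (univ.filter fun w : (A → Bool) × (A → Bool) =>
          ∀ e ∈ G b, w.1 e = true ∨ w.2 e = true) (fun w =>
          max (max (φ (.inl w.1)) (φ (.inr (b, w.1)))) (max (φ (.inl w.2)) (φ (.inr (b, w.2)))))
          ⟨(fun _ => true, fun _ => true), by simp⟩
        exact ⟨w, (mem_filter.1 hw).2, fun w' hw' => h w' (mem_filter.2 ⟨mem_univ _, hw'⟩)⟩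
      choose w hw1 hw2 using hex
      refine ⟨⟨w, hw1⟩, ?_⟩
      set s : B → ℝ := fun b => max (max (φ (.inl (w b).1)) (φ (.inr (b, (w b).1))))
        (max (φ (.inl (w b).2)) (φ (.inr (b, (w b).2)))) with hs
      have hL := layer_cake univ univ (fun _ => 4) s
        (Sum.elim (fun W => 32 * m * bernoulliWeight r W) fun q => 32 * l * bernoulliWeight r q.2)
        φ (fun b _ => le_max_of_le_left (le_max_of_le_left (hφ _))) (fun j _ => hφ j) fun t _ => by
          have := tail_bound h0 h1 G hs1 hs2 hl hl0 {W | φ (.inl W) ≤ t}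
            (fun b => {W | φ (.inr (b, W)) ≤ t}) {b | t < s b} fun b hb x y h2 h3 h4 h5 => by
              by_contra h6
              have h7 := hw2 b (x, y) fun e he => by
                by_contra h7
                exact h6 ⟨e, he, by simpa using h7⟩
              exact absurd ((mem_filter.1 hb).2.trans_le h7)
                (not_lt.2 (max_le (max_le h2 h3) (max_le h4 h5)))
          rw [← mul_sum, sum_boole]
          refine (mul_le_mul_of_nonneg_left this (by norm_num)).trans (le_of_eq ?_)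
          simp only [Fintype.sum_sum_type, Fintype.sum_prod_type, Sum.elim_inl, Sum.elim_inr, Ex,
            ind, Set.mem_compl_iff, Set.mem_ofPred_eq, not_le, mul_add, mul_sum]
          congr 1
          · exact sum_congr rfl fun _ _ => by ring
          · exact sum_congr rfl fun _ _ => sum_congr rfl fun _ _ => by ring
      refine le_trans ?_ (hL.trans (le_of_eq (sum_congr rfl fun _ _ => mul_comm _ _)))
      simp only [Fintype.sum_sum_type, Fintype.sum_prod_type, Sum.elim_inl, Sum.elim_inr,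
        mul_sum]
      rw [sum_comm, ← sum_add_distrib]
      refine sum_le_sum fun b _ => ?_
      simp only [mul_add, mul_ite, mul_one, mul_zero, sum_add_distrib, sum_ite_eq, mem_univ,
        if_true]
      have e1 : φ (.inl (w b).1) ≤ s b := le_max_of_le_left (le_max_left _ _)
      have e2 : φ (.inr (b, (w b).1)) ≤ s b := le_max_of_le_left (le_max_right _ _)
      have e3 : φ (.inl (w b).2) ≤ s b := le_max_of_le_right (le_max_left _ _)
      have e4 : φ (.inr (b, (w b).2)) ≤ s b := le_max_of_le_right (le_max_right _ _)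
      linarith)
  refine ⟨Γ, g0, g1, fun W => ?_, fun b W => g2 (.inr (b, W))⟩
  have := g2 (.inl W)
  simp only [Sum.elim_inl, mul_sum] at this
  rwa [sum_comm]

end Crest.Agent.H1.Cube
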