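import Crest.Agent.H1.DecB

/-! From the coupling to a fixed splitting and a matching. -/

set_option autoImplicit false
set_option linter.unusedSectionVars false

noncomputable section

namespace Crest.Agent.H1.Cube

open Finset Crest.FinProb
open Classical

variable {A B Y : Type} [Fintype A] [DecidableEq A] [Fintype B] [DecidableEq B]
  [Fintype Y] [DecidableEq Y] {r : ℝ}

lemma hall_frac (X : B → Y → ℝ) (h0 : ∀ b y, 0 ≤ X b y) (h1 : ∀ b, 1 ≤ ∑ y, X b y)
    (h2 : ∀ y, ∑ b, X b y ≤ 1) : ∃ f : B → Y, Function.Injective f ∧ ∀ b, X b (f b) ≠ 0 := by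
  obtain ⟨f, hf, h⟩ := (all_card_le_biUnion_card_iff_exists_injective
    (fun b => ({y | X b y ≠ 0} : Finset Y))).1 fun S => by
      have : (#S : ℝ) ≤ #(S.biUnion fun b => ({y | X b y ≠ 0} : Finset Y)) := by
        calc (#S : ℝ) = ∑ b ∈ S, 1 := by simp
          _ ≤ ∑ b ∈ S, ∑ y ∈ S.biUnion fun b => ({y | X b y ≠ 0} : Finset Y), X b y := by
              refine sum_le_sum fun b hb => (h1 b).trans (le_of_eq ?_)
              refine (sum_subset (subset_univ _) fun y _ hy => ?_).symm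
              by_contra h
              exact hy (mem_biUnion.2 ⟨b, hb, by simpa using h⟩)
          _ ≤ ∑ y ∈ S.biUnion fun b => ({y | X b y ≠ 0} : Finset Y), 1 := by
              rw [sum_comm]
              exact sum_le_sum fun y _ => le_trans (sum_le_sum_of_subset_of_nonneg (subset_univ _)
                fun b _ _ => h0 b y) (h2 y)
          _ = _ := by simp
      exact_mod_cast this
  exact ⟨f, hf, fun b => (mem_filter.1 (h b)).2⟩

lemma match_prob {Ω : Type} [Fintype Ω] (μ : Ω → ℝ) (hμ : ∀ W, 0 ≤ μ W) (hμ1 : ∑ W, μ W = 1)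
    (X : B → Ω → ℝ) {κ δ : ℝ} (hκ : 0 < κ) (hX : ∀ b W, 0 ≤ X b W ∧ X b W ≤ κ)
    (hm : ∀ b, 4 ≤ Fintype.card Y * ∑ W, μ W * X b W)
    (hδ : ∑ W, μ W * (if 1 < ∑ b, X b W then 1 else 0) ≤ δ) :
    1 - Fintype.card Y * δ - Fintype.card B * Real.exp (-(1 / κ)) ≤
      ∑ ω : Y → Ω, (∏ y, μ (ω y)) *
        if ∃ f : B → Y, Function.Injective f ∧ ∀ b, X b (ω (f b)) ≠ 0 then 1 else 0 := by
  have e0 : ∑ ω : Y → Ω, ∏ y, μ (ω y) = 1 := by
    have := sum_prod_mul (fun (_ : Y) W => μ W) fun _ _ => 1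
    simpa [hμ1] using this
  have e1 : ∀ y, ∑ ω : Y → Ω, (∏ y, μ (ω y)) * (if 1 < ∑ b, X b (ω y) then 1 else 0) ≤ δ := by
    intro y
    have := sum_prod_mul (fun (_ : Y) W => μ W) fun y' W =>
      if y' = y then (if 1 < ∑ b, X b W then 1 else 0) else 1
    simp only [prod_ite_eq', mem_univ, if_true] at this
    rw [this, ← mul_prod_erase _ _ (mem_univ y), prod_eq_one fun y' hy' => by
      simp [(mem_erase.1 hy').1, hμ1]]
    simpa using hδ
  have e2 : ∀ b, ∑ ω : Y → Ω, (∏ y, μ (ω y)) * (if ∑ y, X b (ω y) < 1 then 1 else 0) ≤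
      Real.exp (-(1 / κ)) := fun b =>
    chernoff_low (fun (_ : Y) W => μ W) (fun _ W => X b W) (fun _ => hμ) (fun _ => hμ1) hκ
      (fun _ => hX b) (by simpa using hm b)
  have e3 := sum_le_sum fun y (_ : y ∈ univ) => e1 y
  have e4 := sum_le_sum fun b (_ : b ∈ univ) => e2 b
  rw [sum_comm, sum_const, card_univ, nsmul_eq_mul] at e3 e4
  refine le_trans (b := ∑ ω : Y → Ω, (∏ y, μ (ω y) -
    ∑ y, (∏ y, μ (ω y)) * (if 1 < ∑ b, X b (ω y) then 1 else 0) -
    ∑ b, (∏ y, μ (ω y)) * (if ∑ y, X b (ω y) < 1 then 1 else 0))) ?_ (sum_le_sum fun ω _ => ?_)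
  · rw [sum_sub_distrib, sum_sub_distrib, e0]
    linarith
  have hP : 0 ≤ ∏ y, μ (ω y) := prod_nonneg fun y _ => hμ _
  rw [← mul_sum, ← mul_sum]
  have h1 : ∀ y, (0 : ℝ) ≤ if 1 < ∑ b, X b (ω y) then 1 else 0 := fun y => by
    split_ifs <;> norm_num
  have h2 : ∀ b, (0 : ℝ) ≤ if ∑ y, X b (ω y) < 1 then 1 else 0 := fun y => by
    split_ifs <;> norm_num
  have h3 := sum_nonneg fun y (_ : y ∈ univ) => h1 y
  have h4 := sum_nonneg fun y (_ : y ∈ univ) => h2 y
  split_ifs with h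
  · nlinarith
  by_cases h5 : ∃ y, 1 < ∑ b, X b (ω y)
  · obtain ⟨y, hy⟩ := h5
    have := single_le_sum (fun y _ => h1 y) (mem_univ y)
    rw [if_pos hy] at this
    nlinarith
  by_cases h6 : ∃ b, ∑ y, X b (ω y) < 1
  · obtain ⟨b, hb⟩ := h6
    have := single_le_sum (fun y _ => h2 y) (mem_univ b)
    rw [if_pos hb] at this
    nlinarith
  push Not at h5 h6
  exact absurd (hall_frac (fun b y => X b (ω y)) (fun b y => (hX b _).1) h6 h5) h

lemma side {O T Ω : Type} [Fintype O] [Fintype T] [Fintype Ω] [DecidableEq T] [DecidableEq Ω]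
    (μ : Ω → ℝ) (hμ : ∀ W, 0 < μ W)
    (Γ : O → ℝ) (g0 : ∀ o, 0 ≤ Γ o) (ty : O → B → T) (s : O → B → Ω) {N m l ρ : ℝ} (hN : 0 < N)
    (hρ : 0 < ρ) (hl : 0 ≤ l) (hm : 1024 * m ≤ N)
    (h1 : ∀ W, ∑ b, ∑ o, Γ o * (if s o b = W then 1 else 0) ≤ 32 * m * μ W)
    (h2 : ∀ b W, ∑ o, Γ o * (if s o b = W then 1 else 0) ≤ 32 * l * μ W)
    (Q : B → T → ℝ) (hQ : ∀ b τ, Q b τ ≤ 2 * ∑ o, Γ o * if ty o b = τ then 1 else 0) :
    ∃ X : B → T → Ω → ℝ, (∀ b τ W, 0 ≤ X b τ W ∧ X b τ W ≤ 256 * l * ρ / N) ∧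
      (∀ b τ, 1 / (2 * ρ) ≤ (∑ o, Γ o * if ty o b = τ then 1 else 0) →
        4 ≤ N * ∑ W, μ W * X b τ W) ∧
      (∀ W, ∑ b, ∑ τ, Q b τ * X b τ W ≤ 1 / 4) ∧
      ∀ b τ W, X b τ W ≠ 0 → ∃ o, ty o b = τ ∧ s o b = W := by
  set P : B → T → ℝ := fun b τ => ∑ o, Γ o * if ty o b = τ then 1 else 0 with hP
  set Z : B → T → Ω → ℝ := fun b τ W =>
    ∑ o, Γ o * ((if ty o b = τ then 1 else 0) * if s o b = W then 1 else 0) with hZ
  have Z0 : ∀ b τ W, 0 ≤ Z b τ W := fun b τ W =>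
    sum_nonneg fun o _ => mul_nonneg (g0 o) (by split_ifs <;> norm_num)
  have Z1 : ∀ b τ, ∑ W, Z b τ W = P b τ := fun b τ => by
    simp only [hZ, hP]
    rw [sum_comm]
    refine sum_congr rfl fun o _ => ?_
    rw [← mul_sum, ← mul_sum]
    simp
  have Z2 : ∀ b W, ∑ τ, Z b τ W = ∑ o, Γ o * (if s o b = W then 1 else 0) := fun b W => by
    simp only [hZ]
    rw [sum_comm]
    refine sum_congr rfl fun o _ => ?_
    rw [← mul_sum, ← sum_mul]
    simp
  have hr : 0 < 1 / (2 * ρ) := by positivity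
  refine ⟨fun b τ W => if 1 / (2 * ρ) ≤ P b τ then 4 / N * (Z b τ W / (P b τ * μ W)) else 0,
    fun b τ W => ?_, fun b τ h => ?_, fun W => ?_, fun b τ W h => ?_⟩
  · beta_reduce
    split_ifs with h
    · have h3 := hr.trans_le h
      have h4 := Z0 b τ W
      have h5 := hμ W
      refine ⟨by positivity, ?_⟩
      have h6 : Z b τ W ≤ 32 * l * μ W :=
        (single_le_sum (fun τ _ => Z0 b τ W) (mem_univ τ)).trans ((Z2 b W).le.trans (h2 b W))
      have h7 : Z b τ W / (P b τ * μ W) ≤ 32 * l * μ W / (1 / (2 * ρ) * μ W) :=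
        div_le_div₀ (by positivity) h6 (by positivity) (mul_le_mul_of_nonneg_right h h5.le)
      refine (mul_le_mul_of_nonneg_left h7 (by positivity)).trans (le_of_eq ?_)
      field_simp
      ring
    · exact ⟨le_rfl, by positivity⟩
  · have h3 : 0 < P b τ := hr.trans_le h
    have : ∑ W, μ W * (if 1 / (2 * ρ) ≤ P b τ then 4 / N * (Z b τ W / (P b τ * μ W)) else 0) =
        4 / N / P b τ * ∑ W, Z b τ W := by
      rw [mul_sum]
      refine sum_congr rfl fun W _ => ?_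
      rw [if_pos h]
      have := hμ W
      field_simp
    rw [this, Z1]
    refine le_of_eq ?_
    field_simp
  · have h5 := hμ W
    calc _ ≤ ∑ b, ∑ τ, 8 / (N * μ W) * Z b τ W := by
          refine sum_le_sum fun b _ => sum_le_sum fun τ _ => ?_
          have h4 := Z0 b τ W
          beta_reduce
          split_ifs with h
          · have h3 : 0 < P b τ := hr.trans_le h
            refine (mul_le_mul_of_nonneg_right (hQ b τ) (by positivity)).trans (le_of_eq ?_)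
            change 2 * P b τ * _ = _
            field_simp
            ring
          · rw [mul_zero]
            positivity
      _ ≤ 8 / (N * μ W) * (32 * m * μ W) := by
          simp only [← mul_sum, Z2]
          exact mul_le_mul_of_nonneg_left (h1 W) (by positivity)
      _ = 256 * m / N := by
          field_simp
          ring
      _ ≤ _ := by
          rw [div_le_iff₀ hN]
          linarith
  · by_contra h3
    refine h ?_
    have : Z b τ W = 0 := sum_eq_zero fun o _ => by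
      split_ifs with h4 h5
      · exact absurd ⟨o, h4, h5⟩ h3
      all_goals simp
    simp [this]

theorem bip (h0 : 0 < r) (h1 : r < 1) (G : B → Finset A) {m ρ : ℝ}
    (hs1 : (Fintype.card B : ℝ) ≤ m) (hs2 : ∀ I, I ≠ ∅ → (#{b | I ⊆ G b} : ℝ) ≤ m * r ^ #I)
    (hρ : 0 < ρ) (hl : ∀ b, (1 / r) ^ #(G b) ≤ ρ) (hl2 : ∀ b, 2 ^ #(G b) ≤ ρ)
    (hm : 1024 * m ≤ Fintype.card Y) (hY : 0 < Fintype.card Y)
    (hbig : 3 * Fintype.card Y * Real.exp (-(Fintype.card Y / (512 * ρ ^ 3))) ≤ 1 / 2) :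
    ∃ τ : B → Finset A, ∀ i : Bool, 1 / 2 ≤ Ex r (ind {x : Y × A → Bool | ∃ f : B → Y,
      Function.Injective f ∧ ∀ b, ∀ a ∈ G b, decide (a ∈ τ b) = i → x (f b, a) = true}) := by
  obtain ⟨Γ, g0, g1, g2, g3⟩ := exists_coupling h0 h1 G hs1 hs2 (l := ρ ^ 2)
    (fun b => pow_le_pow_left₀ (by positivity) (hl b) 2) (by positivity)
  set N : ℝ := (Fintype.card Y : ℝ) with hN
  have hN0 : 0 < N := by
    rw [hN]
    exact_mod_cast hY
  let ty : CP G → B → Finset A := fun o b => {a ∈ G b | (o.1 b).1 a = true}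
  set P : B → Finset A → ℝ := fun b τ => ∑ o, Γ o * if ty o b = τ then 1 else 0 with hP
  have P0 : ∀ b τ, 0 ≤ P b τ := fun b τ =>
    sum_nonneg fun o _ => mul_nonneg (g0 o) (by split_ifs <;> norm_num)
  have P1 : ∀ b, 1 / 2 ≤ ∑ τ, if 1 / (2 * ρ) ≤ P b τ then P b τ else 0 := fun b => by
    have e1 : ∑ τ ∈ (G b).powerset, P b τ = 1 := by
      simp only [hP]
      rw [sum_comm]
      refine (sum_congr rfl fun o _ => ?_).trans g1
      rw [← mul_sum, sum_ite_eq, if_pos (mem_powerset.2 (filter_subset _ _)), mul_one]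
    have e2 : ∑ τ ∈ (G b).powerset, P b τ ≤ ∑ τ ∈ (G b).powerset,
        ((if 1 / (2 * ρ) ≤ P b τ then P b τ else 0) + 1 / (2 * ρ)) :=
      sum_le_sum fun τ _ => by
        have : 0 < 1 / (2 * ρ) := by positivity
        split_ifs with h
        · linarith
        · linarith [not_le.1 h]
    rw [sum_add_distrib, sum_const, card_powerset, nsmul_eq_mul, e1] at e2
    have e3 : ((2 ^ #(G b) : ℕ) : ℝ) * (1 / (2 * ρ)) ≤ 1 / 2 := by
      rw [mul_one_div, div_le_iff₀ (by positivity)]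
      push_cast
      linarith [hl2 b]
    have e4 : (∑ τ ∈ (G b).powerset, if 1 / (2 * ρ) ≤ P b τ then P b τ else 0) ≤
        ∑ τ, if 1 / (2 * ρ) ≤ P b τ then P b τ else 0 :=
      sum_le_sum_of_subset_of_nonneg (subset_univ _) fun τ _ _ => by
        split_ifs
        · exact P0 _ _
        · rfl
    linarith
  let Q : B → Finset A → ℝ := fun b τ => (if 1 / (2 * ρ) ≤ P b τ then P b τ else 0) /
    ∑ τ, if 1 / (2 * ρ) ≤ P b τ then P b τ else 0
  have Q0 : ∀ b τ, 0 ≤ Q b τ := fun b τ => div_nonneg (by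
    split_ifs
    · exact P0 _ _
    · rfl) (by linarith [P1 b])
  have Q1 : ∀ b, ∑ τ, Q b τ = 1 := fun b => by
    rw [← sum_div, div_self (by linarith [P1 b])]
  have Q2 : ∀ b τ, Q b τ ≤ 2 * P b τ := fun b τ => by
    rw [div_le_iff₀ (by linarith [P1 b])]
    have := P1 b
    have := P0 b τ
    split_ifs <;> nlinarith
  have hside : ∀ i : Bool, ∃ X : B → Finset A → (A → Bool) → ℝ,
      (∀ b τ W, 0 ≤ X b τ W ∧ X b τ W ≤ 256 * ρ ^ 2 * ρ / N) ∧
      (∀ b τ, 1 / (2 * ρ) ≤ P b τ → 4 ≤ N * ∑ W, bernoulliWeight r W * X b τ W) ∧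
      (∀ W, ∑ b, ∑ τ, Q b τ * X b τ W ≤ 1 / 4) ∧
      ∀ b τ W, X b τ W ≠ 0 → ∃ o, ty o b = τ ∧ (if i then (o.1 b).1 else (o.1 b).2) = W := by
    intro i
    have key : ∀ (o : CP G) b W, Γ o * (if (if i then (o.1 b).1 else (o.1 b).2) = W then 1 else 0)
        ≤ Γ o * ((if (o.1 b).1 = W then 1 else 0) + if (o.1 b).2 = W then 1 else 0) :=
      fun o b W => mul_le_mul_of_nonneg_left (by
        cases i <;> simp only [Bool.false_eq_true, if_false, if_true] <;> split_ifs <;> norm_num)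
        (g0 o)
    exact side (bernoulliWeight r) (wt_pos h0 h1) Γ g0 ty
      (fun o b => if i then (o.1 b).1 else (o.1 b).2) hN0 hρ (by positivity) hm
      (fun W => le_trans (sum_le_sum fun b _ => sum_le_sum fun o _ => key o b W) (g2 W))
      (fun b W => le_trans (sum_le_sum fun o _ => key o b W) (g3 b W)) Q
      Q2
  choose X x1 x2 x3 x4 using hside
  set κ := 256 * ρ ^ 2 * ρ / N with hκ
  have hκ0 : 0 < κ := by positivity
  have hκ1 : 1 / (2 * κ) = N / (512 * ρ ^ 3) := by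
    rw [hκ]
    field_simp
    norm_num
  set ε := Real.exp (-(N / (512 * ρ ^ 3))) with hε
  have e0 : ∑ τ : B → Finset A, ∏ b, Q b (τ b) = 1 := by
    have := sum_prod_mul Q fun _ _ => 1
    simpa [Q1] using this
  have e1 : ∑ τ : B → Finset A, (∏ b, Q b (τ b)) * ∑ i : Bool, ∑ W, bernoulliWeight r W *
      (if 1 < ∑ b, X i b (τ b) W then 1 else 0) ≤ ∑ τ : B → Finset A, (∏ b, Q b (τ b)) * (2 * ε) := by
    rw [← sum_mul, e0, one_mul]
    simp only [mul_sum]
    rw [sum_comm]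
    refine (sum_le_card_nsmul _ _ ε fun i _ => ?_).trans (by simp)
    rw [sum_comm, show ε = ∑ W : A → Bool, bernoulliWeight r W * ε by
      rw [← sum_mul, sum_wt, one_mul]]
    refine sum_le_sum fun W _ => ?_
    rw [sum_congr rfl fun _ _ => mul_left_comm _ _ _, ← mul_sum]
    refine mul_le_mul_of_nonneg_left ?_ (wt_pos h0 h1 W).le
    rw [hε, ← hκ1]
    exact chernoff_up Q (fun b τ => X i b τ W) Q0 Q1 hκ0 (fun b τ => x1 i b τ W) (x3 i W)
  obtain ⟨τ, hτ, hτ2⟩ : ∃ τ : B → Finset A, (∏ b, Q b (τ b)) ≠ 0 ∧ ∑ i : Bool, ∑ W,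
      bernoulliWeight r W * (if 1 < ∑ b, X i b (τ b) W then 1 else 0) ≤ 2 * ε := by
    by_contra h
    push Not at h
    obtain ⟨τ0, -, hτ0⟩ := exists_ne_zero_of_sum_ne_zero (e0.trans_ne one_ne_zero)
    refine absurd e1 (not_le.2 (sum_lt_sum (fun τ _ => ?_) ⟨τ0, mem_univ _, ?_⟩))
    · by_cases h2 : ∏ b, Q b (τ b) = 0
      · simp [h2]
      · exact mul_le_mul_of_nonneg_left (h τ h2).le (prod_nonneg fun b _ => Q0 _ _)
    · exact mul_lt_mul_of_pos_left (h τ0 hτ0)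
        ((prod_nonneg fun b _ => Q0 _ _).lt_of_ne' hτ0)
  refine ⟨τ, fun i => ?_⟩
  have e2 := match_prob (Y := Y) (bernoulliWeight r) (fun W => (wt_pos h0 h1 W).le) (sum_wt r)
    (fun b W => X i b (τ b) W) (δ := 2 * ε) hκ0 (fun b W => x1 i b _ W) (fun b => x2 i b _ (by
      by_contra h
      exact prod_ne_zero_iff.1 hτ b (mem_univ b) (by simp only [Q, if_neg h, zero_div])))
    (le_trans (single_le_sum (f := fun i => ∑ W, bernoulliWeight r W *
      (if 1 < ∑ b, X i b (τ b) W then 1 else 0)) (fun i _ => sum_nonneg fun W _ =>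
        mul_nonneg (wt_pos h0 h1 W).le (by split_ifs <;> norm_num)) (mem_univ i)) hτ2)
  rw [← Ex_curry (fun ω => if ∃ f : B → Y, Function.Injective f ∧ ∀ b, X i b (τ b) (ω (f b)) ≠ 0
    then 1 else 0)] at e2
  refine le_trans ?_ (e2.trans (Ex_mono h0.le h1.le fun x => ?_))
  · have h2 : Real.exp (-(1 / κ)) ≤ ε := by
      rw [hε, ← hκ1]
      exact Real.exp_le_exp.2 (neg_le_neg (one_div_le_one_div_of_le hκ0 (by linarith)))
    have h3 : (Fintype.card B : ℝ) ≤ N := by linarith [Nat.cast_nonneg (α := ℝ) (Fintype.card B)]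
    have := mul_le_mul h3 h2 (Real.exp_pos _).le hN0.le
    linarith
  · split_ifs with h
    swap
    · exact ind_nonneg _ _
    obtain ⟨f, hf, h⟩ := h
    rw [ind, if_pos]
    refine ⟨f, hf, fun b a ha hi => ?_⟩
    obtain ⟨o, h2, h3⟩ := x4 i b _ _ (h b)
    have h4 := congrFun h3 a
    refine h4.symm.trans ?_
    rw [← h2] at hi
    cases i
    · simp only [ty, decide_eq_false_iff_not, mem_filter, not_and] at hi
      exact (o.2 b a ha).resolve_left (hi ha)
    · simp only [ty, decide_eq_true_eq, mem_filter] at hi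
      exact hi.2

end Crest.Agent.H1.Cube
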