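import Crest.Agent.H1.DecC
import Crest.Prelude.Def_CopyThreshold

/-! Embedding lemmas in the random graph: greedy embedding. -/

set_option autoImplicit false
set_option linter.unusedSectionVars false

noncomputable section

namespace Crest.Agent.H1.Dec

open Finset Crest.FinProb Crest.CombinatoricsR.RandomGraph Crest.Agent.H1.Cube
open Classical

variable {n : ℕ} {r : ℝ} {W : Type} [Fintype W] [DecidableEq W]

def adj (x : EdgeSlot n → Bool) (a b : Fin n) : Prop := (graphOf x).Adj a b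

lemma adj_iff (x : EdgeSlot n → Bool) (a b : Fin n) :
    adj x a b ↔ ∃ h : ¬ s(a, b).IsDiag, x ⟨s(a, b), h⟩ = true := by
  simp only [adj, graphOf, SimpleGraph.fromEdgeSet_adj, Set.mem_ofPred_eq]
  exact ⟨fun h => h.1, fun h => ⟨h, by simpa using h.1⟩⟩

lemma adj.symm {x : EdgeSlot n → Bool} {a b : Fin n} (h : adj x a b) : adj x b a :=
  SimpleGraph.Adj.symm h

def JJ (Pd : Sym2 (Fin n) → Prop) : Finset (EdgeSlot n) := univ.filter fun e => Pd e.1

lemma adj_in {Pd : Sym2 (Fin n) → Prop} {x y : EdgeSlot n → Bool} {a b : Fin n}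
    (h : Pd s(a, b)) (h2 : adj x a b) : adj ((JJ Pd).piecewise x y) a b := by
  obtain ⟨h3, h4⟩ := (adj_iff _ _ _).1 h2
  refine (adj_iff _ _ _).2 ⟨h3, ?_⟩
  rwa [piecewise_eq_of_mem (JJ Pd) _ _ (i := ⟨_, h3⟩) (mem_filter.2 ⟨mem_univ _, h⟩)]

lemma adj_out {Pd : Sym2 (Fin n) → Prop} {x y : EdgeSlot n → Bool} {a b : Fin n}
    (h : ¬ Pd s(a, b)) (h2 : adj y a b) : adj ((JJ Pd).piecewise x y) a b := by
  obtain ⟨h3, h4⟩ := (adj_iff _ _ _).1 h2
  refine (adj_iff _ _ _).2 ⟨h3, ?_⟩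
  rwa [piecewise_eq_of_notMem (JJ Pd) _ _ (i := ⟨_, h3⟩) fun h5 => h (mem_filter.1 h5).2]

lemma marg (h0 : 0 ≤ r) (h1 : r ≤ 1) {κ : Type} [Fintype κ] [DecidableEq κ] (α β : κ → Fin n)
    (hne : ∀ k, α k ≠ β k) (hinj : ∀ k k', s(α k, β k) = s(α k', β k') → k = k')
    (E : Set (κ → Bool)) (E' : Set (EdgeSlot n → Bool))
    (h : ∀ x z, (∀ k, z k = true → adj x (α k) (β k)) → z ∈ E → x ∈ E') :
    Ex r (ind E) ≤ Ex r (ind E') := by
  rw [← Ex_inj (fun k => (⟨s(α k, β k), by simpa using hne k⟩ : EdgeSlot n))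
    (fun k k' h => hinj k k' (congrArg Subtype.val h)) (ind E)]
  exact Ex_mono h0 h1 fun x => ind_mono (h x _ fun k hk => (adj_iff _ _ _).2 ⟨_, hk⟩)

/-- the random graph contains the relation `R` with probability at least one half -/
def Good (n : ℕ) (r : ℝ) (R : W → W → Prop) : Prop :=
  1 / 2 ≤ Ex r (ind {x : EdgeSlot n → Bool | ∃ φ : W → Fin n, Function.Injective φ ∧
    ∀ a b, R a b → adj x (φ a) (φ b)})

lemma good_of_injOn (h0 : 0 ≤ r) (h1 : r ≤ 1) (hW : Fintype.card W ≤ n) {R : W → W → Prop}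
    (U : Set W) (hU : ∀ a b, R a b → a ∈ U ∧ b ∈ U) {E : Set (EdgeSlot n → Bool)}
    (h : 1 / 2 ≤ Ex r (ind E))
    (hE : ∀ x ∈ E, ∃ φ : W → Fin n, U.InjOn φ ∧ ∀ a b, R a b → adj x (φ a) (φ b)) :
    Good n r R := by
  refine h.trans (Ex_mono h0 h1 fun x => ind_mono fun hx => ?_)
  obtain ⟨φ, h2, h3⟩ := hE x hx
  obtain ⟨ι⟩ : Nonempty (W ↪ Fin n) := Function.Embedding.nonempty_of_card_le (by simpa using hW)
  obtain ⟨σ, hσ⟩ := Equiv.Perm.exists_extending_pair (f := fun a : U => ι a.1)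
    (g := fun a => φ a.1) (ι.injective.comp Subtype.val_injective)
    (fun a b h => Subtype.ext (h2 a.2 b.2 h))
  refine ⟨fun a => σ (ι a), σ.injective.comp ι.injective, fun a b hab => ?_⟩
  beta_reduce
  rw [hσ ⟨a, (hU a b hab).1⟩, hσ ⟨b, (hU a b hab).2⟩]
  exact h3 a b hab

lemma Ex_all {A : Type} [Fintype A] [DecidableEq A] (b : Bool) :
    ∑ ω : A → Bool, bernoulliWeight r ω * (if ∀ a, ω a = b then 1 else 0) =
      (if b then r else 1 - r) ^ Fintype.card A := by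
  have := Ex_prod (p := r) (fun (_ : A) c => if c = b then 1 else 0)
  rw [prod_const, card_univ] at this
  refine Eq.trans ?_ (this.trans ?_)
  · refine sum_congr rfl fun ω _ => ?_
    simp [prod_ite_zero]
  · cases b <;> simp

lemma prob_common {Y A : Type} [Fintype Y] [DecidableEq Y] [Fintype A] [DecidableEq A] :
    Ex r (ind {z : Y × A → Bool | ∃ y, ∀ a, z (y, a) = true}) =
      1 - (1 - r ^ Fintype.card A) ^ Fintype.card Y := by
  have h1 := Ex_curry (p := r) (fun ω : Y → A → Bool =>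
    ∏ y, (1 - if ∀ a, ω y a = true then (1 : ℝ) else 0))
  rw [sum_prod_mul (fun _ ω => bernoulliWeight r ω)
    (fun _ ω => 1 - if ∀ a, ω a = true then (1 : ℝ) else 0)] at h1
  simp only [mul_sub, sum_sub_distrib, mul_one, sum_wt, Ex_all, if_true, prod_const,
    card_univ] at h1
  rw [← h1, eq_sub_iff_add_eq, ← Ex_add, ← Ex_const (ι := Y × A) (p := r) 1]
  congr 1
  ext z
  rw [Ex_const]
  by_cases h : z ∈ {z : Y × A → Bool | ∃ y, ∀ a, z (y, a) = true}
  · obtain ⟨y, hy⟩ := h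
    rw [ind, if_pos ⟨y, hy⟩, prod_eq_zero (mem_univ y) (by simp [hy]), add_zero]
  · rw [ind, if_neg h, prod_eq_one fun y _ => by rw [if_neg fun h2 => h ⟨y, h2⟩, sub_zero],
      zero_add]

lemma greedy_aux (h0 : 0 < r) (h1 : r < 1) (R : W → W → Prop) (rk : W → ℕ)
    (hrk : ∀ v u, R v u → rk u < rk v) (U0 : Finset W) (hU0 : ∀ v u, R v u → u ∈ U0)
    {D Δ R0 : ℕ} (hD : ∀ v, #{u | R v u} ≤ D) (hΔ : ∀ u, #{v | R v u} ≤ Δ)
    (hn : #U0 + D * (R0 * Δ) + R0 ≤ n) (k : ℕ) :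
    ∀ U ⊆ U0, #U = k → ∀ (φ : W → Fin n) (J : W → Finset (Fin n)), Set.InjOn φ (U0 \ U : Finset W) →
      (∀ u, #(J u) ≤ R0 * #{v ∈ U0 \ U | R v u}) →
      1 - k * (1 - r ^ D) ^ R0 ≤ Ex r (ind {x : EdgeSlot n → Bool | ∃ ψ : W → Fin n,
        Set.InjOn ψ U0 ∧ (∀ u ∈ U0 \ U, ψ u = φ u) ∧
          ∀ v ∈ U, ∀ u, R v u → adj x (ψ v) (ψ u) ∧ ψ v ∉ J u}) := by
  induction k with
  | zero =>
    intro U _ hU φ J hφ _
    obtain rfl := card_eq_zero.1 hU
    rw [Nat.cast_zero, zero_mul, sub_zero, ← Ex_const (ι := EdgeSlot n) (p := r) 1]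
    refine Ex_mono h0.le h1.le fun x => le_of_eq ?_
    rw [ind, if_pos ⟨φ, by simpa using hφ, fun _ _ => rfl, by simp⟩]
  | succ k ih =>
    intro U hU hk φ J hφ hJ
    obtain ⟨v, hv, hmin⟩ := exists_min_image U rk (card_pos.1 (by omega))
    have hback : ∀ u, R v u → u ∈ U0 \ U := fun u hu =>
      mem_sdiff.2 ⟨hU0 v u hu, fun h => absurd (hmin u h) (not_le.2 (hrk v u hu))⟩
    obtain ⟨C, hC, hCc⟩ : ∃ C ⊆ (univ \ (U0 \ U).image φ) \ ({u | R v u} : Finset W).biUnion J,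
        #C = R0 := by
      refine exists_subset_card_eq ?_
      have e1 := le_card_sdiff (({u | R v u} : Finset W).biUnion J) (univ \ (U0 \ U).image φ)
      have e2 := le_card_sdiff ((U0 \ U).image φ) univ
      have e3 : #((U0 \ U).image φ) ≤ #U0 := card_image_le.trans (card_le_card sdiff_subset)
      have e4 : #(({u | R v u} : Finset W).biUnion J) ≤ D * (R0 * Δ) :=
        (card_biUnion_le_card_mul _ _ (R0 * Δ) fun u _ => (hJ u).trans (Nat.mul_le_mul_left _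
          ((card_le_card (filter_subset_filter _ (subset_univ _))).trans (hΔ u)))).trans
          (Nat.mul_le_mul_right _ (hD v))
      rw [card_univ, Fintype.card_fin] at e2
      omega
    have hC1 : ∀ y ∈ C, ∀ u ∈ U0 \ U, φ u ≠ y := fun y hy u hu h =>
      (mem_sdiff.1 (mem_sdiff.1 (hC hy)).1).2 (mem_image.2 ⟨u, hu, h⟩)
    have hC2 : ∀ y ∈ C, ∀ u, R v u → y ∉ J u := fun y hy u hu h =>
      (mem_sdiff.1 (hC hy)).2 (mem_biUnion.2 ⟨u, by simpa using hu, h⟩)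
    have hε : 0 ≤ (1 - r ^ D) ^ R0 := pow_nonneg (sub_nonneg.2 (pow_le_one₀ h0.le h1.le)) _
    have hsucc : 1 - (1 - r ^ D) ^ R0 ≤
        Ex r (ind {x : EdgeSlot n → Bool | ∃ y ∈ C, ∀ u, R v u → adj x y (φ u)}) := by
      refine le_trans ?_ (marg h0.le h1.le (κ := C × {u // R v u}) (fun k => k.1) (fun k => φ k.2)
        (fun k => (hC1 _ k.1.2 _ (hback _ k.2.2)).symm) (fun k k' h => ?_)
        {z | ∃ y, ∀ a, z (y, a) = true} _ fun x z h ⟨y, hy⟩ =>
          ⟨y, y.2, fun u hu => h (y, ⟨u, hu⟩) (hy _)⟩)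
      · rw [prob_common, Fintype.card_coe, hCc, Fintype.card_subtype]
        refine sub_le_sub_left (pow_le_pow_left₀ (sub_nonneg.2 (pow_le_one₀ h0.le h1.le))
          (sub_le_sub_left (pow_le_pow_of_le_one h0.le h1.le (hD v)) _) _) _
      · rcases Sym2.eq_iff.1 h with h | h
        · exact Prod.ext (Subtype.ext h.1)
            (Subtype.ext (hφ (hback _ k.2.2) (hback _ k'.2.2) h.2))
        · exact absurd h.2 (hC1 _ k'.1.2 _ (hback _ k.2.2))
    have hsd : U0 \ U.erase v = insert v (U0 \ U) := by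
      ext u
      by_cases h : u = v
      · simp [h, hU hv]
      · simp [h]
    have hvn : v ∉ U0 \ U := fun h => (mem_sdiff.1 h).2 hv
    rw [Ex_pw h0 h1 (JJ fun e => ∃ y ∈ C, ∃ u, R v u ∧ e = s(y, φ u))]
    refine le_trans ?_ (Ex_mono h0.le h1.le (f := fun x => ind {x : EdgeSlot n → Bool | ∃ y ∈ C,
      ∀ u, R v u → adj x y (φ u)} x - k * (1 - r ^ D) ^ R0) fun x => ?_)
    · rw [Ex_sub, Ex_const]
      push_cast
      linarith
    by_cases hx : x ∈ {x : EdgeSlot n → Bool | ∃ y ∈ C, ∀ u, R v u → adj x y (φ u)}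
    swap
    · rw [ind, if_neg hx]
      refine le_trans ?_ (Ex_nonneg h0.le h1.le fun _ => ind_nonneg _ _)
      have : 0 ≤ k * (1 - r ^ D) ^ R0 := by positivity
      linarith
    rw [ind, if_pos hx]
    obtain ⟨y, hy, hadj⟩ := hx
    have hupd : ∀ u ∈ U0 \ U, Function.update φ v y u = φ u := fun u hu =>
      Function.update_of_ne (fun h => hvn (by rwa [h] at hu)) _ _
    refine (ih (U.erase v) ((erase_subset _ _).trans hU) (by rw [card_erase_of_mem hv]; omega)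
      (Function.update φ v y) (fun u => if R v u then J u ∪ C else J u) ?_ fun u => ?_).trans
      (Ex_mono h0.le h1.le fun x' => ind_mono ?_)
    · rw [hsd, coe_insert, Set.injOn_insert (by simpa using hvn)]
      refine ⟨fun a ha b hb h => hφ ha hb (by rwa [hupd a ha, hupd b hb] at h), ?_⟩
      rintro ⟨u, hu, h⟩
      rw [hupd u hu, Function.update_self] at h
      exact hC1 y hy u hu h
    · rw [hsd, filter_insert]
      split_ifs with h
      · rw [card_insert_of_notMem fun h => hvn (mem_filter.1 h).1, mul_add, mul_one]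
        exact (card_union_le _ _).trans (by have := hJ u; omega)
      · exact hJ u
    · rintro ⟨ψ, e1, e2, e3⟩
      rw [hsd] at e2
      have e4 : ∀ u ∈ U0 \ U, ψ u = φ u := fun u hu =>
        (e2 u (mem_insert_of_mem hu)).trans (hupd u hu)
      have e5 : ψ v = y := (e2 v (mem_insert_self _ _)).trans (Function.update_self _ _ _)
      refine ⟨ψ, e1, e4, fun v' hv' u hu => ?_⟩
      rcases eq_or_ne v' v with rfl | hne
      · rw [e5, e4 u (hback u hu)]
        exact ⟨adj_in ⟨y, hy, u, hu, rfl⟩ (hadj u hu), hC2 y hy u hu⟩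
      · obtain ⟨e6, e7⟩ := e3 v' (mem_erase.2 ⟨hne, hv'⟩) u hu
        refine ⟨adj_out ?_ e6, fun h => e7 (by
          split_ifs
          · exact mem_union_left _ h
          · exact h)⟩
        rintro ⟨y', hy', u', hu', h⟩
        rw [← e4 u' (hback u' hu')] at h
        rcases Sym2.eq_iff.1 h with h | h
        · obtain rfl := e1 (hU0 _ _ hu) (hU0 _ _ hu') h.2
          exact e7 (by rw [if_pos hu', h.1]; exact mem_union_right _ hy')
        · obtain rfl := e1 (hU hv') (hU0 _ _ hu') h.1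
          exact (mem_sdiff.1 (hback _ hu')).2 hv'

theorem greedy (h0 : 0 < r) (h1 : r < 1) (hW : Fintype.card W ≤ n) (R : W → W → Prop)
    (rk : W → ℕ) (hrk : ∀ v u, R v u → rk u < rk v) (U0 : Finset W)
    (hU0 : ∀ v u, R v u → v ∈ U0 ∧ u ∈ U0) {D Δ R0 : ℕ} (hD : ∀ v, #{u | R v u} ≤ D)
    (hΔ : ∀ u, #{v | R v u} ≤ Δ) (hn : #U0 + D * (R0 * Δ) + R0 ≤ n) (hn0 : 0 < n)
    (hp : n * (1 - r ^ D) ^ R0 ≤ 1 / 2) : Good n r R := by
  have := greedy_aux h0 h1 R rk hrk U0 (fun v u h => (hU0 v u h).2) hD hΔ hn _ U0 le_rfl rfl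
    (fun _ => ⟨0, hn0⟩) (fun _ => ∅) (by simp) (by simp)
  refine good_of_injOn h0.le h1.le hW U0 hU0 (le_trans ?_ this) ?_
  · have hε : 0 ≤ (1 - r ^ D) ^ R0 := pow_nonneg (sub_nonneg.2 (pow_le_one₀ h0.le h1.le)) _
    have : (#U0 : ℝ) ≤ n := by exact_mod_cast (by omega : #U0 ≤ n)
    nlinarith
  · rintro x ⟨ψ, e1, -, e3⟩
    exact ⟨ψ, e1, fun a b h => (e3 a (hU0 a b h).1 b h).1⟩

end Crest.Agent.H1.Dec
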