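import Crest.Agent.H1.DecD

/-! Embedding lemmas in the random graph: star forests and the bipartite part. -/

set_option autoImplicit false
set_option linter.unusedSectionVars false

noncomputable section

namespace Crest.Agent.H1.Dec

open Finset Crest.FinProb Crest.CombinatoricsR.RandomGraph Crest.Agent.H1.Cube
open Classical

variable {n : ℕ} {r : ℝ} {W : Type} [Fintype W] [DecidableEq W]

lemma groups_prob (h0 : 0 ≤ r) (h1 : r ≤ 1) {d h : ℕ} (hd : 0 < d) (K : Type) [Fintype K]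
    [DecidableEq K] (hK : Fintype.card K = h) :
    (if (1 - r) ^ h ≤ 1 / 4 then 1 / 2 else (1 - (1 - r) ^ h) ^ d) ≤
      Ex r (ind {w : (Fin d × Bool) × K → Bool | d ≤ #{i | ∃ j, w (i, j) = true}}) := by
  have hd' : (0 : ℝ) < d := by exact_mod_cast hd
  split_ifs with hc
  · have e1 : ∀ i : Fin d × Bool, Ex r (fun w : (Fin d × Bool) × K → Bool =>
        if ∀ j, w (i, j) = false then (1 : ℝ) else 0) = (1 - r) ^ h := fun i => by
      rw [Ex_inj (fun j => (i, j)) (fun j j' h => (Prod.ext_iff.1 h).2)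
        (fun ω : K → Bool => if ∀ j, ω j = false then (1 : ℝ) else 0), Ex, Ex_all]
      simp [hK]
    refine le_trans ?_ (Ex_mono h0 h1 (f := fun w => 1 - 1 / d *
      ∑ i : Fin d × Bool, if ∀ j, w (i, j) = false then (1 : ℝ) else 0) fun w => ?_)
    · rw [Ex_sub, Ex_const, Ex_const_mul, Ex_sum]
      simp only [e1, sum_const, card_univ, Fintype.card_prod, Fintype.card_fin, Fintype.card_bool,
        nsmul_eq_mul]
      push_cast
      have : 1 / (d : ℝ) * (d * 2 * (1 - r) ^ h) = 2 * (1 - r) ^ h := by field_simp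
      linarith
    · rw [sum_boole, ind]
      split_ifs with h2
      · exact sub_le_self _ (by positivity)
      · have e2 := card_filter_add_card_filter_not (s := (univ : Finset (Fin d × Bool)))
          (fun i => ∃ j, w (i, j) = true)
        simp only [card_univ, Fintype.card_prod, Fintype.card_fin, Fintype.card_bool,
          not_exists, Bool.not_eq_true] at e2
        simp only [Set.mem_ofPred_eq, not_le] at h2
        have e3 : (d : ℝ) ≤ #{i : Fin d × Bool | ∀ j, w (i, j) = false} := by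
          exact_mod_cast (by omega : d ≤ _)
        rw [one_div, ← div_eq_inv_mul, sub_nonpos, one_le_div hd']
        exact e3
  · have h2 := Ex_curry (p := r) (fun ω : Fin d × Bool → K → Bool =>
      ∏ i, if i.2 = true then (1 - if ∀ j, ω i j = false then (1 : ℝ) else 0) else 1)
    rw [sum_prod_mul (fun _ ω => bernoulliWeight r ω) (fun (i : Fin d × Bool) ω =>
      if i.2 = true then (1 - if ∀ j, ω j = false then (1 : ℝ) else 0) else 1),
      Fintype.prod_prod_type] at h2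
    simp only [Fintype.prod_bool, if_true, Bool.false_eq_true, if_false, mul_sub, sum_sub_distrib,
      mul_one, sum_wt, Ex_all, prod_const, card_univ, Fintype.card_fin, hK] at h2
    rw [← h2]
    refine Ex_mono h0 h1 fun w => ?_
    by_cases h3 : ∀ i : Fin d, ∃ j, w ((i, true), j) = true
    · rw [ind, if_pos]
      · exact prod_le_one (fun i _ => by split_ifs <;> norm_num)
          fun i _ => by split_ifs <;> norm_num
      · have := card_le_card_of_injOn (s := (univ : Finset (Fin d)))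
          (t := ({i | ∃ j, w (i, j) = true} : Finset (Fin d × Bool))) (fun i => (i, true))
          (fun i _ => by simpa using h3 i) fun i _ j _ h => (Prod.ext_iff.1 h).1
        simpa using this
    · push Not at h3
      obtain ⟨i, hi⟩ := h3
      rw [prod_eq_zero (mem_univ (i, true)) (by
        rw [if_pos rfl, if_pos (by simpa using hi), sub_self])]
      exact ind_nonneg _ _

lemma star_succ (h0 : 0 ≤ r) (h1 : r ≤ 1) {d h : ℕ} (hd : 0 < d) {z : Fin n} {Y : Finset (Fin n)}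
    (hz : z ∉ Y) (hY : 2 * d * h ≤ #Y) :
    (if (1 - r) ^ h ≤ 1 / 4 then 1 / 2 else (1 - (1 - r) ^ h) ^ d) ≤
      Ex r (ind {x : EdgeSlot n → Bool | d ≤ #{y ∈ Y | adj x z y}}) := by
  obtain ⟨e, he⟩ := Function.Embedding.exists_of_card_le_finset (α := (Fin d × Bool) × Fin h)
    (s := Y) (by simpa [mul_comm] using hY)
  have he' : ∀ k, e k ∈ Y := fun k => he ⟨k, rfl⟩
  refine (groups_prob h0 h1 hd (Fin h) (Fintype.card_fin h)).trans (marg h0 h1 (fun _ => z) e (fun k h => hz (h ▸ he' k))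
    (fun k k' h => e.injective (Sym2.congr_right.1 h)) _ _ fun x w h hw => ?_)
  rw [Set.mem_ofPred_eq] at hw ⊢
  refine le_trans hw ?_
  have : ∀ i : Fin d × Bool, ∃ y, (∃ j, w (i, j) = true) → ∃ j, w (i, j) = true ∧ y = e (i, j) :=
    fun i => by
      by_cases h : ∃ j, w (i, j) = true
      · obtain ⟨j, hj⟩ := h
        exact ⟨_, fun _ => ⟨j, hj, rfl⟩⟩
      · exact ⟨z, fun h2 => absurd h2 h⟩
  choose f hf using this
  refine card_le_card_of_injOn f (fun i hi => ?_) fun i hi i' hi' h => ?_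
  · obtain ⟨j, h2, h3⟩ := hf i (by simpa using hi)
    rw [h3]
    exact mem_filter.2 ⟨he' _, h _ h2⟩
  · obtain ⟨j, -, h3⟩ := hf i (by simpa using hi)
    obtain ⟨j', -, h3'⟩ := hf i' (by simpa using hi')
    rw [h3, h3'] at h
    exact (Prod.ext_iff.1 (e.injective h)).1

lemma star_aux (h0 : 0 < r) (h1 : r < 1) (S0 : Finset W) (deg : W → ℕ) (u : W → ℝ) (g : ℕ)
    (hn : 0 < n) (hu : ∀ s ∈ S0, 1 ≤ u s)
    (hπ : ∀ s ∈ S0, ∀ (z : Fin n) (Y : Finset (Fin n)), z ∉ Y → g ≤ #Y →
      1 / u s ≤ Ex r (ind {x : EdgeSlot n → Bool | deg s ≤ #{y ∈ Y | adj x z y}})) (M : ℕ) :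
    ∀ S ⊆ S0, ∀ C Y : Finset (Fin n), #C = M → Disjoint C Y → g + ∑ s ∈ S, deg s ≤ #Y →
      1 - (∑ s ∈ S, u s) / (M + 1) ≤ Ex r (ind {x : EdgeSlot n → Bool |
        ∃ (c : W → Fin n) (T : W → Finset (Fin n)), Set.InjOn c S ∧
          (∀ s ∈ S, c s ∈ C ∧ T s ⊆ Y ∧ #(T s) = deg s ∧ ∀ y ∈ T s, adj x (c s) y) ∧
          ∀ s ∈ S, ∀ s' ∈ S, s ≠ s' → Disjoint (T s) (T s')}) := by
  have hempty : ∀ (M : ℕ) (C Y : Finset (Fin n)),
      1 - (∑ s ∈ (∅ : Finset W), u s) / (M + 1) ≤ Ex r (ind {x : EdgeSlot n → Bool |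
        ∃ (c : W → Fin n) (T : W → Finset (Fin n)), Set.InjOn c (∅ : Finset W) ∧
          (∀ s ∈ (∅ : Finset W), c s ∈ C ∧ T s ⊆ Y ∧ #(T s) = deg s ∧ ∀ y ∈ T s, adj x (c s) y) ∧
          ∀ s ∈ (∅ : Finset W), ∀ s' ∈ (∅ : Finset W), s ≠ s' → Disjoint (T s) (T s')}) := by
    intro M C Y
    rw [sum_empty, zero_div, sub_zero, ← Ex_const (ι := EdgeSlot n) (p := r) 1]
    refine Ex_mono h0.le h1.le fun x => le_of_eq ?_
    rw [ind, if_pos ⟨fun _ => ⟨0, hn⟩, fun _ => ∅, by simp, by simp, by simp⟩]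
  induction M with
  | zero =>
    intro S hS C Y _ _ _
    rcases S.eq_empty_or_nonempty with rfl | ⟨s, hs⟩
    · exact hempty 0 C Y
    refine le_trans ?_ (Ex_nonneg h0.le h1.le fun _ => ind_nonneg _ _)
    have := single_le_sum (fun s hs => zero_le_one.trans (hu s (hS hs))) hs
    have := hu s (hS hs)
    simp only [Nat.cast_zero, zero_add, div_one]
    linarith
  | succ M ih =>
    intro S hS C Y hC hCY hY
    rcases S.eq_empty_or_nonempty with rfl | ⟨s, hs⟩
    · exact hempty _ C Y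
    obtain ⟨z, hz⟩ := card_pos.1 (by omega : 0 < #C)
    have hzY : z ∉ Y := disjoint_left.1 hCY hz
    have hM : (0 : ℝ) < M + 1 := by positivity
    have hus := hu s (hS hs)
    rcases le_total ((M : ℝ) + 2) (∑ s ∈ S, u s) with hT | hT
    · refine le_trans ?_ (Ex_nonneg h0.le h1.le fun _ => ind_nonneg _ _)
      rw [sub_nonpos, one_le_div (by positivity)]
      push_cast
      linarith
    have hCe : #(C.erase z) = M := by rw [card_erase_of_mem hz]; omega
    have hout : ∀ a ∈ C.erase z, ∀ y ∈ Y, ¬ z ∈ s(a, y) := fun a ha y hy h => by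
      rcases Sym2.mem_iff.1 h with h | h
      · exact (mem_erase.1 ha).1 h.symm
      · exact hzY (h ▸ hy)
    rw [Ex_pw h0 h1 (JJ fun e => z ∈ e)]
    refine le_trans ?_ (Ex_mono h0.le h1.le (f := fun x => 1 - (∑ s ∈ S, u s) / (M + 1) +
      u s / (M + 1) * ind {x : EdgeSlot n → Bool | deg s ≤ #{y ∈ Y | adj x z y}} x) fun x => ?_)
    · rw [Ex_add, Ex_const, Ex_const_mul]
      have e1 := mul_le_mul_of_nonneg_left (hπ s (hS hs) z Y hzY (by omega))
        (by positivity : 0 ≤ u s / (M + 1))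
      have e2 : u s / (M + 1) * (1 / u s) = 1 / (M + 1) := by field_simp
      have e3 : (∑ s ∈ S, u s) / (M + 1) - 1 / (M + 1) ≤ (∑ s ∈ S, u s) / (M + 1 + 1) := by
        rw [← sub_div, div_le_div_iff₀ hM (by positivity)]
        nlinarith
      push_cast
      linarith
    by_cases hx : x ∈ {x : EdgeSlot n → Bool | deg s ≤ #{y ∈ Y | adj x z y}}
    · rw [ind, if_pos hx]
      obtain ⟨T0, hT0, hT1⟩ := exists_subset_card_eq hx
      have hT2 : T0 ⊆ Y := hT0.trans (filter_subset _ _)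
      refine le_trans (le_of_eq ?_) ((ih (S.erase s) ((erase_subset _ _).trans hS) (C.erase z)
        (Y \ T0) hCe (hCY.mono (erase_subset _ _) sdiff_subset) ?_).trans
        (Ex_mono h0.le h1.le fun x' => ind_mono ?_))
      · rw [← add_sum_erase _ _ hs]
        ring
      · rw [card_sdiff_of_subset hT2, hT1]
        rw [← add_sum_erase _ _ hs] at hY
        omega
      · rintro ⟨c, T, e1, e2, e3⟩
        have e4 : ∀ s' ∈ S.erase s, Function.update c s z s' = c s' := fun s' hs' =>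
          Function.update_of_ne (mem_erase.1 hs').1 _ _
        have e5 : ∀ s' ∈ S, s' ≠ s → Disjoint T0 (T s') := fun s' hs' h =>
          disjoint_sdiff.mono_right (e2 s' (mem_erase.2 ⟨h, hs'⟩)).2.1
        refine ⟨Function.update c s z, Function.update T s T0, ?_, fun s' hs' => ?_,
          fun a ha b hb hab => ?_⟩
        · rw [← insert_erase hs, coe_insert, Set.injOn_insert (by simp)]
          refine ⟨fun a ha b hb h => e1 ha hb (by rwa [e4 a ha, e4 b hb] at h), ?_⟩
          rintro ⟨a, ha, h⟩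
          rw [e4 a ha, Function.update_self] at h
          exact (mem_erase.1 (e2 a ha).1).1 h
        · rcases eq_or_ne s' s with rfl | hne
          · simp only [Function.update_self]
            exact ⟨hz, hT2, hT1, fun y hy => adj_in (Sym2.mem_mk_left _ _)
              (mem_filter.1 (hT0 hy)).2⟩
          · simp only [Function.update_of_ne hne]
            obtain ⟨f1, f2, f3, f4⟩ := e2 s' (mem_erase.2 ⟨hne, hs'⟩)
            exact ⟨mem_of_mem_erase f1, f2.trans sdiff_subset, f3, fun y hy =>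
              adj_out (hout _ f1 _ (mem_sdiff.1 (f2 hy)).1) (f4 y hy)⟩
        · rcases eq_or_ne a s with rfl | h2
          · rw [Function.update_self, Function.update_of_ne hab.symm]
            exact e5 b hb hab.symm
          rcases eq_or_ne b s with rfl | h3
          · rw [Function.update_self, Function.update_of_ne hab]
            exact (e5 a ha hab).symm
          rw [Function.update_of_ne h2, Function.update_of_ne h3]
          exact e3 a (mem_erase.2 ⟨h2, ha⟩) b (mem_erase.2 ⟨h3, hb⟩) hab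
    · rw [ind, if_neg hx, mul_zero, add_zero]
      refine (ih S hS (C.erase z) Y hCe (hCY.mono_left (erase_subset _ _)) hY).trans
        (Ex_mono h0.le h1.le fun x' => ind_mono ?_)
      rintro ⟨c, T, e1, e2, e3⟩
      refine ⟨c, T, e1, fun s' hs' => ?_, e3⟩
      obtain ⟨f1, f2, f3, f4⟩ := e2 s' hs'
      exact ⟨mem_of_mem_erase f1, f2, f3, fun y hy => adj_out (hout _ f1 _ (f2 hy)) (f4 y hy)⟩

theorem star (h0 : 0 < r) (h1 : r < 1) (hW : Fintype.card W ≤ n) (Lf : Finset W) (cen : W → W)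
    (hcen : ∀ v ∈ Lf, cen v ∉ Lf) (u : W → ℝ) (g M : ℕ) (hn0 : 0 < n) (hn : M + g + #Lf ≤ n)
    (hu : ∀ s ∈ Lf.image cen, 1 ≤ u s)
    (hπ : ∀ s ∈ Lf.image cen, ∀ (z : Fin n) (Y : Finset (Fin n)), z ∉ Y → g ≤ #Y →
      1 / u s ≤ Ex r (ind {x : EdgeSlot n → Bool | #{v ∈ Lf | cen v = s} ≤ #{y ∈ Y | adj x z y}}))
    (hT : 2 * ∑ s ∈ Lf.image cen, u s ≤ M + 1) :
    Good n r fun v s => v ∈ Lf ∧ s = cen v := by
  obtain ⟨C, -, hC⟩ := exists_subset_card_eq (s := (univ : Finset (Fin n))) (n := M)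
    (by simp; omega)
  have := star_aux h0 h1 (Lf.image cen) (fun s => #{v ∈ Lf | cen v = s}) u g hn0 hu hπ M _ le_rfl
    C Cᶜ hC disjoint_compl_right (by
      rw [card_compl, hC, ← card_eq_sum_card_image, Fintype.card_fin]
      omega)
  refine good_of_injOn h0.le h1.le hW (Lf ∪ Lf.image cen : Finset W) ?_ (le_trans ?_ this) ?_
  · rintro a b ⟨ha, rfl⟩
    exact ⟨mem_union_left _ ha, mem_union_right _ (mem_image_of_mem _ ha)⟩
  · have : (∑ s ∈ Lf.image cen, u s) / (M + 1) ≤ 1 / 2 := by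
      rw [div_le_iff₀ (by positivity)]
      linarith
    linarith
  rintro x ⟨c, T, e1, e2, e3⟩
  have : Nonempty (Fin n) := ⟨⟨0, hn0⟩⟩
  have : ∀ s, ∃ f : W → Fin n, s ∈ Lf.image cen →
      (∀ v ∈ Lf, cen v = s → f v ∈ T s) ∧ Set.InjOn f ({v ∈ Lf | cen v = s} : Finset W) := by
    intro s
    by_cases hs : s ∈ Lf.image cen
    · obtain ⟨f, f1, f2⟩ := Set.Finite.exists_injOn_of_encard_le
        (s := (({v ∈ Lf | cen v = s} : Finset W) : Set W)) (t := (T s : Set (Fin n)))
        (finite_toSet _) (by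
          rw [Set.encard_coe_eq_coe_finsetCard, Set.encard_coe_eq_coe_finsetCard, (e2 s hs).2.2.1])
      exact ⟨f, fun _ => ⟨fun v hv h => f1 (mem_coe.2 (mem_filter.2 ⟨hv, h⟩)), f2⟩⟩
    · exact ⟨c, fun h => absurd h hs⟩
  choose f hf using this
  have hL : ∀ v ∈ Lf, f (cen v) v ∈ T (cen v) := fun v hv =>
    (hf _ (mem_image_of_mem _ hv)).1 v hv rfl
  have hLC : ∀ v ∈ Lf, f (cen v) v ∉ C := fun v hv =>
    mem_compl.1 ((e2 _ (mem_image_of_mem _ hv)).2.1 (hL v hv))
  refine ⟨fun v => if v ∈ Lf then f (cen v) v else c v, fun a ha b hb h => ?_, ?_⟩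
  · beta_reduce at h
    rw [mem_coe, mem_union] at ha hb
    split_ifs at h with h2 h3 h3
    · have h4 : cen a = cen b := by
        by_contra h4
        exact disjoint_left.1 (e3 _ (mem_image_of_mem _ h2) _ (mem_image_of_mem _ h3) h4)
          (hL a h2) (h ▸ hL b h3)
      rw [← h4] at h
      exact (hf _ (mem_image_of_mem _ h2)).2 (mem_coe.2 (mem_filter.2 ⟨h2, rfl⟩))
        (mem_coe.2 (mem_filter.2 ⟨h3, h4.symm⟩)) h
    · exact absurd (h ▸ (e2 b (hb.resolve_left h3)).1) (hLC a h2)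
    · exact absurd (h ▸ (e2 a (ha.resolve_left h2)).1) (hLC b h3)
    · exact e1 (ha.resolve_left h2) (hb.resolve_left h3) h
  · rintro a b ⟨ha, rfl⟩
    beta_reduce
    rw [if_pos ha, if_neg (hcen a ha)]
    exact ((e2 _ (mem_image_of_mem _ ha)).2.2.2 _ (hL a ha)).symm

theorem bip_good (h0 : 0 < r) (h1 : r < 1) (hW : Fintype.card W ≤ n) (A B : Finset W)
    (hAB : Disjoint A B) (R : W → W → Prop) (hR : ∀ v u, R v u → v ∈ B ∧ u ∈ A) {m ρ : ℝ} {N : ℕ}
    (hs1 : (#B : ℝ) ≤ m)
    (hs2 : ∀ I : Finset W, I ≠ ∅ → (#{v | ∀ u ∈ I, R v u} : ℝ) ≤ m * r ^ #I)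
    (hρ : 0 < ρ) (hl : ∀ v, (1 / r) ^ #{u | R v u} ≤ ρ) (hl2 : ∀ v, 2 ^ #{u | R v u} ≤ ρ)
    (hm : 1024 * m ≤ N) (hN : 0 < N) (hn : #A + N ≤ n)
    (hbig : 3 * N * Real.exp (-(N / (512 * ρ ^ 3))) ≤ 1 / 2) :
    ∃ τ : W → W → Bool, ∀ i, Good n r fun v u => R v u ∧ τ v u = i := by
  have hc : ∀ b : B, #{a : A | R b a} = #{u | R b u} := fun b => by
    rw [← card_map (Function.Embedding.subtype _)]
    congr 1
    ext u
    simp only [mem_map, mem_filter, mem_univ, true_and, Function.Embedding.coe_subtype,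
      Subtype.exists, exists_and_right, exists_eq_right]
    exact ⟨fun h => h.2, fun h => ⟨(hR _ _ h).2, h⟩⟩
  obtain ⟨τ, hτ⟩ := bip (A := A) (B := B) (Y := Fin N) h0 h1 (fun b => {a | R b a}) (m := m)
    (ρ := ρ) (by simpa using hs1) (fun I hI => by
      have := hs2 (I.map (Function.Embedding.subtype _)) (by simpa using hI)
      rw [card_map] at this
      refine le_trans (Nat.cast_le.2 (card_le_card_of_injOn Subtype.val (fun b hb => ?_)
        Subtype.val_injective.injOn)) this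
      simp only [coe_filter, mem_univ, true_and, Set.mem_ofPred_eq] at hb ⊢
      intro u hu
      obtain ⟨a, ha, rfl⟩ := mem_map.1 hu
      exact (mem_filter.1 (hb ha)).2) hρ (fun b => by rw [hc]; exact hl b)
    (fun b => by rw [hc]; exact hl2 b) (by simpa using hm) (by simpa using hN)
    (by simpa using hbig)
  obtain ⟨j⟩ : Nonempty (A ⊕ Fin N ↪ Fin n) :=
    Function.Embedding.nonempty_of_card_le (by simpa using hn)
  refine ⟨fun v u => if h : v ∈ B ∧ u ∈ A then decide (⟨u, h.2⟩ ∈ τ ⟨v, h.1⟩) else true,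
    fun i => ?_⟩
  refine good_of_injOn h0.le h1.le hW (A ∪ B : Finset W) (fun a b h =>
    ⟨mem_union_right _ (hR _ _ h.1).1, mem_union_left _ (hR _ _ h.1).2⟩) (E := {x | ∃ f : B → Fin N,
      Function.Injective f ∧ ∀ b : B, ∀ a : A, R b a → decide (a ∈ τ b) = i →
        adj x (j (.inr (f b))) (j (.inl a))}) ((hτ i).trans (marg h0.le h1.le
      (fun k => j (.inr k.1)) (fun k => j (.inl k.2)) (fun k => by simp) (fun k k' h => ?_) _ _
      fun x z h ⟨f, hf, h2⟩ => ⟨f, hf, fun b a h3 h4 => h (f b, a) (h2 b a (by simpa using h3) h4)⟩))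
    ?_
  · simpa [Prod.ext_iff] using h
  rintro x ⟨f, hf, h2⟩
  refine ⟨fun v => if h : v ∈ A then j (.inl ⟨v, h⟩) else if h : v ∈ B then j (.inr (f ⟨v, h⟩))
    else j (.inr ⟨0, hN⟩), fun a ha b hb h => ?_, fun v u ⟨h3, h4⟩ => ?_⟩
  · beta_reduce at h
    rw [mem_coe, mem_union] at ha hb
    by_cases h5 : a ∈ A <;> by_cases h6 : b ∈ A
    · simpa [h5, h6] using h
    · simp [h5, h6, hb.resolve_left h6] at h
    · simp [h5, h6, ha.resolve_left h5] at h
    · simpa [h5, h6, ha.resolve_left h5, hb.resolve_left h6, hf.eq_iff] using h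
  · obtain ⟨h5, h6⟩ := hR _ _ h3
    beta_reduce at h4 ⊢
    rw [dif_pos ⟨h5, h6⟩] at h4
    rw [dif_neg (disjoint_right.1 hAB h5), dif_pos h5, dif_pos h6]
    exact h2 ⟨v, h5⟩ ⟨u, h6⟩ h3 h4

end Crest.Agent.H1.Dec
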