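import Crest.Agent.H1.DecE

/-! Consequences of sparsity. -/

set_option autoImplicit false
set_option linter.unusedSectionVars false

noncomputable section

namespace Crest.Agent.H1.Dec

open Finset Crest.FinProb Crest.CombinatoricsR.RandomGraph Crest.Agent.H1.Cube
open Classical

variable {n : ℕ} {p : ℝ} {W : Type} [Fintype W] [DecidableEq W]

def copies (n : ℕ) (E : Finset (Sym2 W)) : Finset (Finset (Sym2 (Fin n))) :=
  univ.image fun ψ : W ↪ Fin n => E.image (Sym2.map ψ)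

def Sp (n : ℕ) (p : ℝ) (H : SimpleGraph W) : Prop :=
  ∀ E : Finset (Sym2 W), (∀ e ∈ E, e ∈ H.edgeSet) → E.Nonempty → 1 ≤ 2 * #(copies n E) * p ^ #E

lemma exists_p (hW : Fintype.card W ≤ n) {H : SimpleGraph W} (hH : H ≠ ⊥) :
    ∃ p : ℝ, 0 < p ∧ p ≤ 1 ∧ Sp n p H ∧ ∃ C : Finset (Finset (EdgeSlot n)),
      (∀ A : Finset (EdgeSlot n), H.IsContained (edgeGraph A) → ∃ S ∈ C, S ⊆ A) ∧
        ∑ S ∈ C, p ^ S.card ≤ 1 / 2 := by
  obtain ⟨ι⟩ : Nonempty (W ↪ Fin n) := Function.Embedding.nonempty_of_card_le (by simpa using hW)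
  have hc : ∀ E : Finset (Sym2 W), (1 : ℝ) ≤ #(copies n E) := fun E => by
    exact_mod_cast card_pos.2 ⟨_, mem_image_of_mem _ (mem_univ ι)⟩
  obtain ⟨e0, he0⟩ := SimpleGraph.edgeSet_nonempty.2 hH
  obtain ⟨E, hE, hmax⟩ := exists_max_image
    (univ.filter fun E : Finset (Sym2 W) => (∀ e ∈ E, e ∈ H.edgeSet) ∧ E.Nonempty)
    (fun E => (1 / (2 * #(copies n E)) : ℝ) ^ ((#E : ℝ)⁻¹)) ⟨{e0}, by simpa using he0⟩
  have hpow : ∀ E : Finset (Sym2 W), E.Nonempty →
      ((1 / (2 * #(copies n E)) : ℝ) ^ ((#E : ℝ)⁻¹)) ^ #E = 1 / (2 * #(copies n E)) :=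
    fun E hE => Real.rpow_inv_natCast_pow (by positivity) hE.card_pos.ne'
  obtain ⟨hE1, hE2⟩ := (mem_filter.1 hE).2
  have hcE := hc E
  refine ⟨(1 / (2 * #(copies n E)) : ℝ) ^ ((#E : ℝ)⁻¹), by positivity, Real.rpow_le_one (by positivity) (by
    rw [div_le_one (by positivity)]; linarith) (by positivity), fun E' h1 h2 => ?_,
    (copies n E).image fun F => univ.filter fun e => e.1 ∈ F, fun A ⟨φ⟩ => ?_, ?_⟩
  · have h3 := pow_le_pow_left₀ (by positivity) (hmax E' (mem_filter.2 ⟨mem_univ _, h1, h2⟩)) #E'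
    rw [hpow E' h2, div_le_iff₀ (by linarith [hc E'])] at h3
    linarith
  · refine ⟨_, mem_image_of_mem _ (mem_image_of_mem _ (mem_univ φ.toEmbedding)), fun e he => ?_⟩
    obtain ⟨e', h1, h2⟩ := mem_image.1 (mem_filter.1 he).2
    have h3 := hE1 e' h1
    induction e' using Sym2.ind with | _ a b
    have h4 : (edgeGraph A).Adj (φ a) (φ b) := φ.toHom.map_adj h3
    simp only [edgeGraph, SimpleGraph.fromEdgeSet_adj, Set.mem_ofPred_eq] at h4
    obtain ⟨⟨h5, h6⟩, -⟩ := h4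
    convert h6
    exact h2.symm
  · refine (sum_image_le_of_nonneg fun _ _ => by positivity).trans ?_
    rw [sum_congr rfl (g := fun _ => 1 / (2 * #(copies n E) : ℝ)) fun F hF => ?_, sum_const,
      nsmul_eq_mul]
    · exact le_of_eq (by field_simp)
    · obtain ⟨ψ, -, rfl⟩ := mem_image.1 hF
      refine Eq.trans (congrArg _ ?_) (hpow E hE2)
      rw [← card_image_of_injective E (Sym2.map.injective ψ.injective),
        ← card_map (Function.Embedding.subtype _)]
      congr 1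
      ext e
      simp only [mem_map, mem_filter, mem_univ, true_and, Function.Embedding.coe_subtype,
        Subtype.exists, exists_and_right, exists_eq_right]
      refine ⟨fun h => h.2, fun h => ⟨?_, h⟩⟩
      obtain ⟨e', h1, rfl⟩ := mem_image.1 h
      rw [Sym2.isDiag_map ψ.injective]
      exact H.not_isDiag_of_mem_edgeSet (hE1 e' h1)

lemma copies_le {X : Type} (E : Finset (Sym2 W)) (𝒳 : Finset X) (Ψ : X → Finset (Sym2 (Fin n)))
    (h : ∀ ψ : W ↪ Fin n, ∃ a ∈ 𝒳, Ψ a = E.image (Sym2.map ψ)) : #(copies n E) ≤ #𝒳 := by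
  refine le_trans (card_le_card fun F hF => ?_) (card_image_le (f := Ψ))
  obtain ⟨ψ, -, rfl⟩ := mem_image.1 hF
  exact mem_image.2 (h ψ)

lemma choose_le (N : ℕ) {t : ℕ} (ht : 0 < t) : (N.choose t : ℝ) ≤ (3 * N / t) ^ t := by
  have h1 := Nat.choose_le_pow_div (α := ℝ) t N
  have h2 := Real.pow_div_factorial_le_exp (t : ℝ) (Nat.cast_nonneg _) t
  have h3 : Real.exp t ≤ 3 ^ t := by
    rw [← mul_one (t : ℝ), Real.exp_nat_mul]
    exact pow_le_pow_left₀ (Real.exp_pos _).le Real.exp_one_lt_three.le _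
  have h4 : (0 : ℝ) < t := by exact_mod_cast ht
  refine h1.trans ?_
  rw [div_pow, mul_pow, div_le_div_iff₀ (by positivity) (by positivity)]
  have h5 := h2.trans h3
  rw [div_le_iff₀ (by positivity)] at h5
  calc (N : ℝ) ^ t * t ^ t ≤ N ^ t * (3 ^ t * t.factorial) :=
        mul_le_mul_of_nonneg_left h5 (by positivity)
    _ = _ := by ring

lemma low_vertex (h0 : 0 ≤ p) (h1 : p ≤ 1) (hn : 0 < n) {H : SimpleGraph W} (hs : Sp n p H)
    {T : Finset W} (hT : T.Nonempty) :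
    ∃ v ∈ T, 1 ≤ (2 * n : ℝ) ^ 2 * p ^ #{u ∈ T | H.Adj v u} := by
  obtain ⟨v, hv, hmin⟩ := exists_min_image T (fun v => #{u ∈ T | H.Adj v u}) hT
  refine ⟨v, hv, ?_⟩
  have hn' : (1 : ℝ) ≤ n := by exact_mod_cast hn
  set P := {q ∈ T ×ˢ T | H.Adj q.1 q.2} with hP
  set E := P.image fun q => s(q.1, q.2) with hE
  have e1 : #T * #{u ∈ T | H.Adj v u} ≤ #P := by
    rw [hP, card_filter _ (T ×ˢ T), sum_product]
    refine le_trans (card_nsmul_le_sum T _ _ hmin) (le_of_eq (sum_congr rfl fun a _ => ?_))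
    rw [card_filter]
  have e2 : #P ≤ 2 * #E := card_le_mul_card_image _ _ fun e he => by
    obtain ⟨q, -, rfl⟩ := mem_image.1 he
    refine (card_le_card fun q' hq' => ?_).trans (card_le_two (a := q) (b := q.swap))
    rcases Sym2.eq_iff.1 (mem_filter.1 hq').2 with h | h
    · exact mem_insert.2 (Or.inl (Prod.ext h.1 h.2))
    · exact mem_insert_of_mem (mem_singleton.2 (Prod.ext h.1 h.2))
  have hTc := hT.card_pos
  rcases E.eq_empty_or_nonempty with h | h
  · rw [h, card_empty] at e2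
    have : #{u ∈ T | H.Adj v u} = 0 := by
      by_contra h3
      have := Nat.mul_pos hTc (Nat.pos_of_ne_zero h3)
      omega
    rw [this, pow_zero, mul_one]
    nlinarith
  have e3 := hs E (fun e he => by
    obtain ⟨q, hq, rfl⟩ := mem_image.1 he
    exact (mem_filter.1 hq).2) h
  have e4 : #(copies n E) ≤ n ^ #T := by
    refine (copies_le E (univ : Finset (T → Fin n)) (fun a => E.image (Sym2.map fun v =>
      if h : v ∈ T then a ⟨v, h⟩ else ⟨0, hn⟩)) fun ψ => ⟨fun v => ψ v, mem_univ _, ?_⟩).trans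
      (by simp)
    refine image_congr fun e he => ?_
    obtain ⟨q, hq, rfl⟩ := mem_image.1 he
    obtain ⟨h2, h3⟩ := mem_product.1 (mem_filter.1 hq).1
    simp [h2, h3]
  have e5 : (2 * #(copies n E) : ℝ) ≤ (2 * n) ^ #T := by
    have h2 : (#(copies n E) : ℝ) ≤ n ^ #T := by exact_mod_cast e4
    have h3 : (2 : ℝ) ≤ 2 ^ #T := le_self_pow₀ (by norm_num) hTc.ne'
    rw [mul_pow]
    exact mul_le_mul h3 h2 (by positivity) (by positivity)
  have e6 : 1 ≤ ((2 * n : ℝ) ^ #T * p ^ #E) ^ 2 :=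
    one_le_pow₀ (e3.trans (mul_le_mul_of_nonneg_right e5 (by positivity)))
  refine (one_le_pow_iff_of_nonneg (by positivity) hTc.ne').1 (e6.trans ?_)
  rw [mul_pow, mul_pow ((2 * n : ℝ) ^ 2), ← pow_mul, ← pow_mul, ← pow_mul, ← pow_mul, mul_comm #T 2]
  exact mul_le_mul_of_nonneg_left (pow_le_pow_of_le_one h0 h1 (by nlinarith)) (by positivity)

lemma exists_rank (H : SimpleGraph W) (d : ℕ)
    (h : ∀ T : Finset W, T.Nonempty → ∃ v ∈ T, #{u ∈ T | H.Adj v u} ≤ d) :
    ∃ rk : W → ℕ, Function.Injective rk ∧ ∀ v, #{u | H.Adj v u ∧ rk u < rk v} ≤ d := by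
  suffices key : ∀ k, ∀ T : Finset W, #T = k → ∃ rk : W → ℕ, Set.InjOn rk T ∧ (∀ v ∈ T, rk v < k) ∧
      ∀ v ∈ T, #{u ∈ T | H.Adj v u ∧ rk u < rk v} ≤ d by
    obtain ⟨rk, h1, -, h3⟩ := key _ univ rfl
    exact ⟨rk, by simpa using h1, fun v => h3 v (mem_univ v)⟩
  intro k
  induction k with
  | zero =>
    intro T hT
    obtain rfl := card_eq_zero.1 hT
    exact ⟨fun _ => 0, by simp, by simp, by simp⟩
  | succ k ih =>
    intro T hT
    obtain ⟨v, hv, hd⟩ := h T (card_pos.1 (by omega))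
    obtain ⟨rk, h1, h2, h3⟩ := ih (T.erase v) (by rw [card_erase_of_mem hv]; omega)
    have e : ∀ u ∈ T, u ≠ v → rk u < k := fun u hu h => h2 u (mem_erase.2 ⟨h, hu⟩)
    refine ⟨Function.update rk v k, fun a ha b hb hab => ?_, fun u hu => ?_, fun u hu => ?_⟩
    · by_cases h4 : a = v <;> by_cases h5 : b = v
      · rw [h4, h5]
      · have := e b hb h5
        simp [h4, h5] at hab
        omega
      · have := e a ha h4
        simp [h4, h5] at hab
        omega
      · simp only [Function.update_of_ne h4, Function.update_of_ne h5] at hab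
        exact h1 (mem_erase.2 ⟨h4, ha⟩) (mem_erase.2 ⟨h5, hb⟩) hab
    · by_cases h4 : u = v
      · simp [h4]
      · have := e u hu h4
        simp [h4]
        omega
    · by_cases h4 : u = v
      · subst h4
        exact le_trans (card_le_card fun a ha =>
          mem_filter.2 ⟨(mem_filter.1 ha).1, (mem_filter.1 ha).2.1⟩) hd
      · refine le_trans (card_le_card fun a ha => ?_) (h3 u (mem_erase.2 ⟨h4, hu⟩))
        obtain ⟨h5, h6, h7⟩ := mem_filter.1 ha
        have h8 := e u hu h4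
        by_cases h9 : a = v
        · simp [h4, h9] at h7
          omega
        · simp only [Function.update_of_ne h4, Function.update_of_ne h9] at h7
          exact mem_filter.2 ⟨mem_erase.2 ⟨h9, h5⟩, h6, h7⟩

lemma biclique (h0 : 0 < p) (hn : 0 < n) {H : SimpleGraph W} (hs : Sp n p H) {T I : Finset W}
    (hI : I.Nonempty) (hTI : Disjoint T I) (h : ∀ v ∈ T, ∀ u ∈ I, H.Adj v u) :
    (#T : ℝ) ≤ 9 * n * p ^ #I ∨ (3 : ℝ) ^ #T ≤ 2 * n ^ #I := by
  rcases T.eq_empty_or_nonempty with rfl | hT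
  · left
    simp only [card_empty, Nat.cast_zero]
    positivity
  set E := (T ×ˢ I).image fun q => s(q.1, q.2) with hE
  have e1 : #E = #T * #I := by
    rw [hE, card_image_of_injOn, card_product]
    intro q hq q' hq' h
    obtain ⟨h1, h2⟩ := mem_product.1 hq
    obtain ⟨h3, h4⟩ := mem_product.1 hq'
    rcases Sym2.eq_iff.1 h with h | h
    · exact Prod.ext h.1 h.2
    · exact absurd (h.1 ▸ h4) (disjoint_left.1 hTI h1)
  have e3 := hs E (fun e he => by
    obtain ⟨q, hq, rfl⟩ := mem_image.1 he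
    exact h _ (mem_product.1 hq).1 _ (mem_product.1 hq).2) ((hT.product hI).image _)
  have e4 : #(copies n E) ≤ n.choose #T * n ^ #I := by
    refine (copies_le E (powersetCard #T univ ×ˢ powersetCard #I univ)
      (fun a => (a.1 ×ˢ a.2).image fun q => s(q.1, q.2))
      fun ψ => ⟨(T.map ψ, I.map ψ), by simp, ?_⟩).trans ?_
    · ext e
      simp only [hE, mem_image, mem_product, mem_map, Prod.exists]
      constructor
      · rintro ⟨_, _, ⟨⟨a, ha, rfl⟩, b, hb, rfl⟩, rfl⟩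
        exact ⟨_, ⟨a, b, ⟨ha, hb⟩, rfl⟩, rfl⟩
      · rintro ⟨_, ⟨a, b, ⟨ha, hb⟩, rfl⟩, rfl⟩
        exact ⟨_, _, ⟨⟨a, ha, rfl⟩, b, hb, rfl⟩, rfl⟩
    · simp only [card_product, card_powersetCard, card_univ, Fintype.card_fin]
      exact Nat.mul_le_mul_left _ (Nat.choose_le_pow _ _)
  have hTc : (0 : ℝ) < #T := by exact_mod_cast hT.card_pos
  have e5 : (#(copies n E) : ℝ) ≤ (3 * n / #T) ^ #T * n ^ #I := by
    refine le_trans (by exact_mod_cast e4) (mul_le_mul_of_nonneg_right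
      (choose_le n hT.card_pos) (by positivity))
  rw [or_iff_not_imp_left, not_le]
  intro h2
  have e6 : (3 * n / #T * p ^ #I : ℝ) ≤ 1 / 3 := by
    rw [div_mul_eq_mul_div, div_le_iff₀ hTc]
    linarith
  have e7 := pow_le_pow_left₀ (by positivity) e6 #T
  rw [mul_pow, ← pow_mul, mul_comm #I, ← e1, one_div_pow, le_div_iff₀ (by positivity)] at e7
  calc (3 : ℝ) ^ #T ≤ (2 * #(copies n E) * p ^ #E) * 3 ^ #T :=
        le_mul_of_one_le_left (by positivity) e3
    _ ≤ (2 * ((3 * n / #T) ^ #T * n ^ #I) * p ^ #E) * 3 ^ #T := by gcongr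
    _ = 2 * n ^ #I * ((3 * n / #T) ^ #T * p ^ #E * 3 ^ #T) := by ring
    _ ≤ _ := mul_le_of_le_one_right (by positivity) e7

lemma star_count (h0 : 0 < p) {H : SimpleGraph W} (hs : Sp n p H) (Lf : Finset W) (cen : W → W)
    (hcen : ∀ v ∈ Lf, cen v ∉ Lf) (hadj : ∀ v ∈ Lf, H.Adj v (cen v)) {d : ℕ} (hd : 0 < d) :
    (#{s ∈ Lf.image cen | #{v ∈ Lf | cen v = s} = d} : ℝ) ≤ 6 * n * (3 * n * p / d) ^ d := by
  set S := {s ∈ Lf.image cen | #{v ∈ Lf | cen v = s} = d} with hS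
  rcases S.eq_empty_or_nonempty with h | hne
  · simp only [h, card_empty, Nat.cast_zero]
    positivity
  set E := ({v ∈ Lf | cen v ∈ S}).image fun v => s(v, cen v) with hE
  have e1 : #E = #S * d := by
    rw [hE, card_image_of_injOn, card_eq_sum_card_fiberwise (f := cen) (t := S)
      (s := {v ∈ Lf | cen v ∈ S}) fun v hv => (mem_filter.1 hv).2, ← smul_eq_mul, ← sum_const]
    · refine sum_congr rfl fun s hs => ?_
      rw [← (mem_filter.1 hs).2]
      congr 1
      ext v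
      simp only [mem_filter]
      exact ⟨fun h => ⟨h.1.1, h.2⟩, fun h => ⟨⟨h.1, h.2 ▸ hs⟩, h.2⟩⟩
    · intro v hv v' hv' h
      rcases Sym2.eq_iff.1 h with h | h
      · exact h.1
      · exact absurd (h.1 ▸ (mem_filter.1 hv).1) (hcen v' (mem_filter.1 hv').1)
  have hSc := hne.card_pos
  have e3 := hs E (fun e he => by
    obtain ⟨v, hv, rfl⟩ := mem_image.1 he
    exact hadj v (mem_filter.1 hv).1) (card_pos.1 (e1 ▸ Nat.mul_pos hSc hd))
  have e4 : #(copies n E) ≤ (n * n.choose d).choose #S := by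
    refine (copies_le E (powersetCard #S (univ ×ˢ powersetCard d univ))
      (fun Z => Z.biUnion fun q => q.2.image fun y => s(y, q.1))
      fun ψ => ⟨S.image fun s => (ψ s, ({v ∈ Lf | cen v = s}).map ψ), ?_, ?_⟩).trans (by simp)
    · refine mem_powersetCard.2 ⟨fun q hq => ?_, card_image_of_injective _ fun a b h =>
        ψ.injective (Prod.ext_iff.1 h).1⟩
      obtain ⟨s, hs, rfl⟩ := mem_image.1 hq
      simpa using (mem_filter.1 hs).2
    · ext e
      constructor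
      · intro h
        obtain ⟨_, h1, h2⟩ := mem_biUnion.1 h
        obtain ⟨s, hs, rfl⟩ := mem_image.1 h1
        obtain ⟨_, h3, rfl⟩ := mem_image.1 h2
        obtain ⟨v, hv, rfl⟩ := mem_map.1 h3
        obtain ⟨h4, rfl⟩ := mem_filter.1 hv
        exact mem_image.2 ⟨_, mem_image_of_mem _ (mem_filter.2 ⟨h4, hs⟩), rfl⟩
      · intro h
        obtain ⟨_, h1, rfl⟩ := mem_image.1 h
        obtain ⟨v, hv, rfl⟩ := mem_image.1 h1
        obtain ⟨h2, h3⟩ := mem_filter.1 hv
        exact mem_biUnion.2 ⟨_, mem_image_of_mem _ h3,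
          mem_image.2 ⟨_, mem_map_of_mem _ (mem_filter.2 ⟨h2, rfl⟩), rfl⟩⟩
  have hSc' : (0 : ℝ) < #S := by exact_mod_cast hSc
  have e5 : (#(copies n E) : ℝ) ≤ (3 * (n * n.choose d : ℕ) / #S) ^ #S :=
    le_trans (by exact_mod_cast e4) (choose_le _ hSc)
  have e6 : (1 : ℝ) ≤ (6 * (n * n.choose d : ℕ) * p ^ d / #S) ^ #S := by
    have h3 : (2 : ℝ) ≤ 2 ^ #S := le_self_pow₀ (by norm_num) hSc.ne'
    calc (1 : ℝ) ≤ 2 * #(copies n E) * p ^ #E := e3
      _ ≤ 2 ^ #S * (3 * (n * n.choose d : ℕ) / #S) ^ #S * p ^ #E := by gcongr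
      _ = _ := by
          rw [e1, mul_comm #S, pow_mul, ← mul_pow, ← mul_pow]
          congr 1
          ring
  have e7 := (one_le_pow_iff_of_nonneg (by positivity) hSc.ne').1 e6
  rw [one_le_div hSc'] at e7
  refine e7.trans ?_
  push_cast
  calc (6 : ℝ) * (n * n.choose d) * p ^ d ≤ 6 * (n * (3 * n / d) ^ d) * p ^ d := by
        gcongr
        exact choose_le n hd
    _ = _ := by
        rw [div_pow, div_pow, mul_pow (3 * n : ℝ)]
        ring

end Crest.Agent.H1.Dec
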