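import Crest.Agent.H1.DecF

/-! Decomposition into boundedly many likely pieces. -/

set_option autoImplicit false
set_option linter.unusedSectionVars false
set_option linter.dupNamespace false

noncomputable section

namespace Crest.Agent.H1.Dec

open Finset Crest.FinProb Crest.CombinatoricsR.RandomGraph Crest.Agent.H1.Cube
open Classical

variable {n : ℕ} {p r : ℝ} {W : Type} [Fintype W] [DecidableEq W]

def Dec (n : ℕ) (r : ℝ) (k : ℕ) (R : W → W → Prop) : Prop :=
  ∃ S : Finset (W → W → Prop), #S ≤ k ∧ (∀ K ∈ S, Good n r K) ∧ ∀ a b, R a b → ∃ K ∈ S, K a b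

lemma Good.dec {R : W → W → Prop} (h : Good n r R) : Dec n r 1 R :=
  ⟨{R}, by simp, by simpa using h, by simp⟩

lemma Dec.mono {k k' : ℕ} {R : W → W → Prop} (h : Dec n r k R) (hk : k ≤ k') : Dec n r k' R :=
  let ⟨S, h1, h2⟩ := h
  ⟨S, h1.trans hk, h2⟩

lemma Dec.union {T : Type} [Fintype T] {k : ℕ} {R : W → W → Prop} (Rt : T → W → W → Prop)
    (h : ∀ t, Dec n r k (Rt t)) (hR : ∀ a b, R a b → ∃ t, Rt t a b) :
    Dec n r (Fintype.card T * k) R := by
  choose S h1 h2 h3 using h
  refine ⟨univ.biUnion S, card_biUnion_le_card_mul _ _ _ fun t _ => h1 t, fun K hK => ?_,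
    fun a b hab => ?_⟩
  · obtain ⟨t, -, ht⟩ := mem_biUnion.1 hK
    exact h2 t K ht
  · obtain ⟨t, ht⟩ := hR a b hab
    obtain ⟨K, hK, h4⟩ := h3 t a b ht
    exact ⟨K, mem_biUnion.2 ⟨t, mem_univ _, hK⟩, h4⟩

lemma cfm {P Q : W → Prop} {_ : DecidablePred P} {_ : DecidablePred Q} (h : ∀ a, P a → Q a) :
    #(univ.filter P) ≤ #(univ.filter Q) :=
  card_le_card fun a ha => mem_filter.2 ⟨mem_univ _, h a (by simpa using ha)⟩

lemma exists_split (s : Finset W) {k D : ℕ} (hk : 0 < k) (h : #s ≤ k * D) :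
    ∃ f : W → Fin k, ∀ i, #{u ∈ s | f u = i} ≤ D := by
  obtain ⟨e⟩ : Nonempty (s ↪ Fin k × Fin D) :=
    Function.Embedding.nonempty_of_card_le (by simpa using h)
  refine ⟨fun u => if h : u ∈ s then (e ⟨u, h⟩).1 else ⟨0, hk⟩, fun i => ?_⟩
  refine (card_le_card_of_injOn (t := range D)
    (fun u => if h : u ∈ s then ((e ⟨u, h⟩).2 : ℕ) else 0) (fun u hu => ?_)
    fun u hu v hv h => ?_).trans (card_range D).le
  · simp [(mem_filter.1 hu).1]
  · obtain ⟨h1, h2⟩ := mem_filter.1 hu
    obtain ⟨h3, h4⟩ := mem_filter.1 hv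
    simp only [dif_pos h1, dif_pos h3] at h h2 h4
    exact congrArg Subtype.val (e.injective (Prod.ext (h2.trans h4.symm) (Fin.ext h)))

lemma exists_parts (hW : Fintype.card W ≤ n) {k : ℕ} (hk : 0 < k) :
    ∃ f : W → Fin k, ∀ i, #{u | f u = i} ≤ n / k + 1 :=
  exists_split univ hk (hW.trans (Nat.lt_mul_div_succ n hk).le)

lemma exists_parity (cen : W → W) (rk : W → ℕ) :
    ∃ χ : W → Bool, ∀ v, rk (cen v) < rk v → χ v ≠ χ (cen v) := by
  suffices key : ∀ N, ∃ χ : W → Bool, ∀ v, rk v < N → rk (cen v) < rk v → χ v ≠ χ (cen v) by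
    obtain ⟨χ, h⟩ := key (univ.sup rk + 1)
    exact ⟨χ, fun v => h v (Nat.lt_succ_of_le (le_sup (mem_univ v)))⟩
  intro N
  induction N with
  | zero => exact ⟨fun _ => true, by simp⟩
  | succ N ih =>
    obtain ⟨χ, h⟩ := ih
    refine ⟨fun v => if rk v = N then !χ (cen v) else χ v, fun v h1 h2 => ?_⟩
    beta_reduce
    rw [if_neg (show rk (cen v) ≠ N by omega)]
    split_ifs with h3
    · simp
    · exact h v (by omega) h2

theorem dec_forest {L : ℝ} (hL : 100000 ≤ L) (h0 : 0 < p) (hr : r = L * p) (h1 : r < 1)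
    (hn : 100 ≤ n) (hW : Fintype.card W ≤ n) {H : SimpleGraph W} (hs : Sp n p H)
    (R : W → W → Prop) (rk : W → ℕ) (hR : ∀ v u, R v u → H.Adj v u ∧ rk u < rk v)
    (hD : ∀ v, #{u | R v u} ≤ 1) : Dec n r 32 R := by
  have hr0 : 0 < r := by rw [hr]; positivity
  have : ∀ v, ∃ c, (∃ u, R v u) → R v c := fun v => by
    by_cases h : ∃ u, R v u
    · exact ⟨h.choose, fun _ => h.choose_spec⟩
    · exact ⟨v, fun h2 => absurd h2 h⟩
  choose cen hcen using this
  obtain ⟨χ, hχ⟩ := exists_parity cen rk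
  obtain ⟨f, hf⟩ := exists_parts hW (k := 16) (by norm_num)
  refine Dec.union (T := Bool × Fin 16) (k := 1) (fun t v s => v ∈ ({v | (∃ u, R v u) ∧ χ v = t.1 ∧
    f v = t.2} : Finset W) ∧ s = cen v) (fun t => Good.dec ?_) fun a b h =>
      ⟨(χ a, f a), by simpa using ⟨b, h⟩,
        card_le_one.1 (hD a) _ (by simpa using h) _ (by simpa using hcen a ⟨b, h⟩)⟩
  set Lf : Finset W := {v | (∃ u, R v u) ∧ χ v = t.1 ∧ f v = t.2} with hLf
  have hL1 : ∀ v ∈ Lf, R v (cen v) := fun v hv => hcen v (mem_filter.1 hv).2.1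
  have hL2 : ∀ v ∈ Lf, cen v ∉ Lf := fun v hv h => hχ v (hR _ _ (hL1 v hv)).2
    ((mem_filter.1 hv).2.2.1.trans (mem_filter.1 h).2.2.1.symm)
  have hL3 : #Lf ≤ n / 16 + 1 := le_trans (card_le_card fun v hv => by
    simpa using (mem_filter.1 hv).2.2.2) (hf t.2)
  have hd : ∀ s ∈ Lf.image cen, 0 < #{v ∈ Lf | cen v = s} := fun s hs => by
    obtain ⟨v, hv, rfl⟩ := mem_image.1 hs
    exact card_pos.2 ⟨v, mem_filter.2 ⟨hv, rfl⟩⟩
  have hn' : (100 : ℝ) ≤ n := by exact_mod_cast hn
  refine star hr0 h1 hW Lf cen hL2 (fun s => 2 + (80 * #{v ∈ Lf | cen v = s} / (n * r)) ^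
    #{v ∈ Lf | cen v = s}) (n / 4) (n / 2) (by omega) (by omega)
    (fun s _ => le_add_of_le_of_nonneg one_le_two (by positivity)) (fun s hs z Y hz hY => ?_) ?_
  · have h2 := hd s hs
    have h3 : #{v ∈ Lf | cen v = s} ≤ n / 16 + 1 := (card_filter_le _ _).trans hL3
    generalize #{v ∈ Lf | cen v = s} = d at h2 h3
    refine le_trans ?_ (star_succ hr0.le h1.le h2 hz (h := n / 4 / (2 * d))
      ((Nat.mul_div_le _ _).trans hY))
    have h4 : 1 ≤ n / 4 / (2 * d) := (Nat.one_le_div_iff (by omega)).2 (by omega)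
    have h5 := Nat.lt_mul_div_succ (n / 4) (by omega : 0 < 2 * d)
    generalize n / 4 / (2 * d) = h at h4 h5
    have h6 : n ≤ 20 * (d * h) := by
      have : d ≤ d * h := Nat.le_mul_of_pos_right _ h4
      have e : 2 * d * (h + 1) = 2 * (d * h) + 2 * d := by ring
      omega
    have h7 : (n : ℝ) ≤ 20 * (d * h) := by exact_mod_cast h6
    have hd' : (0 : ℝ) < d := by exact_mod_cast h2
    have h8 : (0 : ℝ) < (80 * d / (n * r)) ^ d := by positivity
    split_ifs with hc
    · exact one_div_le_one_div_of_le (by norm_num) (by linarith)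
    · refine (one_div_le_one_div_of_le h8 (by linarith)).trans ?_
      rw [← one_div_pow, one_div_div]
      refine pow_le_pow_left₀ (by positivity) ?_ _
      have e1 := one_add_mul_le_pow (a := r) (by linarith) h
      have e2 : (1 + r) ^ h * (1 - r) ^ h ≤ 1 := by
        rw [← mul_pow]
        exact pow_le_one₀ (by nlinarith) (by nlinarith)
      have e3 : 0 ≤ (1 - r) ^ h := pow_nonneg (by linarith) _
      have e4 := mul_le_mul_of_nonneg_right e1 e3
      have e5 : 0 ≤ h * r := by positivity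
      have e6 : h * r / 4 ≤ 1 - (1 - r) ^ h := by nlinarith [not_le.1 hc]
      refine le_trans ?_ e6
      rw [div_le_div_iff₀ (by positivity) (by norm_num)]
      nlinarith
  · rw [sum_add_distrib, sum_const, nsmul_eq_mul]
    have e1 : (#(Lf.image cen) : ℝ) ≤ n / 16 + 1 := by
      have : (#(Lf.image cen) : ℝ) ≤ ((n / 16 + 1 : ℕ) : ℝ) := by
        exact_mod_cast card_image_le.trans hL3
      push_cast at this
      linarith [Nat.cast_div_le (α := ℝ) (m := n) (n := 16)]
    have e2 : ∑ s ∈ Lf.image cen, (80 * #{v ∈ Lf | cen v = s} / (n * r)) ^ #{v ∈ Lf | cen v = s}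
        ≤ n / 32 := by
      rw [← sum_fiberwise_of_maps_to (g := fun s => #{v ∈ Lf | cen v = s} - 1) (t := range n)
        fun s hs => mem_range.2 (by
          have := (card_filter_le Lf fun v => cen v = s).trans hL3
          omega)]
      calc _ ≤ ∑ k ∈ range n, n / 32 * (1 / 2 : ℝ) ^ (k + 1) := by
            refine sum_le_sum fun k _ => ?_
            have e3 : {s ∈ Lf.image cen | #{v ∈ Lf | cen v = s} - 1 = k} =
                {s ∈ Lf.image cen | #{v ∈ Lf | cen v = s} = k + 1} :=
              filter_congr fun s hs => by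
                have := hd s hs
                omega
            rw [e3, sum_congr rfl (g := fun _ => (80 * (k + 1 : ℕ) / (n * r)) ^ (k + 1))
              fun s hs => by rw [(mem_filter.1 hs).2], sum_const, nsmul_eq_mul]
            refine (mul_le_mul_of_nonneg_right (star_count h0 hs Lf cen hL2
              (fun v hv => (hR _ _ (hL1 v hv)).1) k.succ_pos) (by positivity)).trans ?_
            have e4 : 3 * n * p / (k + 1 : ℕ) * (80 * (k + 1 : ℕ) / (n * r)) = 240 / L := by
              rw [hr]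
              field_simp
              norm_num
            have e5 : 240 / L ≤ 1 / 400 := by
              rw [div_le_iff₀ (by linarith)]
              linarith
            have e6 : (240 / L) ^ k ≤ (1 / 2) ^ k :=
              pow_le_pow_left₀ (by positivity) (by linarith) _
            rw [mul_assoc, ← mul_pow, e4, pow_succ, pow_succ]
            have e7 := mul_le_mul e6 e5 (by positivity) (by positivity)
            have e8 : (0 : ℝ) ≤ (1 / 2) ^ k := by positivity
            nlinarith
        _ ≤ _ := by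
            rw [← mul_sum]
            refine mul_le_of_le_one_right (by positivity) ?_
            have : ∀ I : ℕ, ∑ i ∈ range I, (1 / 2 : ℝ) ^ (i + 1) = 1 - (1 / 2) ^ I := fun I => by
              induction I with
              | zero => simp
              | succ n ih => rw [sum_range_succ, ih]; ring
            rw [this]
            exact sub_le_self _ (by positivity)
    have e3 : (n : ℝ) ≤ 2 * ((n / 2 : ℕ) + 1) := by exact_mod_cast (by omega)
    linarith

theorem dec_dense {L : ℝ} (hL : 100000 ≤ L) (h0 : 0 < p) (hr : r = L * p) (h1 : r < 1)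
    {t D : ℕ} (ht : 64 ≤ t) (hn1 : t ^ 33 ≤ n) (hn2 : n ≤ t ^ 40) (hp : (1 / p) ^ D ≤ t)
    (hW : Fintype.card W ≤ n) {H : SimpleGraph W} (hs : Sp n p H)
    (R : W → W → Prop) (rk : W → ℕ) (hR : ∀ v u, R v u → H.Adj v u ∧ rk u < rk v)
    (hD : ∀ v, #{u | R v u} ≤ D) : Dec n r (2 * 8192) R := by
  have hr0 : 0 < r := by rw [hr]; positivity
  have hpr : p ≤ r := by rw [hr]; nlinarith
  have ht0 : 0 < t := by omega
  have ht' : (64 : ℝ) ≤ t := by exact_mod_cast ht
  have hp2 : 2 ≤ 1 / p := by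
    rw [le_div_iff₀ h0]
    nlinarith
  have h2D : (2 : ℝ) ^ D ≤ t := (pow_le_pow_left₀ (by norm_num) hp2 D).trans hp
  have hDt : D ≤ t := by
    have : 2 ^ D ≤ t := by exact_mod_cast h2D
    exact (Nat.lt_two_pow_self).le.trans this
  have hrD : ∀ d ≤ D, (1 / r) ^ d ≤ t := fun d hd =>
    (pow_le_pow_left₀ (by positivity) (one_div_le_one_div_of_le h0 hpr) d).trans
      ((pow_le_pow_right₀ (by linarith) hd).trans hp)
  have hrD' : ∀ d ≤ D, 1 / t ≤ r ^ d := fun d hd => by
    have := hrD d hd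
    rwa [one_div_pow, one_div_le (by positivity) (by positivity)] at this
  have hpw : ∀ a b, a < b → 64 * t ^ a ≤ t ^ b := fun a b h =>
    le_trans (by rw [pow_succ, mul_comm]; exact Nat.mul_le_mul_left _ ht)
      (Nat.pow_le_pow_right ht0 (Nat.succ_le_of_lt h))
  have hexp : 6 * (n : ℝ) ≤ Real.exp (t ^ 9) := by
    have e1 := Real.pow_div_factorial_le_exp ((t : ℝ) ^ 9) (by positivity) 5
    have e2 : 720 * n ≤ t ^ 45 := by
      have := hpw 40 41 (by norm_num)
      have := hpw 41 45 (by norm_num)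
      omega
    have e3 : (720 : ℝ) * n ≤ t ^ 45 := by exact_mod_cast e2
    rw [← pow_mul] at e1
    norm_num [Nat.factorial] at e1
    linarith
  have hexp' : ∀ y : ℝ, t ^ 9 ≤ y → 3 * n * Real.exp (-y) ≤ 1 / 2 := fun y hy => by
    have := Real.exp_le_exp.2 hy
    rw [Real.exp_neg, ← div_eq_mul_inv, div_le_iff₀ (Real.exp_pos _)]
    linarith
  set A : Finset W := {u | t ^ 20 < #{v | R v u}} with hA
  have hAc : #A ≤ t ^ 21 := by
    have e1 : #A * t ^ 20 ≤ ∑ u, #{v | R v u} :=
      le_trans (card_nsmul_le_sum A _ _ fun u hu => (mem_filter.1 hu).2.le)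
        (sum_le_sum_of_subset (subset_univ _))
    have e2 : ∑ u, #{v | R v u} = ∑ v, #{u | R v u} := by
      simp only [card_filter]
      exact sum_comm
    have e3 : ∑ v, #{u | R v u} ≤ t ^ 40 * t :=
      (sum_le_card_nsmul _ _ _ fun v _ => (hD v).trans hDt).trans
        (Nat.mul_le_mul_right _ (hW.trans hn2))
    refine Nat.le_of_mul_le_mul_right ((e1.trans (e2.le.trans e3)).trans (le_of_eq (by ring)))
      (pow_pos ht0 20)
  have q1 := hpw 0 3 (by norm_num)
  rw [pow_zero] at q1
  have q2 := hpw 3 10 (by norm_num)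
  have q3 := hpw 10 12 (by norm_num)
  have q4 := hpw 12 21 (by norm_num)
  have q5 := hpw 21 32 (by norm_num)
  have q6 := hpw 32 33 (by norm_num)
  refine Dec.union (T := Bool) (fun b v u => R v u ∧ decide (u ∈ A ∧ v ∉ A) = b) (fun b => ?_)
    fun a b h => ⟨_, h, rfl⟩
  cases b
  · obtain ⟨f, hf⟩ := exists_parts hW (k := 4) (by norm_num)
    refine (Dec.union (T := Fin 4 × Fin 4) (k := 1) (fun c v u => (R v u ∧ ¬ (u ∈ A ∧ v ∉ A)) ∧
      f v = c.1 ∧ f u = c.2) (fun c => Good.dec ?_) fun a b h =>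
        ⟨(f a, f b), ⟨h.1, by simpa using h.2⟩, rfl, rfl⟩).mono (by simp)
    refine greedy hr0 h1 hW _ rk (fun v u h => (hR _ _ h.1.1).2) 
      (univ.filter (fun v => f v = c.1) ∪ univ.filter fun v => f v = c.2)
      (fun v u h => ⟨by simp [h.2.1], by simp [h.2.2]⟩) (D := D) (Δ := t ^ 21) (R0 := t ^ 10)
      (fun v => le_trans (cfm fun u hu => hu.1.1) (hD v))
      (fun u => ?_) ?_ (by omega) ?_
    · by_cases h : u ∈ A
      · refine le_trans (cfm fun v hv => ?_) hAc
        by_contra h2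
        exact hv.1.2 ⟨h, fun h3 => h2 (mem_filter.1 h3).2⟩
      · have : #{v | R v u} ≤ t ^ 20 := by simpa [hA] using h
        exact le_trans (cfm fun v hv => hv.1.1)
          (this.trans (Nat.pow_le_pow_right ht0 (by norm_num)))
    · have e1 := card_union_le ({v | f v = c.1} : Finset W) {v | f v = c.2}
      have e2 := hf c.1
      have e3 := hf c.2
      have e4 : D * (t ^ 10 * t ^ 21) ≤ t ^ 32 :=
        (Nat.mul_le_mul_right _ hDt).trans (le_of_eq (by ring))
      omega
    · have e1 : 1 - r ^ D ≤ Real.exp (-(1 / t)) := by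
        linarith [Real.add_one_le_exp (-(1 / (t : ℝ))), hrD' D le_rfl]
      have e2 := pow_le_pow_left₀ (sub_nonneg.2 (pow_le_one₀ hr0.le h1.le)) e1 (t ^ 10)
      rw [← Real.exp_nat_mul, mul_neg] at e2
      have e3 := hexp' ((t ^ 10 : ℕ) * (1 / t)) (le_of_eq (by push_cast; field_simp))
      have e4 := Real.exp_pos (-((t ^ 10 : ℕ) * (1 / (t : ℝ))))
      have e5 : (0 : ℝ) ≤ n := Nat.cast_nonneg _
      nlinarith
  · obtain ⟨f, hf⟩ := exists_parts hW (k := 4096) (by norm_num)
    refine (Dec.union (T := Fin 4096) (k := 2) (fun c v u => R v u ∧ u ∈ A ∧ v ∉ A ∧ f v = c)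
      (fun c => ?_) fun a b h => ⟨f a, h.1, by simpa using h.2⟩).mono (by simp)
    generalize hR' : (fun v u => R v u ∧ u ∈ A ∧ v ∉ A ∧ f v = c) = R'
    have hR2 : ∀ v u, R' v u → R v u ∧ u ∈ A ∧ v ∉ A ∧ f v = c := fun v u h => by
      rwa [← hR'] at h
    have hsub : ∀ v, #{u | R' v u} ≤ D := fun v => le_trans (cfm fun u hu => (hR2 _ _ hu).1) (hD v)
    have hN : (n : ℝ) ≤ 2 * (n - n / 4 : ℕ) := by exact_mod_cast (by omega)
    have hN2 : ((n - n / 4 : ℕ) : ℝ) ≤ n := by exact_mod_cast (by omega)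
    obtain ⟨τ, hτ⟩ := bip_good hr0 h1 hW A {v | v ∉ A ∧ f v = c}
      (disjoint_left.2 fun v h1 h2 => (mem_filter.1 h2).2.1 h1)
      R' (fun v u h => ⟨by simpa using (hR2 _ _ h).2.2, (hR2 _ _ h).2.1⟩)
      (m := n / 2048) (ρ := t) (N := n - n / 4) (by
        have e1 : #{v | v ∉ A ∧ f v = c} ≤ n / 4096 + 1 :=
          le_trans (card_le_card fun v hv => by simpa using (mem_filter.1 hv).2.2) (hf c)
        have e2 : 2048 * #{v | v ∉ A ∧ f v = c} ≤ n := by omega
        rw [le_div_iff₀ (by norm_num), mul_comm]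
        exact_mod_cast e2) (fun I hI => by
        set T : Finset W := {v | ∀ u ∈ I, R' v u} with hT
        rcases T.eq_empty_or_nonempty with h | ⟨v0, hv0⟩
        · simp only [h, card_empty, Nat.cast_zero]
          positivity
        have hI' := nonempty_iff_ne_empty.2 hI
        have e1 : #I ≤ D := le_trans (card_le_card fun u hu =>
          mem_filter.2 ⟨mem_univ _, (mem_filter.1 hv0).2 u hu⟩) (hsub v0)
        rcases biclique h0 (by omega) hs hI' (T := T) (disjoint_left.2 fun v h1 h2 =>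
          (hR2 _ _ ((mem_filter.1 h1).2 v h2)).2.2.1 (hR2 _ _ ((mem_filter.1 h1).2 v h2)).2.1)
          (fun v hv u hu => (hR _ _ (hR2 _ _ ((mem_filter.1 hv).2 u hu)).1).1) with h | h
        · refine h.trans ?_
          have e2 : L ≤ L ^ #I := le_self_pow₀ (by linarith) hI'.card_pos.ne'
          have e3 : 0 ≤ n * p ^ #I := by positivity
          rw [hr, mul_pow]
          nlinarith
        · have e2 : 2 * n ^ #I ≤ 3 ^ (40 * t ^ 2 + 1) := by
            calc 2 * n ^ #I ≤ 3 * ((3 ^ t) ^ 40) ^ t := by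
                  refine Nat.mul_le_mul (by norm_num) ((Nat.pow_le_pow_right (by omega)
                    (e1.trans hDt)).trans (Nat.pow_le_pow_left (hn2.trans (Nat.pow_le_pow_left
                      (Nat.lt_pow_self (by norm_num)).le _)) _))
              _ = _ := by
                  rw [← pow_mul, ← pow_mul, pow_succ']
                  congr 2
                  ring
          have e3 : #T ≤ 40 * t ^ 2 + 1 := by
            have : 3 ^ #T ≤ 2 * n ^ #I := by exact_mod_cast h
            exact (Nat.pow_le_pow_iff_right (by norm_num)).1 (this.trans e2)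
          have e4 : #T * t * 2048 ≤ n := by
            have e5 : #T * t ≤ 40 * t ^ 3 + t :=
              (Nat.mul_le_mul_right _ e3).trans (le_of_eq (by ring))
            have := hpw 1 3 (by norm_num)
            rw [pow_one] at this
            omega
          have e5 : (#T : ℝ) * t * 2048 ≤ n := by exact_mod_cast e4
          refine le_trans ?_ (mul_le_mul_of_nonneg_left (hrD' _ e1) (by positivity))
          rw [mul_one_div, div_div, le_div_iff₀ (by positivity)]
          linarith) (by positivity) (fun v => hrD _ (hsub v))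
      (fun v => (pow_le_pow_right₀ (by norm_num) (hsub v)).trans h2D) (by linarith) (by omega)
      (by omega) (by
        refine le_trans ?_ (hexp' ((n - n / 4 : ℕ) / (512 * t ^ 3)) ?_)
        · gcongr
        · have e1 : 1024 * t ^ 12 ≤ n := by omega
          have e2 : (1024 : ℝ) * t ^ 12 ≤ n := by exact_mod_cast e1
          rw [le_div_iff₀ (by positivity)]
          nlinarith)
    exact (Dec.union (T := Bool) (k := 1) _ (fun i => (hτ i).dec)
      fun a b h => ⟨τ a b, h, rfl⟩).mono (by simp)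

end Crest.Agent.H1.Dec
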