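import Mathlib

/-! Arithmetic of the rotation by `√2`. -/

set_option autoImplicit false

namespace Crest.Agent.H1.EC

open Complex

noncomputable def ee (t : ℝ) : ℂ := exp (((2 * Real.pi * t : ℝ) : ℂ) * I)

noncomputable def al : ℝ := Real.sqrt 2

lemma norm_ee (t : ℝ) : ‖ee t‖ = 1 := Complex.norm_exp_ofReal_mul_I _

lemma ee_add (s t : ℝ) : ee (s + t) = ee s * ee t := by
  unfold ee; rw [← exp_add]; congr 1; push_cast; ring

lemma ee_int (m : ℤ) : ee m = 1 := by
  unfold ee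
  rw [← Complex.exp_int_mul_two_pi_mul_I m]; congr 1; push_cast; ring

lemma ee_zero : ee 0 = 1 := by simpa using ee_int 0

lemma ee_sub_int (t : ℝ) (m : ℤ) : ee (t - m) = ee t := by
  have := ee_add (t - m) m
  rw [sub_add_cancel, ee_int, mul_one] at this; exact this.symm

lemma norm_ee_sub_one (t : ℝ) : ‖ee t - 1‖ = 2 * |Real.sin (Real.pi * t)| := by
  unfold ee
  rw [mul_comm _ I, Complex.norm_exp_I_mul_ofReal_sub_one, Real.norm_eq_abs, abs_mul]
  congr 2
  · norm_num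
  · ring_nf

lemma ee_upper (t : ℝ) (m : ℤ) : ‖ee t - 1‖ ≤ 7 * |t - m| := by
  rw [← ee_sub_int t m, norm_ee_sub_one]
  have h1 := Real.abs_sin_le_abs (x := Real.pi * (t - m))
  rw [abs_mul, abs_of_pos Real.pi_pos] at h1
  have := Real.pi_lt_d2
  nlinarith [abs_nonneg (t - m)]

lemma ee_lower (t : ℝ) : 4 * |t - round t| ≤ ‖ee t - 1‖ := by
  rw [← ee_sub_int t (round t), norm_ee_sub_one]
  have h := abs_sub_round t
  generalize t - round t = p at h
  have h1 : |Real.sin (Real.pi * p)| = Real.sin (Real.pi * |p|) := by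
    have hp : Real.pi * |p| ≤ Real.pi := by nlinarith [Real.pi_pos]
    rcases le_total 0 p with h0 | h0
    · rw [abs_of_nonneg h0] at hp ⊢
      exact abs_of_nonneg (Real.sin_nonneg_of_nonneg_of_le_pi (by positivity) hp)
    · rw [abs_of_nonpos h0] at hp ⊢
      rw [mul_neg, Real.sin_neg, abs_of_nonpos]
      have := Real.sin_nonneg_of_nonneg_of_le_pi (x := Real.pi * -p)
        (mul_nonneg Real.pi_pos.le (by linarith)) hp
      rw [mul_neg, Real.sin_neg] at this; linarith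
  rw [h1]
  have := Real.mul_le_sin (x := Real.pi * |p|) (by positivity) (by nlinarith [Real.pi_pos])
  have e : 2 / Real.pi * (Real.pi * |p|) = 2 * |p| := by field_simp
  linarith

lemma norm_ee_sub (s t : ℝ) : ‖ee s - ee t‖ = ‖ee (s - t) - 1‖ := by
  have : ee s - ee t = (ee (s - t) - 1) * ee t := by
    rw [sub_mul, ← ee_add, sub_add_cancel, one_mul]
  rw [this, norm_mul, norm_ee, mul_one]

lemma ee_lip (s t : ℝ) : ‖ee s - ee t‖ ≤ 7 * |s - t| := by
  rw [norm_ee_sub]; simpa using ee_upper (s - t) 0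

lemma sq_norm_sub_one {z : ℂ} (hz : ‖z‖ = 1) : ‖z - 1‖ ^ 2 = 2 * (1 - z.re) := by
  have h : z.re ^ 2 + z.im ^ 2 = 1 := by
    have := Complex.sq_norm z
    rw [hz, Complex.normSq_apply] at this; linarith
  rw [Complex.sq_norm, Complex.normSq_apply]
  simp only [sub_re, one_re, sub_im, one_im]; nlinarith

lemma dioph (n : ℕ) (hn : 1 ≤ n) (m : ℤ) : 1 / (4 * (n : ℝ)) ≤ |n * al - m| := by
  by_contra hlt
  push Not at hlt
  have hn' : (1 : ℝ) ≤ n := by exact_mod_cast hn
  have h2 : al * al = 2 := Real.mul_self_sqrt (by norm_num)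
  have h0 : 0 < al := Real.sqrt_pos.2 (by norm_num)
  have h3 : al < 1.5 := by nlinarith
  have hne : (2 * (n : ℤ) ^ 2 - m ^ 2) ≠ 0 := by
    intro h
    have hr : (2 : ℝ) * n ^ 2 = m ^ 2 := by
      have : ((2 * (n : ℤ) ^ 2 - m ^ 2 : ℤ) : ℝ) = 0 := by rw [h]; simp
      push_cast at this; linarith
    have : al = |(m : ℝ)| / n := by
      rw [eq_div_iff (by positivity)]
      have h5 : (al * n) ^ 2 = |(m : ℝ)| ^ 2 := by rw [sq_abs, mul_pow, sq al, h2]; exact hr
      exact (pow_left_inj₀ (by positivity) (abs_nonneg _) two_ne_zero).1 h5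
    apply irrational_sqrt_two
    refine ⟨|(m : ℚ)| / n, ?_⟩
    change _ = al
    rw [this]; push_cast; rfl
  have h4 : (1 : ℝ) ≤ |(2 : ℝ) * n ^ 2 - m ^ 2| := by
    have := Int.one_le_abs hne
    have h' : ((1 : ℤ) : ℝ) ≤ ((|2 * (n : ℤ) ^ 2 - m ^ 2| : ℤ) : ℝ) := by exact_mod_cast this
    push_cast at h'; exact h'
  have e : (2 : ℝ) * n ^ 2 - m ^ 2 = (n * al - m) * (n * al + m) := by
    linear_combination (-(n : ℝ) ^ 2) * h2
  rw [e, abs_mul] at h4
  have h5 : 1 / (4 * (n : ℝ)) ≤ 1 / 4 := by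
    apply one_div_le_one_div_of_le <;> linarith
  have h6 : |n * al + m| ≤ 4 * n := by
    have : n * al + m = 2 * (n * al) - (n * al - m) := by ring
    rw [this]
    refine (abs_sub _ _).trans ?_
    rw [abs_of_pos (by positivity)]
    nlinarith
  have h7 : |n * al - m| * (4 * n) < 1 := by rwa [lt_div_iff₀ (by positivity)] at hlt
  nlinarith [abs_nonneg (n * al - m)]

lemma sep (t : ℝ) (n : ℕ) (hn : 1 ≤ n) : 1 / (n : ℝ) ≤ ‖ee (t + n * al) - ee t‖ := by
  rw [norm_ee_sub, add_sub_cancel_left]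
  refine le_trans ?_ (ee_lower _)
  have := dioph n hn (round (n * al))
  have e : 1 / (n : ℝ) = 4 * (1 / (4 * n)) := by field_simp
  linarith

lemma gap (t L : ℝ) (hL : 0 < L) :
    ∃ k : ℕ, (k : ℝ) ≤ 5 * (1 / L + 1) ^ 2 ∧ ∃ m : ℤ, |t + k * al - m| ≤ L := by
  obtain ⟨j, k, hk0, hkn, hjk⟩ := Real.exists_int_int_abs_mul_sub_le al
    (n := ⌈1 / L⌉₊) (Nat.ceil_pos.2 (by positivity))
  obtain ⟨k, rfl⟩ := Int.eq_ofNat_of_zero_le hk0.le
  have hk1 : 1 ≤ k := by exact_mod_cast hk0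
  have hkn' : (k : ℝ) ≤ 1 / L + 1 := by
    have : (k : ℝ) ≤ (⌈1 / L⌉₊ : ℝ) := by exact_mod_cast hkn
    exact this.trans (Nat.ceil_lt_add_one (by positivity)).le
  have hβL : |k * al - j| ≤ L := by
    have h1 : 1 / L ≤ (⌈1 / L⌉₊ : ℝ) + 1 := by linarith [Nat.le_ceil (1 / L)]
    have : 1 / ((⌈1 / L⌉₊ : ℝ) + 1) ≤ L := by
      rw [div_le_iff₀ (by positivity)]; rw [div_le_iff₀ hL] at h1; linarith
    push_cast at hjk; exact hjk.trans this
  have hd := dioph k hk1 j
  have hk1' : (1 : ℝ) ≤ k := by exact_mod_cast hk1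
  have key : ∀ s β : ℝ, 0 < β → 1 / (4 * (k : ℝ)) ≤ β → ∃ i : ℕ, (i : ℝ) ≤ 5 * k ∧
      |s + i * β - ⌈s⌉| ≤ β := by
    intro s β hβ hβ2
    have c0 : 0 ≤ (⌈s⌉ - s) := by linarith [Int.le_ceil s]
    have c1 : (⌈s⌉ - s) ≤ 1 := by linarith [Int.ceil_lt_add_one s]
    refine ⟨⌈(⌈s⌉ - s) / β⌉₊, ?_, ?_⟩
    · have h1 := Nat.ceil_lt_add_one (show 0 ≤ (⌈s⌉ - s) / β by positivity)
      have h2 : (⌈s⌉ - s) / β ≤ 4 * k := by
        rw [div_le_iff₀ hβ]; rw [div_le_iff₀ (by positivity)] at hβ2; linarith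
      linarith
    · have h1 := Nat.ceil_lt_add_one (show 0 ≤ (⌈s⌉ - s) / β by positivity)
      have h2 := Nat.le_ceil ((⌈s⌉ - s) / β)
      rw [div_le_iff₀ hβ] at h2
      have h3 : (⌈(⌈s⌉ - s) / β⌉₊ : ℝ) * β ≤ (⌈s⌉ - s) + β := by
        have := mul_le_mul_of_nonneg_right h1.le hβ.le
        rwa [add_mul, div_mul_cancel₀ _ hβ.ne', one_mul] at this
      rw [abs_le]; constructor <;> linarith
  have hb : ∀ i : ℕ, (i : ℝ) ≤ 5 * k → ((i * k : ℕ) : ℝ) ≤ 5 * (1 / L + 1) ^ 2 := by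
    intro i hi
    push_cast
    have : (k : ℝ) * k ≤ (1 / L + 1) ^ 2 := by rw [sq]; gcongr
    nlinarith
  have hpos : 0 < 1 / (4 * (k : ℝ)) := by positivity
  rcases le_total 0 (k * al - j) with h0 | h0
  · rw [abs_of_nonneg h0] at hd hβL
    obtain ⟨i, hi, hi2⟩ := key t _ (by linarith) hd
    refine ⟨i * k, hb i hi, ⌈t⌉ + i * j, ?_⟩
    push_cast
    rw [show t + i * k * al - (⌈t⌉ + i * j) = t + i * (k * al - j) - ⌈t⌉ by ring]
    linarith
  · rw [abs_of_nonpos h0] at hd hβL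
    obtain ⟨i, hi, hi2⟩ := key (-t) _ (by linarith) hd
    refine ⟨i * k, hb i hi, -⌈-t⌉ + i * j, ?_⟩
    push_cast
    rw [show t + i * k * al - (-⌈-t⌉ + i * j) = -(-t + i * -(k * al - j) - ⌈-t⌉) by ring, abs_neg]
    linarith

lemma prod_bound (t L : ℝ) (hL : 0 < L) (hL2 : L ≤ 2) (m : ℕ)
    (h : ∀ k < m, L ≤ ‖ee (t - (k + 1 : ℕ) * al) - 1‖) :
    ∏ k ∈ Finset.range m, ‖ee (t - (k + 1 : ℕ) * al) - 1‖⁻¹ ≤ 4 * Real.exp (4 * m) / L ^ 2 := by
  classical
  rcases Nat.eq_zero_or_pos m with rfl | hm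
  · simp only [Finset.range_zero, Finset.prod_empty, Nat.cast_zero, mul_zero, Real.exp_zero, mul_one]
    rw [le_div_iff₀ (by positivity)]; nlinarith
  have hm' : (0 : ℝ) < m := by exact_mod_cast hm
  let p : ℕ → ℝ := fun k => (t - (k + 1 : ℕ) * al) - round (t - (k + 1 : ℕ) * al)
  let J : ℕ → Prop × ℕ := fun k => (0 ≤ p k, ⌊|p k| * (4 * m)⌋₊)
  let g : ℕ → ℝ := fun j => if j = 0 then 2 / L else 2 * m / j
  have hp : ∀ k, |p k| ≤ 1 / 2 := fun k => abs_sub_round _
  have hJ : ∀ k, (J k).2 ≤ 2 * m := by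
    intro k
    apply Nat.floor_le_of_le
    push_cast; nlinarith [hp k]
  have hg1 : ∀ j ≤ 2 * m, 1 ≤ g j := by
    intro j hj
    simp only [g]
    split_ifs with h0
    · rw [le_div_iff₀ hL]; linarith
    · have : (0 : ℝ) < j := by exact_mod_cast Nat.pos_of_ne_zero h0
      rw [le_div_iff₀ this, one_mul]; exact_mod_cast hj
  have hinj : Set.InjOn J (Finset.range m : Set ℕ) := by
    have aux : ∀ k k', k < k' → k' < m → J k ≠ J k' := by
      intro k k' hk hk' he
      have e1 : (0 ≤ p k) = (0 ≤ p k') := congrArg Prod.fst he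
      have e2 : ⌊|p k| * (4 * m)⌋₊ = ⌊|p k'| * (4 * m)⌋₊ := congrArg Prod.snd he
      have a1 := Nat.floor_le (show 0 ≤ |p k| * (4 * m) by positivity)
      have a2 := Nat.lt_floor_add_one (|p k| * (4 * m))
      have a3 := Nat.floor_le (show 0 ≤ |p k'| * (4 * m) by positivity)
      have a4 := Nat.lt_floor_add_one (|p k'| * (4 * m))
      rw [← e2] at a3 a4
      have b : |p k - p k'| * (4 * m) < 1 := by
        have hab : |p k - p k'| = |(|p k| - |p k'|)| := by
          by_cases h0 : 0 ≤ p k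
          · have h0' : 0 ≤ p k' := e1 ▸ h0
            rw [abs_of_nonneg h0, abs_of_nonneg h0']
          · have h0' : ¬ 0 ≤ p k' := e1 ▸ h0
            rw [abs_of_neg (not_le.1 h0), abs_of_neg (not_le.1 h0'), ← abs_neg]; congr 1; ring
        rw [hab, ← abs_of_pos (show (0 : ℝ) < 4 * m by positivity), ← abs_mul, abs_lt]
        constructor <;> nlinarith
      have d := dioph (k' - k) (by omega)
        (round (t - (k + 1 : ℕ) * al) - round (t - (k' + 1 : ℕ) * al))
      have e3 : ((k' - k : ℕ) : ℝ) * al - ((round (t - (k + 1 : ℕ) * al)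
          - round (t - (k' + 1 : ℕ) * al) : ℤ) : ℝ) = p k - p k' := by
        simp only [p]; rw [Nat.cast_sub hk.le]; push_cast; ring
      rw [e3, div_le_iff₀ (by have : (0 : ℝ) < (k' - k : ℕ) := by exact_mod_cast (by omega)
                              positivity)] at d
      have : ((k' - k : ℕ) : ℝ) ≤ m := by exact_mod_cast (by omega)
      nlinarith [abs_nonneg (p k - p k')]
    intro k hk k' hk' he
    have hk1 := Finset.mem_range.1 hk
    have hk2 := Finset.mem_range.1 hk'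
    rcases lt_trichotomy k k' with h1 | h1 | h1
    · exact absurd he (aux _ _ h1 hk2)
    · exact h1
    · exact absurd he.symm (aux _ _ h1 hk1)
  have step1 : ∏ k ∈ Finset.range m, ‖ee (t - (k + 1 : ℕ) * al) - 1‖⁻¹ ≤
      ∏ k ∈ Finset.range m, g (J k).2 := by
    refine Finset.prod_le_prod (fun k _ => by positivity) fun k hk => ?_
    have h1 := h k (Finset.mem_range.1 hk)
    have hy : 0 < ‖ee (t - (k + 1 : ℕ) * al) - 1‖ := hL.trans_le h1
    simp only [g]
    split_ifs with h0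
    · rw [inv_eq_one_div, div_le_div_iff₀ hy hL]; linarith
    · have hj : (0 : ℝ) < (J k).2 := by exact_mod_cast Nat.pos_of_ne_zero h0
      have a1 : ((J k).2 : ℝ) ≤ |p k| * (4 * m) := Nat.floor_le (by positivity)
      have a2 : 4 * |p k| ≤ ‖ee (t - (k + 1 : ℕ) * al) - 1‖ := ee_lower _
      rw [inv_eq_one_div, div_le_div_iff₀ hy hj]; nlinarith
  have step2 : ∏ k ∈ Finset.range m, g (J k).2 ≤
      ∏ q ∈ (Finset.univ : Finset Prop) ×ˢ Finset.range (2 * m + 1), g q.2 := by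
    rw [← Finset.prod_image (f := fun q : Prop × ℕ => g q.2) hinj]
    refine Finset.prod_le_prod_of_subset_of_one_le ?_ ?_ ?_
    · intro q hq
      obtain ⟨k, -, rfl⟩ := Finset.mem_image.1 hq
      exact Finset.mem_product.2 ⟨Finset.mem_univ _, Finset.mem_range.2 (Nat.lt_succ_of_le (hJ k))⟩
    · intro q hq
      obtain ⟨k, -, rfl⟩ := Finset.mem_image.1 hq
      exact zero_le_one.trans (hg1 _ (hJ k))
    · intro q hq _
      exact hg1 _ (Nat.le_of_lt_succ (Finset.mem_range.1 (Finset.mem_product.1 hq).2))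
  have step3 : ∏ j ∈ Finset.range (2 * m + 1), g j ≤ 2 / L * Real.exp (2 * m) := by
    rw [Finset.prod_range_succ']
    have e : ∏ j ∈ Finset.range (2 * m), g (j + 1) = (2 * m : ℝ) ^ (2 * m) / (2 * m).factorial := by
      simp only [g, Nat.succ_ne_zero, if_false]
      rw [Finset.prod_div_distrib, Finset.prod_const, Finset.card_range,
        ← Finset.prod_range_add_one_eq_factorial]
      push_cast; rfl
    rw [e]
    have := Real.pow_div_factorial_le_exp (2 * m : ℝ) (by positivity) (2 * m)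
    simp only [g, if_true]
    rw [mul_comm]; gcongr
  refine step1.trans (step2.trans ?_)
  rw [Finset.prod_product]
  simp only [Finset.prod_const, Finset.card_univ, Fintype.card_prop]
  have h0 : 0 ≤ ∏ j ∈ Finset.range (2 * m + 1), g j :=
    Finset.prod_nonneg fun j hj =>
      zero_le_one.trans (hg1 _ (Nat.le_of_lt_succ (Finset.mem_range.1 hj)))
  calc _ ≤ (2 / L * Real.exp (2 * m)) ^ 2 := by gcongr
    _ = _ := by
      rw [mul_pow, sq (Real.exp _), ← Real.exp_add]; field_simp; ring_nf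

end Crest.Agent.H1.EC
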