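import Crest.Agent.H1.ECQ
import Crest.Agent.H1.ECAr

/-! The homogeneous fibre maps: definitions, smoothness, homogeneity, Lipschitz bounds. -/

set_option autoImplicit false

namespace Crest.Agent.H1.EC

open Real

abbrev E3 := EuclideanSpace ℂ (Fin 3)

noncomputable def mk3 (a b c : ℂ) : E3 := WithLp.toLp 2 ![a, b, c]

@[simp] lemma mk3_0 (a b c : ℂ) : mk3 a b c 0 = a := rfl
@[simp] lemma mk3_1 (a b c : ℂ) : mk3 a b c 1 = b := rfl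
@[simp] lemma mk3_2 (a b c : ℂ) : mk3 a b c 2 = c := rfl

lemma E3_ext {x y : E3} (h0 : x 0 = y 0) (h1 : x 1 = y 1) (h2 : x 2 = y 2) : x = y := by
  ext i; fin_cases i <;> assumption

lemma mk3_sub (a b c a' b' c' : ℂ) : mk3 a b c - mk3 a' b' c' = mk3 (a - a') (b - b') (c - c') :=
  E3_ext rfl rfl rfl

lemma norm_sq_E3 (x : E3) : ‖x‖ ^ 2 = ‖x 0‖ ^ 2 + ‖x 1‖ ^ 2 + ‖x 2‖ ^ 2 := by
  rw [EuclideanSpace.norm_sq_eq, Fin.sum_univ_three]

lemma norm_E3_le (x : E3) : ‖x‖ ≤ ‖x 0‖ + ‖x 1‖ + ‖x 2‖ := by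
  have := norm_sq_E3 x
  have a := norm_nonneg (x 0)
  have b := norm_nonneg (x 1)
  have c := norm_nonneg (x 2)
  apply (pow_le_pow_iff_left₀ (norm_nonneg _) (by positivity) two_ne_zero).1
  nlinarith [mul_nonneg a b, mul_nonneg b c, mul_nonneg a c]

lemma norm_mk3_00 (a : ℂ) : ‖mk3 a 0 0‖ = ‖a‖ := by
  have := norm_sq_E3 (mk3 a 0 0)
  simp only [mk3_0, mk3_1, mk3_2, norm_zero] at this
  apply (pow_left_inj₀ (norm_nonneg _) (norm_nonneg _) two_ne_zero).1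
  linarith

lemma norm_app (x : E3) (i : Fin 3) : ‖x i‖ ≤ ‖x‖ := PiLp.norm_apply_le x i

@[fun_prop] lemma contDiff_app (i : Fin 3) : ContDiff ℝ 1 fun x : E3 => x i :=
  ((EuclideanSpace.proj i : E3 →L[ℂ] ℂ).restrictScalars ℝ).contDiff

@[fun_prop] lemma contDiff_mk3 : ContDiff ℝ 1 fun p : ℂ × ℂ × ℂ => mk3 p.1 p.2.1 p.2.2 := by
  have h : (fun p : ℂ × ℂ × ℂ => mk3 p.1 p.2.1 p.2.2) = fun p =>
      p.1 • mk3 1 0 0 + p.2.1 • mk3 0 1 0 + p.2.2 • mk3 0 0 1 := by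
    funext p; apply E3_ext <;> simp
  rw [h]; fun_prop

lemma contDiffAt_mk3 {X : Type*} [NormedAddCommGroup X] [NormedSpace ℝ X] {a b c : X → ℂ} {x : X}
    (ha : ContDiffAt ℝ 1 a x) (hb : ContDiffAt ℝ 1 b x) (hc : ContDiffAt ℝ 1 c x) :
    ContDiffAt ℝ 1 (fun y => mk3 (a y) (b y) (c y)) x :=
  contDiff_mk3.contDiffAt.comp x (ha.prodMk (hb.prodMk hc))

noncomputable def lam : ℝ := 55 * KQ * exp 5
noncomputable def av (z : ℂ) : ℂ := lam * (z - 1)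
noncomputable def sg (τ : ℝ) (z : ℂ) : ℝ := (1 - z.re - 2 * exp (-τ)) * exp (2 * τ) * 1638400
noncomputable def hh (k : ℝ) (τ : ℝ) (z : ℂ) : ℝ := smoothTransition (sg τ z - k)
noncomputable def ph (τ : ℝ) (z : ℂ) : ℝ := π / 2 * smoothTransition (z.im * exp τ * 256 + 1 / 2)
noncomputable def iv (τ : ℝ) (z : ℂ) : ℂ :=
  (starRingEnd ℂ) (z - 1) * (((lam * (2 * exp (-τ)) * den (‖z - 1‖ ^ 2 * (exp τ / 2)))⁻¹ : ℝ) : ℂ)

lemma lam_pos : 0 < lam := by unfold lam; have := one_le_KQ; positivity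

@[fun_prop] lemma contDiff_av : ContDiff ℝ 1 av := by unfold av; fun_prop
@[fun_prop] lemma contDiff_sg : ContDiff ℝ 1 fun p : ℝ × ℂ => sg p.1 p.2 := by unfold sg; fun_prop
@[fun_prop] lemma contDiff_hh (k : ℝ) : ContDiff ℝ 1 fun p : ℝ × ℂ => hh k p.1 p.2 := by
  unfold hh; fun_prop
@[fun_prop] lemma contDiff_ph : ContDiff ℝ 1 fun p : ℝ × ℂ => ph p.1 p.2 := by unfold ph; fun_prop
@[fun_prop] lemma contDiff_iv : ContDiff ℝ 1 fun p : ℝ × ℂ => iv p.1 p.2 := by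
  unfold iv
  have h1 : ContDiff ℝ 1 fun p : ℝ × ℂ => ‖p.2 - 1‖ ^ 2 := contDiff_nsq.comp (by fun_prop)
  have h2 : ContDiff ℝ 1 fun p : ℝ × ℂ =>
      lam * (2 * exp (-p.1)) * den (‖p.2 - 1‖ ^ 2 * (exp p.1 / 2)) := by fun_prop
  have h3 := h2.inv fun p => by
    have := lam_pos
    have := den_pos (show 0 ≤ ‖p.2 - 1‖ ^ 2 * (exp p.1 / 2) by positivity)
    positivity
  have h4 : ContDiff ℝ 1 fun p : ℝ × ℂ => (starRingEnd ℂ) (p.2 - 1) :=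
    Complex.conjCLE.contDiff.comp (by fun_prop)
  exact h4.mul (contDiff_ofReal.comp h3)

noncomputable def uh (τ : ℝ) (z : ℂ) (x : E3) : ℂ :=
  (hh 3 τ z : ℂ) * x 0 + ((1 - hh 3 τ z : ℝ) : ℂ) *
    ((cos (ph τ z) : ℂ) * x 1 + (sin (ph τ z) : ℂ) * x 2)

noncomputable def gm (τ : ℝ) (z : ℂ) : ℝ := hh 0 τ z - hh 4 τ z

noncomputable def rc (τ : ℝ) (z : ℂ) (x : E3) : E3 :=
  mk3 (iv τ z * uh τ z x)
    (iv τ z * (x 1 - ((gm τ z * cos (ph τ z) : ℝ) : ℂ) * uh τ z x))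
    (iv τ z * (x 2 - ((gm τ z * sin (ph τ z) : ℝ) : ℂ) * uh τ z x))

noncomputable def Psi : ℕ → ℝ → ℂ → ℝ → E3 → ℂ
  | 0, _, _, _, _ => 0
  | n + 1, τ, z, N, x => ((1 - hh 1 τ (z * ee (-al)) : ℝ) : ℂ) * x 0 +
      (hh 1 τ (z * ee (-al)) : ℂ) *
        (5 * Q N (Psi n τ (z * ee (-al)) N (rc τ (z * ee (-al)) x)))

noncomputable def G (n : ℕ) (τ : ℝ) (z : ℂ) (N : ℝ) (x : E3) : E3 :=
  mk3 (((1 - hh 2 τ z : ℝ) : ℂ) * (5 * Q N (Psi n τ z N x)) + (hh 2 τ z : ℂ) * (av z * x 0))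
    (av z * ((hh 0 τ z : ℂ) * x 1 + ((gm τ z * cos (ph τ z) : ℝ) : ℂ) * x 0))
    (av z * ((hh 0 τ z : ℂ) * x 2 + ((gm τ z * sin (ph τ z) : ℝ) : ℂ) * x 0))

@[fun_prop] lemma contDiff_gm : ContDiff ℝ 1 fun p : ℝ × ℂ => gm p.1 p.2 := by unfold gm; fun_prop
@[fun_prop] lemma contDiff_uh : ContDiff ℝ 1 fun p : ℝ × ℂ × E3 => uh p.1 p.2.1 p.2.2 := by
  unfold uh; fun_prop
@[fun_prop] lemma contDiff_rc : ContDiff ℝ 1 fun p : ℝ × ℂ × E3 => rc p.1 p.2.1 p.2.2 := by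
  unfold rc; fun_prop

lemma contDiffAt_Psi (n : ℕ) : ∀ p : ℝ × ℂ × ℝ × E3, p.2.2.1 ≠ 0 →
    ContDiffAt ℝ 1 (fun p : ℝ × ℂ × ℝ × E3 => Psi n p.1 p.2.1 p.2.2.1 p.2.2.2) p := by
  induction n with
  | zero => intro p _; exact contDiffAt_const
  | succ n ih =>
    intro p hp
    simp only [Psi]
    have h1 : ContDiff ℝ 1 fun p : ℝ × ℂ × ℝ × E3 =>
        (p.1, p.2.1 * ee (-al), p.2.2.1, rc p.1 (p.2.1 * ee (-al)) p.2.2.2) := by fun_prop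
    have h2 := (ih (p.1, p.2.1 * ee (-al), p.2.2.1, rc p.1 (p.2.1 * ee (-al)) p.2.2.2) hp).comp p
      h1.contDiffAt
    have h3 := contDiffAt_Q (N := fun p : ℝ × ℂ × ℝ × E3 => p.2.2.1) (by fun_prop) h2 hp
    refine ContDiffAt.add (ContDiff.contDiffAt (by fun_prop))
      (ContDiffAt.mul (ContDiff.contDiffAt (by fun_prop)) (contDiffAt_const.mul h3))

lemma contDiffAt_G (n : ℕ) (p : ℝ × ℂ × ℝ × E3) (hp : p.2.2.1 ≠ 0) :
    ContDiffAt ℝ 1 (fun p : ℝ × ℂ × ℝ × E3 => G n p.1 p.2.1 p.2.2.1 p.2.2.2) p := by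
  unfold G
  have h3 := contDiffAt_Q (N := fun p : ℝ × ℂ × ℝ × E3 => p.2.2.1) (by fun_prop)
    (contDiffAt_Psi n p hp) hp
  refine contDiffAt_mk3 ?_ (ContDiff.contDiffAt ?_) (ContDiff.contDiffAt ?_)
  · exact ContDiffAt.add (ContDiffAt.mul (ContDiff.contDiffAt (by fun_prop))
      (contDiffAt_const.mul h3)) (ContDiff.contDiffAt (by fun_prop))
  · fun_prop
  · fun_prop

/-! homogeneity -/

lemma smul_app (c : ℝ) (x : E3) (i : Fin 3) : (c • x) i = (c : ℂ) * x i := by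
  simp

lemma rc_smul (τ : ℝ) (z : ℂ) (c : ℝ) (x : E3) : rc τ z (c • x) = c • rc τ z x := by
  apply E3_ext <;> simp only [rc, uh, smul_app, mk3_0, mk3_1, mk3_2] <;> ring

lemma rc_sub (τ : ℝ) (z : ℂ) (x y : E3) : rc τ z x - rc τ z y = rc τ z (x - y) := by
  apply E3_ext <;> simp only [rc, uh, PiLp.sub_apply, mk3_0, mk3_1, mk3_2] <;> ring

lemma Psi_smul {c : ℝ} (hc : 0 < c) (n : ℕ) (τ N : ℝ) : ∀ (z : ℂ) (x : E3),
    Psi n τ z (c * N) (c • x) = c * Psi n τ z N x := by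
  induction n with
  | zero => intro z x; simp [Psi]
  | succ n ih =>
    intro z x
    simp only [Psi]
    rw [rc_smul, ih, Q_smul hc, smul_app]; ring

lemma G_smul {c : ℝ} (hc : 0 < c) (n : ℕ) (τ N : ℝ) (z : ℂ) (x : E3) :
    G n τ z (c * N) (c • x) = c • G n τ z N x := by
  apply E3_ext <;> simp only [G, smul_app, mk3_0, mk3_1, mk3_2, Psi_smul hc, Q_smul hc] <;> ring

lemma rc_zero (τ : ℝ) (z : ℂ) : rc τ z 0 = 0 := by
  have := rc_smul τ z 0 0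
  simpa using this

lemma Psi_zero (n : ℕ) (τ N : ℝ) : ∀ z : ℂ, Psi n τ z N 0 = 0 := by
  induction n with
  | zero => intro z; rfl
  | succ n ih => intro z; simp [Psi, rc_zero, ih, Q_zero]

lemma G_zero (n : ℕ) (τ N : ℝ) (z : ℂ) : G n τ z N 0 = 0 := by
  apply E3_ext <;> simp [G, Psi_zero, Q_zero]

/-! coefficients -/

lemma hh_nonneg (k τ : ℝ) (z : ℂ) : 0 ≤ hh k τ z := smoothTransition.nonneg _
lemma hh_le_one (k τ : ℝ) (z : ℂ) : hh k τ z ≤ 1 := smoothTransition.le_one _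
lemma hh_zero {k τ : ℝ} {z : ℂ} (h : sg τ z ≤ k) : hh k τ z = 0 :=
  smoothTransition.zero_of_nonpos (by linarith)
lemma hh_one {k τ : ℝ} {z : ℂ} (h : k + 1 ≤ sg τ z) : hh k τ z = 1 :=
  smoothTransition.one_of_one_le (by linarith)
lemma abs_gm (τ : ℝ) (z : ℂ) : |gm τ z| ≤ 1 := by
  unfold gm
  have := hh_nonneg 0 τ z; have := hh_le_one 0 τ z
  have := hh_nonneg 4 τ z; have := hh_le_one 4 τ z
  rw [abs_le]; constructor <;> linarith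

lemma norm_coe_mul_le {c : ℝ} (hc : |c| ≤ 1) (w : ℂ) : ‖(c : ℂ) * w‖ ≤ ‖w‖ := by
  rw [norm_mul, Complex.norm_real, Real.norm_eq_abs]
  exact mul_le_of_le_one_left (norm_nonneg _) hc

lemma abs_hh (k τ : ℝ) (z : ℂ) : |hh k τ z| ≤ 1 := by
  rw [abs_of_nonneg (hh_nonneg _ _ _)]; exact hh_le_one _ _ _
lemma abs_one_sub_hh (k τ : ℝ) (z : ℂ) : |1 - hh k τ z| ≤ 1 := by
  have := hh_nonneg k τ z; have := hh_le_one k τ z
  rw [abs_le]; constructor <;> linarith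
lemma abs_gc (τ : ℝ) (z : ℂ) : |gm τ z * cos (ph τ z)| ≤ 1 := by
  rw [abs_mul]; exact mul_le_one₀ (abs_gm _ _) (abs_nonneg _) (abs_cos_le_one _)
lemma abs_gs (τ : ℝ) (z : ℂ) : |gm τ z * sin (ph τ z)| ≤ 1 := by
  rw [abs_mul]; exact mul_le_one₀ (abs_gm _ _) (abs_nonneg _) (abs_sin_le_one _)

lemma norm_uh (τ : ℝ) (z : ℂ) (x : E3) : ‖uh τ z x‖ ≤ 3 * ‖x‖ := by
  unfold uh
  refine (norm_add_le _ _).trans ?_
  have a := norm_coe_mul_le (abs_hh 3 τ z) (x 0)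
  have b := norm_coe_mul_le (abs_one_sub_hh 3 τ z)
    ((cos (ph τ z) : ℂ) * x 1 + (sin (ph τ z) : ℂ) * x 2)
  have c := norm_add_le ((cos (ph τ z) : ℂ) * x 1) ((sin (ph τ z) : ℂ) * x 2)
  have d := norm_coe_mul_le (abs_cos_le_one (ph τ z)) (x 1)
  have e := norm_coe_mul_le (abs_sin_le_one (ph τ z)) (x 2)
  linarith [norm_app x 0, norm_app x 1, norm_app x 2]

lemma norm_rc (τ : ℝ) (z : ℂ) (x : E3) : ‖rc τ z x‖ ≤ 11 * ‖iv τ z‖ * ‖x‖ := by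
  refine (norm_E3_le _).trans ?_
  simp only [rc, mk3_0, mk3_1, mk3_2, norm_mul (iv τ z)]
  have a := norm_uh τ z x
  have b := (norm_sub_le (x 1) _).trans
    (add_le_add (norm_app x 1) ((norm_coe_mul_le (abs_gc τ z) (uh τ z x)).trans a))
  have c := (norm_sub_le (x 2) _).trans
    (add_le_add (norm_app x 2) ((norm_coe_mul_le (abs_gs τ z) (uh τ z x)).trans a))
  have h := norm_nonneg (iv τ z)
  nlinarith

noncomputable def Lp : ℕ → ℝ → ℂ → ℝ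
  | 0, _, _ => 0
  | n + 1, τ, z => (1 - hh 1 τ (z * ee (-al))) +
      hh 1 τ (z * ee (-al)) * (55 * KQ * ‖iv τ (z * ee (-al))‖ * Lp n τ (z * ee (-al)))

lemma Lp_nonneg (n : ℕ) (τ : ℝ) : ∀ z, 0 ≤ Lp n τ z := by
  induction n with
  | zero => intro z; exact le_rfl
  | succ n ih =>
    intro z
    simp only [Lp]
    have := hh_nonneg 1 τ (z * ee (-al)); have := hh_le_one 1 τ (z * ee (-al))
    have := ih (z * ee (-al)); have := one_le_KQ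
    have : 0 ≤ 1 - hh 1 τ (z * ee (-al)) := by linarith
    positivity

lemma Psi_lip (n : ℕ) (τ : ℝ) {N N' : ℝ} (hN : 0 < N) (hN' : 0 < N') : ∀ (z : ℂ) (x x' : E3),
    ‖Psi n τ z N x - Psi n τ z N' x'‖ ≤ Lp n τ z * ‖x - x'‖ + (10 * KQ) ^ n * |N - N'| := by
  induction n with
  | zero => intro z x x'; simp [Psi, Lp]
  | succ n ih =>
    intro z x x'
    simp only [Psi, Lp]
    generalize z * ee (-al) = y
    have h0 := hh_nonneg 1 τ y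
    have h1 := hh_le_one 1 τ y
    have hK := one_le_KQ
    have a := ih y (rc τ y x) (rc τ y x')
    rw [rc_sub] at a
    have b := norm_rc τ y (x - x')
    have c := Q_lip (Psi n τ y N (rc τ y x)) (Psi n τ y N' (rc τ y x')) hN hN'
    have e : ((1 - hh 1 τ y : ℝ) : ℂ) * x 0 + (hh 1 τ y : ℂ) * (5 * Q N (Psi n τ y N (rc τ y x))) -
        (((1 - hh 1 τ y : ℝ) : ℂ) * x' 0 + (hh 1 τ y : ℂ) * (5 * Q N' (Psi n τ y N' (rc τ y x')))) =
        ((1 - hh 1 τ y : ℝ) : ℂ) * (x - x') 0 + (hh 1 τ y : ℂ) * (5 *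
          (Q N (Psi n τ y N (rc τ y x)) - Q N' (Psi n τ y N' (rc τ y x')))) := by
      rw [PiLp.sub_apply]; ring
    rw [e]
    refine (norm_add_le _ _).trans ?_
    rw [norm_mul, norm_mul, norm_mul, Complex.norm_real, Complex.norm_real, Real.norm_eq_abs,
      Real.norm_eq_abs, abs_of_nonneg h0, abs_of_nonneg (by linarith)]
    have n5 : ‖(5 : ℂ)‖ = 5 := by simp
    rw [n5]
    have hL := Lp_nonneg n τ y
    have hp : 1 ≤ (10 * KQ) ^ n := one_le_pow₀ (by linarith)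
    have d : ‖Q N (Psi n τ y N (rc τ y x)) - Q N' (Psi n τ y N' (rc τ y x'))‖ ≤
        KQ * (Lp n τ y * (11 * ‖iv τ y‖ * ‖x - x'‖) + 2 * (10 * KQ) ^ n * |N - N'|) := by
      refine c.trans (mul_le_mul_of_nonneg_left ?_ (by linarith))
      have := mul_le_mul_of_nonneg_left b hL
      nlinarith [abs_nonneg (N - N')]
    have f := norm_app (x - x') 0
    have g : 0 ≤ (10 * KQ) ^ (n + 1) * |N - N'| := by positivity
    calc _ ≤ (1 - hh 1 τ y) * ‖x - x'‖ + hh 1 τ y * (5 * (KQ * (Lp n τ y *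
          (11 * ‖iv τ y‖ * ‖x - x'‖) + 2 * (10 * KQ) ^ n * |N - N'|))) := by
          gcongr
      _ = (1 - hh 1 τ y + hh 1 τ y * (55 * KQ * ‖iv τ y‖ * Lp n τ y)) * ‖x - x'‖
          + hh 1 τ y * ((10 * KQ) ^ (n + 1) * |N - N'|) := by ring
      _ ≤ _ := by nlinarith

end Crest.Agent.H1.EC
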