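import Mathlib

/-! Zero entropy for north-south dynamics over an isometry. -/

set_option autoImplicit false

namespace Crest.Agent.H1.EC

open Dynamics Filter Topology

lemma exists_net {B : Type*} [PseudoMetricSpace B] [CompactSpace B] {ε : ℝ} (hε : 0 < ε) :
    ∃ (t : Finset B) (c : B → B), ∀ b, c b ∈ t ∧ dist b (c b) < ε := by
  obtain ⟨t, -, ht, hc⟩ := finite_cover_balls_of_compact (isCompact_univ (X := B)) hε
  have : ∀ b, ∃ c ∈ ht.toFinset, dist b c < ε := by
    intro b
    have := hc (Set.mem_univ b)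
    simp only [Set.mem_iUnion] at this
    obtain ⟨c, hc1, hc2⟩ := this
    exact ⟨c, ht.mem_toFinset.2 hc1, hc2⟩
  choose c hc using this
  exact ⟨_, c, hc⟩

lemma poly_growth (u : ℕ → ENNReal) (c k : ℕ) (h : ∀ n, u n ≤ ((c * (n + 1) ^ k : ℕ) : ENNReal)) :
    ExpGrowth.expGrowthSup u ≤ 0 := by
  rw [ExpGrowth.expGrowthSup_le_iff]
  intro b hb
  obtain ⟨r, hr0, hrb⟩ := EReal.lt_iff_exists_real_btwn.1 hb
  have hr : 0 < r := by exact_mod_cast hr0
  have h1 := (isLittleO_pow_exp_pos_mul_atTop k hr).def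
    (c := 1 / ((c + 1) * Real.exp r)) (by positivity)
  have h2 : Tendsto (fun n : ℕ => (n : ℝ) + 1) atTop atTop :=
    tendsto_atTop_add_const_right _ _ tendsto_natCast_atTop_atTop
  filter_upwards [h2.eventually h1] with n hn
  refine (h n).trans ?_
  have e : ((r : EReal) * (n : EReal)) = ((r * n : ℝ) : EReal) := by
    rw [EReal.coe_mul]; rfl
  have h3 : EReal.exp ((r : EReal) * n) ≤ EReal.exp (b * n) := by
    apply EReal.exp_monotone
    exact mul_le_mul_of_nonneg_right hrb.le (by exact_mod_cast Nat.zero_le n)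
  refine le_trans ?_ h3
  rw [e, EReal.exp_coe, ← ENNReal.ofReal_natCast]
  apply ENNReal.ofReal_le_ofReal
  rw [Real.norm_eq_abs, Real.norm_eq_abs, abs_of_nonneg (by positivity),
    abs_of_pos (Real.exp_pos _), mul_add, Real.exp_add, mul_one] at hn
  push_cast
  have hE := Real.exp_pos r
  have hF := Real.exp_pos (r * n)
  have : ((n : ℝ) + 1) ^ k ≤ Real.exp (r * n) / (c + 1) := by
    refine hn.trans (le_of_eq ?_); field_simp
  rw [le_div_iff₀ (by positivity)] at this
  have hp : (0 : ℝ) ≤ ((n : ℝ) + 1) ^ k := by positivity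
  nlinarith

lemma visits {M : Type*} [TopologicalSpace M] (f : M → M) {K : Set M} (hK : IsCompact K)
    (h : ∀ x ∈ K, ∃ W ∈ 𝓝 x, ∃ m : ℕ, ∀ b ∈ W, ∀ n ≥ m, f^[n] b ∉ W) :
    ∃ T : ℕ, ∀ (y : M) (I : Finset ℕ), (∀ i ∈ I, f^[i] y ∈ K) → I.card ≤ T := by
  classical
  choose! W hW m hm using h
  obtain ⟨t, htK, ht⟩ := hK.elim_nhds_subcover W hW
  refine ⟨∑ x ∈ t, m x, fun y I hI => ?_⟩
  have hsub : I ⊆ t.biUnion fun x => I.filter fun i => f^[i] y ∈ W x := by
    intro i hi
    have := ht (hI i hi)
    simp only [Set.mem_iUnion] at this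
    obtain ⟨x, hx, hx2⟩ := this
    exact Finset.mem_biUnion.2 ⟨x, hx, Finset.mem_filter.2 ⟨hi, hx2⟩⟩
  refine (Finset.card_le_card hsub).trans (Finset.card_biUnion_le.trans ?_)
  refine Finset.sum_le_sum fun x hx => ?_
  rcases (I.filter fun i => f^[i] y ∈ W x).eq_empty_or_nonempty with he | hne
  · rw [he]; simp
  · set J := I.filter fun i => f^[i] y ∈ W x
    have h0 := (Finset.mem_filter.1 (J.min'_mem hne)).2
    have : J ⊆ Finset.Ico (J.min' hne) (J.min' hne + m x) := by
      intro i hi
      have h1 := J.min'_le i hi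
      rw [Finset.mem_Ico]
      refine ⟨h1, ?_⟩
      by_contra h2
      have := hm x (htK x hx) _ h0 (i - J.min' hne) (by omega)
      rw [← Function.iterate_add_apply, Nat.sub_add_cancel h1] at this
      exact this (Finset.mem_filter.1 hi).2
    simpa using Finset.card_le_card this

theorem ent_zero {M B F : Type*} [MetricSpace M] [CompactSpace M] [Nonempty M]
    [PseudoMetricSpace B] [CompactSpace B] [PseudoMetricSpace F] [CompactSpace F]
    (f : M → M) (β : M → B) (φ : M → F) (hφ : Continuous φ) (r : B → B)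
    (hr : ∀ a b, dist (r a) (r b) = dist a b) (hβ : ∀ x, β (f x) = r (β x))
    (hd : ∀ x y, dist x y ≤ dist (β x) (β y) + dist (φ x) (φ y))
    (N S : F) (A : Set M) (hA : ∀ x ∈ A, f x ∈ A) (ε₀ : ℝ) (hε₀ : 0 < ε₀)
    (hN : ∀ x, dist (φ x) N < ε₀ → x ∉ A) (hS : ∀ x, dist (φ x) S < ε₀ → x ∈ A)
    (hw : ∀ x, φ x ≠ N → φ x ≠ S → ∃ W ∈ 𝓝 x, ∃ m : ℕ, ∀ b ∈ W, ∀ n ≥ m, f^[n] b ∉ W) :
    coverEntropy f Set.univ = 0 := by
  classical
  refine le_antisymm ?_ (coverEntropy_nonneg f Set.univ_nonempty)
  refine iSup₂_le fun U hU => ?_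
  obtain ⟨δ, hδ, hδU⟩ := Metric.mem_uniformity_dist.1 hU
  obtain ⟨ε, hε, hε1, hε2⟩ : ∃ ε > 0, ε ≤ ε₀ ∧ 4 * ε ≤ δ :=
    ⟨min ε₀ (δ / 4), by positivity, min_le_left _ _, by linarith [min_le_right ε₀ (δ / 4)]⟩
  let K : Set M := {x | ε ≤ dist (φ x) N ∧ ε ≤ dist (φ x) S}
  have hK : IsCompact K := by
    apply IsClosed.isCompact
    exact (isClosed_le continuous_const (hφ.dist continuous_const)).inter
      (isClosed_le continuous_const (hφ.dist continuous_const))
  obtain ⟨T, hT⟩ := visits f hK fun x hx => hw x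
    (fun h => by have := hx.1; rw [h, dist_self] at this; linarith)
    (fun h => by have := hx.2; rw [h, dist_self] at this; linarith)
  obtain ⟨tB, cB, hcB⟩ := exists_net (B := B) hε
  obtain ⟨tF, cF, hcF⟩ := exists_net (B := F) hε
  have hAn : ∀ x ∈ A, ∀ k, f^[k] x ∈ A := by
    intro x hx k
    induction k with
    | zero => exact hx
    | succ k ih => rw [Function.iterate_succ_apply']; exact hA _ ih
  have hβn : ∀ x y k, dist (β (f^[k] x)) (β (f^[k] y)) = dist (β x) (β y) := by
    intro x y k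
    induction k with
    | zero => rfl
    | succ k ih => rw [Function.iterate_succ_apply', Function.iterate_succ_apply', hβ, hβ, hr, ih]
  refine poly_growth _ (tB.card * (T + 1) * (tF.card + 1) ^ T) (T + 1) fun n => ?_
  let code : M → B × ℕ × Finset (ℕ × F) := fun y =>
    (cB (β y), if h : ∃ i, i < n ∧ f^[i] y ∈ A then Nat.find h else n,
      ((Finset.range n).filter fun i => f^[i] y ∈ K).image fun i => (i, cF (φ (f^[i] y))))
  let Cs : Finset (B × ℕ × Finset (ℕ × F)) := tB ×ˢ Finset.range (n + 1) ×ˢ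
    (Finset.range (T + 1)).biUnion fun k => Finset.powersetCard k (Finset.range n ×ˢ tF)
  have hcode : ∀ y, code y ∈ Cs := by
    intro y
    simp only [Cs, code, Finset.mem_product, Finset.mem_range, Finset.mem_biUnion,
      Finset.mem_powersetCard]
    refine ⟨(hcB _).1, ?_, _, ?_, ?_, rfl⟩
    · split_ifs with h
      · have := (Nat.find_spec h).1; omega
      · omega
    · refine Nat.lt_succ_of_le (Finset.card_image_le.trans (hT y _ fun i hi => ?_))
      exact (Finset.mem_filter.1 hi).2
    · intro q hq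
      obtain ⟨i, hi, rfl⟩ := Finset.mem_image.1 hq
      exact Finset.mem_product.2 ⟨(Finset.mem_filter.1 hi).1, (hcF _).1⟩
  have hm : ∀ y i, i < n → (f^[i] y ∈ A ↔ (code y).2.1 ≤ i) := by
    intro y i hi
    simp only [code]
    split_ifs with h
    · constructor
      · intro hy; exact Nat.find_min' h ⟨hi, hy⟩
      · intro hy
        have := hAn _ (Nat.find_spec h).2 (i - Nat.find h)
        rwa [← Function.iterate_add_apply, Nat.sub_add_cancel hy] at this
    · constructor
      · intro hy; exact absurd ⟨i, hi, hy⟩ h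
      · intro hy; omega
  have hE : ∀ y y' i, code y = code y' → i < n → f^[i] y ∈ K →
      f^[i] y' ∈ K ∧ cF (φ (f^[i] y)) = cF (φ (f^[i] y')) := by
    intro y y' i h hi hy
    have h1 : (i, cF (φ (f^[i] y))) ∈ (code y).2.2 :=
      Finset.mem_image.2 ⟨i, Finset.mem_filter.2 ⟨Finset.mem_range.2 hi, hy⟩, rfl⟩
    rw [h] at h1
    obtain ⟨j, hj, hj2⟩ := Finset.mem_image.1 h1
    obtain rfl : j = i := congrArg Prod.fst hj2
    exact ⟨(Finset.mem_filter.1 hj).2, (congrArg Prod.snd hj2).symm⟩
  have hclose : ∀ y y', code y = code y' → ∀ i < n, dist (f^[i] y) (f^[i] y') < δ := by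
    intro y y' h i hi
    have hb : dist (β y) (β y') < 2 * ε := by
      have e : cB (β y) = cB (β y') := congrArg Prod.fst h
      have := dist_triangle_right (β y) (β y') (cB (β y))
      have h1 := (hcB (β y)).2
      have h2 := (hcB (β y')).2
      rw [← e] at h2
      linarith
    have hf : dist (φ (f^[i] y)) (φ (f^[i] y')) < 2 * ε := by
      by_cases hy : f^[i] y ∈ K
      · obtain ⟨-, e⟩ := hE y y' i h hi hy
        have := dist_triangle_right (φ (f^[i] y)) (φ (f^[i] y')) (cF (φ (f^[i] y)))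
        have h1 := (hcF (φ (f^[i] y))).2
        have h2 := (hcF (φ (f^[i] y'))).2
        rw [← e] at h2
        linarith
      · have hy' : f^[i] y' ∉ K := fun hy' => hy (hE y' y i h.symm hi hy').1
        have hiff : f^[i] y ∈ A ↔ f^[i] y' ∈ A := by rw [hm y i hi, hm y' i hi, h]
        simp only [K, Set.mem_ofPred_eq, not_and_or, not_le] at hy hy'
        rcases hy with hy | hy <;> rcases hy' with hy' | hy'
        · have := dist_triangle_right (φ (f^[i] y)) (φ (f^[i] y')) N
          linarith
        · exact absurd (hiff.2 (hS _ (by linarith))) (hN _ (by linarith))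
        · exact absurd (hiff.1 (hS _ (by linarith))) (hN _ (by linarith))
        · have := dist_triangle_right (φ (f^[i] y)) (φ (f^[i] y')) S
          linarith
    have := hd (f^[i] y) (f^[i] y')
    rw [hβn] at this
    linarith
  let rep : B × ℕ × Finset (ℕ × F) → M := fun c =>
    if h : ∃ y, code y = c then h.choose else Classical.arbitrary M
  have hcov : IsDynCoverOf f Set.univ U n (Cs.image rep : Finset M) := by
    intro y _
    refine ⟨rep (code y), Finset.mem_coe.2 (Finset.mem_image_of_mem _ (hcode y)), ?_⟩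
    have h : ∃ y', code y' = code y := ⟨y, rfl⟩
    have e : code (rep (code y)) = code y := by
      simp only [rep, dif_pos h]; exact h.choose_spec
    exact mem_dynEntourage.2 fun k hk => hδU (hclose _ _ e.symm k hk)
  have hcard : Cs.card ≤ tB.card * (T + 1) * (tF.card + 1) ^ T * (n + 1) ^ (T + 1) := by
    simp only [Cs, Finset.card_product, Finset.card_range]
    have h1 : ((Finset.range (T + 1)).biUnion fun k =>
        Finset.powersetCard k (Finset.range n ×ˢ tF)).card ≤
        (T + 1) * ((tF.card + 1) ^ T * (n + 1) ^ T) := by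
      refine Finset.card_biUnion_le.trans ?_
      refine (Finset.sum_le_card_nsmul _ _ ((tF.card + 1) ^ T * (n + 1) ^ T) fun k hk => ?_).trans
        (by simp)
      rw [Finset.card_powersetCard, Finset.card_product, Finset.card_range, ← mul_pow]
      refine (Nat.choose_le_pow _ _).trans ?_
      refine (Nat.pow_le_pow_left (show n * tF.card ≤ (tF.card + 1) * (n + 1) by nlinarith) _).trans ?_
      exact Nat.pow_le_pow_right (by positivity) (by have := Finset.mem_range.1 hk; omega)
    calc _ ≤ tB.card * ((n + 1) * ((T + 1) * ((tF.card + 1) ^ T * (n + 1) ^ T))) := by gcongr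
      _ = _ := by ring
  have := hcov.coverMincard_le_card
  refine (ENat.toENNReal_mono this).trans ?_
  rw [ENat.toENNReal_coe]
  exact_mod_cast Finset.card_image_le.trans hcard

end Crest.Agent.H1.EC
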