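import Crest.Agent.H1.ECDef

/-! Estimates over the circle. -/

set_option autoImplicit false

namespace Crest.Agent.H1.EC

open Real

lemma ee_prev (t : ℝ) : ee t * ee (-al) = ee (t - al) := by rw [← ee_add]; rfl

lemma exp_facts {τ : ℝ} (hτ : 0 ≤ τ) : exp (-τ) ≤ 1 ∧ exp (-τ) * exp τ = 1 ∧
    exp (2 * τ) = exp τ ^ 2 ∧ exp (-τ) = exp (-τ / 2) ^ 2 ∧ 1 ≤ exp τ ∧ exp (-τ / 2) ≤ 1 := by
  refine ⟨exp_le_one_iff.2 (by linarith), by rw [← exp_add]; simp, ?_, ?_, one_le_exp hτ,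
    exp_le_one_iff.2 (by linarith)⟩
  · rw [sq, ← exp_add]; ring_nf
  · rw [sq, ← exp_add]; ring_nf

lemma sg_pos_norm {τ : ℝ} {z : ℂ} (hz : ‖z‖ = 1) (h : 0 < sg τ z) :
    4 * exp (-τ) ≤ ‖z - 1‖ ^ 2 := by
  rw [sq_norm_sub_one hz]
  unfold sg at h
  have h1 : 0 < exp (2 * τ) := exp_pos _
  have : 0 < 1 - z.re - 2 * exp (-τ) := by
    by_contra hh
    push Not at hh
    have := mul_nonpos_of_nonpos_of_nonneg hh h1.le
    linarith
  linarith

lemma sg_lt_norm {τ : ℝ} (hτ : 0 ≤ τ) {z : ℂ} (hz : ‖z‖ = 1) (h : sg τ z < 5) :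
    ‖z - 1‖ ≤ 3 * exp (-τ / 2) := by
  obtain ⟨e1, e2, e3, e4, e5, e6⟩ := exp_facts hτ
  apply (pow_le_pow_iff_left₀ (norm_nonneg _) (by positivity) two_ne_zero).1
  rw [sq_norm_sub_one hz, mul_pow, ← e4]
  unfold sg at h
  rw [e3] at h
  have h1 : 0 < exp (-τ) := exp_pos _
  by_contra hh
  push Not at hh
  have a : 2 * exp (-τ) ≤ 1 - z.re - 2 * exp (-τ) := by linarith
  have b : 2 * exp (-τ) * exp τ ^ 2 ≤ (1 - z.re - 2 * exp (-τ)) * exp τ ^ 2 := by gcongr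
  have c : 2 * exp (-τ) * exp τ ^ 2 = 2 * exp τ := by linear_combination 2 * exp τ * e2
  linarith

lemma iv_av {τ : ℝ} {z : ℂ} (hz : ‖z‖ = 1) (h : 0 < sg τ z) :
    iv τ z * av z = 1 ∧ ‖iv τ z‖ = lam⁻¹ * ‖z - 1‖⁻¹ := by
  have h1 := sg_pos_norm hz h
  have e2 : exp (-τ) * exp τ = 1 := by rw [← exp_add]; simp
  have hE := exp_pos τ
  have hE' := exp_pos (-τ)
  have hl := lam_pos
  have hn : 0 < ‖z - 1‖ := by
    by_contra hh
    have : ‖z - 1‖ = 0 := le_antisymm (not_lt.1 hh) (norm_nonneg _)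
    rw [this] at h1; linarith
  have hd : lam * (2 * exp (-τ)) * den (‖z - 1‖ ^ 2 * (exp τ / 2)) = lam * ‖z - 1‖ ^ 2 := by
    rw [den_eq (by nlinarith)]
    linear_combination lam * ‖z - 1‖ ^ 2 * e2
  unfold iv av
  rw [hd]
  constructor
  · have hc := Complex.conj_mul' (z - 1)
    have a : (lam : ℂ) ≠ 0 := by exact_mod_cast hl.ne'
    have b : (‖z - 1‖ : ℂ) ≠ 0 := by exact_mod_cast hn.ne'
    push_cast
    field_simp
    rw [mul_comm]; exact hc
  · rw [norm_mul, Complex.norm_conj, Complex.norm_real, Real.norm_eq_abs, abs_of_pos (by positivity)]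
    field_simp

lemma Lp_struct (τ : ℝ) (n : ℕ) : ∀ t : ℝ, Lp n τ (ee t) = 0 ∨ ∃ m : ℕ,
    hh 1 τ (ee (t - (m + 1 : ℕ) * al)) ≠ 1 ∧ (∀ k < m, hh 1 τ (ee (t - (k + 1 : ℕ) * al)) ≠ 0) ∧
      Lp n τ (ee t) ≤ ∏ k ∈ Finset.range m, (55 * KQ * ‖iv τ (ee (t - (k + 1 : ℕ) * al))‖) := by
  induction n with
  | zero => intro t; left; rfl
  | succ n ih =>
    intro t
    simp only [Lp, ee_prev]
    have h0 := hh_nonneg 1 τ (ee (t - al))
    have h1 := hh_le_one 1 τ (ee (t - al))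
    have hK := one_le_KQ
    have hL := Lp_nonneg n τ (ee (t - al))
    by_cases c1 : hh 1 τ (ee (t - al)) ≠ 1 ∧
        (hh 1 τ (ee (t - al)) = 0 ∨ 55 * KQ * ‖iv τ (ee (t - al))‖ * Lp n τ (ee (t - al)) ≤ 1)
    · right
      refine ⟨0, by simpa using c1.1, fun k hk => absurd hk (by omega), ?_⟩
      rcases c1.2 with h | h
      · simp [h]
      · simp only [Finset.range_zero, Finset.prod_empty]; nlinarith
    · have c2 : hh 1 τ (ee (t - al)) ≠ 0 ∧ 1 - hh 1 τ (ee (t - al)) + hh 1 τ (ee (t - al)) *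
          (55 * KQ * ‖iv τ (ee (t - al))‖ * Lp n τ (ee (t - al))) ≤
          55 * KQ * ‖iv τ (ee (t - al))‖ * Lp n τ (ee (t - al)) := by
        by_cases h : hh 1 τ (ee (t - al)) = 1
        · rw [h]; simp
        · push Not at c1
          obtain ⟨a, b⟩ := c1 h
          exact ⟨a, by nlinarith⟩
      have c3 : 0 ≤ 1 - hh 1 τ (ee (t - al)) + hh 1 τ (ee (t - al)) *
          (55 * KQ * ‖iv τ (ee (t - al))‖ * Lp n τ (ee (t - al))) := by
        have : 0 ≤ 1 - hh 1 τ (ee (t - al)) := by linarith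
        positivity
      rcases ih (t - al) with h | ⟨m, hm1, hm2, hm3⟩
      · left
        have := c2.2
        rw [h, mul_zero] at this c3
        rw [h, mul_zero]; linarith
      · right
        have e : ∀ k : ℕ, t - al - ((k + 1 : ℕ) : ℝ) * al = t - ((k + 1 + 1 : ℕ) : ℝ) * al := by
          intro k; push_cast; ring
        simp only [e] at hm1 hm2 hm3
        refine ⟨m + 1, hm1, fun k hk => ?_, ?_⟩
        · rcases k with _ | k
          · simpa using c2.1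
          · exact hm2 k (by omega)
        · rw [Finset.prod_range_succ']
          refine c2.2.trans ?_
          simp only [zero_add, Nat.cast_one, one_mul]
          rw [mul_comm]
          gcongr

lemma Lp_small {τ : ℝ} (hτ : 0 ≤ τ) (n : ℕ) (t : ℝ) (h : sg τ (ee t) < 5) :
    Lp n τ (ee t) ≤ 4000 * exp (-τ / 2) := by
  obtain ⟨e1, e2, e3, e4, e5, e6⟩ := exp_facts hτ
  have hE := exp_pos (-τ / 2)
  rcases Lp_struct τ n t with h0 | ⟨m, hm1, hm2, hm3⟩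
  · rw [h0]; positivity
  have s1 : sg τ (ee (t - (m + 1 : ℕ) * al)) < 5 := by
    by_contra hh; exact hm1 (hh_one (by linarith))
  have s2 : ∀ k < m, 0 < sg τ (ee (t - (k + 1 : ℕ) * al)) := by
    intro k hk; by_contra hh; exact hm2 k hk (hh_zero (by linarith))
  have a1 := sg_lt_norm hτ (norm_ee _) h
  have a2 := sg_lt_norm hτ (norm_ee _) s1
  have a3 := sep (t - (m + 1 : ℕ) * al) (m + 1) (by omega)
  rw [sub_add_cancel] at a3
  have a4 := norm_sub_le_norm_sub_add_norm_sub (ee t) 1 (ee (t - (m + 1 : ℕ) * al))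
  rw [norm_sub_rev 1] at a4
  have a5 : 1 ≤ 6 * exp (-τ / 2) * (m + 1 : ℕ) := by
    rw [div_le_iff₀ (by positivity)] at a3
    have : (0 : ℝ) ≤ (m + 1 : ℕ) := by positivity
    nlinarith
  have b1 := prod_bound t (2 * exp (-τ / 2)) (by positivity) (by linarith) m fun k hk => by
    apply (pow_le_pow_iff_left₀ (by positivity) (norm_nonneg _) two_ne_zero).1
    have := sg_pos_norm (norm_ee _) (s2 k hk)
    rw [mul_pow, ← e4]; linarith
  have hK := one_le_KQ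
  have b2 : ∏ k ∈ Finset.range m, (55 * KQ * ‖iv τ (ee (t - (k + 1 : ℕ) * al))‖) =
      exp (-5 * m) * ∏ k ∈ Finset.range m, ‖ee (t - (k + 1 : ℕ) * al) - 1‖⁻¹ := by
    rw [show -5 * (m : ℝ) = m * (-5) by ring, exp_nat_mul, ← Finset.card_range m,
      ← Finset.prod_const, Finset.card_range, ← Finset.prod_mul_distrib]
    refine Finset.prod_congr rfl fun k hk => ?_
    rw [(iv_av (norm_ee _) (s2 k (Finset.mem_range.1 hk))).2, exp_neg]
    unfold lam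
    field_simp
  have c1 := Real.pow_div_factorial_le_exp ((m + 1 : ℕ) : ℝ) (by positivity) 3
  have c2 : exp ((m + 1 : ℕ) : ℝ) * (exp (-5 * m) * exp (4 * m)) = exp 1 := by
    rw [← exp_add, ← exp_add]; congr 1; push_cast; ring
  have c3 := Real.exp_one_lt_d9
  have hP : 0 < exp (-5 * m) * exp (4 * m) := by positivity
  have c4 : exp (-5 * m) * exp (4 * m) ≤ 4000 * exp (-τ / 2) ^ 3 := by
    have d1 : 1 ≤ (6 * exp (-τ / 2) * (m + 1 : ℕ)) ^ 3 := one_le_pow₀ a5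
    have d2 : ((m + 1 : ℕ) : ℝ) ^ 3 ≤ 6 * exp ((m + 1 : ℕ) : ℝ) := by
      have : ((Nat.factorial 3 : ℕ) : ℝ) = 6 := by norm_num [Nat.factorial]
      rw [this] at c1; linarith
    have d3 : (6 * exp (-τ / 2) * (m + 1 : ℕ)) ^ 3 ≤
        216 * exp (-τ / 2) ^ 3 * (6 * exp ((m + 1 : ℕ) : ℝ)) := by
      rw [mul_pow, mul_pow]; gcongr; norm_num
    calc _ ≤ (exp (-5 * m) * exp (4 * m)) *
          (216 * exp (-τ / 2) ^ 3 * (6 * exp ((m + 1 : ℕ) : ℝ))) :=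
          le_mul_of_one_le_right hP.le (d1.trans d3)
      _ = 1296 * exp 1 * exp (-τ / 2) ^ 3 := by rw [← c2]; ring
      _ ≤ _ := by gcongr; linarith
  refine hm3.trans ?_
  rw [b2]
  calc _ ≤ exp (-5 * m) * (4 * exp (4 * m) / (2 * exp (-τ / 2)) ^ 2) := by gcongr
    _ = (exp (-5 * m) * exp (4 * m)) / exp (-τ / 2) ^ 2 := by field_simp; ring
    _ ≤ 4000 * exp (-τ / 2) ^ 3 / exp (-τ / 2) ^ 2 := by gcongr
    _ = _ := by field_simp

noncomputable def c2 : ℝ := 20000 * KQ + 15 * lam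

lemma G_lin {τ : ℝ} {z : ℂ} (h : 5 ≤ sg τ z) (n : ℕ) (N : ℝ) (x : E3) :
    G n τ z N x = av z • x := by
  apply E3_ext <;>
  simp [G, gm, hh_one (show 2 + 1 ≤ sg τ z by linarith), hh_one (show 0 + 1 ≤ sg τ z by linarith),
    hh_one (show 4 + 1 ≤ sg τ z by linarith)]

lemma G_lip {τ : ℝ} (hτ : 0 ≤ τ) (n : ℕ) (t : ℝ) {N N' : ℝ} (hN : 0 < N) (hN' : 0 < N')
    (x x' : E3) :
    ‖(G n τ (ee t) N x - av (ee t) • x) - (G n τ (ee t) N' x' - av (ee t) • x')‖ ≤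
      c2 * exp (-τ / 2) * ‖x - x'‖ + (10 * KQ) ^ (n + 1) * |N - N'| := by
  have hK := one_le_KQ
  have hl := lam_pos
  have hE := exp_pos (-τ / 2)
  rcases le_or_gt 5 (sg τ (ee t)) with h | h
  · rw [G_lin h, G_lin h]; simp only [sub_self, norm_zero]; unfold c2; positivity
  have ha : ‖av (ee t)‖ ≤ 3 * lam * exp (-τ / 2) := by
    unfold av
    rw [norm_mul, Complex.norm_real, Real.norm_eq_abs, abs_of_pos hl]
    have := sg_lt_norm hτ (norm_ee t) h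
    nlinarith
  have hL := Lp_small hτ n t h
  have hP := Psi_lip n τ hN hN' (ee t) x x'
  generalize ee t = z at *
  have hQ := Q_lip (Psi n τ z N x) (Psi n τ z N' x') hN hN'
  refine (norm_E3_le _).trans ?_
  have e0 : ((G n τ z N x - av z • x) - (G n τ z N' x' - av z • x')) 0 =
      ((1 - hh 2 τ z : ℝ) : ℂ) * (5 * (Q N (Psi n τ z N x) - Q N' (Psi n τ z N' x'))
        - av z * (x - x') 0) := by
    simp only [G, PiLp.sub_apply, PiLp.smul_apply, mk3_0, smul_eq_mul]; push_cast; ring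
  have e1 : ((G n τ z N x - av z • x) - (G n τ z N' x' - av z • x')) 1 =
      av z * (((gm τ z * cos (ph τ z) : ℝ) : ℂ) * (x - x') 0 -
        ((1 - hh 0 τ z : ℝ) : ℂ) * (x - x') 1) := by
    simp only [G, PiLp.sub_apply, PiLp.smul_apply, mk3_1, smul_eq_mul]; push_cast; ring
  have e2 : ((G n τ z N x - av z • x) - (G n τ z N' x' - av z • x')) 2 =
      av z * (((gm τ z * sin (ph τ z) : ℝ) : ℂ) * (x - x') 0 -
        ((1 - hh 0 τ z : ℝ) : ℂ) * (x - x') 2) := by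
    simp only [G, PiLp.sub_apply, PiLp.smul_apply, mk3_2, smul_eq_mul]; push_cast; ring
  rw [e0, e1, e2]
  have d0 := norm_app (x - x') 0
  have d1 := norm_app (x - x') 1
  have d2 := norm_app (x - x') 2
  generalize (x - x') 0 = y0 at *
  generalize (x - x') 1 = y1 at *
  generalize (x - x') 2 = y2 at *
  generalize ‖x - x'‖ = r at *
  have hr : 0 ≤ r := (norm_nonneg _).trans d0
  have f0 := (norm_coe_mul_le (abs_one_sub_hh 2 τ z) _).trans (norm_sub_le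
    (5 * (Q N (Psi n τ z N x) - Q N' (Psi n τ z N' x'))) (av z * y0))
  have n5 : ‖(5 : ℂ)‖ = 5 := by simp
  rw [norm_mul (5 : ℂ), n5, norm_mul (av z)] at f0
  have f1 := (norm_sub_le _ _).trans (add_le_add ((norm_coe_mul_le (abs_gc τ z) y0).trans d0)
    ((norm_coe_mul_le (abs_one_sub_hh 0 τ z) y1).trans d1))
  have f2 := (norm_sub_le _ _).trans (add_le_add ((norm_coe_mul_le (abs_gs τ z) y0).trans d0)
    ((norm_coe_mul_le (abs_one_sub_hh 0 τ z) y2).trans d2))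
  rw [norm_mul (av z), norm_mul (av z)]
  have hp : 1 ≤ (10 * KQ) ^ n := one_le_pow₀ (by linarith)
  have g0 : ‖Q N (Psi n τ z N x) - Q N' (Psi n τ z N' x')‖ ≤
      KQ * (4000 * exp (-τ / 2) * r + 2 * (10 * KQ) ^ n * |N - N'|) := by
    refine hQ.trans (mul_le_mul_of_nonneg_left ?_ (by linarith))
    have := mul_le_mul_of_nonneg_right hL hr
    nlinarith [abs_nonneg (N - N')]
  have g1 : ‖av z‖ * ‖y0‖ ≤ 3 * lam * exp (-τ / 2) * r := by gcongr
  have g2 := mul_le_mul ha f1 (norm_nonneg _) (by positivity)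
  have g3 := mul_le_mul ha f2 (norm_nonneg _) (by positivity)
  unfold c2
  rw [pow_succ]
  linarith

noncomputable def Lam : ℝ := c2 + 2 * lam + 10 * KQ

lemma c2_pos : 0 < c2 := by unfold c2; have := one_le_KQ; have := lam_pos; positivity

lemma Lam_ge : 10 * KQ ≤ Lam := by unfold Lam; have := c2_pos; have := lam_pos; linarith

lemma ten_le_Lam : 10 ≤ Lam := by linarith [Lam_ge, one_le_KQ]

noncomputable def nu (τ : ℝ) : ℝ := exp (-((128 * log Lam + 1) * exp τ))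

lemma nu_pos (τ : ℝ) : 0 < nu τ := exp_pos _

@[fun_prop] lemma contDiff_nu : ContDiff ℝ 1 nu := by unfold nu; fun_prop

lemma pow_nu {τ : ℝ} {k : ℕ} (hk : (k : ℝ) ≤ 128 * exp τ) : Lam ^ k * nu τ ≤ exp (-exp τ) := by
  have h := ten_le_Lam
  have hl : 0 ≤ log Lam := log_nonneg (by linarith)
  rw [← exp_log (show 0 < Lam ^ k by positivity), nu, ← exp_add, log_pow]
  apply exp_le_exp.2
  nlinarith

noncomputable def GG (n : ℕ) (τ : ℝ) (z : ℂ) (x : E3) : E3 := G n τ z (nu τ * ‖x‖) x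

lemma GG_zero (n : ℕ) (τ : ℝ) (z : ℂ) : GG n τ z 0 = 0 := G_zero _ _ _ _

lemma GG_smul {c : ℝ} (hc : 0 < c) (n : ℕ) (τ : ℝ) (z : ℂ) (x : E3) :
    GG n τ z (c • x) = c • GG n τ z x := by
  unfold GG
  rw [← G_smul hc, norm_smul, Real.norm_eq_abs, abs_of_pos hc]; congr 1; ring

lemma norm_av (t : ℝ) : ‖av (ee t)‖ ≤ 2 * lam := by
  unfold av
  rw [norm_mul, Complex.norm_real, Real.norm_eq_abs, abs_of_pos lam_pos]
  have := norm_sub_le (ee t) 1
  rw [norm_ee, norm_one] at this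
  nlinarith [lam_pos]

lemma GG_sub_bound {τ : ℝ} (hτ : 0 ≤ τ) (n : ℕ) (t : ℝ) (x : E3) :
    ‖GG n τ (ee t) x - av (ee t) • x‖ ≤ c2 * exp (-τ / 2) * ‖x‖ := by
  rcases eq_or_ne x 0 with rfl | hx
  · simp [GG_zero]
  have hN : 0 < nu τ * ‖x‖ := mul_pos (nu_pos τ) (norm_pos_iff.2 hx)
  have := G_lip hτ n t hN hN x 0
  simpa [G_zero, GG] using this

lemma GG_bound {τ : ℝ} (hτ : 0 ≤ τ) (n : ℕ) (t : ℝ) (x : E3) :
    ‖GG n τ (ee t) x‖ ≤ Lam * ‖x‖ := by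
  have h1 := GG_sub_bound hτ n t x
  have h2 := norm_sub_norm_le (GG n τ (ee t) x) (av (ee t) • x)
  rw [norm_smul] at h2
  have h3 := norm_av t
  have h4 := (exp_facts hτ).2.2.2.2.2
  have h5 := c2_pos
  have h6 := one_le_KQ
  have h7 := norm_nonneg x
  have h8 : c2 * exp (-τ / 2) * ‖x‖ ≤ c2 * 1 * ‖x‖ := by gcongr
  unfold Lam
  nlinarith

lemma GG_lip {τ : ℝ} (hτ : 0 ≤ τ) {n : ℕ} (hn : ((n + 1 : ℕ) : ℝ) ≤ 128 * exp τ) (t : ℝ)
    {x x' : E3} (hx : x ≠ 0) (hx' : x' ≠ 0) :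
    ‖(GG n τ (ee t) x - av (ee t) • x) - (GG n τ (ee t) x' - av (ee t) • x')‖ ≤
      (c2 + 1) * exp (-τ / 2) * ‖x - x'‖ := by
  have h := G_lip hτ n t (mul_pos (nu_pos τ) (norm_pos_iff.2 hx))
    (mul_pos (nu_pos τ) (norm_pos_iff.2 hx')) x x'
  refine h.trans ?_
  rw [← mul_sub, abs_mul, abs_of_pos (nu_pos τ)]
  have a := abs_norm_sub_norm_le x x'
  have b := pow_nu hn
  have c : exp (-exp τ) ≤ exp (-τ / 2) := exp_le_exp.2 (by linarith [add_one_le_exp τ])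
  have hK := one_le_KQ
  have d : (10 * KQ) ^ (n + 1) * nu τ ≤ Lam ^ (n + 1) * nu τ := by
    have := nu_pos τ
    gcongr; exact Lam_ge
  have e : (10 * KQ) ^ (n + 1) * nu τ * |‖x‖ - ‖x'‖| ≤ exp (-τ / 2) * ‖x - x'‖ :=
    mul_le_mul (by linarith) a (abs_nonneg _) (exp_pos _).le
  linarith

lemma contDiffAt_GG (n : ℕ) (p : ℝ × ℂ × E3) (hp : p.2.2 ≠ 0) :
    ContDiffAt ℝ 1 (fun p : ℝ × ℂ × E3 => GG n p.1 p.2.1 p.2.2) p := by
  have h1 : ContDiffAt ℝ 1 (fun p : ℝ × ℂ × E3 => ‖p.2.2‖) p :=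
    ContDiffAt.norm ℂ (by fun_prop) hp
  have h2 : ContDiffAt ℝ 1 (fun p : ℝ × ℂ × E3 => (p.1, p.2.1, nu p.1 * ‖p.2.2‖, p.2.2)) p :=
    ContDiffAt.prodMk (by fun_prop) (ContDiffAt.prodMk (by fun_prop)
      (ContDiffAt.prodMk (ContDiffAt.mul (ContDiff.contDiffAt (by fun_prop)) h1) (by fun_prop)))
  have h3 := (contDiffAt_G n (p.1, p.2.1, nu p.1 * ‖p.2.2‖, p.2.2)
    (mul_pos (nu_pos _) (norm_pos_iff.2 hp)).ne').comp p h2
  exact h3

/-! full events -/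

noncomputable def Ng (τ : ℝ) : ℕ := ⌊125 * exp τ⌋₊ + 1

lemma Ng_le {τ : ℝ} (hτ : 0 ≤ τ) : (Ng τ : ℝ) ≤ 126 * exp τ := by
  unfold Ng
  have := Nat.floor_le (show 0 ≤ 125 * exp τ by positivity)
  have := one_le_exp hτ
  push_cast; linarith

lemma Ng_mono {τ τ' : ℝ} (h : τ ≤ τ') : Ng τ ≤ Ng τ' := by
  unfold Ng
  exact Nat.succ_le_succ (Nat.floor_le_floor (by gcongr))

lemma exists_full {τ : ℝ} (hτ : 0 ≤ τ) (t : ℝ) : ∃ k < Ng τ, sg τ (ee (t + k * al)) ≤ 0 := by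
  obtain ⟨e1, e2, e3, e4, e5, e6⟩ := exp_facts hτ
  have hE := exp_pos (-τ / 2)
  obtain ⟨k, hk, m, hm⟩ := gap t (exp (-τ / 2) / 4) (by positivity)
  refine ⟨k, ?_, ?_⟩
  · apply Nat.lt_succ_of_le
    apply Nat.le_floor
    have a : 1 / (exp (-τ / 2) / 4) + 1 ≤ 5 / exp (-τ / 2) := by
      have : (1 / (exp (-τ / 2) / 4) + 1) * exp (-τ / 2) = 4 + exp (-τ / 2) := by field_simp
      rw [le_div_iff₀ hE, this]; linarith
    have b : (5 / exp (-τ / 2)) ^ 2 = 25 * exp τ := by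
      rw [div_pow, ← e4, div_eq_iff (exp_pos _).ne']; linear_combination (-25) * e2
    have c : (1 / (exp (-τ / 2) / 4) + 1) ^ 2 ≤ (5 / exp (-τ / 2)) ^ 2 := by gcongr
    linarith
  · have a := ee_upper (t + k * al) m
    have b : ‖ee (t + k * al) - 1‖ ^ 2 ≤ (2 * exp (-τ / 2)) ^ 2 := by gcongr; linarith
    rw [sq_norm_sub_one (norm_ee _), mul_pow, ← e4] at b
    unfold sg
    have : 1 - (ee (t + k * al)).re - 2 * exp (-τ) ≤ 0 := by linarith
    have := mul_nonpos_of_nonpos_of_nonneg this (exp_pos (2 * τ)).le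
    linarith

lemma Psi_stab' (τ N : ℝ) (k : ℕ) : ∀ t : ℝ, sg τ (ee (t - (k + 1 : ℕ) * al)) ≤ 0 →
    ∀ n n', k < n → k < n' → ∀ x, Psi n τ (ee t) N x = Psi n' τ (ee t) N x := by
  induction k with
  | zero =>
    intro t ht n n' hn hn' x
    obtain ⟨n, rfl⟩ : ∃ m, n = m + 1 := ⟨n - 1, by omega⟩
    obtain ⟨n', rfl⟩ : ∃ m, n' = m + 1 := ⟨n' - 1, by omega⟩
    simp only [zero_add, Nat.cast_one, one_mul] at ht
    simp [Psi, ee_prev, hh_zero (show sg τ (ee (t - al)) ≤ 1 by linarith)]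
  | succ k ih =>
    intro t ht n n' hn hn' x
    obtain ⟨n, rfl⟩ : ∃ m, n = m + 1 := ⟨n - 1, by omega⟩
    obtain ⟨n', rfl⟩ : ∃ m, n' = m + 1 := ⟨n' - 1, by omega⟩
    simp only [Psi, ee_prev]
    rw [ih (t - al) (by convert ht using 3; push_cast; ring) n n' (by omega) (by omega)]

lemma GG_stab {τ : ℝ} (hτ : 0 ≤ τ) (t : ℝ) {n n' : ℕ} (hn : Ng τ ≤ n) (hn' : Ng τ ≤ n') (x : E3) :
    GG n τ (ee t) x = GG n' τ (ee t) x := by
  obtain ⟨k, hk, hf⟩ := exists_full hτ (t - Ng τ * al)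
  have := Psi_stab' τ (nu τ * ‖x‖) (Ng τ - 1 - k) t (by
    convert hf using 3
    rw [show Ng τ - 1 - k + 1 = Ng τ - k by omega, Nat.cast_sub hk.le]; ring) n n'
    (by omega) (by omega) x
  unfold GG G
  rw [this]

lemma geom_aux {Y Y' : ℝ} (s3 : 1 / 16384 - 5 / 1638400 ≤ (Y' - Y) ^ 2)
    (dy : |Y ^ 2 - Y' ^ 2| ≤ 10 / 1638400) :
    (1 / 512 ≤ Y ∧ 1 / 512 ≤ -Y') ∨ (1 / 512 ≤ -Y ∧ 1 / 512 ≤ Y') := by
  rw [abs_le] at dy
  have c1 : Y * Y' < 0 := by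
    by_contra hh
    push Not at hh
    rcases le_total (Y ^ 2) (Y' ^ 2) with h | h
    · have : Y ^ 2 ≤ Y * Y' := by
        apply (pow_le_pow_iff_left₀ (by positivity) hh two_ne_zero).1
        have := mul_le_mul_of_nonneg_left h (sq_nonneg Y)
        linarith
      linarith
    · have : Y' ^ 2 ≤ Y * Y' := by
        apply (pow_le_pow_iff_left₀ (by positivity) hh two_ne_zero).1
        have := mul_le_mul_of_nonneg_left h (sq_nonneg Y')
        linarith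
      linarith
  have c2 : (1 / 512) ^ 2 ≤ Y ^ 2 := by linarith [sq_nonneg (Y + Y')]
  have c3 : (1 / 512) ^ 2 ≤ Y' ^ 2 := by linarith [sq_nonneg (Y + Y')]
  rcases le_total 0 Y with h | h
  · left
    have h' : 0 ≤ -Y' := by by_contra hh; push Not at hh; nlinarith
    exact ⟨(pow_le_pow_iff_left₀ (by norm_num) h two_ne_zero).1 c2,
      (pow_le_pow_iff_left₀ (by norm_num) h' two_ne_zero).1 (by rwa [neg_sq])⟩
  · right
    have h' : 0 ≤ Y' := by by_contra hh; push Not at hh; nlinarith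
    exact ⟨(pow_le_pow_iff_left₀ (by norm_num) (by linarith) two_ne_zero).1 (by rwa [neg_sq]),
      (pow_le_pow_iff_left₀ (by norm_num) h' two_ne_zero).1 c3⟩

lemma geom_aux2 {x y x' y' E F : ℝ} (e5 : 1 ≤ E) (n1 : x ^ 2 + y ^ 2 = 1) (n2 : x' ^ 2 + y' ^ 2 = 1)
    (s2 : 1 ≤ (128 * E) ^ 2 * ((x' - x) ^ 2 + (y' - y) ^ 2))
    (a1 : 0 < (1 - x - 2 * F) * E ^ 2 * 1638400) (a2 : (1 - x - 2 * F) * E ^ 2 * 1638400 < 5)
    (b1 : 0 < (1 - x' - 2 * F) * E ^ 2 * 1638400) (b2 : (1 - x' - 2 * F) * E ^ 2 * 1638400 < 5) :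
    1 / 16384 - 5 / 1638400 ≤ (y' * E - y * E) ^ 2 ∧
      |(y * E) ^ 2 - (y' * E) ^ 2| ≤ 10 / 1638400 := by
  have hE2 : 1 ≤ E ^ 2 := one_le_pow₀ e5
  have dx : |x' - x| * E ^ 2 ≤ 5 / 1638400 := by
    rw [← abs_of_pos (show 0 < E ^ 2 by positivity), ← abs_mul, abs_le]
    constructor <;> linarith
  have h0 := abs_nonneg (x' - x)
  have dx1 : |x' - x| ≤ 1 := by
    have := mul_le_mul_of_nonneg_left hE2 h0
    linarith
  have dx2 : (x' - x) ^ 2 * E ^ 2 ≤ 5 / 1638400 := by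
    rw [← sq_abs]
    have := mul_le_mul_of_nonneg_right dx1 (mul_nonneg h0 (show 0 ≤ E ^ 2 by positivity))
    linarith
  have hx1 : |x| ≤ 1 := by rw [← sq_le_one_iff_abs_le_one]; linarith [sq_nonneg y]
  have hx2 : |x'| ≤ 1 := by rw [← sq_le_one_iff_abs_le_one]; linarith [sq_nonneg y']
  have hx : |x' + x| ≤ 2 := by linarith [abs_add_le x' x]
  refine ⟨by linarith, ?_⟩
  have : (y * E) ^ 2 - (y' * E) ^ 2 = (x' + x) * ((x' - x) * E ^ 2) := by
    linear_combination E ^ 2 * n1 - E ^ 2 * n2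
  rw [this, abs_mul, abs_mul, abs_of_pos (show 0 < E ^ 2 by positivity)]
  have := mul_le_mul hx dx (by positivity) (by norm_num)
  linarith

lemma geom {τ : ℝ} (hτ : 0 ≤ τ) (t : ℝ) {n : ℕ} (hn : 1 ≤ n) (hn' : (n : ℝ) ≤ 128 * exp τ)
    (a1 : 0 < sg τ (ee t)) (a2 : sg τ (ee t) < 5)
    (b1 : 0 < sg τ (ee (t + n * al))) (b2 : sg τ (ee (t + n * al)) < 5) :
    cos (ph τ (ee (t + n * al))) * cos (ph τ (ee t)) +
      sin (ph τ (ee (t + n * al))) * sin (ph τ (ee t)) = 0 := by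
  obtain ⟨-, -, e3, -, e5, -⟩ := exp_facts hτ
  have hs := sep t n hn
  have hz := norm_ee t
  have hz' := norm_ee (t + n * al)
  generalize ee t = z at *
  generalize ee (t + n * al) = z' at *
  have hn0 : (0 : ℝ) < n := by exact_mod_cast hn
  have s1 : 1 ≤ 128 * exp τ * ‖z' - z‖ := by
    rw [div_le_iff₀ hn0] at hs
    have := mul_le_mul_of_nonneg_left hn' (norm_nonneg (z' - z))
    linarith
  have s2 : 1 ≤ (128 * exp τ * ‖z' - z‖) ^ 2 := one_le_pow₀ s1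
  have n1 : z.re ^ 2 + z.im ^ 2 = 1 := by
    have := Complex.sq_norm z; rw [hz, Complex.normSq_apply] at this; linarith
  have n2 : z'.re ^ 2 + z'.im ^ 2 = 1 := by
    have := Complex.sq_norm z'; rw [hz', Complex.normSq_apply] at this; linarith
  have n3 : ‖z' - z‖ ^ 2 = (z'.re - z.re) ^ 2 + (z'.im - z.im) ^ 2 := by
    rw [Complex.sq_norm, Complex.normSq_apply]; simp only [Complex.sub_re, Complex.sub_im]; ring
  rw [mul_pow, n3] at s2
  unfold sg at a1 a2 b1 b2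
  unfold ph
  rw [e3] at a1 a2 b1 b2
  obtain ⟨g1, g2⟩ := geom_aux2 e5 n1 n2 s2 a1 a2 b1 b2
  rcases geom_aux g1 g2 with ⟨p1, p2⟩ | ⟨p1, p2⟩
  · rw [smoothTransition.one_of_one_le (x := z.im * exp τ * 256 + 1 / 2) (by linarith),
      smoothTransition.zero_of_nonpos (x := z'.im * exp τ * 256 + 1 / 2) (by linarith)]
    simp
  · rw [smoothTransition.zero_of_nonpos (x := z.im * exp τ * 256 + 1 / 2) (by linarith),
      smoothTransition.one_of_one_le (x := z'.im * exp τ * 256 + 1 / 2) (by linarith)]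
    simp

end Crest.Agent.H1.EC
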