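import Crest.Agent.H1.ECHomA

/-! The fundamental cycle of the sphere, its doubling, and the eigenvalue `2`. -/

set_option autoImplicit false

namespace Crest.Agent.H1.EC

open Complex CategoryTheory Limits Simplicial AlgebraicTopology

noncomputable abbrev RR : ModuleCat.{0} ℝ := ModuleCat.of ℝ ℝ

noncomputable def aff {n : ℕ} (P : Fin (n + 1) → ℝ × ℝ) : C(Δ n, ℝ × ℝ) :=
  ⟨fun y => ∑ i, y.1 i • P i, continuous_finsetSum _ fun i _ =>
    ((continuous_apply i).comp continuous_subtype_val).smul continuous_const⟩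

lemma aff_vm {m n : ℕ} (P : Fin (n + 1) → ℝ × ℝ) (φ : Fin (m + 1) → Fin (n + 1)) :
    (aff P).comp (vm φ) = aff (P ∘ φ) := by
  ext1 y
  show ∑ i, (FunOnFinite.linearMap ℝ ℝ φ y.1) i • P i = ∑ i, y.1 i • P (φ i)
  simp only [FunOnFinite.linearMap_apply_apply, Finset.sum_smul]
  rw [← Finset.sum_fiberwise Finset.univ φ]
  refine Finset.sum_congr rfl fun j _ => Finset.sum_congr rfl fun i hi => ?_
  rw [(Finset.mem_filter.1 hi).2]

lemma aff_fst {n : ℕ} (P : Fin (n + 1) → ℝ × ℝ) (y : Δ n) :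
    (aff P y).1 = ∑ i, y.1 i * (P i).1 := by
  simp [aff, Prod.fst_sum]

lemma aff_snd {n : ℕ} (P : Fin (n + 1) → ℝ × ℝ) (y : Δ n) :
    (aff P y).2 = ∑ i, y.1 i * (P i).2 := by
  simp [aff, Prod.snd_sum]

lemma aff_vertex {n : ℕ} (P : Fin (n + 1) → ℝ × ℝ) (i : Fin (n + 1)) :
    aff P (stdSimplex.vertex i) = P i := by
  simp [aff, Pi.single_apply]

lemma aff_snd_const {n : ℕ} (P : Fin (n + 1) → ℝ × ℝ) (c : ℝ) (h : ∀ i, (P i).2 = c) (y : Δ n) :
    (aff P y).2 = c := by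
  rw [aff_snd]; simp only [h]; rw [← Finset.sum_mul, y.2.2, one_mul]

variable {X Y : TopCat.{0}}

noncomputable def sx {n : ℕ} (σ : C(Δ n, X)) : (TopCat.toSSet.obj X) _⦋n⦌ :=
  (X.toSSetObjEquiv (Opposite.op ⦋n⦌)).symm σ

noncomputable abbrev KK (X : TopCat.{0}) : ChainComplex (ModuleCat.{0} ℝ) ℕ :=
  (TopCat.toSSet.obj X).chainComplex RR

noncomputable def io {n : ℕ} (σ : C(Δ n, X)) : RR ⟶ (KK X).X n :=
  (TopCat.toSSet.obj X).ιChainComplex (sx σ)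

lemma sx_δ {n : ℕ} (σ : C(Δ (n + 1), X)) (i : Fin (n + 2)) :
    (TopCat.toSSet.obj X).δ i (sx σ) = sx (σ.comp (vm i.succAbove)) := rfl

lemma io_d {n : ℕ} (σ : C(Δ (n + 1), X)) :
    io σ ≫ (KK X).d (n + 1) n = ∑ i : Fin (n + 2), (-1) ^ i.val • io (σ.comp (vm i.succAbove)) := by
  unfold io
  rw [SSet.ιChainComplex_d]
  rfl

lemma io_d1 (σ : C(Δ 2, X)) :
    io σ ≫ (KK X).d 2 1 = io (σ.comp (vm (Fin.succAbove 0))) - io (σ.comp (vm (Fin.succAbove 1)))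
      + io (σ.comp (vm (Fin.succAbove 2))) := by
  rw [io_d, Fin.sum_univ_three]; simp; abel

lemma io_d2 (σ : C(Δ 3, X)) :
    io σ ≫ (KK X).d 3 2 = io (σ.comp (vm (Fin.succAbove 0))) - io (σ.comp (vm (Fin.succAbove 1)))
      + io (σ.comp (vm (Fin.succAbove 2))) - io (σ.comp (vm (Fin.succAbove 3))) := by
  rw [io_d, Fin.sum_univ_four]
  have : ((-1 : ℤ) ^ ((3 : Fin 4) : ℕ)) = -1 := by decide
  rw [this]; simp; abel

noncomputable abbrev KM (g : X ⟶ Y) : KK X ⟶ KK Y :=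
  SSet.chainComplexMap (TopCat.toSSet.map g) RR

lemma io_map {n : ℕ} (σ : C(Δ n, X)) (g : X ⟶ Y) :
    io σ ≫ (KM g).f n = io (g.hom.comp σ) := by
  unfold io
  rw [SSet.ι_chainComplexMap_f]
  rfl

/-- affine simplices pushed forward -/
noncomputable def ia {n : ℕ} (π : C(ℝ × ℝ, X)) (P : Fin (n + 1) → ℝ × ℝ) : RR ⟶ (KK X).X n :=
  io (π.comp (aff P))

lemma ia_d1 (π : C(ℝ × ℝ, X)) (a b c : ℝ × ℝ) :
    ia π ![a, b, c] ≫ (KK X).d 2 1 = ia π ![b, c] - ia π ![a, c] + ia π ![a, b] := by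
  unfold ia
  rw [io_d1]
  simp only [ContinuousMap.comp_assoc, aff_vm]
  have e0 : ![a, b, c] ∘ Fin.succAbove 0 = ![b, c] := by ext1 i; fin_cases i <;> rfl
  have e1 : ![a, b, c] ∘ Fin.succAbove 1 = ![a, c] := by ext1 i; fin_cases i <;> rfl
  have e2 : ![a, b, c] ∘ Fin.succAbove 2 = ![a, b] := by ext1 i; fin_cases i <;> rfl
  rw [e0, e1, e2]

lemma ia_d2 (π : C(ℝ × ℝ, X)) (a b c d : ℝ × ℝ) :
    ia π ![a, b, c, d] ≫ (KK X).d 3 2 =
      ia π ![b, c, d] - ia π ![a, c, d] + ia π ![a, b, d] - ia π ![a, b, c] := by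
  unfold ia
  rw [io_d2]
  simp only [ContinuousMap.comp_assoc, aff_vm]
  have e0 : ![a, b, c, d] ∘ Fin.succAbove 0 = ![b, c, d] := by ext1 i; fin_cases i <;> rfl
  have e1 : ![a, b, c, d] ∘ Fin.succAbove 1 = ![a, c, d] := by ext1 i; fin_cases i <;> rfl
  have e2 : ![a, b, c, d] ∘ Fin.succAbove 2 = ![a, b, d] := by ext1 i; fin_cases i <;> rfl
  have e3 : ![a, b, c, d] ∘ Fin.succAbove 3 = ![a, b, c] := by ext1 i; fin_cases i <;> rfl
  rw [e0, e1, e2, e3]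

/-- parametrisations of a sphere -/
structure Sph (π : C(ℝ × ℝ, X)) : Prop where
  per : ∀ l h, π (l + 1, h) = π (l, h)
  top : ∀ l, π (l, 0) = π (0, 0)
  bot : ∀ l, π (l, 1) = π (0, 1)

lemma Sph.shift {π : C(ℝ × ℝ, X)} (hπ : Sph π) {n : ℕ} (P Q : Fin (n + 1) → ℝ × ℝ)
    (h : ∀ i, P i = Q i + (1, 0)) : π.comp (aff P) = π.comp (aff Q) := by
  ext1 y
  have : aff P y = ((aff Q y).1 + 1, (aff Q y).2) := by
    ext
    · simp only [aff_fst, h, Prod.fst_add, mul_add, Finset.sum_add_distrib, mul_one, y.2.2]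
    · simp only [aff_snd, h, Prod.snd_add, add_zero]
  simp only [ContinuousMap.comp_apply]
  rw [this, hπ.per]

lemma Sph.top' {π : C(ℝ × ℝ, X)} (hπ : Sph π) {n : ℕ} (P : Fin (n + 1) → ℝ × ℝ)
    (h : ∀ i, (P i).2 = 0) : π.comp (aff P) = ContinuousMap.const _ (π (0, 0)) := by
  ext1 y
  have : aff P y = ((aff P y).1, 0) := Prod.ext rfl (aff_snd_const P 0 h y)
  simp only [ContinuousMap.comp_apply, ContinuousMap.const_apply]
  rw [this, hπ.top]

lemma Sph.bot' {π : C(ℝ × ℝ, X)} (hπ : Sph π) {n : ℕ} (P : Fin (n + 1) → ℝ × ℝ)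
    (h : ∀ i, (P i).2 = 1) : π.comp (aff P) = ContinuousMap.const _ (π (0, 1)) := by
  ext1 y
  have : aff P y = ((aff P y).1, 1) := Prod.ext rfl (aff_snd_const P 1 h y)
  simp only [ContinuousMap.comp_apply, ContinuousMap.const_apply]
  rw [this, hπ.bot]

noncomputable def cyc (π : C(ℝ × ℝ, X)) (m : ℝ) : RR ⟶ (KK X).X 2 :=
  ia π ![(0, 0), (m, 0), (m, 1)] - ia π ![(0, 0), (0, 1), (m, 1)]
    - ia π ![(0, 0), (0, 0), (0, 0)] + ia π ![(0, 1), (0, 1), (0, 1)]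

lemma cyc_d {π : C(ℝ × ℝ, X)} (hπ : Sph π) (m : ℝ) (hm : m = 1 ∨ m = 2) :
    cyc π m ≫ (KK X).d 2 1 = 0 := by
  simp only [cyc, Preadditive.add_comp, Preadditive.sub_comp, ia_d1]
  have e1 : ia π ![(m, 0), (m, 1)] = ia π ![(0, 0), (0, 1)] := by
    unfold ia
    rcases hm with rfl | rfl
    · rw [hπ.shift _ ![(0, 0), (0, 1)] (fun i => by fin_cases i <;> simp)]
    · rw [hπ.shift _ ![(1, 0), (1, 1)] (fun i => by fin_cases i <;> norm_num),
        hπ.shift _ ![(0, 0), (0, 1)] (fun i => by fin_cases i <;> simp)]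
  have e2 : ia π ![(0, 0), (m, 0)] = ia π ![(0, 0), (0, 0)] := by
    unfold ia
    rw [hπ.top' _ (fun i => by fin_cases i <;> rfl), hπ.top' _ (fun i => by fin_cases i <;> rfl)]
  have e3 : ia π ![(0, 1), (m, 1)] = ia π ![(0, 1), (0, 1)] := by
    unfold ia
    rw [hπ.bot' _ (fun i => by fin_cases i <;> rfl), hπ.bot' _ (fun i => by fin_cases i <;> rfl)]
  rw [e1, e2, e3]; abel

lemma cyc_two {π : C(ℝ × ℝ, X)} (hπ : Sph π) :
    cyc π 1 + cyc π 1 - cyc π 2 =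
      (ia π ![(0, 0), (1, 0), (2, 0), (2, 1)] - ia π ![(0, 0), (1, 0), (1, 1), (2, 1)]
        + ia π ![(0, 0), (0, 1), (1, 1), (2, 1)]) ≫ (KK X).d 3 2 := by
  simp only [cyc, Preadditive.add_comp, Preadditive.sub_comp, ia_d2]
  have e1 : ia π ![(1, 0), (2, 0), (2, 1)] = ia π ![(0, 0), (1, 0), (1, 1)] := by
    unfold ia
    rw [hπ.shift _ ![(0, 0), (1, 0), (1, 1)] (fun i => by fin_cases i <;> norm_num)]
  have e1' : ia π ![(1, 0), (1, 1), (2, 1)] = ia π ![(0, 0), (0, 1), (1, 1)] := by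
    unfold ia
    rw [hπ.shift _ ![(0, 0), (0, 1), (1, 1)] (fun i => by fin_cases i <;> norm_num)]
  have e2 : ia π ![(0, 0), (1, 0), (2, 0)] = ia π ![(0, 0), (0, 0), (0, 0)] := by
    unfold ia
    rw [hπ.top' _ (fun i => by fin_cases i <;> rfl), hπ.top' _ (fun i => by fin_cases i <;> rfl)]
  have e3 : ia π ![(0, 1), (1, 1), (2, 1)] = ia π ![(0, 1), (0, 1), (0, 1)] := by
    unfold ia
    rw [hπ.bot' _ (fun i => by fin_cases i <;> rfl), hπ.bot' _ (fun i => by fin_cases i <;> rfl)]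
  rw [e1, e1', e2, e3]; abel

noncomputable def cls {π : C(ℝ × ℝ, X)} (hπ : Sph π) (m : ℝ) (hm : m = 1 ∨ m = 2) :
    RR ⟶ (KK X).homology 2 :=
  (KK X).liftCycles (cyc π m) 1 (by simp) (cyc_d hπ m hm) ≫ (KK X).homologyπ 2

lemma cls_two {π : C(ℝ × ℝ, X)} (hπ : Sph π) :
    cls hπ 2 (Or.inr rfl) = cls hπ 1 (Or.inl rfl) + cls hπ 1 (Or.inl rfl) := by
  have h := (KK X).liftCycles_homologyπ_eq_zero_of_boundary _ 1 (by simp) _ (cyc_two hπ)
  have e : (KK X).liftCycles (cyc π 1 + cyc π 1 - cyc π 2) 1 (by simp)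
      (by rw [cyc_two hπ, Category.assoc, (KK X).d_comp_d, comp_zero]) =
      (KK X).liftCycles (cyc π 1) 1 (by simp) (cyc_d hπ 1 (Or.inl rfl)) +
      (KK X).liftCycles (cyc π 1) 1 (by simp) (cyc_d hπ 1 (Or.inl rfl)) -
      (KK X).liftCycles (cyc π 2) 1 (by simp) (cyc_d hπ 2 (Or.inr rfl)) := by
    rw [← cancel_mono ((KK X).iCycles 2)]
    simp only [Preadditive.add_comp, Preadditive.sub_comp, HomologicalComplex.liftCycles_i]
  rw [e, Preadditive.sub_comp, Preadditive.add_comp, sub_eq_zero] at h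
  exact h.symm

lemma Sph.comp {π : C(ℝ × ℝ, X)} (hπ : Sph π) (g : X ⟶ Y) : Sph (g.hom.comp π) :=
  ⟨fun l h => congrArg g.hom (hπ.per l h), fun l => congrArg g.hom (hπ.top l),
    fun l => congrArg g.hom (hπ.bot l)⟩

lemma cyc_map (π : C(ℝ × ℝ, X)) (m : ℝ) (g : X ⟶ Y) :
    cyc π m ≫ (KM g).f 2 = cyc (g.hom.comp π) m := by
  simp only [cyc, ia, Preadditive.add_comp, Preadditive.sub_comp, io_map]
  rfl

lemma cls_congr {π π' : C(ℝ × ℝ, X)} (hπ : Sph π) (hπ' : Sph π') (m m' : ℝ) (hm : m = 1 ∨ m = 2)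
    (hm' : m' = 1 ∨ m' = 2) (h : cyc π m = cyc π' m') : cls hπ m hm = cls hπ' m' hm' := by
  unfold cls
  congr 1
  rw [← cancel_mono ((KK X).iCycles 2)]
  simp only [HomologicalComplex.liftCycles_i, h]

lemma cls_map {π : C(ℝ × ℝ, X)} (hπ : Sph π) (m : ℝ) (hm : m = 1 ∨ m = 2) (g : X ⟶ Y) :
    cls hπ m hm ≫ HomologicalComplex.homologyMap (KM g) 2 = cls (hπ.comp g) m hm := by
  unfold cls
  rw [Category.assoc, HomologicalComplex.homologyπ_naturality, ← Category.assoc,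
    HomologicalComplex.liftCycles_comp_cyclesMap]
  congr 1
  rw [← cancel_mono ((KK Y).iCycles 2)]
  simp only [HomologicalComplex.liftCycles_i, cyc_map]

lemma cyc_double {π π' : C(ℝ × ℝ, X)}
    (h : ∀ l t, 0 ≤ t → t ≤ 1 → π' (l, t) = π (2 * l, t)) : cyc π' 1 = cyc π 2 := by
  have key : ∀ P Q : Fin 3 → ℝ × ℝ, (∀ i, 0 ≤ (P i).2 ∧ (P i).2 ≤ 1) →
      (∀ i, Q i = (2 * (P i).1, (P i).2)) → ia π' P = ia π Q := by
    intro P Q hP hQ
    unfold ia
    congr 1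
    ext1 y
    have e : aff Q y = (2 * (aff P y).1, (aff P y).2) := by
      ext
      · simp only [aff_fst, hQ, Finset.mul_sum]
        exact Finset.sum_congr rfl fun i _ => by ring
      · simp only [aff_snd, hQ]
    simp only [ContinuousMap.comp_apply]
    rw [e, ← h]
    · rw [aff_snd]; exact Finset.sum_nonneg fun i _ => mul_nonneg (y.2.1 i) (hP i).1
    · rw [aff_snd, ← y.2.2]
      exact Finset.sum_le_sum fun i _ => mul_le_of_le_one_right (y.2.1 i) (hP i).2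
  unfold cyc
  rw [key _ ![(0, 0), (2, 0), (2, 1)] (fun i => by fin_cases i <;> simp)
      (fun i => by fin_cases i <;> simp),
    key ![(0, 0), (0, 1), (1, 1)] ![(0, 0), (0, 1), (2, 1)] (fun i => by fin_cases i <;> simp)
      (fun i => by fin_cases i <;> simp),
    key ![(0, 0), (0, 0), (0, 0)] ![(0, 0), (0, 0), (0, 0)] (fun i => by fin_cases i <;> simp)
      (fun i => by fin_cases i <;> simp),
    key ![(0, 1), (0, 1), (0, 1)] ![(0, 1), (0, 1), (0, 1)] (fun i => by fin_cases i <;> simp)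
      (fun i => by fin_cases i <;> simp)]

/-- the standard parametrisation -/
noncomputable def P0 : C(ℝ × ℝ, ℂ × ℝ) :=
  ⟨fun q => ((Real.sin (Real.pi * q.2) : ℂ) * exp (2 * Real.pi * q.1 * I),
    Real.cos (Real.pi * q.2)), by fun_prop⟩

noncomputable def V0 : C(ℝ × ℝ, ℂ × ℂ) :=
  ⟨fun q => ((Real.cos (Real.pi * q.2 / 2) : ℂ),
    (Real.sin (Real.pi * q.2 / 2) : ℂ) * exp (2 * Real.pi * q.1 * I)), by fun_prop⟩

lemma norm_e (l : ℝ) : ‖exp (2 * Real.pi * l * I)‖ = 1 := by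
  have : (2 * Real.pi * l * I : ℂ) = ((2 * Real.pi * l : ℝ) : ℂ) * I := by push_cast; ring
  rw [this, Complex.norm_exp_ofReal_mul_I]

lemma P0_onS (q : ℝ × ℝ) : OnS (P0 q) := by
  simp only [OnS, P0, ContinuousMap.coe_mk, norm_mul, norm_e, mul_one, Complex.norm_real,
    Real.norm_eq_abs, sq_abs]
  exact Real.sin_sq_add_cos_sq _

lemma V0_lift (q : ℝ × ℝ) : V0 q ≠ 0 ∧ OnL (P0 q) (V0 q) := by
  have he : (starRingEnd ℂ) (exp (2 * Real.pi * q.1 * I)) * exp (2 * Real.pi * q.1 * I) = 1 := by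
    rw [Complex.conj_mul', norm_e]; simp
  have hs : Real.sin (Real.pi * q.2) = 2 * Real.sin (Real.pi * q.2 / 2) * Real.cos (Real.pi * q.2 / 2) := by
    rw [← Real.sin_two_mul]; ring_nf
  have hc : Real.cos (Real.pi * q.2) = 2 * Real.cos (Real.pi * q.2 / 2) ^ 2 - 1 := by
    rw [← Real.cos_two_mul]; ring_nf
  have h1 := Real.sin_sq_add_cos_sq (Real.pi * q.2 / 2)
  simp only [P0, V0, ContinuousMap.coe_mk, OnL]
  rw [hs, hc]
  generalize Real.sin (Real.pi * q.2 / 2) = s at *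
  generalize Real.cos (Real.pi * q.2 / 2) = c at *
  have hE : exp (2 * Real.pi * q.1 * I) ≠ 0 := exp_ne_zero _
  generalize exp (2 * Real.pi * q.1 * I) = E at *
  have h1' : (s : ℂ) ^ 2 + (c : ℂ) ^ 2 = 1 := by exact_mod_cast h1
  refine ⟨fun h0 => ?_, ?_, ?_⟩
  · have a : (c : ℂ) = 0 := congrArg Prod.fst h0
    have b : (s : ℂ) * E = 0 := congrArg Prod.snd h0
    have b' : (s : ℂ) = 0 := (mul_eq_zero.1 b).resolve_right hE
    rw [a, b'] at h1'; simp at h1'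
  · simp only [map_mul, Complex.conj_ofReal]
    push_cast
    linear_combination (-2 * c) * h1' - 2 * s ^ 2 * c * he
  · push_cast; ring

noncomputable def aa (a b : ℝ × ℝ) : ℂ := An (P0.comp (aff ![a, b])) (V0.comp (aff ![a, b]))

lemma ec_aff (a b c : ℝ × ℝ) : ec (P0.comp (aff ![a, b, c])) = aa b c - aa a c + aa a b := by
  rw [ec_eq (fun y => P0_onS _) (V := V0.comp (aff ![a, b, c])) (fun y => V0_lift _)]
  simp only [eW, ContinuousMap.comp_assoc, aff_vm]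
  have e0 : ![a, b, c] ∘ Fin.succAbove 0 = ![b, c] := by ext1 i; fin_cases i <;> rfl
  have e1 : ![a, b, c] ∘ Fin.succAbove 1 = ![a, c] := by ext1 i; fin_cases i <;> rfl
  have e2 : ![a, b, c] ∘ Fin.succAbove 2 = ![a, b] := by ext1 i; fin_cases i <;> rfl
  rw [e0, e1, e2]; rfl

lemma aa_1 : aa (1, 0) (1, 1) = aa (0, 0) (0, 1) := by
  have e : ∀ y, aff ![((1:ℝ), (0:ℝ)), (1, 1)] y = ((aff ![((0:ℝ), (0:ℝ)), (0, 1)] y).1 + 1,
      (aff ![((0:ℝ), (0:ℝ)), (0, 1)] y).2) := by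
    intro y
    have := y.2.2
    rw [Fin.sum_univ_two] at this
    ext
    · simp [aff_fst, Fin.sum_univ_two]; exact this
    · simp [aff_snd, Fin.sum_univ_two]
  have ee : ∀ l : ℝ, exp (2 * Real.pi * ((l + 1 : ℝ) : ℂ) * I) = exp (2 * Real.pi * l * I) := by
    intro l
    push_cast
    rw [show 2 * (Real.pi : ℂ) * (l + 1) * I = 2 * Real.pi * l * I + 2 * Real.pi * I by ring,
      exp_add, exp_two_pi_mul_I, mul_one]
  unfold aa
  congr 1
  · ext1 y; simp only [ContinuousMap.comp_apply, e, P0, ContinuousMap.coe_mk, ee]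
  · ext1 y; simp only [ContinuousMap.comp_apply, e, V0, ContinuousMap.coe_mk, ee]

lemma aa_2 : aa (0, 0) (1, 0) = aa (0, 0) (0, 0) := by
  have e : ∀ (m : ℝ) y, (aff ![((0:ℝ), (0:ℝ)), (m, 0)] y).2 = 0 := fun m y =>
    aff_snd_const _ _ (fun i => by fin_cases i <;> rfl) y
  unfold aa
  congr 1
  · ext1 y; simp [e, P0]
  · ext1 y; simp [e, V0]

lemma aa_3 : aa (0, 1) (1, 1) = aa (0, 1) (0, 1) + 2 * Real.pi * I := by
  have e : ∀ (m : ℝ) y, (aff ![((0:ℝ), (1:ℝ)), (m, 1)] y).2 = 1 := fun m y =>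
    aff_snd_const _ _ (fun i => by fin_cases i <;> rfl) y
  have e0 : ∀ y, (aff ![((0:ℝ), (1:ℝ)), (0, 1)] y).1 = 0 := fun y => by
    simp [aff_fst, Fin.sum_univ_two]
  have h1 : P0.comp (aff ![((0:ℝ), (1:ℝ)), (1, 1)]) = P0.comp (aff ![((0:ℝ), (1:ℝ)), (0, 1)]) := by
    ext1 y; simp [e, P0]
  let l : C(Δ 1, ℂ) := ⟨fun y => 2 * Real.pi * (aff ![((0:ℝ), (1:ℝ)), (1, 1)] y).1 * I,
    (continuous_const.mul (continuous_ofReal.comp (continuous_fst.comp
      (aff ![((0:ℝ), (1:ℝ)), (1, 1)]).continuous))).mul continuous_const⟩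
  let g : C(Δ 1, ℂ) := ⟨fun y => exp (l y), by fun_prop⟩
  unfold aa An
  rw [h1]
  have hs : ∀ y, OnS ((P0.comp (aff ![((0:ℝ), (1:ℝ)), (0, 1)])) y) := fun y => P0_onS _
  have hW := ch_lift hs
  have hV : IsLift (P0.comp (aff ![((0:ℝ), (1:ℝ)), (0, 1)])) (V0.comp (aff ![((0:ℝ), (1:ℝ)), (0, 1)])) :=
    fun y => V0_lift _
  have hne := hp_ne hs hV hW
  generalize ch (P0.comp (aff ![((0:ℝ), (1:ℝ)), (0, 1)])) = U at *
  have h2 : hp (V0.comp (aff ![((0:ℝ), (1:ℝ)), (1, 1)])) U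
      = g * hp (V0.comp (aff ![((0:ℝ), (1:ℝ)), (0, 1)])) U := by
    ext y; simp [hp, V0, e, e0, g, l]
  rw [h2, Dl_mul _ _ (fun y => exp_ne_zero _) hne, Dl_eq g l (fun y => rfl)]
  simp only [l, ContinuousMap.coe_mk, aff_vertex]
  simp; ring

/-- the cocycle as a morphism -/
noncomputable def eM (p : C(X, ℂ × ℝ)) : (KK X).X 2 ⟶ RR :=
  Sigma.desc fun x : (TopCat.toSSet.obj X) _⦋2⦌ =>
    (ec (p.comp (X.toSSetObjEquiv (Opposite.op ⦋2⦌) x))).im • 𝟙 RR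

lemma io_eM (p : C(X, ℂ × ℝ)) (σ : C(Δ 2, X)) : io σ ≫ eM p = (ec (p.comp σ)).im • 𝟙 RR := by
  unfold io eM SSet.ιChainComplex
  erw [Sigma.ι_desc]
  rfl

lemma d_eM (p : C(X, ℂ × ℝ)) (hp : ∀ x, OnS (p x)) : (KK X).d 3 2 ≫ eM p = 0 := by
  apply SSet.chainComplex_hom_ext
  intro x
  obtain ⟨τ, rfl⟩ : ∃ τ : C(Δ 3, X), x = sx τ :=
    ⟨X.toSSetObjEquiv (Opposite.op ⦋3⦌) x, (Equiv.symm_apply_apply _ _).symm⟩
  change io τ ≫ _ = _
  rw [← Category.assoc, io_d2]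
  simp only [Preadditive.add_comp, Preadditive.sub_comp, io_eM, comp_zero]
  have := congrArg Complex.im (ec_cocycle (p.comp τ) (fun y => hp _))
  simp only [sub_im, add_im, zero_im, ContinuousMap.comp_assoc] at this
  rw [← sub_smul, ← add_smul, ← sub_smul, this, zero_smul]

lemma cls_ne {π : C(ℝ × ℝ, X)} (hπ : Sph π) (p : C(X, ℂ × ℝ)) (hp : ∀ x, OnS (p x))
    (h : p.comp π = P0) : cls hπ 1 (Or.inl rfl) ≠ 0 := by
  intro h0
  have h1 : cls hπ 1 (Or.inl rfl) ≫ (KK X).homologyι 2 ≫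
      (KK X).descOpcycles (eM p) 3 (by simp) (d_eM p hp) = cyc π 1 ≫ eM p := by
    unfold cls
    rw [Category.assoc, HomologicalComplex.homology_π_ι_assoc, HomologicalComplex.p_descOpcycles,
      HomologicalComplex.liftCycles_i_assoc]
  rw [h0, zero_comp] at h1
  simp only [cyc, ia, Preadditive.add_comp, Preadditive.sub_comp, io_eM,
    ← ContinuousMap.comp_assoc, h, ec_aff] at h1
  rw [← sub_smul, ← sub_smul, ← add_smul, aa_1, aa_2, aa_3] at h1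
  have h2 := congrArg (fun φ : RR ⟶ RR => φ.hom (1 : ℝ)) h1
  simp at h2
  linarith [Real.pi_pos]

theorem hom_eig {S : Type} [TopologicalSpace S] {M : Type} [TopologicalSpace M] (f : C(M, M))
    (i : C(S, M)) (d : C(S, S)) (π : C(ℝ × ℝ, S)) (p : C(M, ℂ × ℝ)) (hp : ∀ x, OnS (p x))
    (hπ : ∀ q, p (i (π q)) = P0 q)
    (per : ∀ l h, π (l + 1, h) = π (l, h)) (top : ∀ l, π (l, 0) = π (0, 0))
    (bot : ∀ l, π (l, 1) = π (0, 1))
    (hd : ∀ l t, 0 ≤ t → t ≤ 1 → d (π (l, t)) = π (2 * l, t))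
    (H : (f.comp i).Homotopic (i.comp d)) :
    Module.End.HasEigenvalue
      (((AlgebraicTopology.singularHomologyFunctor (ModuleCat.{0} ℝ) 2).obj
        (ModuleCat.of ℝ ℝ)).map (TopCat.ofHom f)).hom (2 : ℝ) := by
  have hS : Sph (X := TopCat.of S) π := ⟨per, top, bot⟩
  let i' : TopCat.of S ⟶ TopCat.of M := TopCat.ofHom i
  let d' : TopCat.of S ⟶ TopCat.of S := TopCat.ofHom d
  let f' : TopCat.of M ⟶ TopCat.of M := TopCat.ofHom f
  have hM := hS.comp i'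
  have hne := cls_ne hM p hp (by ext1 q; exact hπ q)
  obtain ⟨H⟩ := H
  have hh := TopCat.Homotopy.congr_homologyMap_singularChainComplexFunctor
    (f := i' ≫ f') (g := d' ≫ i') H RR 2
  have e1 : cls hM 1 (Or.inl rfl) ≫ HomologicalComplex.homologyMap (KM f') 2
      = cls hM 1 (Or.inl rfl) + cls hM 1 (Or.inl rfl) := by
    rw [cls_map, ← cls_two]
    have a1 := cls_map hS 1 (Or.inl rfl) (i' ≫ f')
    have a2 := cls_map hS 1 (Or.inl rfl) (d' ≫ i')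
    have a3 : cls (hS.comp (i' ≫ f')) 1 (Or.inl rfl) = cls (hS.comp (d' ≫ i')) 1 (Or.inl rfl) := by
      rw [← a1, ← a2]; exact congrArg _ hh
    refine Eq.trans a3 (cls_congr _ _ _ _ _ _ (cyc_double fun l t h0 h1 => ?_))
    exact congrArg i (hd l t h0 h1)
  refine Module.End.hasEigenvalue_of_hasEigenvector (x := (cls hM 1 (Or.inl rfl)).hom (1 : ℝ)) ⟨?_, ?_⟩
  · rw [Module.End.mem_eigenspace_iff]
    have := congrArg (fun φ : RR ⟶ (KK (TopCat.of M)).homology 2 => φ.hom (1 : ℝ)) e1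
    simp only [ModuleCat.hom_comp, LinearMap.comp_apply, ModuleCat.hom_add, LinearMap.add_apply] at this
    rw [two_smul]
    exact this
  · intro h0
    apply hne
    ext
    exact h0

end Crest.Agent.H1.EC
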