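import Mathlib

/-! Transport of a boundaryless manifold structure to a Euclidean model. -/

set_option autoImplicit false

namespace Crest.Agent.H1.EC

open scoped Manifold ContDiff

theorem transport {E H M : Type*} [NormedAddCommGroup E] [NormedSpace ℝ E] [FiniteDimensional ℝ E]
    [TopologicalSpace H] (I : ModelWithCorners ℝ E H) [I.Boundaryless] [TopologicalSpace M]
    [ChartedSpace H M] [IsManifold I ∞ M] (f : M → M) (hf : ContMDiff I I 1 f) :
    ∃ (n : ℕ) (_ : ChartedSpace (EuclideanSpace ℝ (Fin n)) M),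
      IsManifold (modelWithCornersSelf ℝ (EuclideanSpace ℝ (Fin n))) ∞ M ∧
      ContMDiff (modelWithCornersSelf ℝ (EuclideanSpace ℝ (Fin n)))
        (modelWithCornersSelf ℝ (EuclideanSpace ℝ (Fin n))) 1 f := by
  let L : E ≃L[ℝ] EuclideanSpace ℝ (Fin (Module.finrank ℝ E)) := toEuclidean
  let e : H ≃ₜ EuclideanSpace ℝ (Fin (Module.finrank ℝ E)) := I.toHomeomorph.trans L.toHomeomorph
  let cs : ChartedSpace (EuclideanSpace ℝ (Fin (Module.finrank ℝ E))) M :=
    { atlas := (fun c => c.transHomeomorph e) '' atlas H M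
      chartAt := fun x => (chartAt H x).transHomeomorph e
      mem_chart_source := fun x => mem_chart_source H x
      chart_mem_atlas := fun x => ⟨_, chart_mem_atlas H x, rfl⟩ }
  refine ⟨Module.finrank ℝ E, cs, ?_, ?_⟩
  · apply isManifold_of_contDiffOn
    rintro _ _ ⟨c, hc, rfl⟩ ⟨c', hc', rfl⟩
    have h : ContDiffOn ℝ ∞ (I ∘ (c.symm ≫ₕ c') ∘ I.symm)
        (I.symm ⁻¹' (c.symm ≫ₕ c').source ∩ Set.range I) :=
      ((contDiffGroupoid ∞ I).compatible hc hc').1
    have h2 := L.contDiff.comp_contDiffOn (h.comp L.symm.contDiff.contDiffOn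
      (s := L.symm ⁻¹' (I.symm ⁻¹' (c.symm ≫ₕ c').source ∩ Set.range I)) (fun x hx => hx))
    refine (h2.mono ?_).congr ?_
    · rintro x ⟨hx, -⟩
      refine ⟨hx, ?_⟩
      rw [I.range_eq_univ]; trivial
    · intro x _; rfl
  · intro x
    have h := contMDiffAt_iff.1 (hf x)
    rw [contMDiffAt_iff]
    refine ⟨h.1, ?_⟩
    have h2 := h.2
    rw [I.range_eq_univ, contDiffWithinAt_univ] at h2
    have h3 : ContDiffAt ℝ 1 (extChartAt I (f x) ∘ f ∘ (extChartAt I x).symm)
        (L.symm (L (extChartAt I x x))) := by rwa [L.symm_apply_apply]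
    have h4 := L.contDiff.contDiffAt.comp _ (h3.comp _ L.symm.contDiff.contDiffAt)
    exact h4.contDiffWithinAt

end Crest.Agent.H1.EC
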