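import Crest.Agent.H1.ECGlob
import Crest.Agent.H1.ECHomB
import Crest.Agent.H1.ECMan

/-! Smoothness and homotopy class of the global map. -/

set_option autoImplicit false

namespace Crest.Agent.H1.EC

open Real Filter Topology
open scoped Manifold ContDiff

noncomputable abbrev I0 := (𝓡 1).prod ((𝓡 2).prod ((𝓡 2).prod (𝓡 2)))

abbrev A0 := ℂ × V3 × V3 × V3

def emb (y : M0) : A0 := (y.1, y.2.1, y.2.2.1, y.2.2.2)

attribute [local instance] finrank_real_complex_fact'

lemma contMDiff_emb : ContMDiff I0 𝓘(ℝ, A0) 1 emb := by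
  have h1 : ContMDiff (𝓡 1) 𝓘(ℝ, ℂ) 1 fun z : Circle => (z : ℂ) := contMDiff_coe_sphere
  have h2 : ContMDiff (𝓡 2) 𝓘(ℝ, V3) 1 fun p : Sp => (p : V3) := contMDiff_coe_sphere
  exact (h1.comp contMDiff_fst).prodMk_space ((h2.comp (contMDiff_fst.comp contMDiff_snd)).prodMk_space
    ((h2.comp (contMDiff_fst.comp (contMDiff_snd.comp contMDiff_snd))).prodMk_space
      (h2.comp (contMDiff_snd.comp (contMDiff_snd.comp contMDiff_snd)))))

lemma contMDiff_gf : ContMDiff I0 𝓘(ℝ, E3) 1 gf := by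
  intro y₀
  obtain ⟨t₀, ht₀⟩ := circle_ee y₀.1
  let θ : A0 → ℝ := fun w => t₀ + (Complex.log (w.1 * ee (-t₀))).im / (2 * π)
  have h1 : (emb y₀).1 * ee (-t₀) = 1 := by
    show (y₀.1 : ℂ) * _ = 1
    rw [ht₀, ← ee_add, add_neg_cancel, ee_zero]
  have hθ : ContDiffAt ℝ 1 θ (emb y₀) := by
    have a : ContDiffAt ℝ 1 Complex.log ((emb y₀).1 * ee (-t₀)) := by
      rw [h1]; exact (Complex.contDiffAt_log (by simp)).restrict_scalars ℝ
    have b : ContDiffAt ℝ 1 (fun w : A0 => Complex.log (w.1 * ee (-t₀))) (emb y₀) :=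
      a.comp (f := fun w : A0 => w.1 * ee (-t₀)) (emb y₀) (ContDiff.contDiffAt (by fun_prop))
    exact contDiffAt_const.add ((contDiff_im.contDiffAt.comp _ b).div_const _)
  have hx : ContDiff ℝ 1 fun w : A0 => mk3 (uu w.2.1) (uu w.2.2.1) (uu w.2.2.2) := by fun_prop
  have h2 := contDiff_Gam.contDiffAt.comp (emb y₀) (hθ.prodMk hx.contDiffAt)
  have h3 := h2.comp_contMDiffAt (contMDiff_emb y₀)
  refine h3.congr_of_eventuallyEq (Eventually.of_forall fun y => ?_)
  have e : ee (θ (emb y)) = y.1 := by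
    have n1 : ‖(y.1 : ℂ) * ee (-t₀)‖ = 1 := by rw [norm_mul, norm_ee, Circle.norm_coe, one_mul]
    have e1 : ee ((Complex.log ((y.1 : ℂ) * ee (-t₀))).im / (2 * π)) = y.1 * ee (-t₀) := by
      unfold ee
      rw [mul_div_cancel₀ _ (by positivity), Complex.log_im]
      have := Complex.norm_mul_exp_arg_mul_I ((y.1 : ℂ) * ee (-t₀))
      rw [n1] at this
      simpa [ee] using this
    show ee (t₀ + (Complex.log ((y.1 : ℂ) * ee (-t₀))).im / (2 * π)) = _
    rw [ee_add, e1, mul_comm, mul_assoc, ← ee_add, neg_add_cancel, ee_zero, mul_one]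
  show Gam y.1 (xf y) = Gam (ee (θ (emb y))) (xf y)
  rw [e]

lemma contMDiff_toSp {v : M0 → V3} (hv : ContMDiff I0 𝓘(ℝ, V3) 1 v) (h : ∀ y, v y ≠ 0) :
    ContMDiff I0 (𝓡 2) 1 fun y => toSp (v y) (h y) := by
  have h1 : ContMDiff I0 𝓘(ℝ, V3) 1 fun y => ‖v y‖⁻¹ • v y := by
    intro y
    have a : ContDiffAt ℝ 1 (fun w : V3 => ‖w‖⁻¹ • w) (v y) :=
      ((contDiffAt_norm ℝ (h y)).inv (norm_pos_iff.2 (h y)).ne').smul contDiffAt_id
    exact a.comp_contMDiffAt (hv y)
  exact h1.codRestrict_sphere fun y => (toSp (v y) (h y)).2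

lemma contMDiff_ff : ContMDiff I0 I0 1 ff := by
  have hE := contMDiff_emb.prodMk_space contMDiff_gf
  have h1 : ContMDiff I0 (𝓡 1) 1 fun y : M0 => y.1 * Circle.exp (2 * π * al) := by
    have a : ContDiff ℝ 1 fun w : A0 => w.1 * (Circle.exp (2 * π * al) : ℂ) := by fun_prop
    exact (a.comp_contMDiff contMDiff_emb).codRestrict_sphere
      fun y => (y.1 * Circle.exp (2 * π * al)).2
  have h2 : ContDiff ℝ 1 fun w : A0 × E3 => mkV ((chi (ht w.1.2.1) : ℂ) * w.2 0 +
      ((1 - chi (ht w.1.2.1) : ℝ) : ℂ) * cx w.1.2.1 ^ 2) (DD (ht w.1.2.1)) := by fun_prop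
  have h3 : ∀ k : Fin 3, ContDiff ℝ 1 fun w : A0 × E3 =>
      mkV ((chi (ht w.1.2.1) : ℂ) * w.2 k) 1 := fun k => by fun_prop
  exact h1.prodMk ((contMDiff_toSp (h2.comp_contMDiff hE) VV_ne).prodMk
    ((contMDiff_toSp ((h3 1).comp_contMDiff hE) fun _ => mkV_one_ne _).prodMk
      (contMDiff_toSp ((h3 2).comp_contMDiff hE) fun _ => mkV_one_ne _)))

noncomputable def ffC : C(M0, M0) := ⟨ff, contMDiff_ff.continuous⟩

lemma continuous_toSp {X : Type*} [TopologicalSpace X] {v : X → V3} (hv : Continuous v)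
    (h : ∀ y, v y ≠ 0) : Continuous fun y => toSp (v y) (h y) :=
  Continuous.subtype_mk ((hv.norm.inv₀ fun y => (norm_pos_iff.2 (h y)).ne').smul hv) _

lemma mem_Sp {a : ℂ} {h : ℝ} (e : ‖a‖ ^ 2 + h ^ 2 = 1) : mkV a h ∈ Metric.sphere (0 : V3) 1 := by
  have := norm_sq_V3 (mkV a h)
  simp only [cx_mkV, ht_mkV] at this
  simp only [mem_sphere_iff_norm, sub_zero]
  apply (pow_left_inj₀ (norm_nonneg _) zero_le_one two_ne_zero).1; linarith

lemma continuous_mkV {X : Type*} [TopologicalSpace X] {a : X → ℂ} {h : X → ℝ} (ha : Continuous a)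
    (hh : Continuous h) : Continuous fun x => mkV (a x) (h x) :=
  contDiff_mkV.continuous.comp (ha.prodMk hh)

lemma continuous_cxS : Continuous fun p : Sp => cx p := contDiff_cx.continuous.comp continuous_subtype_val
lemma continuous_htS : Continuous fun p : Sp => ht p := contDiff_ht.continuous.comp continuous_subtype_val

noncomputable def iS : C(Sp, M0) := ⟨fun p => (1, p, nP, nP), by fun_prop⟩

noncomputable def dS : C(Sp, Sp) :=
  ⟨fun p => ⟨mkV (Q2 (cx p)) (ht p), mem_Sp (by rw [norm_Q2]; exact Sp_eq p)⟩,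
    Continuous.subtype_mk (continuous_mkV (continuous_Q2.comp continuous_cxS) continuous_htS) _⟩

noncomputable def piS : C(ℝ × ℝ, Sp) :=
  ⟨fun q => ⟨mkV (P0 q).1 (P0 q).2, mem_Sp (P0_onS q)⟩,
    Continuous.subtype_mk (continuous_mkV P0.continuous.fst P0.continuous.snd) _⟩

noncomputable def pM : C(M0, ℂ × ℝ) :=
  ⟨fun y => (cx y.2.1, ht y.2.1), (continuous_cxS.comp (by fun_prop)).prodMk
    (continuous_htS.comp (by fun_prop))⟩

lemma hom_ne (s : unitInterval) (p : Sp) :
    mkV (((1 - s : ℝ) : ℂ) * UU (iS p) + ((s : ℝ) : ℂ) * Q2 (cx p)) ((1 - s) * DD (ht p) + s * ht p) ≠ 0 := by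
  apply mkV_ne
  have s0 := s.2.1
  have s1 := s.2.2
  rcases le_or_gt (1 / 2) (ht p) with h | h
  · right; rw [DD_one h]; nlinarith
  rcases (ht_le p).1.eq_or_lt with h' | h'
  · right; rw [DD_neg (by linarith), ← h']; ring_nf; norm_num
  · left
    obtain ⟨⟨κ, hκ, e, -⟩, -⟩ := low (iS p) h
    have hc : 0 < ‖cx p‖ := by
      have := Sp_eq p
      by_contra hh
      have : ‖cx p‖ = 0 := le_antisymm (not_lt.1 hh) (norm_nonneg _)
      nlinarith
    have e2 : ((1 - s : ℝ) : ℂ) * UU (iS p) + ((s : ℝ) : ℂ) * Q2 (cx p) =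
        (((1 - s) * κ + s * ‖cx p‖⁻¹ : ℝ) : ℂ) * cx p ^ 2 := by
      rw [e, Q2]; push_cast
      show _ * (_ * cx p ^ 2) + _ = _
      ring
    rw [e2]
    refine mul_ne_zero ?_ (pow_ne_zero _ (norm_pos_iff.1 hc))
    have : 0 < (1 - s) * κ + s * ‖cx p‖⁻¹ := by
      have := inv_pos.2 hc
      rcases s1.eq_or_lt with h1 | h1
      · rw [h1]; linarith
      · have := mul_pos (sub_pos.2 h1) hκ
        positivity
    exact_mod_cast this.ne'

lemma homot : (ffC.comp iS).Homotopic (iS.comp dS) := by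
  have cg : Continuous gf := contMDiff_gf.continuous
  have cs : Continuous fun q : unitInterval × Sp => (q.1 : ℝ) := by fun_prop
  have ch : Continuous fun q : unitInterval × Sp => ht q.2 := continuous_htS.comp continuous_snd
  have cc : Continuous fun q : unitInterval × Sp => cx q.2 := continuous_cxS.comp continuous_snd
  have cg' : ∀ k : Fin 3, Continuous fun q : unitInterval × Sp => gf (iS q.2) k := fun k =>
    (contDiff_app k).continuous.comp (cg.comp (iS.continuous.comp continuous_snd))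
  have cchi : Continuous fun q : unitInterval × Sp => chi (ht q.2) := contDiff_chi.continuous.comp ch
  have cU : Continuous fun q : unitInterval × Sp => UU (iS q.2) :=
    ((Complex.continuous_ofReal.comp cchi).mul (cg' 0)).add
      ((Complex.continuous_ofReal.comp (continuous_const.sub cchi)).mul (cc.pow 2))
  have cs' : Continuous fun q : unitInterval × Sp => ((1 - q.1 : ℝ) : ℂ) :=
    Complex.continuous_ofReal.comp (continuous_const.sub cs)
  refine ⟨⟨⟨fun q => (Circle.exp ((1 - q.1) * (2 * π * al)), toSp _ (hom_ne q.1 q.2),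
    gn (((1 - q.1 : ℝ) : ℂ) * ((chi (ht q.2) : ℂ) * gf (iS q.2) 1)),
    gn (((1 - q.1 : ℝ) : ℂ) * ((chi (ht q.2) : ℂ) * gf (iS q.2) 2))), ?_⟩, fun p => ?_, fun p => ?_⟩⟩
  · refine (Circle.exp.continuous.comp ((continuous_const.sub cs).mul continuous_const)).prodMk
      (Continuous.prodMk (continuous_toSp (continuous_mkV ?_ ?_) _)
        (Continuous.prodMk (continuous_toSp (continuous_mkV ?_ continuous_const) _)
          (continuous_toSp (continuous_mkV ?_ continuous_const) _)))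
    · exact (cs'.mul cU).add ((Complex.continuous_ofReal.comp cs).mul (continuous_Q2.comp cc))
    · exact ((continuous_const.sub cs).mul (contDiff_DD.continuous.comp ch)).add (cs.mul ch)
    · exact cs'.mul ((Complex.continuous_ofReal.comp cchi).mul (cg' 1))
    · exact cs'.mul ((Complex.continuous_ofReal.comp cchi).mul (cg' 2))
  · refine Prod.ext ?_ (Prod.ext (Subtype.ext ?_) (Prod.ext ?_ ?_))
    · simp [ffC, ff, iS]
    · simp [ffC, ff, toSp]; rfl
    · simp [ffC, ff]; rfl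
    · simp [ffC, ff]; rfl
  · refine Prod.ext ?_ (Prod.ext ?_ (Prod.ext ?_ ?_))
    · simp [iS]
    · refine Eq.trans ?_ (toSp_self (dS p) (by rw [← norm_pos_iff, norm_Sp]; exact one_pos))
      apply Subtype.ext
      simp [toSp, dS]
    · simp [iS, gn_zero]
    · simp [iS, gn_zero]

theorem eig_ff : Module.End.HasEigenvalue
    (((AlgebraicTopology.singularHomologyFunctor (ModuleCat.{0} ℝ) 2).obj
      (ModuleCat.of ℝ ℝ)).map (TopCat.ofHom ffC)).hom (2 : ℝ) := by
  refine hom_eig ffC iS dS piS pM (fun y => Sp_eq y.2.1) (fun q => rfl) (fun l h => ?_) (fun l => ?_)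
    (fun l => ?_) (fun l t h0 h1 => ?_) homot
  · apply Subtype.ext
    simp only [piS, P0, ContinuousMap.coe_mk]
    congr 2
    push_cast
    rw [show 2 * (π : ℂ) * (l + 1) * Complex.I = 2 * π * l * Complex.I + 2 * π * Complex.I by ring,
      Complex.exp_add, Complex.exp_two_pi_mul_I, mul_one]
  · apply Subtype.ext; simp [piS, P0]
  · apply Subtype.ext; simp [piS, P0]
  · apply Subtype.ext
    simp only [piS, dS, P0, ContinuousMap.coe_mk, cx_mkV, ht_mkV]
    congr 1
    have hs : 0 ≤ sin (π * t) :=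
      sin_nonneg_of_nonneg_of_le_pi (by positivity) (by nlinarith [pi_pos])
    rcases hs.eq_or_lt with h | h
    · rw [← h]; simp [Q2]
    · rw [Q2_smul _ h, Q2, norm_e, sq, ← Complex.exp_add]
      push_cast
      rw [div_one]; congr 2; ring

end Crest.Agent.H1.EC
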