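import Crest.Agent.H1.ECSlow
import Crest.Agent.H1.ECEnt

/-! The global map on `S¹ × S² × S² × S²` and its dynamics. -/

set_option autoImplicit false

namespace Crest.Agent.H1.EC

open Real Filter Topology

abbrev V3 := WithLp 2 (ℂ × ℝ)

instance factV3 : Fact (Module.finrank ℝ V3 = 2 + 1) :=
  ⟨by rw [(WithLp.linearEquiv 2 ℝ (ℂ × ℝ)).finrank_eq]; simp⟩

abbrev Sp := Metric.sphere (0 : V3) 1

def cx (v : V3) : ℂ := v.ofLp.1
def ht (v : V3) : ℝ := v.ofLp.2
def mkV (a : ℂ) (h : ℝ) : V3 := WithLp.toLp 2 (a, h)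

@[simp] lemma cx_mkV (a : ℂ) (h : ℝ) : cx (mkV a h) = a := rfl
@[simp] lemma ht_mkV (a : ℂ) (h : ℝ) : ht (mkV a h) = h := rfl
lemma cx_smul (c : ℝ) (v : V3) : cx (c • v) = c * cx v := rfl
lemma ht_smul (c : ℝ) (v : V3) : ht (c • v) = c * ht v := rfl
lemma V3_ext {v w : V3} (h1 : cx v = cx w) (h2 : ht v = ht w) : v = w :=
  WithLp.ofLp_injective 2 (Prod.ext h1 h2)

lemma norm_sq_V3 (v : V3) : ‖v‖ ^ 2 = ‖cx v‖ ^ 2 + ht v ^ 2 := by
  rw [WithLp.prod_norm_sq_eq_of_L2]; simp [cx, ht]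

@[fun_prop] lemma contDiff_cx : ContDiff ℝ 1 cx :=
  contDiff_fst.comp (WithLp.prodContinuousLinearEquiv 2 ℝ ℂ ℝ).contDiff
@[fun_prop] lemma contDiff_ht : ContDiff ℝ 1 ht :=
  contDiff_snd.comp (WithLp.prodContinuousLinearEquiv 2 ℝ ℂ ℝ).contDiff
@[fun_prop] lemma contDiff_mkV : ContDiff ℝ 1 fun p : ℂ × ℝ => mkV p.1 p.2 :=
  (WithLp.prodContinuousLinearEquiv 2 ℝ ℂ ℝ).symm.contDiff

lemma norm_Sp (p : Sp) : ‖(p : V3)‖ = 1 := by simp

lemma Sp_eq (p : Sp) : ‖cx p‖ ^ 2 + ht p ^ 2 = 1 := by rw [← norm_sq_V3, norm_Sp]; norm_num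

lemma ht_le (p : Sp) : -1 ≤ ht p ∧ ht p ≤ 1 := by
  have := Sp_eq p
  constructor <;> nlinarith [sq_nonneg ‖cx p‖]

noncomputable def toSp (v : V3) (hv : v ≠ 0) : Sp :=
  ⟨‖v‖⁻¹ • v, by
    have := norm_pos_iff.2 hv
    simp [norm_smul, inv_mul_cancel₀ this.ne']⟩

lemma mkV_ne {a : ℂ} {h : ℝ} (hh : a ≠ 0 ∨ h ≠ 0) : mkV a h ≠ 0 := by
  intro e
  rcases hh with hh | hh
  · exact hh (congrArg cx e)
  · exact hh (congrArg ht e)

lemma mkV_one_ne (a : ℂ) : mkV a 1 ≠ 0 := mkV_ne (Or.inr one_ne_zero)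

noncomputable def gn (a : ℂ) : Sp := toSp (mkV a 1) (mkV_one_ne a)

noncomputable def nP : Sp := ⟨mkV 0 1, by
  have := norm_sq_V3 (mkV 0 1)
  simp only [cx_mkV, ht_mkV, norm_zero] at this
  simp only [mem_sphere_iff_norm, sub_zero]
  apply (pow_left_inj₀ (norm_nonneg _) zero_le_one two_ne_zero).1; linarith⟩

noncomputable def sP : Sp := ⟨mkV 0 (-1), by
  have := norm_sq_V3 (mkV 0 (-1))
  simp only [cx_mkV, ht_mkV, norm_zero] at this
  simp only [mem_sphere_iff_norm, sub_zero]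
  apply (pow_left_inj₀ (norm_nonneg _) zero_le_one two_ne_zero).1; linarith⟩

lemma toSp_self (p : Sp) (h : (p : V3) ≠ 0) : toSp p h = p := by
  apply Subtype.ext; simp [toSp]

lemma gn_zero : gn 0 = nP := toSp_self nP _

lemma eq_nP {p : Sp} (h1 : cx p = 0) (h2 : 0 < ht p) : p = nP := by
  have := Sp_eq p
  rw [h1, norm_zero] at this
  refine Subtype.ext (V3_ext h1 ?_)
  show ht p = 1
  nlinarith

lemma eq_sP {p : Sp} (h2 : ht p = -1) : p = sP := by
  have := Sp_eq p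
  rw [h2] at this
  refine Subtype.ext (V3_ext ?_ h2)
  show cx p = 0
  rw [← norm_eq_zero]; nlinarith [norm_nonneg (cx p)]

noncomputable def mm (h : ℝ) : ℝ :=
  h * smoothTransition (4 * h - 1) + (1 - smoothTransition (4 * h - 1)) / 2
noncomputable def chi (h : ℝ) : ℝ := smoothTransition (4 * h)
noncomputable def DD (h : ℝ) : ℝ := 2 * smoothTransition (4 * h - 1) - 1
noncomputable def uu (v : V3) : ℂ := (((mm (ht v))⁻¹ : ℝ) : ℂ) * cx v

lemma mm_ge (h : ℝ) : 1 / 4 ≤ mm h := by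
  unfold mm
  have a := smoothTransition.nonneg (4 * h - 1)
  have b := smoothTransition.le_one (4 * h - 1)
  rcases le_total h (1 / 4) with c | c
  · rw [smoothTransition.zero_of_nonpos (by linarith)]; norm_num
  · nlinarith

lemma mm_le {h : ℝ} (hh : h ≤ 1) : mm h ≤ 1 := by
  unfold mm
  have a := smoothTransition.nonneg (4 * h - 1)
  have b := smoothTransition.le_one (4 * h - 1)
  nlinarith

lemma mm_eq {h : ℝ} (hh : 1 / 2 ≤ h) : mm h = h := by
  unfold mm; rw [smoothTransition.one_of_one_le (by linarith)]; ring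

lemma chi_one {h : ℝ} (hh : 1 / 4 ≤ h) : chi h = 1 := smoothTransition.one_of_one_le (by linarith)
lemma chi_zero {h : ℝ} (hh : h ≤ 0) : chi h = 0 := smoothTransition.zero_of_nonpos (by linarith)
lemma DD_one {h : ℝ} (hh : 1 / 2 ≤ h) : DD h = 1 := by
  unfold DD; rw [smoothTransition.one_of_one_le (by linarith)]; ring
lemma DD_neg {h : ℝ} (hh : h ≤ 1 / 4) : DD h = -1 := by
  unfold DD; rw [smoothTransition.zero_of_nonpos (by linarith)]; ring
lemma DD_le (h : ℝ) : DD h ≤ 1 := by unfold DD; linarith [smoothTransition.le_one (4 * h - 1)]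

@[fun_prop] lemma contDiff_chi : ContDiff ℝ 1 chi := by unfold chi; fun_prop
@[fun_prop] lemma contDiff_DD : ContDiff ℝ 1 DD := by unfold DD; fun_prop
@[fun_prop] lemma contDiff_uu : ContDiff ℝ 1 uu := by
  have h1 : ContDiff ℝ 1 fun v : V3 => mm (ht v) := by unfold mm; fun_prop
  have h2 := h1.inv fun v => by linarith [mm_ge (ht v)]
  exact (contDiff_ofReal.comp h2).mul contDiff_cx

lemma norm_uu (p : Sp) : ‖cx p‖ ≤ ‖uu p‖ ∧ ‖uu p‖ ≤ 4 := by
  have a := mm_ge (ht p)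
  have b := mm_le (ht_le p).2
  have c : ‖cx p‖ ≤ 1 := by
    have := Sp_eq p; nlinarith [sq_nonneg (ht p), norm_nonneg (cx p)]
  unfold uu
  rw [norm_mul, Complex.norm_real, Real.norm_eq_abs, abs_of_pos (by positivity), ← div_eq_inv_mul]
  constructor
  · rw [le_div_iff₀ (by linarith)]; nlinarith [norm_nonneg (cx p)]
  · rw [div_le_iff₀ (by linarith)]; linarith

lemma ht_gn (a : ℂ) : ht (gn a) = ‖mkV a 1‖⁻¹ := by
  simp [gn, toSp, ht_smul]

lemma ht_gn_pos (a : ℂ) : 0 < ht (gn a) := by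
  rw [ht_gn]; exact inv_pos.2 (norm_pos_iff.2 (mkV_one_ne a))

lemma uu_gn {a : ℂ} (h : 1 / 2 ≤ ht (gn a)) : uu (gn a) = a := by
  unfold uu
  rw [mm_eq h, ht_gn]
  have := (norm_pos_iff.2 (mkV_one_ne a)).ne'
  have h2 : (‖mkV a 1‖ : ℂ) ≠ 0 := by exact_mod_cast this
  simp only [gn, toSp, cx_smul, cx_mkV, inv_inv]
  push_cast; field_simp

lemma ht_gn_ge {a : ℂ} (h : ‖a‖ ≤ 1) : 1 / 2 ≤ ht (gn a) := by
  rw [ht_gn, one_div]
  apply inv_anti₀ (norm_pos_iff.2 (mkV_one_ne a))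
  have := norm_sq_V3 (mkV a 1)
  simp only [cx_mkV, ht_mkV] at this
  nlinarith [norm_nonneg a, norm_nonneg (mkV a 1)]

abbrev M0 := Circle × Sp × Sp × Sp

noncomputable def xf (y : M0) : E3 := mk3 (uu y.2.1) (uu y.2.2.1) (uu y.2.2.2)
noncomputable def gf (y : M0) : E3 := Gam y.1 (xf y)
noncomputable def UU (y : M0) : ℂ :=
  (chi (ht y.2.1) : ℂ) * gf y 0 + ((1 - chi (ht y.2.1) : ℝ) : ℂ) * cx y.2.1 ^ 2

lemma circle_ee (z : Circle) : ∃ t, (z : ℂ) = ee t := by
  refine ⟨Complex.arg z / (2 * π), ?_⟩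
  unfold ee
  rw [mul_div_cancel₀ _ (by positivity)]
  have := Complex.norm_mul_exp_arg_mul_I (z : ℂ)
  rw [Circle.norm_coe] at this
  simpa using this.symm

lemma norm_xf (y : M0) : ‖xf y‖ ≤ 7 := by
  have := norm_sq_E3 (xf y)
  simp only [xf, mk3_0, mk3_1, mk3_2] at this
  have a := (norm_uu y.2.1).2
  have b := (norm_uu y.2.2.1).2
  have c := (norm_uu y.2.2.2).2
  apply (pow_le_pow_iff_left₀ (norm_nonneg _) (by norm_num) two_ne_zero).1
  unfold xf
  rw [this]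
  nlinarith [norm_nonneg (uu y.2.1), norm_nonneg (uu y.2.2.1), norm_nonneg (uu y.2.2.2)]

lemma gf_macro (y : M0) (h0 : 0 ≤ ht y.2.1) (h1 : ht y.2.1 < 1 / 2) :
    4 / 5 ≤ ‖cx y.2.1‖ ∧ gf y = mk3 (5 * Q2 (uu y.2.1)) 0 0 := by
  have a : 4 / 5 ≤ ‖cx y.2.1‖ := by
    have := Sp_eq y.2.1
    apply (pow_le_pow_iff_left₀ (by norm_num) (norm_nonneg _) two_ne_zero).1
    nlinarith
  have b := (norm_uu y.2.1).1
  have c : ‖uu y.2.1‖ ≤ ‖xf y‖ := norm_app (xf y) 0
  have d : Lam⁻¹ ≤ 10⁻¹ := inv_anti₀ (by norm_num) ten_le_Lam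
  obtain ⟨t, ht⟩ := circle_ee y.1
  refine ⟨a, ?_⟩
  unfold gf
  rw [ht, Gam_macro t (by linarith), Q_eq (mul_pos (nu_pos 0) (by linarith))]
  · rfl
  · have := mul_le_mul nu_zero_le (norm_xf y) (norm_nonneg _) (by norm_num)
    show _ ≤ ‖uu y.2.1‖
    linarith

lemma low (y : M0) (h1 : ht y.2.1 < 1 / 2) :
    (∃ κ : ℝ, 0 < κ ∧ UU y = κ * cx y.2.1 ^ 2 ∧ (ht y.2.1 ≤ 0 → κ = 1)) ∧
    (1 / 4 ≤ ht y.2.1 → 4 ≤ ‖UU y‖) ∧
    (chi (ht y.2.1) : ℂ) * gf y 1 = 0 ∧ (chi (ht y.2.1) : ℂ) * gf y 2 = 0 := by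
  rcases le_or_gt (ht y.2.1) 0 with h0 | h0
  · refine ⟨⟨1, one_pos, ?_, fun _ => rfl⟩, fun h => by linarith, ?_, ?_⟩ <;>
      simp [UU, chi_zero h0]
  obtain ⟨a, b⟩ := gf_macro y h0.le h1
  have m1 := mm_ge (ht y.2.1)
  have c0 : 0 ≤ chi (ht y.2.1) := smoothTransition.nonneg _
  have c1 : chi (ht y.2.1) ≤ 1 := smoothTransition.le_one _
  refine ⟨⟨chi (ht y.2.1) * (5 * (mm (ht y.2.1))⁻¹ * ‖cx y.2.1‖⁻¹) + (1 - chi (ht y.2.1)), ?_, ?_,
    fun h => by linarith⟩, ?_, by simp [b], by simp [b]⟩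
  · have : 0 < 5 * (mm (ht y.2.1))⁻¹ * ‖cx y.2.1‖⁻¹ := by
      have : 0 < ‖cx y.2.1‖ := by linarith
      positivity
    rcases c1.eq_or_lt with h | h
    · rw [h]; linarith
    · have := mul_nonneg c0 this.le; linarith
  · unfold UU
    rw [b, mk3_0, uu, Q2_smul _ (by positivity), Q2]; push_cast; ring
  · intro h
    unfold UU
    rw [b, chi_one h, mk3_0]
    simp only [Complex.ofReal_one, one_mul, sub_self, Complex.ofReal_zero, zero_mul, add_zero,
      norm_mul, norm_Q2, Complex.norm_ofNat]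
    linarith [(norm_uu y.2.1).1]

lemma VV_ne (y : M0) : mkV (UU y) (DD (ht y.2.1)) ≠ 0 := by
  apply mkV_ne
  rcases le_or_gt (1 / 2) (ht y.2.1) with h | h
  · right; rw [DD_one h]; exact one_ne_zero
  · rcases le_or_gt (ht y.2.1) (1 / 4) with h' | h'
    · right; rw [DD_neg h']; norm_num
    · left
      have := (low y h).2.1 h'.le
      intro e; rw [e, norm_zero] at this; linarith

noncomputable def ff (y : M0) : M0 :=
  (y.1 * Circle.exp (2 * π * al), toSp _ (VV_ne y), gn ((chi (ht y.2.1) : ℂ) * gf y 1),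
    gn ((chi (ht y.2.1) : ℂ) * gf y 2))

lemma reg_le (y : M0) (k : Fin 3) (hk : k ≠ 0) : ‖(chi (ht y.2.1) : ℂ) * gf y k‖ ≤ 1 := by
  refine (norm_coe_mul_le ?_ _).trans ?_
  · unfold chi; rw [abs_of_nonneg (smoothTransition.nonneg _)]; exact smoothTransition.le_one _
  obtain ⟨t, ht⟩ := circle_ee y.1
  unfold gf
  rw [ht]
  have hL := ten_le_Lam
  rcases le_total Lam⁻¹ ‖xf y‖ with h | h
  · rw [Gam_macro t h]
    fin_cases k
    · exact absurd rfl hk
    · simp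
    · simp
  · refine (norm_app _ _).trans ((Gam_bound t _).trans ?_)
    calc _ ≤ Lam * Lam⁻¹ := by gcongr
      _ = 1 := mul_inv_cancel₀ (by linarith)

/-- height -/
noncomputable def hgt (y : M0) : ℝ := ht y.2.1

lemma hgt_ff (y : M0) : hgt (ff y) = ‖mkV (UU y) (DD (ht y.2.1))‖⁻¹ * DD (ht y.2.1) := rfl

lemma ff_high {y : M0} (h : 1 / 2 ≤ hgt y) : (ff y).2.1 = gn (gf y 0) := by
  unfold hgt at h
  have e1 : UU y = gf y 0 := by unfold UU; rw [chi_one (by linarith)]; simp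
  have e2 := DD_one h
  apply Subtype.ext
  simp only [ff, gn, toSp, e1, e2]

lemma hgt_lt {y : M0} (h1 : hgt y < 1 / 2) (h2 : -1 < hgt y) : hgt (ff y) < hgt y := by
  rw [hgt_ff]
  unfold hgt at *
  have hn := norm_pos_iff.2 (VV_ne y)
  have hs := norm_sq_V3 (mkV (UU y) (DD (ht y.2.1)))
  simp only [cx_mkV, ht_mkV] at hs
  obtain ⟨⟨κ, -, hκ, hκ1⟩, h4, -⟩ := low y h1
  rw [← div_eq_inv_mul, div_lt_iff₀ hn]
  rcases le_or_gt (ht y.2.1) (1 / 4) with h | h
  · rw [DD_neg h] at hs hn ⊢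
    rcases le_or_gt (ht y.2.1) 0 with h0 | h0
    · rw [hκ1 h0] at hκ
      have e := Sp_eq y.2.1
      have hU : ‖UU y‖ = 1 - ht y.2.1 ^ 2 := by rw [hκ]; simp; linarith
      rw [hU] at hs
      generalize ‖mkV (UU y) (-1)‖ = r at *
      generalize ht y.2.1 = g at *
      have c : 0 < 1 - g ^ 2 := by nlinarith
      have : (-g * r) ^ 2 < 1 ^ 2 := by
        rw [mul_pow, hs]
        have : g ^ 2 * (1 - g ^ 2) < 1 := by nlinarith [sq_nonneg g]
        nlinarith
      have := lt_of_pow_lt_pow_left₀ 2 zero_le_one this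
      linarith
    · nlinarith
  · have a := h4 h.le
    have b := DD_le (ht y.2.1)
    have c : ‖UU y‖ ≤ ‖mkV (UU y) (DD (ht y.2.1))‖ := by
      apply (pow_le_pow_iff_left₀ (norm_nonneg _) (norm_nonneg _) two_ne_zero).1
      nlinarith [sq_nonneg (DD (ht y.2.1))]
    nlinarith

lemma hgt_le {y : M0} (h1 : hgt y < 1 / 2) : hgt (ff y) ≤ hgt y := by
  rcases (ht_le y.2.1).1.eq_or_lt with h | h
  · rw [hgt_ff]
    unfold hgt at *
    obtain ⟨⟨κ, -, hκ, -⟩, -⟩ := low y h1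
    have e : y.2.1 = sP := eq_sP h.symm
    have e1 : cx y.2.1 = 0 := by rw [e]; rfl
    have e2 : DD (ht y.2.1) = -1 := DD_neg (by linarith)
    rw [hκ, e1, e2, ← h]
    have : ‖mkV 0 (-1)‖ = 1 := norm_Sp sP
    simp [this]
  · exact (hgt_lt h1 h).le

lemma hgt_iter_le {y : M0} (h1 : hgt y < 1 / 2) (n : ℕ) : hgt (ff^[n] y) ≤ hgt y := by
  induction n with
  | zero => exact le_rfl
  | succ n ih => rw [Function.iterate_succ_apply']; exact (hgt_le (ih.trans_lt h1)).trans ih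

lemma continuous_hgt : Continuous hgt :=
  contDiff_ht.continuous.comp (continuous_subtype_val.comp (by fun_prop))

lemma escape (hc : Continuous ff) {y : M0} (h1 : hgt y < 1 / 2) {c : ℝ} (hc1 : -1 < c) :
    ∃ k, hgt (ff^[k] y) < c := by
  by_contra hcon
  push Not at hcon
  let K : Set M0 := {b | c ≤ hgt b ∧ hgt b ≤ hgt y}
  have hK : IsCompact K := IsClosed.isCompact
    ((isClosed_le continuous_const continuous_hgt).inter (isClosed_le continuous_hgt continuous_const))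
  obtain ⟨b, hb, hmin⟩ := hK.exists_isMinOn (f := fun b => hgt b - hgt (ff b)) ⟨y, hcon 0, le_rfl⟩
    (continuous_hgt.sub (continuous_hgt.comp hc)).continuousOn
  have hμ : 0 < hgt b - hgt (ff b) := by
    linarith [hgt_lt (hb.2.trans_lt h1) (hc1.trans_le hb.1)]
  have key : ∀ k : ℕ, hgt (ff^[k] y) ≤ hgt y - k * (hgt b - hgt (ff b)) := by
    intro k
    induction k with
    | zero => simp
    | succ k ih =>
      have := hmin (show ff^[k] y ∈ K from ⟨hcon k, hgt_iter_le h1 k⟩)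
      simp only [Set.mem_ofPred_eq] at this
      rw [Function.iterate_succ_apply']; push_cast; linarith
  obtain ⟨k, hk⟩ := exists_nat_gt ((hgt y - c) / (hgt b - hgt (ff b)))
  rw [div_lt_iff₀ hμ] at hk
  linarith [key k, hcon k]

lemma core_pre {M : Type*} [TopologicalSpace M] [T2Space M] [CompactSpace M] {f : M → M}
    (hf : Continuous f) {y : M} (hy : ∀ n, y ∈ Set.range f^[n]) :
    ∃ y', f y' = y ∧ ∀ n, y' ∈ Set.range f^[n] := by
  have hcl : ∀ n, IsClosed (f ⁻¹' {y} ∩ Set.range f^[n]) := fun n =>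
    (isClosed_singleton.preimage hf).inter (isCompact_range (hf.iterate n)).isClosed
  obtain ⟨y', hy'⟩ := IsCompact.nonempty_iInter_of_sequence_nonempty_isCompact_isClosed
    (fun n => f ⁻¹' {y} ∩ Set.range f^[n])
    (fun n => Set.inter_subset_inter_right _ (by rintro _ ⟨a, rfl⟩; exact ⟨f a, rfl⟩))
    (fun n => by
      obtain ⟨a, ha⟩ := hy (n + 1)
      rw [Function.iterate_succ_apply'] at ha
      exact ⟨_, ha, a, rfl⟩)
    (hcl 0).isCompact hcl
  have := Set.mem_iInter.1 hy'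
  exact ⟨y', (this 0).1, fun n => (this n).2⟩

lemma core_north (hc : Continuous ff) {y : M0} (hy : ∀ n, y ∈ Set.range ff^[n])
    (hh : ∀ n, 1 / 2 ≤ hgt (ff^[n] y)) : y.2 = (nP, nP, nP) := by
  let Y := {y : M0 // (∀ n, y ∈ Set.range ff^[n]) ∧ ∀ n, 1 / 2 ≤ hgt (ff^[n] y)}
  let g : Y → Y := fun y => ⟨ff y.1, fun n => by
      obtain ⟨a, ha⟩ := y.2.1 n
      exact ⟨ff a, by rw [← ha, ← Function.iterate_succ_apply, Function.iterate_succ_apply']⟩,
    fun n => y.2.2 (n + 1)⟩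
  have hg : Function.Surjective g := by
    rintro ⟨b, hb1, hb2⟩
    obtain ⟨b', e, hb'⟩ := core_pre hc hb1
    refine ⟨⟨b', hb', fun n => ?_⟩, Subtype.ext e⟩
    rcases n with _ | n
    · by_contra h
      have h' : hgt b' < 1 / 2 := not_le.1 h
      have := hgt_le h'
      rw [e] at this
      linarith [show 1 / 2 ≤ hgt b from hb2 0]
    · rw [Function.iterate_succ_apply, e]; exact hb2 n
  have hx := slow g hg (fun y => (y.1.1 : ℂ)) (fun y => xf y.1) (fun y => circle_ee _)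
    (fun y => by simp only [g, ff, Circle.coe_mul, Circle.coe_exp]; rfl)
    (fun y => by
      have h0 : 1 / 2 ≤ hgt y.1 := y.2.2 0
      have h1 : 1 / 2 ≤ hgt (ff y.1) := y.2.2 1
      have c : chi (ht y.1.2.1) = 1 := chi_one (by unfold hgt at h0; linarith)
      apply E3_ext
      · show uu (ff y.1).2.1 = gf y.1 0
        unfold hgt at h1
        rw [ff_high h0] at h1 ⊢
        exact uu_gn h1
      · show uu (gn _) = gf y.1 1
        rw [uu_gn (ht_gn_ge (reg_le _ 1 (by decide))), c]; simp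
      · show uu (gn _) = gf y.1 2
        rw [uu_gn (ht_gn_ge (reg_le _ 2 (by decide))), c]; simp)
    7 (fun y => norm_xf _) ⟨y, hy, hh⟩
  have z : ∀ p : Sp, uu p = 0 → cx p = 0 := fun p hp => by
    have := (norm_uu p).1
    rwa [hp, norm_zero, norm_le_zero_iff] at this
  obtain ⟨a, ha⟩ := hy 1
  refine Prod.ext (eq_nP (z _ (congrArg (fun x : E3 => x 0) hx)) ?_)
    (Prod.ext (eq_nP (z _ (congrArg (fun x : E3 => x 1) hx)) ?_)
      (eq_nP (z _ (congrArg (fun x : E3 => x 2) hx)) ?_))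
  · have : 1 / 2 ≤ ht y.2.1 := hh 0
    linarith
  · rw [← ha]; exact ht_gn_pos _
  · rw [← ha]; exact ht_gn_pos _

lemma ht_dist (p p' : Sp) : |ht p - ht p'| ≤ dist p p' := by
  have := norm_sq_V3 ((p : V3) - p')
  rw [Subtype.dist_eq, dist_eq_norm]
  apply (pow_le_pow_iff_left₀ (abs_nonneg _) (norm_nonneg _) two_ne_zero).1
  rw [this, sq_abs]
  exact le_add_of_nonneg_left (sq_nonneg _)

theorem ent_ff (hc : Continuous ff) : Dynamics.coverEntropy ff Set.univ = 0 := by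
  have : Nonempty M0 := ⟨(1, nP, nP, nP)⟩
  refine ent_zero ff Prod.fst Prod.snd continuous_snd (fun z => z * Circle.exp (2 * π * al))
    (fun a b => ?_) (fun _ => rfl) (fun x y => ?_) (nP, nP, nP) (sP, nP, nP) {y | hgt y < 0}
    (fun y hy => ?_) 1 one_pos (fun x hx => ?_) (fun x hx => ?_) (fun y hN hS => ?_)
  · show dist (((a * Circle.exp (2 * π * al) : Circle) : ℂ)) ((b * Circle.exp (2 * π * al) : Circle) : ℂ)
      = dist (a : ℂ) (b : ℂ)
    simp only [Circle.coe_mul, dist_eq_norm]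
    rw [← sub_mul, norm_mul, Circle.norm_coe, mul_one]
  · rw [Prod.dist_eq]
    exact max_le (le_add_of_nonneg_right dist_nonneg) (le_add_of_nonneg_left dist_nonneg)
  · have hy' : hgt y < 0 := hy
    exact (hgt_le (by linarith)).trans_lt hy'
  · have a := (ht_dist x.2.1 nP).trans_lt ((le_max_left _ _).trans_lt hx)
    have b : ht nP = 1 := rfl
    rw [b, abs_lt] at a
    simp only [Set.mem_ofPred_eq, hgt]; linarith
  · have a := (ht_dist x.2.1 sP).trans_lt ((le_max_left _ _).trans_lt hx)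
    have b : ht sP = -1 := rfl
    rw [b, abs_lt] at a
    simp only [Set.mem_ofPred_eq, hgt]; linarith
  · by_cases hy : ∀ n, y ∈ Set.range ff^[n]
    · have h1 : ∃ m, hgt (ff^[m] y) < 1 / 2 := by
        by_contra h
        push Not at h
        exact hN (core_north hc hy h)
      obtain ⟨m, hm⟩ := h1
      have h2 : -1 < hgt y := by
        refine (ht_le y.2.1).1.lt_of_ne fun h => hS ?_
        obtain ⟨a, rfl⟩ := hy 1
        have ha : hgt a < 1 / 2 := by
          by_contra h'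
          have := ht_gn_pos (gf a 0)
          rw [← ff_high (not_lt.1 h')] at this
          have h : -1 = ht (ff a).2.1 := h
          linarith
        obtain ⟨-, -, r1, r2⟩ := low a ha
        refine Prod.ext (eq_sP h.symm) (Prod.ext ?_ ?_)
        · show gn _ = nP
          rw [r1, gn_zero]
        · show gn _ = nP
          rw [r2, gn_zero]
      have h3 : hgt y ≤ 1 := (ht_le y.2.1).2
      obtain ⟨k, hk⟩ := escape hc hm (c := (hgt y - 1) / 2) (by linarith)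
      rw [← Function.iterate_add_apply] at hk
      refine ⟨{b | hgt (ff^[k + m] b) < (hgt y - 1) / 2} ∩ {b | (hgt y - 1) / 2 < hgt b}, ?_, k + m,
        fun b hb n hn hb' => ?_⟩
      · refine IsOpen.mem_nhds ((isOpen_lt (continuous_hgt.comp (hc.iterate _)) continuous_const).inter
          (isOpen_lt continuous_const continuous_hgt)) ⟨hk, ?_⟩
        simp only [Set.mem_ofPred_eq]; linarith
      · have a : hgt (ff^[k + m] b) < (hgt y - 1) / 2 := hb.1
        have c : (hgt y - 1) / 2 < hgt (ff^[n] b) := hb'.2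
        have d := hgt_iter_le (y := ff^[k + m] b) (by linarith) (n - (k + m))
        rw [← Function.iterate_add_apply, Nat.sub_add_cancel hn] at d
        linarith
    · push Not at hy
      obtain ⟨m, hm⟩ := hy
      refine ⟨(Set.range ff^[m])ᶜ, (isCompact_range (hc.iterate m)).isClosed.isOpen_compl.mem_nhds hm,
        m, fun b _ n hn hb => hb ⟨ff^[n - m] b, ?_⟩⟩
      rw [← Function.iterate_add_apply, Nat.add_sub_cancel' hn]

end Crest.Agent.H1.EC
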