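import Mathlib

/-! Euler-class cocycle on singular simplices (lifts to the tautological line). -/

set_option autoImplicit false

namespace Crest.Agent.H1.EC

open Complex

abbrev Δ (n : ℕ) := stdSimplex ℝ (Fin (n + 1))

/-- the map of simplices induced by a map of vertices -/
noncomputable def vm {m n : ℕ} (φ : Fin (m + 1) → Fin (n + 1)) : C(Δ m, Δ n) :=
  ⟨stdSimplex.map φ, stdSimplex.continuous_map φ⟩

lemma vm_comp {l m n : ℕ} (φ : Fin (m + 1) → Fin (n + 1)) (ψ : Fin (l + 1) → Fin (m + 1)) :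
    (vm φ).comp (vm ψ) = vm (φ ∘ ψ) := by
  ext1 y
  exact stdSimplex.map_comp_apply ψ φ y

lemma vm_vertex {m n : ℕ} (φ : Fin (m + 1) → Fin (n + 1)) (i : Fin (m + 1)) :
    vm φ (stdSimplex.vertex i) = stdSimplex.vertex (φ i) :=
  stdSimplex.map_vertex φ i

lemma exists_log {n : ℕ} (g : C(Δ n, ℂ)) (hg : ∀ y, g y ≠ 0) :
    ∃ l : C(Δ n, ℂ), ∀ y, exp (l y) = g y := by
  have hc : Convex ℝ (stdSimplex ℝ (Fin (n + 1))) := convex_stdSimplex ℝ _
  have : ContractibleSpace (Δ n) := hc.contractibleSpace ⟨_, (stdSimplex.vertex 0).2⟩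
  have : LocallyPathConnectedSpace (Δ n) := hc.locallyPathConnectedSpace
  let g' : C(Δ n, {z : ℂ // z ≠ 0}) := ⟨fun y => ⟨g y, hg y⟩, by fun_prop⟩
  obtain ⟨F, ⟨-, hF⟩, -⟩ := Complex.isCoveringMap_exp.existsUnique_continuousMap_lifts g'
    (stdSimplex.vertex 0) (log (g (stdSimplex.vertex 0)))
    (Subtype.ext (exp_log (hg _)))
  exact ⟨F, fun y => congrArg Subtype.val (congrFun hF y)⟩

open Classical in
/-- total variation of a continuous logarithm along an edge -/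
noncomputable def Dl (g : C(Δ 1, ℂ)) : ℂ :=
  if h : ∃ l : C(Δ 1, ℂ), ∀ y, exp (l y) = g y then
    h.choose (stdSimplex.vertex 1) - h.choose (stdSimplex.vertex 0) else 0

lemma Dl_eq (g l : C(Δ 1, ℂ)) (h : ∀ y, exp (l y) = g y) :
    Dl g = l (stdSimplex.vertex 1) - l (stdSimplex.vertex 0) := by
  have h' : ∃ l : C(Δ 1, ℂ), ∀ y, exp (l y) = g y := ⟨l, h⟩
  rw [Dl, dif_pos h']
  have hs := h'.choose_spec
  generalize h'.choose = k at hs
  have hc : Convex ℝ (stdSimplex ℝ (Fin (1 + 1))) := convex_stdSimplex ℝ _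
  have : ContractibleSpace (Δ 1) := hc.contractibleSpace ⟨_, (stdSimplex.vertex 0).2⟩
  have key : (fun y => k y + (l (stdSimplex.vertex 0) - k (stdSimplex.vertex 0))) = l := by
    refine Complex.isCoveringMap_exp.eq_of_comp_eq (by fun_prop) l.continuous ?_
      (stdSimplex.vertex 0) (by ring)
    funext y
    apply Subtype.ext
    simp only [Function.comp]
    rw [exp_add, exp_sub, hs, hs, h, h]
    have : g (stdSimplex.vertex 0) ≠ 0 := by rw [← h]; exact exp_ne_zero _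
    field_simp
  have := congrFun key (stdSimplex.vertex 1)
  rw [← this]; ring

lemma Dl_mul (g g' : C(Δ 1, ℂ)) (hg : ∀ y, g y ≠ 0) (hg' : ∀ y, g' y ≠ 0) :
    Dl (g * g') = Dl g + Dl g' := by
  obtain ⟨l, hl⟩ := exists_log g hg
  obtain ⟨l', hl'⟩ := exists_log g' hg'
  rw [Dl_eq g l hl, Dl_eq g' l' hl', Dl_eq (g * g') (l + l') (fun y => by simp [exp_add, hl, hl'])]
  simp only [ContinuousMap.add_apply]; ring

lemma Dl_tri (G : C(Δ 2, ℂ)) (hG : ∀ y, G y ≠ 0) :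
    Dl (G.comp (vm (Fin.succAbove 0))) - Dl (G.comp (vm (Fin.succAbove 1)))
      + Dl (G.comp (vm (Fin.succAbove 2))) = 0 := by
  obtain ⟨l, hl⟩ := exists_log G hG
  have h : ∀ φ : Fin 2 → Fin 3, Dl (G.comp (vm φ)) =
      l (stdSimplex.vertex (φ 1)) - l (stdSimplex.vertex (φ 0)) := by
    intro φ
    rw [Dl_eq _ (l.comp (vm φ)) (fun y => hl _)]
    simp only [ContinuousMap.comp_apply, vm_vertex]
  rw [h, h, h]
  have e1 : Fin.succAbove (0 : Fin 3) (1 : Fin 2) = 2 := by decide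
  have e2 : Fin.succAbove (0 : Fin 3) (0 : Fin 2) = 1 := by decide
  have e3 : Fin.succAbove (1 : Fin 3) (1 : Fin 2) = 2 := by decide
  have e4 : Fin.succAbove (1 : Fin 3) (0 : Fin 2) = 0 := by decide
  have e5 : Fin.succAbove (2 : Fin 3) (1 : Fin 2) = 1 := by decide
  have e6 : Fin.succAbove (2 : Fin 3) (0 : Fin 2) = 0 := by decide
  rw [e1, e2, e3, e4, e5, e6]; ring

/-- `v` lies on the line attached to the point `p` of the sphere -/
def OnL (p : ℂ × ℝ) (v : ℂ × ℂ) : Prop :=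
  (1 - (p.2 : ℂ)) * v.1 = (starRingEnd ℂ) p.1 * v.2 ∧ (1 + (p.2 : ℂ)) * v.2 = p.1 * v.1

/-- twice the projector -/
noncomputable def Pr (p : ℂ × ℝ) (v : ℂ × ℂ) : ℂ × ℂ :=
  (((1 + (p.2 : ℂ)) * v.1 + (starRingEnd ℂ) p.1 * v.2) / 2,
    (p.1 * v.1 + (1 - (p.2 : ℂ)) * v.2) / 2)

def OnS (p : ℂ × ℝ) : Prop := ‖p.1‖ ^ 2 + p.2 ^ 2 = 1

lemma OnS.conj {p : ℂ × ℝ} (h : OnS p) : (starRingEnd ℂ) p.1 * p.1 = 1 - (p.2 : ℂ) ^ 2 := by
  rw [Complex.conj_mul']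
  have : ((‖p.1‖ ^ 2 + p.2 ^ 2 : ℝ) : ℂ) = 1 := by rw [h]; simp
  push_cast at this
  linear_combination this

lemma Pr_onL {p : ℂ × ℝ} (h : OnS p) (v : ℂ × ℂ) : OnL p (Pr p v) := by
  have := h.conj
  constructor
  · simp only [Pr]; linear_combination (-v.1 / 2) * this
  · simp only [Pr]; linear_combination (-v.2 / 2) * this

lemma Pr_ne {p q : ℂ × ℝ} {v : ℂ × ℂ} (hv : OnL p v) (h0 : v ≠ 0) (hd : dist q p < 1) :
    Pr q v ≠ 0 := by
  intro h
  have h1 : ((1 + (q.2 : ℂ)) * v.1 + (starRingEnd ℂ) q.1 * v.2) / 2 = 0 := congrArg Prod.fst h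
  have h2 : (q.1 * v.1 + (1 - (q.2 : ℂ)) * v.2) / 2 = 0 := congrArg Prod.snd h
  have e1 : 2 * v.1 = ((p.2 - q.2 : ℝ) : ℂ) * v.1 + (starRingEnd ℂ) (p.1 - q.1) * v.2 := by
    push_cast; rw [map_sub]; linear_combination hv.1 + 2 * h1
  have e2 : 2 * v.2 = (p.1 - q.1) * v.1 - ((p.2 - q.2 : ℝ) : ℂ) * v.2 := by
    push_cast; linear_combination hv.2 + 2 * h2
  have d1 : ‖p.1 - q.1‖ < 1 := by
    rw [← dist_eq_norm, dist_comm]; exact lt_of_le_of_lt (by rw [Prod.dist_eq]; exact le_max_left _ _) hd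
  have d2 : |p.2 - q.2| < 1 := by
    rw [← Real.dist_eq, dist_comm]; exact lt_of_le_of_lt (by rw [Prod.dist_eq]; exact le_max_right _ _) hd
  have n1 : 2 * ‖v.1‖ ≤ |p.2 - q.2| * ‖v.1‖ + ‖p.1 - q.1‖ * ‖v.2‖ := by
    have := congrArg norm e1
    rw [norm_mul, Complex.norm_two] at this
    rw [this]
    refine (norm_add_le _ _).trans ?_
    rw [norm_mul, norm_mul, Complex.norm_real, Real.norm_eq_abs, Complex.norm_conj]
  have n2 : 2 * ‖v.2‖ ≤ ‖p.1 - q.1‖ * ‖v.1‖ + |p.2 - q.2| * ‖v.2‖ := by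
    have := congrArg norm e2
    rw [norm_mul, Complex.norm_two] at this
    rw [this]
    refine (norm_sub_le _ _).trans ?_
    rw [norm_mul, norm_mul, Complex.norm_real, Real.norm_eq_abs]
  have hp : 0 < ‖v.1‖ + ‖v.2‖ := by
    by_contra hh
    have a1 := norm_nonneg v.1
    have a2 := norm_nonneg v.2
    apply h0
    ext
    · exact norm_eq_zero.1 (by linarith)
    · exact norm_eq_zero.1 (by linarith)
  nlinarith [norm_nonneg v.1, norm_nonneg v.2]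

lemma exists_onL {p : ℂ × ℝ} (h : OnS p) : ∃ v, v ≠ 0 ∧ OnL p v := by
  by_cases h1 : Pr p (1, 0) = 0
  · refine ⟨Pr p (0, 1), fun h2 => ?_, Pr_onL h _⟩
    have a := congrArg Prod.fst h1
    have b := congrArg Prod.snd h2
    simp only [Pr, Prod.fst_zero, Prod.snd_zero] at a b
    have : (1 : ℂ) = 0 := by linear_combination a + b
    exact one_ne_zero this
  · exact ⟨_, h1, Pr_onL h _⟩

lemma continuous_Pr : Continuous fun q : (ℂ × ℝ) × (ℂ × ℂ) => Pr q.1 q.2 := by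
  unfold Pr
  have hcc : Continuous (starRingEnd ℂ) := Complex.continuous_conj
  fun_prop

def IsLift {n : ℕ} (σ : C(Δ n, ℂ × ℝ)) (V : C(Δ n, ℂ × ℂ)) : Prop :=
  ∀ y, V y ≠ 0 ∧ OnL (σ y) (V y)

lemma IsLift.comp {m n : ℕ} {σ : C(Δ n, ℂ × ℝ)} {V : C(Δ n, ℂ × ℂ)} (h : IsLift σ V)
    (φ : C(Δ m, Δ n)) : IsLift (σ.comp φ) (V.comp φ) := fun y => h (φ y)

/-- radial contraction of the simplex -/
noncomputable def rad {n : ℕ} (s : ℝ) (y : Δ n) : Δ n :=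
  ⟨(1 - (Set.projIcc (0:ℝ) 1 zero_le_one s : ℝ)) • (stdSimplex.vertex (0 : Fin (n + 1)) : Δ n).1
      + (Set.projIcc (0:ℝ) 1 zero_le_one s : ℝ) • y.1,
    convex_stdSimplex ℝ _ (stdSimplex.vertex (0 : Fin (n + 1)) : Δ n).2 y.2
      (by linarith [(Set.projIcc (0:ℝ) 1 zero_le_one s).2.2]) (Set.projIcc (0:ℝ) 1 zero_le_one s).2.1
      (by ring)⟩

lemma continuous_rad {n : ℕ} : Continuous fun q : ℝ × Δ n => rad q.1 q.2 := by
  refine Continuous.subtype_mk ?_ _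
  have : Continuous fun q : ℝ × Δ n => (Set.projIcc (0:ℝ) 1 zero_le_one q.1 : ℝ) :=
    continuous_subtype_val.comp (continuous_projIcc.comp continuous_fst)
  fun_prop

lemma rad_zero {n : ℕ} (y : Δ n) : rad 0 y = stdSimplex.vertex 0 := by
  apply Subtype.ext; simp [rad]

lemma rad_one {n : ℕ} (y : Δ n) : rad 1 y = y := by
  apply Subtype.ext; simp [rad]

lemma exists_lift {n : ℕ} (σ : C(Δ n, ℂ × ℝ)) (hσ : ∀ y, OnS (σ y)) : ∃ V, IsLift σ V := by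
  have hK : IsCompact (Set.Icc (0:ℝ) 1 ×ˢ (Set.univ : Set (Δ n))) :=
    isCompact_Icc.prod isCompact_univ
  have hc : Continuous fun q : ℝ × Δ n => σ (rad q.1 q.2) := σ.continuous.comp continuous_rad
  have hu := hK.uniformContinuousOn_of_continuous hc.continuousOn
  rw [Metric.uniformContinuousOn_iff] at hu
  obtain ⟨δ, hδ, hu⟩ := hu 1 one_pos
  obtain ⟨k, hk⟩ := exists_nat_one_div_lt hδ
  obtain ⟨v, hv0, hv⟩ := exists_onL (hσ (stdSimplex.vertex 0))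
  have main : ∀ j : ℕ, j ≤ k + 1 → ∃ V : C(Δ n, ℂ × ℂ),
      ∀ y, V y ≠ 0 ∧ OnL (σ (rad ((j : ℝ) / (k + 1)) y)) (V y) := by
    intro j
    induction j with
    | zero =>
      intro _
      exact ⟨ContinuousMap.const _ v, fun y => by simpa [rad_zero] using ⟨hv0, hv⟩⟩
    | succ j ih =>
      intro hj
      obtain ⟨V, hV⟩ := ih (by omega)
      have hc2 : Continuous fun y : Δ n => σ (rad (((j + 1 : ℕ) : ℝ) / (k + 1)) y) :=
        hc.comp (Continuous.prodMk_right _)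
      refine ⟨⟨fun y => Pr (σ (rad (((j + 1 : ℕ) : ℝ) / (k + 1)) y)) (V y), ?_⟩, fun y => ⟨?_, ?_⟩⟩
      · exact continuous_Pr.comp (hc2.prodMk V.continuous)
      · refine Pr_ne (hV y).2 (hV y).1 ?_
        have hk1 : (0:ℝ) < k + 1 := by positivity
        have hjk : ((j + 1 : ℕ) : ℝ) ≤ k + 1 := by exact_mod_cast hj
        have hj0 : (0:ℝ) ≤ j := Nat.cast_nonneg _
        refine hu (((j + 1 : ℕ) : ℝ) / (k + 1), y) ⟨⟨by positivity, ?_⟩, trivial⟩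
          ((j : ℝ) / (k + 1), y) ⟨⟨by positivity, ?_⟩, trivial⟩ ?_
        · rw [div_le_one hk1]; exact hjk
        · rw [div_le_one hk1]; push_cast at hjk; linarith
        · rw [Prod.dist_eq, dist_self, Real.dist_eq]
          have : ((j + 1 : ℕ) : ℝ) / (k + 1) - (j : ℝ) / (k + 1) = 1 / (k + 1) := by
            push_cast; field_simp; ring
          rw [this, abs_of_pos (by positivity)]
          exact max_lt hk hδ
      · exact Pr_onL (hσ _) _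
  obtain ⟨V, hV⟩ := main (k + 1) le_rfl
  refine ⟨V, fun y => ?_⟩
  have := hV y
  have e : ((k + 1 : ℕ) : ℝ) / (k + 1) = 1 := by push_cast; field_simp
  rwa [e, rad_one] at this

/-- Hermitian product of two vector fields -/
noncomputable def hp {n : ℕ} (V W : C(Δ n, ℂ × ℂ)) : C(Δ n, ℂ) :=
  ⟨fun y => (V y).1 * (starRingEnd ℂ) (W y).1 + (V y).2 * (starRingEnd ℂ) (W y).2, by
    have hcc : Continuous (starRingEnd ℂ) := Complex.continuous_conj
    fun_prop⟩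

lemma hp_comp {m n : ℕ} (V W : C(Δ n, ℂ × ℂ)) (φ : C(Δ m, Δ n)) :
    (hp V W).comp φ = hp (V.comp φ) (W.comp φ) := rfl

lemma cross {p : ℂ × ℝ} (h : OnS p) {v w : ℂ × ℂ} (hv : OnL p v) (hw : OnL p w) :
    v.1 * w.2 = v.2 * w.1 := by
  by_cases h1 : (1 - (p.2 : ℂ)) = 0
  · have : (1 + (p.2 : ℂ)) ≠ 0 := by
      intro h2; have : (2 : ℂ) = 0 := by linear_combination h1 + h2
      exact two_ne_zero this
    apply mul_left_cancel₀ this
    linear_combination v.1 * hw.2 - w.1 * hv.2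
  · apply mul_left_cancel₀ h1
    linear_combination w.2 * hv.1 - v.2 * hw.1

lemma hp_self_ne (v : ℂ × ℂ) (hv : v ≠ 0) :
    v.1 * (starRingEnd ℂ) v.1 + v.2 * (starRingEnd ℂ) v.2 ≠ 0 := by
  rw [Complex.mul_conj', Complex.mul_conj']
  intro h
  have h' : ‖v.1‖ ^ 2 + ‖v.2‖ ^ 2 = 0 := by exact_mod_cast h
  apply hv
  ext
  · exact norm_eq_zero.1 (by nlinarith [sq_nonneg ‖v.1‖, sq_nonneg ‖v.2‖])
  · exact norm_eq_zero.1 (by nlinarith [sq_nonneg ‖v.1‖, sq_nonneg ‖v.2‖])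

lemma hp_rel {n : ℕ} {σ : C(Δ n, ℂ × ℝ)} (hσ : ∀ y, OnS (σ y)) {U V : C(Δ n, ℂ × ℂ)}
    (hU : IsLift σ U) (hV : IsLift σ V) (W : C(Δ n, ℂ × ℂ)) :
    hp U W * hp V V = hp U V * hp V W := by
  ext y
  have := cross (hσ y) (hU y).2 (hV y).2
  simp only [ContinuousMap.mul_apply, hp, ContinuousMap.coe_mk]
  linear_combination ((starRingEnd ℂ) (W y).1 * (starRingEnd ℂ) (V y).2
    - (starRingEnd ℂ) (W y).2 * (starRingEnd ℂ) (V y).1) * this

lemma hp_ne {n : ℕ} {σ : C(Δ n, ℂ × ℝ)} (hσ : ∀ y, OnS (σ y)) {U V : C(Δ n, ℂ × ℂ)}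
    (hU : IsLift σ U) (hV : IsLift σ V) (y : Δ n) : hp U V y ≠ 0 := by
  have h := congrArg (fun g : C(Δ n, ℂ) => g y) (hp_rel hσ hU hV U)
  simp only [ContinuousMap.mul_apply] at h
  intro h0
  rw [h0, zero_mul] at h
  exact mul_ne_zero (hp_self_ne _ (hU y).1) (hp_self_ne _ (hV y).1) h

open Classical in
noncomputable def ch {n : ℕ} (σ : C(Δ n, ℂ × ℝ)) : C(Δ n, ℂ × ℂ) :=
  if h : ∃ V, IsLift σ V then h.choose else 0

lemma ch_lift {n : ℕ} {σ : C(Δ n, ℂ × ℝ)} (hσ : ∀ y, OnS (σ y)) : IsLift σ (ch σ) := by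
  have h := exists_lift σ hσ
  rw [ch, dif_pos h]; exact h.choose_spec

noncomputable def An (γ : C(Δ 1, ℂ × ℝ)) (V : C(Δ 1, ℂ × ℂ)) : ℂ := Dl (hp V (ch γ))

noncomputable def eW (σ : C(Δ 2, ℂ × ℝ)) (V : C(Δ 2, ℂ × ℂ)) : ℂ :=
  An (σ.comp (vm (Fin.succAbove 0))) (V.comp (vm (Fin.succAbove 0)))
    - An (σ.comp (vm (Fin.succAbove 1))) (V.comp (vm (Fin.succAbove 1)))
    + An (σ.comp (vm (Fin.succAbove 2))) (V.comp (vm (Fin.succAbove 2)))

/-- the cocycle -/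
noncomputable def ec (σ : C(Δ 2, ℂ × ℝ)) : ℂ := eW σ (ch σ)

lemma ec_eq {σ : C(Δ 2, ℂ × ℝ)} (hσ : ∀ y, OnS (σ y)) {V : C(Δ 2, ℂ × ℂ)} (hV : IsLift σ V) :
    ec σ = eW σ V := by
  have hU := ch_lift hσ
  unfold ec
  generalize ch σ = U at hU
  have key : ∀ φ : C(Δ 1, Δ 2), An (σ.comp φ) (U.comp φ) = An (σ.comp φ) (V.comp φ)
      + Dl ((hp U V).comp φ) - Dl ((hp V V).comp φ) := by
    intro φ
    have hs : ∀ y, OnS ((σ.comp φ) y) := fun y => hσ _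
    have hW := ch_lift hs
    have r := congrArg Dl (hp_rel hs (hU.comp φ) (hV.comp φ) (ch (σ.comp φ)))
    rw [Dl_mul _ _ (hp_ne hs (hU.comp φ) hW) (hp_ne hs (hV.comp φ) (hV.comp φ)),
      Dl_mul _ _ (hp_ne hs (hU.comp φ) (hV.comp φ)) (hp_ne hs (hV.comp φ) hW)] at r
    unfold An
    rw [hp_comp, hp_comp]
    linear_combination r
  unfold eW
  rw [key, key, key]
  linear_combination Dl_tri _ (hp_ne hσ hU hV) - Dl_tri _ (hp_ne hσ hV hV)

lemma ec_cocycle (τ : C(Δ 3, ℂ × ℝ)) (hτ : ∀ y, OnS (τ y)) :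
    ec (τ.comp (vm (Fin.succAbove 0))) - ec (τ.comp (vm (Fin.succAbove 1)))
      + ec (τ.comp (vm (Fin.succAbove 2))) - ec (τ.comp (vm (Fin.succAbove 3))) = 0 := by
  obtain ⟨V, hV⟩ := exists_lift τ hτ
  have key : ∀ φ : Fin 3 → Fin 4, ec (τ.comp (vm φ)) =
      An (τ.comp (vm (φ ∘ Fin.succAbove 0))) (V.comp (vm (φ ∘ Fin.succAbove 0)))
      - An (τ.comp (vm (φ ∘ Fin.succAbove 1))) (V.comp (vm (φ ∘ Fin.succAbove 1)))
      + An (τ.comp (vm (φ ∘ Fin.succAbove 2))) (V.comp (vm (φ ∘ Fin.succAbove 2))) := by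
    intro φ
    rw [ec_eq (fun y => hτ _) (hV.comp (vm φ))]
    simp only [eW, ContinuousMap.comp_assoc, vm_comp]
  rw [key, key, key, key]
  have e1 : (Fin.succAbove (0 : Fin 4) ∘ Fin.succAbove (0 : Fin 3)) =
      Fin.succAbove (1 : Fin 4) ∘ Fin.succAbove (0 : Fin 3) := by decide
  have e2 : (Fin.succAbove (0 : Fin 4) ∘ Fin.succAbove (1 : Fin 3)) =
      Fin.succAbove (2 : Fin 4) ∘ Fin.succAbove (0 : Fin 3) := by decide
  have e3 : (Fin.succAbove (0 : Fin 4) ∘ Fin.succAbove (2 : Fin 3)) =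
      Fin.succAbove (3 : Fin 4) ∘ Fin.succAbove (0 : Fin 3) := by decide
  have e4 : (Fin.succAbove (1 : Fin 4) ∘ Fin.succAbove (1 : Fin 3)) =
      Fin.succAbove (2 : Fin 4) ∘ Fin.succAbove (1 : Fin 3) := by decide
  have e5 : (Fin.succAbove (1 : Fin 4) ∘ Fin.succAbove (2 : Fin 3)) =
      Fin.succAbove (3 : Fin 4) ∘ Fin.succAbove (1 : Fin 3) := by decide
  have e6 : (Fin.succAbove (2 : Fin 4) ∘ Fin.succAbove (2 : Fin 3)) =
      Fin.succAbove (3 : Fin 4) ∘ Fin.succAbove (2 : Fin 3) := by decide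
  rw [e1, e2, e3, e4, e5, e6]; ring

end Crest.Agent.H1.EC
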