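import Crest.Agent.H1.ECEst

/-! No bounded orbits for the homogeneous maps, and robust version. -/

set_option autoImplicit false

namespace Crest.Agent.H1.EC

open Real

lemma G_full {τ : ℝ} {z : ℂ} (h : sg τ z ≤ 0) (n : ℕ) (N : ℝ) (x : E3) :
    G n τ z N x = mk3 (5 * Q N (Psi n τ z N x)) 0 0 := by
  apply E3_ext <;>
  simp [G, gm, hh_zero (show sg τ z ≤ 2 by linarith), hh_zero h,
    hh_zero (show sg τ z ≤ 4 by linarith)]

lemma rc_G {τ : ℝ} {z : ℂ} (hz : ‖z‖ = 1) (h : 1 < sg τ z) (n : ℕ) (N : ℝ) (x : E3)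
    (hx : sg τ z < 4 → (cos (ph τ z) : ℂ) * x 1 + (sin (ph τ z) : ℂ) * x 2 = 0) :
    rc τ z (G n τ z N x) = x := by
  have hi := (iv_av hz (show 0 < sg τ z by linarith)).1
  have h0 : hh 0 τ z = 1 := hh_one (by linarith)
  have hu : uh τ z (G n τ z N x) = av z * x 0 := by
    have cs : (cos (ph τ z) : ℂ) ^ 2 + (sin (ph τ z) : ℂ) ^ 2 = 1 := by
      exact_mod_cast cos_sq_add_sin_sq (ph τ z)
    rcases lt_or_ge (sg τ z) 4 with h4 | h4
    · have g1 : gm τ z = 1 := by unfold gm; rw [h0, hh_zero h4.le]; ring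
      have hx' := hx h4
      rcases le_or_gt (sg τ z) 3 with h3 | h3
      · simp only [uh, G, mk3_0, mk3_1, mk3_2, hh_zero h3, g1, h0]
        push_cast at hx' cs ⊢
        linear_combination av z * hx' + av z * x 0 * cs
      · simp only [uh, G, mk3_0, mk3_1, mk3_2, hh_one (show 2 + 1 ≤ sg τ z by linarith), g1, h0]
        push_cast at hx' cs ⊢
        linear_combination (1 - (hh 3 τ z : ℂ)) * av z * hx' + (1 - (hh 3 τ z : ℂ)) * av z * x 0 * cs
    · simp only [uh, G, mk3_0, mk3_1, mk3_2, hh_one (show 2 + 1 ≤ sg τ z by linarith),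
        hh_one (show 3 + 1 ≤ sg τ z by linarith)]
      push_cast; ring
  apply E3_ext
  · simp only [rc, mk3_0, hu]; linear_combination x 0 * hi
  · simp only [rc, mk3_1, hu]; simp only [G, mk3_1, h0]; push_cast; linear_combination x 1 * hi
  · simp only [rc, mk3_2, hu]; simp only [G, mk3_2, h0]; push_cast; linear_combination x 2 * hi

lemma gm_ne {τ : ℝ} {z : ℂ} (h : gm τ z ≠ 0) : 0 < sg τ z ∧ sg τ z < 5 := by
  constructor
  · by_contra hh; apply h; unfold gm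
    rw [hh_zero (by linarith), hh_zero (by linarith)]; ring
  · by_contra hh; apply h; unfold gm
    rw [hh_one (by linarith), hh_one (by linarith)]; ring

lemma orbit_step {τ : ℝ} (hτ : 0 ≤ τ) {n : ℕ} (hn : Ng τ + 1 ≤ n) (t : ℝ) (x : ℕ → E3)
    (hx : ∀ i, x (i + 1) = GG n τ (ee (t + i * al)) (x i)) (hf : sg τ (ee t) ≤ 0)
    (hw : x 1 ≠ 0) : ∀ i ≤ Ng τ, x (i + 1) ≠ 0 ∧ ‖x (i + 1)‖ ≤ Lam ^ i * ‖x 1‖ ∧
      (∃ W : ℂ, ‖W‖ = 5 ^ i * ‖x 1‖ ∧ ∀ n' N', i + 1 ≤ n' → 0 < N' → N' ≤ ‖x 1‖ →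
        Psi n' τ (ee (t + (i + 1 : ℕ) * al)) N' (x (i + 1)) = W) ∧
      (∀ c s : ℝ, (∀ k, 1 ≤ k → k ≤ i → gm τ (ee (t + k * al)) ≠ 0 →
        c * cos (ph τ (ee (t + k * al))) + s * sin (ph τ (ee (t + k * al))) = 0) →
        (c : ℂ) * x (i + 1) 1 + (s : ℂ) * x (i + 1) 2 = 0) := by
  have hw0 : 0 < ‖x 1‖ := norm_pos_iff.2 hw
  have hL := ten_le_Lam
  intro i
  induction i with
  | zero =>
    intro _
    have e : x 1 = mk3 (x 1 0) 0 0 := by
      have := hx 0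
      simp only [Nat.cast_zero, zero_mul, add_zero, zero_add] at this
      rw [this, GG, G_full hf]; rfl
    refine ⟨hw, by simp, ⟨x 1 0, ?_, ?_⟩, ?_⟩
    · rw [pow_zero, one_mul]; conv_rhs => rw [e, norm_mk3_00]
    · intro n' N' hn' _ _
      obtain ⟨n', rfl⟩ : ∃ m, n' = m + 1 := ⟨n' - 1, by omega⟩
      simp [Psi, ee_prev, hh_zero (show sg τ (ee t) ≤ 1 by linarith)]
    · intro c s _
      rw [zero_add, e]; simp
  | succ i ih =>
    intro hi
    obtain ⟨h0, h1, ⟨W, hW, h2⟩, h3⟩ := ih (by omega)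
    set z := ee (t + (i + 1 : ℕ) * al) with hz
    have hN0 : 0 < nu τ * ‖x (i + 1)‖ := mul_pos (nu_pos τ) (norm_pos_iff.2 h0)
    have hN1 : nu τ * ‖x (i + 1)‖ ≤ ‖x 1‖ := by
      have a : (i : ℝ) ≤ 128 * exp τ := by
        have : (i : ℝ) ≤ Ng τ := by exact_mod_cast (by omega)
        linarith [Ng_le hτ, exp_pos τ]
      have b := pow_nu a
      have c : exp (-exp τ) ≤ 1 := exp_le_one_iff.2 (by linarith [exp_pos τ])
      have d := mul_le_mul_of_nonneg_left h1 (nu_pos τ).le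
      nlinarith
    have h5 : ‖x 1‖ ≤ ‖W‖ := by
      rw [hW]; exact le_mul_of_one_le_left hw0.le (one_le_pow₀ (by norm_num))
    have hQ : ∀ N', 0 < N' → N' ≤ ‖x 1‖ → Q N' W = Q2 W := fun N' a b => Q_eq a (b.trans h5)
    have hxe : x (i + 1 + 1) = G n τ z (nu τ * ‖x (i + 1)‖) (x (i + 1)) := hx (i + 1)
    have hP : ∀ n' N', i + 1 + 1 ≤ n' → 0 < N' → N' ≤ ‖x 1‖ →
        Psi n' τ (ee (t + (i + 1 + 1 : ℕ) * al)) N' (x (i + 1 + 1)) = 5 * Q2 W := by
      intro n' N' hn' a b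
      obtain ⟨n', rfl⟩ : ∃ m, n' = m + 1 := ⟨n' - 1, by omega⟩
      have e : t + (i + 1 + 1 : ℕ) * al - al = t + (i + 1 : ℕ) * al := by push_cast; ring
      simp only [Psi, ee_prev, e, ← hz]
      have c1 : sg τ z ≤ 2 → x (i + 1 + 1) 0 = 5 * Q2 W := by
        intro h
        rw [hxe]
        simp only [G, mk3_0, hh_zero h]
        rw [h2 n _ (by omega) hN0 hN1, hQ _ hN0 hN1]; simp
      have c2 : 1 < sg τ z → 5 * Q N' (Psi n' τ z N' (rc τ z (x (i + 1 + 1)))) = 5 * Q2 W := by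
        intro h
        rw [hxe, rc_G (norm_ee _) h, h2 n' _ (by omega) a b, hQ _ a b]
        intro h4
        apply h3
        intro k hk1 hk2 hk3
        have g := gm_ne hk3
        have e2 : t + (i + 1 : ℕ) * al = t + k * al + (i + 1 - k : ℕ) * al := by
          rw [Nat.cast_sub (by omega)]; ring
        have := geom hτ (t + k * al) (n := i + 1 - k) (by omega) (by
          have : ((i + 1 - k : ℕ) : ℝ) ≤ Ng τ := by exact_mod_cast (by omega)
          linarith [Ng_le hτ, exp_pos τ]) g.1 g.2 (by rw [← e2]; linarith) (by rw [← e2]; linarith)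
        rwa [← e2] at this
      rcases le_or_gt (sg τ z) 1 with h | h
      · rw [hh_zero h, c1 (by linarith)]; simp
      · rcases le_or_gt (sg τ z) 2 with h' | h'
        · rw [c1 h', c2 h]; push_cast; ring
        · rw [hh_one (by linarith), c2 h]; simp
    have hW' : ‖5 * Q2 W‖ = 5 ^ (i + 1) * ‖x 1‖ := by
      rw [norm_mul, norm_Q2, hW, pow_succ]; simp; ring
    refine ⟨?_, ?_, ⟨5 * Q2 W, hW', hP⟩, ?_⟩
    · intro h
      have := hP (i + 1 + 1) ‖x 1‖ le_rfl hw0 le_rfl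
      rw [h, Psi_zero] at this
      rw [← this, norm_zero] at hW'
      have : 0 < 5 ^ (i + 1) * ‖x 1‖ := by positivity
      linarith
    · rw [hx (i + 1)]
      refine (GG_bound hτ _ _ _).trans ?_
      rw [pow_succ]
      have := mul_le_mul_of_nonneg_left h1 (show 0 ≤ Lam by linarith)
      linarith
    · intro c s hcs
      have a := h3 c s fun k hk1 hk2 => hcs k hk1 (by omega)
      have b : gm τ z * (c * cos (ph τ z) + s * sin (ph τ z)) = 0 := by
        by_cases hg : gm τ z = 0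
        · rw [hg, zero_mul]
        · rw [hcs (i + 1) (by omega) le_rfl hg, mul_zero]
      have b' : (gm τ z : ℂ) * (c * cos (ph τ z) + s * sin (ph τ z)) = 0 := by exact_mod_cast b
      rw [hxe]
      simp only [G, mk3_1, mk3_2]
      push_cast at b' ⊢
      linear_combination av z * (hh 0 τ z : ℂ) * a + av z * x (i + 1) 0 * b'

lemma orbit_grow {τ : ℝ} (hτ : 0 ≤ τ) {n : ℕ} (hn : Ng τ + 1 ≤ n) (t : ℝ) (x : ℕ → E3)
    (hx : ∀ i, x (i + 1) = GG n τ (ee (t + i * al)) (x i)) (hf : sg τ (ee t) ≤ 0)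
    (hw : x 1 ≠ 0) : ∃ i : ℕ, sg τ (ee (t + i * al)) ≤ 0 ∧ 5 * ‖x 1‖ ≤ ‖x (i + 1)‖ := by
  obtain ⟨k, hk, hk2⟩ := exists_full hτ (t + al)
  have e : t + al + k * al = t + (k + 1 : ℕ) * al := by push_cast; ring
  rw [e] at hk2
  refine ⟨k + 1, hk2, ?_⟩
  obtain ⟨h0, h1, ⟨W, hW, h2⟩, -⟩ := orbit_step hτ hn t x hx hf hw k hk.le
  have hw0 : 0 < ‖x 1‖ := norm_pos_iff.2 hw
  have hN0 : 0 < nu τ * ‖x (k + 1)‖ := mul_pos (nu_pos τ) (norm_pos_iff.2 h0)
  have hN1 : nu τ * ‖x (k + 1)‖ ≤ ‖x 1‖ := by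
    have a : (k : ℝ) ≤ 128 * exp τ := by
      have : (k : ℝ) ≤ Ng τ := by exact_mod_cast (by omega)
      linarith [Ng_le hτ, exp_pos τ]
    have b := pow_nu a
    have c : exp (-exp τ) ≤ 1 := exp_le_one_iff.2 (by linarith [exp_pos τ])
    have d := mul_le_mul_of_nonneg_left h1 (nu_pos τ).le
    nlinarith
  have h5 : ‖x 1‖ ≤ ‖W‖ := by
    rw [hW]; exact le_mul_of_one_le_left hw0.le (one_le_pow₀ (by norm_num))
  rw [hx (k + 1), GG, G_full hk2, norm_mk3_00, h2 n _ (by omega) hN0 hN1,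
    Q_eq hN0 (hN1.trans h5), norm_mul, norm_Q2]
  simp only [Complex.norm_ofNat]
  linarith

lemma no_bounded {τ : ℝ} (hτ : 0 ≤ τ) {n : ℕ} (hn : Ng τ + 1 ≤ n) (t : ℝ) (x : ℕ → E3)
    (hx : ∀ i, x (i + 1) = GG n τ (ee (t + i * al)) (x i)) (hb : ∀ i, ‖x i‖ ≤ 1) :
    x n = 0 := by
  have key : ∀ m : ℕ, ∀ k : ℕ, sg τ (ee (t + k * al)) ≤ 0 → 5 ^ m * ‖x (k + 1)‖ ≤ 1 := by
    intro m
    induction m with
    | zero => intro k _; simpa using hb _
    | succ m ih =>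
      intro k hk
      by_cases h0 : x (k + 1) = 0
      · simp [h0]
      obtain ⟨i, hi, hi2⟩ := orbit_grow hτ hn (t + k * al) (fun i => x (k + i)) (fun i => by
        have := hx (k + i)
        rw [show t + (k + i : ℕ) * al = t + k * al + i * al by push_cast; ring] at this
        exact this) hk h0
      have := ih (k + i) (by convert hi using 3; push_cast; ring)
      have h3 : 5 ^ m * (5 * ‖x (k + 1)‖) ≤ 5 ^ m * ‖x (k + (i + 1))‖ := by gcongr
      rw [pow_succ, mul_assoc]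
      exact h3.trans this
  obtain ⟨k, hk, hk2⟩ := exists_full hτ t
  have h0 : x (k + 1) = 0 := by
    by_contra h
    have hp : 0 < ‖x (k + 1)‖ := norm_pos_iff.2 h
    obtain ⟨m, hm⟩ := pow_unbounded_of_one_lt (1 / ‖x (k + 1)‖) (show (1 : ℝ) < 5 by norm_num)
    have := key m k hk2
    rw [div_lt_iff₀ hp] at hm
    linarith
  have h1 : ∀ j, x (k + 1 + j) = 0 := by
    intro j
    induction j with
    | zero => exact h0
    | succ j ih => rw [← add_assoc, hx, ih, GG_zero]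
  have := h1 (n - (k + 1))
  rwa [show k + 1 + (n - (k + 1)) = n by omega] at this

lemma continuous_ee : Continuous ee := by unfold ee; fun_prop

@[fun_prop] lemma contDiff_ee : ContDiff ℝ 1 ee := by
  unfold ee
  exact (Complex.contDiff_exp (𝕜 := ℝ)).comp (by fun_prop)

lemma continuousOn_GG (n : ℕ) :
    ContinuousOn (fun p : ℝ × ℝ × E3 => GG n p.1 (ee p.2.1) p.2.2) {p | 0 ≤ p.1} := by
  rintro ⟨τ, t, x⟩ hp
  rcases eq_or_ne x 0 with rfl | hx
  · rw [ContinuousWithinAt, GG_zero]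
    refine squeeze_zero_norm' (a := fun p => Lam * ‖p.2.2‖) ?_ ?_
    · filter_upwards [self_mem_nhdsWithin] with p hp using GG_bound hp _ _ _
    · have : Continuous fun p : ℝ × ℝ × E3 => Lam * ‖p.2.2‖ := by fun_prop
      have := this.tendsto (τ, t, 0)
      simp only [norm_zero, mul_zero] at this
      exact this.mono_left nhdsWithin_le_nhds
  · have h1 : Continuous fun p : ℝ × ℝ × E3 => (p.1, ee p.2.1, p.2.2) := by
      have := continuous_ee; fun_prop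
    have h2 := (contDiffAt_GG n (τ, ee t, x) hx).continuousAt
    exact (ContinuousAt.comp (f := fun p : ℝ × ℝ × E3 => (p.1, ee p.2.1, p.2.2)) (x := (τ, t, x))
      h2 h1.continuousAt).continuousWithinAt

lemma ee_fract (t s : ℝ) : ee (Int.fract t + s) = ee (t + s) := by
  rw [← ee_sub_int (t + s) ⌊t⌋]; congr 1; unfold Int.fract; ring

lemma exists_delta (T : ℝ) {n : ℕ} (hn : Ng T + 1 ≤ n) : ∃ δ > 0, ∀ τ, 0 ≤ τ → τ ≤ T →
    ∀ (t : ℝ) (x : ℕ → E3), (∀ i, ‖x i‖ ≤ 1) →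
      (∀ i, ‖x (i + 1) - GG n τ (ee (t + i * al)) (x i)‖ ≤ δ) → ‖x n‖ < 1 / 2 := by
  let A : Set (ℝ × ℝ × (ℕ → E3)) :=
    Set.Icc 0 T ×ˢ Set.Icc 0 1 ×ˢ Set.pi Set.univ fun _ => Metric.closedBall 0 1
  have hA : IsCompact A :=
    isCompact_Icc.prod (isCompact_Icc.prod (isCompact_univ_pi fun _ => isCompact_closedBall _ _))
  let K : ℕ → Set (ℝ × ℝ × (ℕ → E3)) := fun m => (A ∩ {p | 1 / 2 ≤ ‖p.2.2 n‖}) ∩
    ⋂ i : ℕ, A ∩ {p | ‖p.2.2 (i + 1) - GG n p.1 (ee (p.2.1 + i * al)) (p.2.2 i)‖ ≤ 1 / (m + 1)}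
  have hK : ∀ m, IsClosed (K m) := by
    intro m
    refine (hA.isClosed.inter (isClosed_le continuous_const (by fun_prop))).inter
      (isClosed_iInter fun i => ?_)
    have h1 : Continuous fun p : ℝ × ℝ × (ℕ → E3) => (p.1, p.2.1 + i * al, p.2.2 i) := by fun_prop
    have h2 : ContinuousOn (fun p : ℝ × ℝ × (ℕ → E3) =>
        GG n p.1 (ee (p.2.1 + i * al)) (p.2.2 i)) A := by
      have := (continuousOn_GG n).comp (s := A) h1.continuousOn fun p hp => hp.1.1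
      simpa only [Function.comp_def] using this
    have h3 : ContinuousOn (fun p : ℝ × ℝ × (ℕ → E3) =>
        ‖p.2.2 (i + 1) - GG n p.1 (ee (p.2.1 + i * al)) (p.2.2 i)‖) A :=
      (ContinuousOn.sub (by fun_prop) h2).norm
    exact h3.preimage_isClosed_of_isClosed hA.isClosed isClosed_Iic
  by_contra hcon
  push Not at hcon
  have hne : ∀ m, (K m).Nonempty := by
    intro m
    obtain ⟨τ, h0, h1, t, x, hb, hx, hxn⟩ := hcon (1 / ((m : ℝ) + 1)) (by positivity)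
    have hA' : (τ, Int.fract t, x) ∈ A :=
      ⟨⟨h0, h1⟩, ⟨Int.fract_nonneg t, (Int.fract_lt_one t).le⟩, fun i _ => by simpa using hb i⟩
    refine ⟨(τ, Int.fract t, x), ⟨hA', hxn⟩, Set.mem_iInter.2 fun i => ⟨hA', ?_⟩⟩
    simp only [Set.mem_ofPred_eq, ee_fract]
    exact hx i
  have hdec : ∀ m, K (m + 1) ⊆ K m := by
    intro m p hp
    refine ⟨hp.1, Set.mem_iInter.2 fun i => ⟨hp.1.1, ?_⟩⟩
    have := (Set.mem_iInter.1 hp.2 i).2
    simp only [Set.mem_ofPred_eq] at this ⊢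
    refine this.trans ?_
    push_cast
    gcongr; linarith
  obtain ⟨⟨τ, t, x⟩, hp⟩ := IsCompact.nonempty_iInter_of_sequence_nonempty_isCompact_isClosed K hdec
    hne (hA.of_isClosed_subset (hK 0) fun p hp => hp.1.1) hK
  have h0 := Set.mem_iInter.1 hp
  have hA' := (h0 0).1.1
  have := no_bounded hA'.1.1 (n := n) (by have := Ng_mono hA'.1.2; simp only at this ⊢; omega) t x
    (fun i => by
      rw [← sub_eq_zero, ← norm_le_zero_iff]
      refine ge_of_tendsto' tendsto_one_div_add_atTop_nhds_zero_nat fun m => ?_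
      exact (Set.mem_iInter.1 (h0 m).2 i).2)
    (fun i => by simpa using hA'.2.2 i trivial)
  have h2 := (h0 0).1.2
  simp only [Set.mem_ofPred_eq, this, norm_zero] at h2
  linarith

lemma exists_B (T : ℝ) (n : ℕ) : ∃ B ≥ 0, ∀ τ τ' : ℝ, ∀ z z' : ℂ, ∀ x : E3,
    τ ∈ Set.Icc 0 T → τ' ∈ Set.Icc 0 T → ‖z‖ ≤ 1 → ‖z'‖ ≤ 1 →
    ‖GG n τ z x - GG n τ' z' x‖ ≤ B * ‖x‖ * (|τ - τ'| + ‖z - z'‖) := by
  let F : ℝ × ℂ × E3 → E3 := fun p => GG n p.1 p.2.1 p.2.2
  let A : Set (ℝ × ℂ × E3) := Set.Icc 0 T ×ˢ Metric.closedBall 0 1 ×ˢ Metric.sphere 0 1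
  have hA : IsCompact A :=
    isCompact_Icc.prod ((isCompact_closedBall _ _).prod (isCompact_sphere _ _))
  have hne : ∀ p ∈ A, p.2.2 ≠ 0 := by
    intro p hp h
    have := hp.2.2
    rw [h] at this; simp at this
  have hc : ContinuousOn (fderiv ℝ F) A := fun p hp =>
    ((contDiffAt_GG n p (hne p hp)).continuousAt_fderiv one_ne_zero).continuousWithinAt
  obtain ⟨B, hB⟩ := hA.exists_bound_of_continuousOn hc
  have key : ∀ τ τ' : ℝ, ∀ z z' : ℂ, ∀ x : E3, ‖x‖ = 1 →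
      τ ∈ Set.Icc 0 T → τ' ∈ Set.Icc 0 T → ‖z‖ ≤ 1 → ‖z'‖ ≤ 1 →
      ‖GG n τ z x - GG n τ' z' x‖ ≤ max B 0 * (|τ - τ'| + ‖z - z'‖) := by
    intro τ τ' z z' x hx h1 h2 h3 h4
    let s : Set (ℝ × ℂ × E3) := Set.Icc 0 T ×ˢ Metric.closedBall 0 1 ×ˢ {x}
    have hs : s ⊆ A := fun p hp => ⟨hp.1, hp.2.1, by
      have : p.2.2 = x := hp.2.2
      simp [this, hx]⟩
    have hconv : Convex ℝ s :=
      (convex_Icc _ _).prod ((convex_closedBall _ _).prod (convex_singleton _))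
    have := hconv.norm_image_sub_le_of_norm_fderiv_le (𝕜 := ℝ) (f := F) (C := max B 0)
      (fun p hp => (contDiffAt_GG n p (hne p (hs hp))).differentiableAt one_ne_zero)
      (fun p hp => (hB p (hs hp)).trans (le_max_left _ _))
      (x := (τ', z', x)) (y := (τ, z, x)) ⟨h2, by simpa using h4, rfl⟩ ⟨h1, by simpa using h3, rfl⟩
    refine this.trans (mul_le_mul_of_nonneg_left ?_ (le_max_right _ _))
    simp only [Prod.mk_sub_mk, sub_self, Prod.norm_mk, norm_zero, Real.norm_eq_abs]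
    exact max_le (by linarith [norm_nonneg (z - z')])
      (max_le (by linarith [abs_nonneg (τ - τ')]) (by positivity))
  refine ⟨max B 0, le_max_right _ _, fun τ τ' z z' x h1 h2 h3 h4 => ?_⟩
  rcases eq_or_ne x 0 with rfl | hx
  · simp [GG_zero]
  have hp : 0 < ‖x‖ := norm_pos_iff.2 hx
  have e : x = ‖x‖ • (‖x‖⁻¹ • x) := by rw [smul_smul, mul_inv_cancel₀ hp.ne', one_smul]
  have := key τ τ' z z' (‖x‖⁻¹ • x)
    (by rw [norm_smul, norm_inv, norm_norm, inv_mul_cancel₀ hp.ne']) h1 h2 h3 h4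
  conv_lhs => rw [e, GG_smul hp, GG_smul hp, ← smul_sub, norm_smul, norm_norm]
  have := mul_le_mul_of_nonneg_left this hp.le
  linarith

end Crest.Agent.H1.EC
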