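import Mathlib

/-! The regularised homogeneous squaring map. -/

set_option autoImplicit false

namespace Crest.Agent.H1.EC

open Real

noncomputable def den (y : ℝ) : ℝ := y + 1 - smoothTransition y

lemma den_pos {y : ℝ} (hy : 0 ≤ y) : 0 < den y := by
  unfold den
  rcases hy.eq_or_lt with rfl | h
  · simp
  · linarith [smoothTransition.le_one y]

lemma den_eq {y : ℝ} (hy : 1 ≤ y) : den y = y := by
  unfold den; rw [smoothTransition.one_of_one_le hy]; ring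

@[fun_prop] lemma contDiff_S : ContDiff ℝ 1 smoothTransition := smoothTransition.contDiff

@[fun_prop] lemma contDiff_den : ContDiff ℝ 1 den := by unfold den; fun_prop

@[fun_prop] lemma contDiff_nsq : ContDiff ℝ 1 fun w : ℂ => ‖w‖ ^ 2 := contDiff_norm_sq ℂ

@[fun_prop] lemma contDiff_ofReal : ContDiff ℝ 1 fun w : ℝ => (w : ℂ) := Complex.ofRealCLM.contDiff

@[fun_prop] lemma contDiff_re : ContDiff ℝ 1 Complex.re := Complex.reCLM.contDiff

@[fun_prop] lemma contDiff_im : ContDiff ℝ 1 Complex.im := Complex.imCLM.contDiff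

noncomputable def q (w : ℂ) : ℂ := w ^ 2 * ((√(den (‖w‖ ^ 2)))⁻¹ : ℝ)

@[fun_prop] lemma contDiff_q : ContDiff ℝ 1 q := by
  have h1 : ContDiff ℝ 1 fun w : ℂ => den (‖w‖ ^ 2) := contDiff_den.comp contDiff_nsq
  have h2 : ContDiff ℝ 1 fun w : ℂ => √(den (‖w‖ ^ 2)) :=
    h1.sqrt fun w => (den_pos (by positivity)).ne'
  have h3 : ContDiff ℝ 1 fun w : ℂ => (√(den (‖w‖ ^ 2)))⁻¹ :=
    h2.inv fun w => (Real.sqrt_pos.2 (den_pos (by positivity))).ne'
  exact (contDiff_id.pow 2).mul (contDiff_ofReal.comp h3)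

/-- homogeneous squaring -/
noncomputable def Q2 (w : ℂ) : ℂ := w ^ 2 / (‖w‖ : ℂ)

lemma q_eq {w : ℂ} (hw : 1 ≤ ‖w‖) : q w = Q2 w := by
  unfold q Q2
  rw [den_eq (by nlinarith), Real.sqrt_sq (norm_nonneg _), div_eq_mul_inv]; push_cast; rfl

lemma q_zero : q 0 = 0 := by simp [q]

lemma norm_Q2 (w : ℂ) : ‖Q2 w‖ = ‖w‖ := by
  unfold Q2
  rcases eq_or_ne w 0 with rfl | h
  · simp
  · rw [norm_div, norm_pow, Complex.norm_real, norm_norm]
    have := norm_ne_zero_iff.2 h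
    field_simp

lemma Q2_smul (c : ℝ) (hc : 0 < c) (w : ℂ) : Q2 (c * w) = c * Q2 w := by
  unfold Q2
  rcases eq_or_ne w 0 with rfl | h
  · simp
  · rw [norm_mul, Complex.norm_real, Real.norm_eq_abs, abs_of_pos hc]
    have h1 : (‖w‖ : ℂ) ≠ 0 := by exact_mod_cast norm_ne_zero_iff.2 h
    have h2 : (c : ℂ) ≠ 0 := by exact_mod_cast hc.ne'
    push_cast; field_simp

lemma Q2_lip (w w' : ℂ) : ‖Q2 w - Q2 w'‖ ≤ 3 * ‖w - w'‖ := by
  rcases eq_or_ne w 0 with rfl | h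
  · simp [Q2.eq_1 0, norm_Q2]; linarith [norm_nonneg w']
  rcases eq_or_ne w' 0 with rfl | h'
  · simp [Q2.eq_1 0, norm_Q2]; linarith [norm_nonneg w]
  have n1 : 0 < ‖w‖ := norm_pos_iff.2 h
  have n2 : 0 < ‖w'‖ := norm_pos_iff.2 h'
  have h1 : (‖w‖ : ℂ) ≠ 0 := by exact_mod_cast n1.ne'
  have h2 : (‖w'‖ : ℂ) ≠ 0 := by exact_mod_cast n2.ne'
  have e : Q2 w - Q2 w' = (w / ‖w‖) * (w - w') + (w' / ‖w'‖) * (w - w')
      + (w / ‖w‖) * (w' / ‖w'‖) * ((‖w'‖ - ‖w‖ : ℝ) : ℂ) := by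
    unfold Q2; push_cast; field_simp; ring
  have u1 : ‖w / (‖w‖ : ℂ)‖ = 1 := by rw [norm_div, Complex.norm_real, norm_norm, div_self n1.ne']
  have u2 : ‖w' / (‖w'‖ : ℂ)‖ = 1 := by rw [norm_div, Complex.norm_real, norm_norm, div_self n2.ne']
  rw [e]
  refine (norm_add₃_le).trans ?_
  rw [norm_mul, norm_mul, norm_mul, norm_mul, u1, u2, Complex.norm_real, Real.norm_eq_abs]
  have := abs_norm_sub_norm_le w' w
  rw [norm_sub_rev w' w] at this
  linarith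

lemma continuous_Q2 : Continuous Q2 := by
  have : LipschitzWith 3 Q2 := LipschitzWith.of_dist_le_mul fun a b => by
    rw [dist_eq_norm, dist_eq_norm]; exact_mod_cast Q2_lip a b
  exact this.continuous

lemma exists_q_lip : ∃ K : ℝ, 1 ≤ K ∧ ∀ w w', ‖q w - q w'‖ ≤ K * ‖w - w'‖ := by
  obtain ⟨K, hK⟩ := (contDiff_q.contDiffOn (s := Metric.closedBall (0 : ℂ) 1)).exists_lipschitzOnWith
    one_ne_zero (convex_closedBall _ _) (isCompact_closedBall _ _)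
  have hK' : ∀ w w' : ℂ, ‖w‖ ≤ 1 → ‖w'‖ ≤ 1 → ‖q w - q w'‖ ≤ K * ‖w - w'‖ := by
    intro w w' h h'
    have := hK.dist_le_mul w (by simpa using h) w' (by simpa using h')
    rwa [dist_eq_norm, dist_eq_norm] at this
  have hK0 : (0 : ℝ) ≤ K := K.2
  have mixed : ∀ w w' : ℂ, ‖w‖ ≤ 1 → 1 ≤ ‖w'‖ → ‖q w - q w'‖ ≤ (2 * K + 3) * ‖w - w'‖ := by
    intro w w' h h'
    have n2 : 0 < ‖w'‖ := by linarith
    set v := w' / (‖w'‖ : ℂ) with hv
    have u2 : ‖v‖ = 1 := by rw [hv, norm_div, Complex.norm_real, norm_norm, div_self n2.ne']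
    have e : v - w' = ((1 - ‖w'‖ : ℝ) : ℂ) * v := by
      have h2 : (‖w'‖ : ℂ) ≠ 0 := by exact_mod_cast n2.ne'
      rw [hv]; push_cast; field_simp
    have d1 : ‖v - w'‖ ≤ ‖w - w'‖ := by
      rw [e, norm_mul, u2, mul_one, Complex.norm_real, Real.norm_eq_abs, abs_of_nonpos (by linarith)]
      have := norm_sub_norm_le w' w
      rw [norm_sub_rev w' w] at this
      linarith
    have d2 : ‖w - v‖ ≤ 2 * ‖w - w'‖ := by
      have := norm_sub_le_norm_sub_add_norm_sub w w' v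
      rw [norm_sub_rev w' v] at this
      linarith
    have a1 := hK' w v h u2.le
    have a2 := Q2_lip v w'
    rw [← q_eq u2.ge, ← q_eq h'] at a2
    have := norm_sub_le_norm_sub_add_norm_sub (q w) (q v) (q w')
    nlinarith
  refine ⟨2 * K + 3, by linarith, fun w w' => ?_⟩
  rcases le_total ‖w‖ 1 with h | h <;> rcases le_total ‖w'‖ 1 with h' | h'
  · have := hK' w w' h h'
    nlinarith [norm_nonneg (w - w')]
  · exact mixed w w' h h'
  · rw [norm_sub_rev, norm_sub_rev w]; exact mixed w' w h' h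
  · rw [q_eq h, q_eq h']
    have := Q2_lip w w'
    nlinarith [norm_nonneg (w - w')]

noncomputable def Q (N : ℝ) (w : ℂ) : ℂ := N * q (((N⁻¹ : ℝ) : ℂ) * w)

lemma Q_zero (N : ℝ) : Q N 0 = 0 := by simp [Q, q_zero]

lemma Q_eq {N : ℝ} {w : ℂ} (hN : 0 < N) (h : N ≤ ‖w‖) : Q N w = Q2 w := by
  unfold Q
  have h2 : (N : ℂ) ≠ 0 := by exact_mod_cast hN.ne'
  rw [q_eq, Q2_smul _ (inv_pos.2 hN)]
  · push_cast; field_simp
  · rw [norm_mul, Complex.norm_real, Real.norm_eq_abs, abs_of_pos (inv_pos.2 hN),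
      ← div_eq_inv_mul, le_div_iff₀ hN]; linarith

lemma Q_smul {c : ℝ} (hc : 0 < c) (N : ℝ) (w : ℂ) : Q (c * N) (c * w) = c * Q N w := by
  unfold Q
  have h2 : (c : ℂ) ≠ 0 := by exact_mod_cast hc.ne'
  have : (((c * N)⁻¹ : ℝ) : ℂ) * (c * w) = ((N⁻¹ : ℝ) : ℂ) * w := by
    push_cast; rw [mul_inv]; field_simp
  rw [this]; push_cast; ring

lemma contDiffAt_Q {X : Type*} [NormedAddCommGroup X] [NormedSpace ℝ X] {N : X → ℝ} {w : X → ℂ}
    {x : X} (hN : ContDiffAt ℝ 1 N x) (hw : ContDiffAt ℝ 1 w x) (h : N x ≠ 0) :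
    ContDiffAt ℝ 1 (fun y => Q (N y) (w y)) x := by
  unfold Q
  have h1 := hN.inv h
  exact (contDiff_ofReal.contDiffAt.comp x hN).mul
    (contDiff_q.contDiffAt.comp x ((contDiff_ofReal.contDiffAt.comp x h1).mul hw))

lemma exists_Q_lip : ∃ K : ℝ, 1 ≤ K ∧ ∀ N N' w w', 0 < N → 0 < N' →
    ‖Q N w - Q N' w'‖ ≤ K * (‖w - w'‖ + |N - N'|) := by
  obtain ⟨K, hK1, hK⟩ := exists_q_lip
  have a : ∀ N w w', 0 < N → ‖Q N w - Q N w'‖ ≤ K * ‖w - w'‖ := by
    intro N w w' hN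
    unfold Q
    rw [← mul_sub, norm_mul, Complex.norm_real, Real.norm_eq_abs, abs_of_pos hN]
    have := hK (((N⁻¹ : ℝ) : ℂ) * w) (((N⁻¹ : ℝ) : ℂ) * w')
    rw [← mul_sub, norm_mul, Complex.norm_real, Real.norm_eq_abs, abs_of_pos (inv_pos.2 hN)] at this
    calc _ ≤ N * (K * (N⁻¹ * ‖w - w'‖)) := by gcongr
      _ = _ := by field_simp
  have b : ∀ N N' w, 0 < N' → N' ≤ N → ‖Q N w - Q N' w‖ ≤ 2 * K * (N - N') := by
    intro N N' w hN' hle
    have hN : 0 < N := by linarith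
    rcases le_total N ‖w‖ with h | h
    · rw [Q_eq hN h, Q_eq hN' (by linarith), sub_self, norm_zero]
      have : 0 ≤ N - N' := by linarith
      positivity
    · have e : Q N w - Q N' w = ((N - N' : ℝ) : ℂ) * (q (((N⁻¹ : ℝ) : ℂ) * w) - q 0)
          + N' * (q (((N⁻¹ : ℝ) : ℂ) * w) - q (((N'⁻¹ : ℝ) : ℂ) * w)) := by
        unfold Q; rw [q_zero]; push_cast; ring
      rw [e]
      refine (norm_add_le _ _).trans ?_
      rw [norm_mul, norm_mul, Complex.norm_real, Complex.norm_real, Real.norm_eq_abs,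
        Real.norm_eq_abs, abs_of_nonneg (by linarith), abs_of_pos hN']
      have c1 := hK (((N⁻¹ : ℝ) : ℂ) * w) 0
      have c2 := hK (((N⁻¹ : ℝ) : ℂ) * w) (((N'⁻¹ : ℝ) : ℂ) * w)
      rw [sub_zero (((N⁻¹ : ℝ) : ℂ) * w), norm_mul, Complex.norm_real, Real.norm_eq_abs,
        abs_of_pos (inv_pos.2 hN)] at c1
      rw [← sub_mul, norm_mul, ← Complex.ofReal_sub, Complex.norm_real, Real.norm_eq_abs,
        abs_of_nonpos (by linarith [inv_anti₀ hN' hle])] at c2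
      have d1 : N⁻¹ * ‖w‖ ≤ 1 := by rw [← div_eq_inv_mul, div_le_one hN]; exact h
      have d2 : N' * (-(N⁻¹ - N'⁻¹) * ‖w‖) = (N - N') * (N⁻¹ * ‖w‖) := by field_simp; ring
      have d3 : 0 ≤ N - N' := by linarith
      have d4 : 0 ≤ N⁻¹ * ‖w‖ := by positivity
      calc _ ≤ (N - N') * (K * (N⁻¹ * ‖w‖)) + N' * (K * (-(N⁻¹ - N'⁻¹) * ‖w‖)) := by gcongr
        _ = 2 * K * (N - N') * (N⁻¹ * ‖w‖) := by linear_combination K * d2
        _ ≤ 2 * K * (N - N') * 1 := by gcongr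
        _ = _ := by ring
  refine ⟨2 * K, by linarith, fun N N' w w' hN hN' => ?_⟩
  have t := norm_sub_le_norm_sub_add_norm_sub (Q N w) (Q N w') (Q N' w')
  have a1 := a N w w' hN
  have b1 : ‖Q N w' - Q N' w'‖ ≤ 2 * K * |N - N'| := by
    rcases le_total N' N with h | h
    · rw [abs_of_nonneg (by linarith)]; exact b N N' w' hN' h
    · rw [abs_of_nonpos (by linarith), norm_sub_rev, neg_sub]; exact b N' N w' hN h
  nlinarith [norm_nonneg (w - w')]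

noncomputable def KQ : ℝ := exists_Q_lip.choose

lemma one_le_KQ : 1 ≤ KQ := exists_Q_lip.choose_spec.1

lemma Q_lip {N N' : ℝ} (w w' : ℂ) (hN : 0 < N) (hN' : 0 < N') :
    ‖Q N w - Q N' w'‖ ≤ KQ * (‖w - w'‖ + |N - N'|) := exists_Q_lip.choose_spec.2 N N' w w' hN hN'

end Crest.Agent.H1.EC
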