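import Crest.Agent.H1.ECOrb

/-! The slowly varying scale parameter and the local `C¹` map. -/

set_option autoImplicit false

namespace Crest.Agent.H1.EC

open Real Filter Topology

lemma exists_KS : ∃ K : ℝ, 0 < K ∧ ∀ y y', |smoothTransition y - smoothTransition y'| ≤ K * |y - y'| := by
  obtain ⟨K, hK⟩ := (contDiff_S.contDiffOn (s := Set.Icc (0 : ℝ) 1)).exists_lipschitzOnWith
    one_ne_zero (convex_Icc _ _) isCompact_Icc
  have e : ∀ y, smoothTransition y = smoothTransition (Set.projIcc (0 : ℝ) 1 zero_le_one y) := by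
    intro y
    rcases le_total y 0 with h | h
    · rw [Set.projIcc_of_le_left _ h, smoothTransition.zero_of_nonpos h]; simp
    · rcases le_total y 1 with h' | h'
      · rw [Set.projIcc_of_mem _ ⟨h, h'⟩]
      · rw [Set.projIcc_of_right_le _ h', smoothTransition.one_of_one_le h']; simp
  refine ⟨K + 1, by positivity, fun y y' => ?_⟩
  rw [e y, e y']
  have h1 := hK.dist_le_mul _ (Set.projIcc (0 : ℝ) 1 zero_le_one y).2 _
    (Set.projIcc (0 : ℝ) 1 zero_le_one y').2
  have h2 := Set.abs_projIcc_sub_projIcc (h := (zero_le_one : (0 : ℝ) ≤ 1)) (c := y) (d := y')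
  rw [Real.dist_eq, Real.dist_eq] at h1
  have hK0 : (0 : ℝ) ≤ K := K.2
  nlinarith [abs_nonneg (y - y')]

noncomputable def KS : ℝ := exists_KS.choose
lemma KS_pos : 0 < KS := exists_KS.choose_spec.1
lemma S_lip (y y' : ℝ) : |smoothTransition y - smoothTransition y'| ≤ KS * |y - y'| :=
  exists_KS.choose_spec.2 y y'

noncomputable def nj (j : ℕ) : ℕ := Ng (j + 2) + 1
noncomputable def dj (j : ℕ) : ℝ := min (exists_delta (j + 2) (n := nj j) le_rfl).choose 1
noncomputable def Bj (j : ℕ) : ℝ := (exists_B (j + 2) (nj j)).choose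

lemma dj_pos (j : ℕ) : 0 < dj j :=
  lt_min (exists_delta (j + 2) (n := nj j) le_rfl).choose_spec.1 one_pos
lemma dj_le (j : ℕ) : dj j ≤ 1 := min_le_right _ _
lemma dj_spec (j : ℕ) {τ : ℝ} (h0 : 0 ≤ τ) (h1 : τ ≤ j + 2) (t : ℝ) (x : ℕ → E3)
    (hb : ∀ i, ‖x i‖ ≤ 1) (hx : ∀ i, ‖x (i + 1) - GG (nj j) τ (ee (t + i * al)) (x i)‖ ≤ dj j) :
    ‖x (nj j)‖ < 1 / 2 :=
  (exists_delta (j + 2) (n := nj j) le_rfl).choose_spec.2 τ h0 h1 t x hb
    fun i => (hx i).trans (min_le_left _ _)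
lemma Bj_nonneg (j : ℕ) : 0 ≤ Bj j := (exists_B (j + 2) (nj j)).choose_spec.1
lemma Bj_spec (j : ℕ) {τ τ' : ℝ} (t t' : ℝ) (x : E3) (h0 : 0 ≤ τ) (h1 : τ ≤ j + 2)
    (h0' : 0 ≤ τ') (h1' : τ' ≤ j + 2) :
    ‖GG (nj j) τ (ee t) x - GG (nj j) τ' (ee t') x‖ ≤ Bj j * ‖x‖ * (|τ - τ'| + ‖ee t - ee t'‖) :=
  (exists_B (j + 2) (nj j)).choose_spec.2 τ τ' _ _ x ⟨h0, h1⟩ ⟨h0', h1'⟩ (norm_ee _).le (norm_ee _).le

noncomputable def cj (j : ℕ) : ℝ :=
  2 * KS * (2 * Lam / dj j) * ((Bj j + 1) / dj j) + (j + 1) * (Bj j + lam) * (4 * KS + 7) + Lam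

lemma cj_parts (j : ℕ) : 2 * KS * (2 * Lam / dj j) * ((Bj j + 1) / dj j) ≤ cj j ∧
    (j + 1) * (Bj j + lam) * (4 * KS + 7) ≤ cj j ∧ Lam ≤ cj j := by
  have := KS_pos; have := dj_pos j; have := Bj_nonneg j; have := lam_pos; have := ten_le_Lam
  have a : 0 ≤ 2 * KS * (2 * Lam / dj j) * ((Bj j + 1) / dj j) := by positivity
  have b : 0 ≤ (j + 1) * (Bj j + lam) * (4 * KS + 7) := by positivity
  unfold cj
  refine ⟨by linarith, by linarith, by linarith⟩

noncomputable def aj : ℕ → ℝ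
  | 0 => cj 0
  | j + 1 => 2 * aj j + cj (j + 1)

lemma aj_ge (j : ℕ) : (j : ℝ) + 1 ≤ aj j ∧ cj j ≤ aj j := by
  induction j with
  | zero => exact ⟨by simp only [aj]; push_cast; linarith [(cj_parts 0).2.2, ten_le_Lam], le_rfl⟩
  | succ j ih =>
    simp only [aj]; push_cast
    have : (0 : ℝ) ≤ j := Nat.cast_nonneg _
    exact ⟨by linarith [(cj_parts (j + 1)).2.2, ten_le_Lam], by linarith⟩

lemma aj_pos (j : ℕ) : 0 < aj j := by
  have : (0 : ℝ) ≤ j := Nat.cast_nonneg _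
  linarith [(aj_ge j).1]

lemma aj_succ (j : ℕ) : 2 * aj j ≤ aj (j + 1) := by
  simp only [aj]; linarith [(cj_parts (j + 1)).2.2, ten_le_Lam]

lemma aj_mono : StrictMono aj :=
  strictMono_nat_of_lt_succ fun j => by linarith [aj_succ j, aj_pos j]

noncomputable def phi (y : ℝ) : ℝ := ∑ j ∈ Finset.range ⌈y⌉₊, smoothTransition (y / aj j - 1)

lemma term_zero {y : ℝ} {j : ℕ} (h : y ≤ aj j) : smoothTransition (y / aj j - 1) = 0 :=
  smoothTransition.zero_of_nonpos (by rw [sub_nonpos, div_le_one (aj_pos j)]; exact h)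

lemma term_one {y : ℝ} {j : ℕ} (h : 2 * aj j ≤ y) : smoothTransition (y / aj j - 1) = 1 :=
  smoothTransition.one_of_one_le (by
    have : 2 ≤ y / aj j := by rw [le_div_iff₀ (aj_pos j)]; exact h
    linarith)

lemma phi_eq {y : ℝ} {J : ℕ} (h : y ≤ aj J) :
    phi y = ∑ j ∈ Finset.range J, smoothTransition (y / aj j - 1) := by
  unfold phi
  have h1 : ∀ M : ℕ, y ≤ aj M → ∀ M', M ≤ M' →
      ∑ j ∈ Finset.range M, smoothTransition (y / aj j - 1) =
      ∑ j ∈ Finset.range M', smoothTransition (y / aj j - 1) := by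
    intro M hM M' hM'
    refine Finset.sum_subset (Finset.range_mono hM') fun j _ hj => term_zero ?_
    exact hM.trans (aj_mono.monotone (by simpa using hj))
  have h2 : y ≤ aj ⌈y⌉₊ := by linarith [Nat.le_ceil y, (aj_ge ⌈y⌉₊).1]
  rw [h1 _ h2 (max J ⌈y⌉₊) (le_max_right _ _), h1 _ h (max J ⌈y⌉₊) (le_max_left _ _)]

lemma phi_nonneg (y : ℝ) : 0 ≤ phi y := Finset.sum_nonneg fun _ _ => smoothTransition.nonneg _

lemma phi_le {y : ℝ} {J : ℕ} (h : y ≤ aj J) : phi y ≤ J := by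
  rw [phi_eq h]
  refine (Finset.sum_le_card_nsmul _ _ 1 fun j _ => smoothTransition.le_one _).trans (by simp)

lemma le_aj_ceil (y : ℝ) (j : ℕ) : y ≤ aj (j + ⌈y⌉₊) := by
  have := (aj_ge (j + ⌈y⌉₊)).1
  push_cast at this
  have : (0 : ℝ) ≤ j := Nat.cast_nonneg _
  linarith [Nat.le_ceil y]

lemma two_aj_le {i j : ℕ} (h : i < j) : 2 * aj i ≤ aj j := (aj_succ i).trans (aj_mono.monotone h)

lemma phi_ge {y : ℝ} {j : ℕ} (h : aj j ≤ y) : (j : ℝ) ≤ phi y := by
  rw [phi_eq (le_aj_ceil y j), Finset.sum_range_add]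
  have : ∑ i ∈ Finset.range j, smoothTransition (y / aj i - 1) = j := by
    rw [Finset.sum_congr rfl fun i hi => term_one ((two_aj_le (Finset.mem_range.1 hi)).trans h)]
    simp
  rw [this]
  exact le_add_of_nonneg_right (Finset.sum_nonneg fun _ _ => smoothTransition.nonneg _)

lemma contDiff_phi : ContDiff ℝ 1 phi := by
  rw [contDiff_iff_contDiffAt]
  intro y
  have h : ContDiff ℝ 1 fun y' : ℝ =>
      ∑ j ∈ Finset.range ⌈y + 1⌉₊, smoothTransition (y' / aj j - 1) :=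
    ContDiff.sum fun j _ => by fun_prop
  refine h.contDiffAt.congr_of_eventuallyEq ?_
  filter_upwards [Iio_mem_nhds (show y < y + 1 by linarith)] with y' hy'
  have := le_aj_ceil (y + 1) 0
  rw [zero_add] at this
  exact phi_eq (le_trans (le_of_lt hy') this)

lemma phi_lip {j : ℕ} {y y' : ℝ} (h : ∀ i < j, 2 * aj i ≤ y) (h' : ∀ i < j, 2 * aj i ≤ y') :
    |phi y - phi y'| ≤ 2 * KS / aj j * |y - y'| := by
  have hK := KS_pos
  have key : ∀ M : ℕ, |∑ i ∈ Finset.range (j + M), smoothTransition (y / aj i - 1) -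
      ∑ i ∈ Finset.range (j + M), smoothTransition (y' / aj i - 1)| ≤
      (2 * KS / aj j - 2 * KS / aj (j + M)) * |y - y'| := by
    intro M
    induction M with
    | zero =>
      rw [add_zero, Finset.sum_congr rfl fun i hi => term_one (h i (Finset.mem_range.1 hi)),
        Finset.sum_congr rfl fun i hi => term_one (h' i (Finset.mem_range.1 hi))]
      simp
    | succ M ih =>
      rw [← add_assoc, Finset.sum_range_succ, Finset.sum_range_succ, add_sub_add_comm]
      refine (abs_add_le _ _).trans ?_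
      have a := S_lip (y / aj (j + M) - 1) (y' / aj (j + M) - 1)
      have p := aj_pos (j + M)
      rw [sub_sub_sub_cancel_right, ← sub_div, abs_div, abs_of_pos p] at a
      have b : 2 * KS / aj (j + M + 1) ≤ KS / aj (j + M) := by
        rw [div_le_div_iff₀ (aj_pos _) p]; nlinarith [aj_succ (j + M)]
      have c := mul_le_mul_of_nonneg_right b (abs_nonneg (y - y'))
      have d : KS * (|y - y'| / aj (j + M)) = KS / aj (j + M) * |y - y'| := by ring
      have d2 : 2 * KS / aj (j + M) * |y - y'| = 2 * (KS / aj (j + M) * |y - y'|) := by ring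
      rw [sub_mul] at ih ⊢
      linarith
  have hM := le_aj_ceil (max y y') j
  rw [phi_eq ((le_max_left _ _).trans hM), phi_eq ((le_max_right _ _).trans hM)]
  refine (key _).trans (mul_le_mul_of_nonneg_right ?_ (abs_nonneg _))
  have := aj_pos (j + ⌈max y y'⌉₊)
  have : 0 ≤ 2 * KS / aj (j + ⌈max y y'⌉₊) := by positivity
  linarith

lemma exists_j (y : ℝ) : ∃ j : ℕ, y ≤ aj (j + 1) ∧ (j = 0 ∨ aj j < y) := by
  classical
  have h : ∃ j : ℕ, y ≤ aj (j + 1) := ⟨⌈y⌉₊, by rw [add_comm]; exact le_aj_ceil y 1⟩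
  refine ⟨Nat.find h, Nat.find_spec h, ?_⟩
  rcases Nat.eq_zero_or_pos (Nat.find h) with h0 | h0
  · exact Or.inl h0
  · right
    have := Nat.find_min h (show Nat.find h - 1 < Nat.find h by omega)
    rw [show Nat.find h - 1 + 1 = Nat.find h by omega] at this
    exact not_le.1 this

noncomputable def tau (x : E3) : ℝ := phi (-log ‖x‖)

noncomputable def Gam (z : ℂ) (x : E3) : E3 := GG (Ng (tau x) + 1) (tau x) z x

lemma tau_nonneg (x : E3) : 0 ≤ tau x := phi_nonneg _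

lemma Gam_eq (t : ℝ) {x : E3} {T : ℝ} (h : tau x ≤ T) {n : ℕ} (hn : Ng T ≤ n) :
    Gam (ee t) x = GG n (tau x) (ee t) x :=
  GG_stab (tau_nonneg x) t (by omega) ((Ng_mono h).trans hn) x

lemma Gam_bound (t : ℝ) (x : E3) : ‖Gam (ee t) x‖ ≤ Lam * ‖x‖ := GG_bound (tau_nonneg x) _ _ _

lemma Gam_close {R : ℝ} (hR : 0 < R) {j : ℕ} (h1 : -log R ≤ aj (j + 1)) (h2 : j = 0 ∨ aj j < -log R)
    (t : ℝ) {x : E3} (hx : ‖x‖ ≤ R) :
    ‖Gam (ee t) x - GG (nj j) (phi (-log R)) (ee t) x‖ ≤ dj j * R := by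
  have hd := dj_pos j
  have hd1 := dj_le j
  have hL := ten_le_Lam
  have hB := Bj_nonneg j
  have hK := KS_pos
  rcases le_or_gt ‖x‖ (dj j / (2 * Lam) * R) with h | h
  · refine (norm_sub_le _ _).trans ?_
    have a := Gam_bound t x
    have b := GG_bound (phi_nonneg (-log R)) (nj j) t x
    have c : Lam * (dj j / (2 * Lam) * R) = dj j * R / 2 := by field_simp
    have := mul_le_mul_of_nonneg_left h (show 0 ≤ Lam by linarith)
    linarith
  · have hx0 : 0 < ‖x‖ := lt_trans (by positivity) h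
    have a1 : log ‖x‖ ≤ log R := log_le_log hx0 hx
    have a2 : log R - log ‖x‖ ≤ 2 * Lam / dj j := by
      rw [← log_div hR.ne' hx0.ne']
      refine (log_le_sub_one_of_pos (by positivity)).trans ?_
      have : R / ‖x‖ ≤ 2 * Lam / dj j := by
        rw [div_le_div_iff₀ hx0 hd]
        rw [div_mul_eq_mul_div, div_lt_iff₀ (by positivity)] at h
        linarith
      linarith
    have c1 : ∀ i < j, 2 * aj i ≤ -log R := fun i hi => by
      rcases h2 with h2 | h2
      · omega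
      · exact (two_aj_le hi).trans h2.le
    have b := phi_lip (j := j) (y := -log ‖x‖) (y' := -log R) (fun i hi => by linarith [c1 i hi]) c1
    rw [abs_of_nonneg (show 0 ≤ -log ‖x‖ - -log R by linarith)] at b
    have b2 : |tau x - phi (-log R)| ≤ dj j / (Bj j + 1) := by
      refine b.trans ?_
      have p := aj_pos j
      have c := (cj_parts j).1.trans (aj_ge j).2
      calc _ ≤ 2 * KS / aj j * (2 * Lam / dj j) := by gcongr; linarith
        _ ≤ _ := by
          rw [div_mul_eq_mul_div, div_le_div_iff₀ p (by positivity)]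
          rw [← mul_div_assoc, div_le_iff₀ hd] at c
          linarith
    have b3 : dj j / (Bj j + 1) ≤ 1 := by rw [div_le_one (by positivity)]; linarith
    have t0 := phi_le h1
    push_cast at t0
    have t1 : tau x ≤ j + 2 := by linarith [(abs_le.1 b2).2]
    rw [Gam_eq t t1 (n := nj j) (Nat.le_succ _)]
    refine (Bj_spec j t t x (tau_nonneg x) t1 (phi_nonneg _) (by linarith)).trans ?_
    rw [sub_self, norm_zero, add_zero]
    calc _ ≤ (Bj j + 1) * R * (dj j / (Bj j + 1)) := by gcongr; linarith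
      _ = _ := by field_simp

theorem slow {Y : Type*} (f : Y → Y) (hf : Function.Surjective f) (zf : Y → ℂ) (xf : Y → E3)
    (hz : ∀ y, ∃ t, zf y = ee t) (hz' : ∀ y, zf (f y) = zf y * ee al)
    (hx : ∀ y, xf (f y) = Gam (zf y) (xf y)) (R₀ : ℝ) (hb : ∀ y, ‖xf y‖ ≤ R₀) (y₁ : Y) :
    xf y₁ = 0 := by
  by_contra hne
  have hbd : BddAbove (Set.range fun y => ‖xf y‖) := ⟨R₀, by rintro _ ⟨y, rfl⟩; exact hb y⟩
  obtain ⟨R, hR1, y₀, hR2⟩ : ∃ R, (∀ y, ‖xf y‖ ≤ R) ∧ ∃ y₀, R / 2 < ‖xf y₀‖ := by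
    refine ⟨⨆ y, ‖xf y‖, fun y => le_ciSup hbd y, ?_⟩
    have : Nonempty Y := ⟨y₁⟩
    apply exists_lt_of_lt_ciSup
    have := le_ciSup hbd y₁
    have := norm_pos_iff.2 hne
    linarith
  have hR : 0 < R := (norm_pos_iff.2 hne).trans_le (hR1 y₁)
  obtain ⟨j, h1, h2⟩ := exists_j (-log R)
  obtain ⟨y', hy'⟩ := hf.iterate (nj j) y₀
  obtain ⟨t, ht⟩ := hz y'
  have hzi : ∀ i : ℕ, zf (f^[i] y') = ee (t + i * al) := by
    intro i
    induction i with
    | zero => simpa using ht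
    | succ i ih =>
      rw [Function.iterate_succ_apply', hz', ih, ← ee_add]; congr 1; push_cast; ring
  have hR' : 0 < R⁻¹ := inv_pos.2 hR
  have t0 := phi_le h1
  push_cast at t0
  have := dj_spec j (phi_nonneg (-log R)) (by linarith) t (fun i => R⁻¹ • xf (f^[i] y'))
    (fun i => by
      rw [norm_smul, Real.norm_eq_abs, abs_of_pos hR', ← div_eq_inv_mul, div_le_one hR]
      exact hR1 _)
    (fun i => by
      rw [GG_smul hR', ← smul_sub, norm_smul, Real.norm_eq_abs, abs_of_pos hR', ← div_eq_inv_mul,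
        div_le_iff₀ hR, Function.iterate_succ_apply', hx, hzi]
      exact Gam_close hR h1 h2 _ (hR1 _))
  rw [hy', norm_smul, Real.norm_eq_abs, abs_of_pos hR', ← div_eq_inv_mul, div_lt_iff₀ hR] at this
  linarith

lemma contDiff_of_small {P : ℝ × E3 → E3} (h1 : ∀ p : ℝ × E3, p.2 ≠ 0 → ContDiffAt ℝ 1 P p)
    (h2 : ∀ ε > 0, ∃ r > 0, ∀ p : ℝ × E3, ‖p.2‖ < r →
      ‖P p‖ ≤ ε * ‖p.2‖ ∧ (p.2 ≠ 0 → ‖fderiv ℝ P p‖ ≤ ε)) : ContDiff ℝ 1 P := by
  have h0 : ∀ p : ℝ × E3, p.2 = 0 → HasFDerivAt P (0 : ℝ × E3 →L[ℝ] E3) p := by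
    intro p hp
    have hP : P p = 0 := by
      obtain ⟨r, hr, h⟩ := h2 1 one_pos
      have := (h p (by rw [hp, norm_zero]; exact hr)).1
      rwa [hp, norm_zero, mul_zero, norm_le_zero_iff] at this
    rw [hasFDerivAt_iff_isLittleO, Asymptotics.isLittleO_iff]
    intro c hc
    obtain ⟨r, hr, h⟩ := h2 c hc
    have ho : IsOpen {p : ℝ × E3 | ‖p.2‖ < r} := isOpen_lt (by fun_prop) continuous_const
    filter_upwards [ho.mem_nhds (show ‖p.2‖ < r by rw [hp, norm_zero]; exact hr)] with p' hp'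
    rw [hP, sub_zero, zero_apply, sub_zero]
    refine (h p' hp').1.trans (mul_le_mul_of_nonneg_left ?_ hc.le)
    have := norm_snd_le (p' - p)
    rwa [Prod.snd_sub, hp, sub_zero] at this
  rw [contDiff_one_iff_fderiv]
  refine ⟨fun p => ?_, continuous_iff_continuousAt.2 fun p => ?_⟩
  · rcases eq_or_ne p.2 0 with hp | hp
    · exact (h0 p hp).differentiableAt
    · exact (h1 p hp).differentiableAt one_ne_zero
  · rcases eq_or_ne p.2 0 with hp | hp
    · rw [ContinuousAt, (h0 p hp).fderiv, NormedAddGroup.tendsto_nhds_zero]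
      intro ε hε
      obtain ⟨r, hr, h⟩ := h2 (ε / 2) (by positivity)
      have ho : IsOpen {p : ℝ × E3 | ‖p.2‖ < r} := isOpen_lt (by fun_prop) continuous_const
      filter_upwards [ho.mem_nhds (show ‖p.2‖ < r by rw [hp, norm_zero]; exact hr)] with p' hp'
      rcases eq_or_ne p'.2 0 with hq | hq
      · rw [(h0 p' hq).fderiv, norm_zero]; exact hε
      · linarith [(h p' hp').2 hq]
    · exact (h1 p hp).continuousAt_fderiv one_ne_zero

lemma contDiffAt_tau {x : E3} (hx : x ≠ 0) : ContDiffAt ℝ 1 tau x :=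
  contDiff_phi.contDiffAt.comp x
    (((contDiffAt_norm ℂ hx).log (norm_pos_iff.2 hx).ne').neg)

lemma contDiffAt_Gam (p : ℝ × E3) (hp : p.2 ≠ 0) :
    ContDiffAt ℝ 1 (fun p : ℝ × E3 => Gam (ee p.1) p.2) p := by
  have h1 : ContDiffAt ℝ 1 (fun p : ℝ × E3 => tau p.2) p :=
    (contDiffAt_tau hp).comp p contDiffAt_snd
  have h2 : ContDiffAt ℝ 1 (fun p : ℝ × E3 => (tau p.2, ee p.1, p.2)) p :=
    h1.prodMk (ContDiff.contDiffAt (by fun_prop))
  have h3 := (contDiffAt_GG (Ng (tau p.2 + 1)) (tau p.2, ee p.1, p.2) hp).comp p h2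
  refine h3.congr_of_eventuallyEq ?_
  filter_upwards [h1.continuousAt.eventually_lt continuousAt_const
    (show tau p.2 < tau p.2 + 1 by linarith)] with p' hp'
  exact Gam_eq p'.1 hp'.le le_rfl

lemma abs_log_sub {a b : ℝ} (ha : 0 < a) (hb : a / 2 ≤ b) : |log b - log a| ≤ 2 * |b - a| / a := by
  have hb0 : 0 < b := by linarith
  rcases le_total a b with h | h
  · rw [abs_of_nonneg (by linarith [log_le_log ha h]), abs_of_nonneg (by linarith),
      ← log_div hb0.ne' ha.ne']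
    refine (log_le_sub_one_of_pos (by positivity)).trans ?_
    rw [div_sub_one ha.ne']; gcongr; linarith
  · rw [abs_of_nonpos (by linarith [log_le_log hb0 h]), abs_of_nonpos (by linarith), neg_sub,
      ← log_div ha.ne' hb0.ne']
    refine (log_le_sub_one_of_pos (by positivity)).trans ?_
    rw [div_sub_one hb0.ne', div_le_div_iff₀ hb0 ha]; nlinarith

lemma fderiv_bound {j : ℕ} (p : ℝ × E3) (hp : p.2 ≠ 0) (h1 : -log ‖p.2‖ ≤ aj (j + 1))
    (h2 : aj j < -log ‖p.2‖) :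
    ‖fderiv ℝ (fun p : ℝ × E3 => Gam (ee p.1) p.2 - av (ee p.1) • p.2) p‖ ≤
      (c2 + 1) * exp (-(j : ℝ) / 2) + 1 / (j + 1) := by
  obtain ⟨t, x⟩ := p
  simp only at hp h1 h2
  have hc := c2_pos
  have hx : 0 < ‖x‖ := norm_pos_iff.2 hp
  have t0 : tau x ≤ j + 1 := by have := phi_le h1; push_cast at this; exact this
  apply norm_fderiv_le_of_lip' ℝ (by positivity)
  have c1 : ContinuousAt (fun p : ℝ × E3 => tau p.2) (t, x) :=
    ContinuousAt.comp (f := Prod.snd) (x := (t, x)) (contDiffAt_tau hp).continuousAt continuousAt_snd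
  have c2' : ContinuousAt (fun p : ℝ × E3 => ‖p.2‖) (t, x) := by fun_prop
  have c3 : ContinuousAt (fun p : ℝ × E3 => -log ‖p.2‖) (t, x) := (c2'.log hx.ne').neg
  filter_upwards [c1.eventually_lt continuousAt_const (show tau x < j + 2 by linarith),
    continuousAt_const.eventually_lt c2' (show ‖x‖ / 2 < ‖x‖ by linarith),
    continuousAt_const.eventually_lt c3 h2] with ⟨t', x'⟩ e1 e2 e3
  simp only at e1 e2 e3 ⊢
  have hx' : x' ≠ 0 := norm_pos_iff.1 (by linarith)
  have hτ' := tau_nonneg x'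
  have a1 := GG_lip hτ' (n := Ng (tau x') + 1)
    (by push_cast; linarith [Ng_le hτ', one_le_exp hτ']) t' hx' hp
  have a2 := Bj_spec j t' t x hτ' e1.le (tau_nonneg x) (by linarith)
  rw [← GG_stab hτ' t' (n := Ng (tau x') + 1) (n' := nj j) (by omega)
    ((Ng_mono e1.le).trans (Nat.le_succ _)), ← Gam_eq t (x := x) (T := j + 2) (by linarith) (n := nj j) (Nat.le_succ _)] at a2
  have a3 : ‖(av (ee t') - av (ee t)) • x‖ ≤ lam * ‖x‖ * ‖ee t' - ee t‖ := by
    rw [norm_smul, show av (ee t') - av (ee t) = lam * (ee t' - ee t) by unfold av; ring, norm_mul,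
      Complex.norm_real, Real.norm_eq_abs, abs_of_pos lam_pos]
    exact le_of_eq (by ring)
  have e : Gam (ee t') x' - av (ee t') • x' - (Gam (ee t) x - av (ee t) • x) =
      (GG (Ng (tau x') + 1) (tau x') (ee t') x' - av (ee t') • x' -
        (GG (Ng (tau x') + 1) (tau x') (ee t') x - av (ee t') • x)) +
      (GG (Ng (tau x') + 1) (tau x') (ee t') x - Gam (ee t) x) - (av (ee t') - av (ee t)) • x := by
    rw [sub_smul]; unfold Gam; abel
  rw [e]
  refine (norm_sub_le _ _).trans ((add_le_add_left (norm_add_le _ _) _).trans ?_)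
  have d1 : ‖x' - x‖ ≤ ‖(t', x') - (t, x)‖ := norm_snd_le ((t', x') - (t, x))
  have d2 : |t' - t| ≤ ‖(t', x') - (t, x)‖ := norm_fst_le ((t', x') - (t, x))
  generalize ‖(t', x') - (t, x)‖ = r at *
  have hr : 0 ≤ r := (norm_nonneg _).trans d1
  have b1 : exp (-tau x' / 2) ≤ exp (-(j : ℝ) / 2) :=
    exp_le_exp.2 (by have := phi_ge e3.le; unfold tau; linarith)
  have b2 := ee_lip t' t
  have p := aj_pos j
  have hK := KS_pos
  have hB := Bj_nonneg j
  have hl := lam_pos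
  have b3 : ‖x‖ * |tau x' - tau x| ≤ 4 * KS / aj j * r := by
    have f1 := phi_lip (j := j) (y := -log ‖x'‖) (y' := -log ‖x‖)
      (fun i hi => (two_aj_le hi).trans e3.le) (fun i hi => (two_aj_le hi).trans h2.le)
    have f2 := abs_log_sub hx e2.le
    have f3 := abs_norm_sub_norm_le x' x
    rw [neg_sub_neg, abs_sub_comm (log ‖x‖)] at f1
    calc _ ≤ ‖x‖ * (2 * KS / aj j * (2 * r / ‖x‖)) := by
          gcongr
          refine f1.trans ?_
          gcongr
          refine f2.trans ?_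
          gcongr; linarith
      _ = _ := by field_simp; ring
  have b4 : ‖x‖ ≤ 1 / aj j := by
    have : ‖x‖ < exp (-aj j) := by rw [← exp_log hx]; exact exp_lt_exp.2 (by linarith)
    refine this.le.trans ?_
    rw [exp_neg, one_div]
    exact inv_anti₀ p (by linarith [add_one_le_exp (aj j)])
  have b5 : (Bj j + lam) * (4 * KS + 7) / aj j ≤ 1 / (j + 1) := by
    have := (cj_parts j).2.1.trans (aj_ge j).2
    rw [div_le_div_iff₀ p (by positivity)]; linarith
  have g1 : (c2 + 1) * exp (-tau x' / 2) * ‖x' - x‖ ≤ (c2 + 1) * exp (-(j : ℝ) / 2) * r := by gcongr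
  have g2 : ‖x‖ * ‖ee t' - ee t‖ ≤ 1 / aj j * (7 * r) := by gcongr; linarith
  have g3 := mul_le_mul_of_nonneg_left b3 hB
  have g4 := mul_le_mul_of_nonneg_left g2 (show 0 ≤ Bj j + lam by linarith)
  have g5 := mul_le_mul_of_nonneg_right b5 hr
  have g6 : 0 ≤ lam * (4 * KS / aj j * r) := by positivity
  have g7 : (Bj j + lam) * (4 * KS + 7) / aj j * r =
      Bj j * (4 * KS / aj j * r) + lam * (4 * KS / aj j * r) + (Bj j + lam) * (1 / aj j * (7 * r)) := by
    ring
  linarith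

theorem contDiff_Gam : ContDiff ℝ 1 fun p : ℝ × E3 => Gam (ee p.1) p.2 := by
  have hA : ContDiff ℝ 1 fun p : ℝ × E3 => av (ee p.1) • p.2 := by fun_prop
  have hP : ContDiff ℝ 1 fun p : ℝ × E3 => Gam (ee p.1) p.2 - av (ee p.1) • p.2 := by
    refine contDiff_of_small (fun p hp => (contDiffAt_Gam p hp).sub hA.contDiffAt) fun ε hε => ?_
    have hc := c2_pos
    obtain ⟨j₀, hj₀⟩ : ∃ j₀ : ℕ, (2 * (c2 + 1) + 1) / ε ≤ j₀ + 1 :=
      ⟨⌈(2 * (c2 + 1) + 1) / ε⌉₊, by linarith [Nat.le_ceil ((2 * (c2 + 1) + 1) / ε)]⟩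
    have hb : ∀ j : ℕ, j₀ ≤ j → (c2 + 1) * exp (-(j : ℝ) / 2) + 1 / (j + 1) ≤ ε := by
      intro j hj
      have hj' : (j₀ : ℝ) ≤ j := by exact_mod_cast hj
      have h0 : (0 : ℝ) ≤ j := Nat.cast_nonneg _
      have a : exp (-(j : ℝ) / 2) ≤ 2 / (j + 1) := by
        rw [neg_div, exp_neg, inv_eq_one_div, div_le_div_iff₀ (exp_pos _) (by positivity)]
        linarith [add_one_le_exp ((j : ℝ) / 2)]
      rw [div_le_iff₀ hε] at hj₀
      calc _ ≤ (c2 + 1) * (2 / (j + 1)) + 1 / (j + 1) := by gcongr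
        _ = (2 * (c2 + 1) + 1) / (j + 1) := by field_simp
        _ ≤ ε := by rw [div_le_iff₀ (by positivity)]; nlinarith
    refine ⟨exp (-aj j₀), exp_pos _, fun p hp => ?_⟩
    rcases eq_or_ne p.2 0 with h0 | h0
    · refine ⟨?_, fun h => absurd h0 h⟩
      simp [h0, Gam, GG_zero]
    have hx : 0 < ‖p.2‖ := norm_pos_iff.2 h0
    have hy : aj j₀ < -log ‖p.2‖ := by
      have := log_lt_log hx hp
      rw [log_exp] at this; linarith
    constructor
    · refine (GG_sub_bound (tau_nonneg _) _ _ _).trans (mul_le_mul_of_nonneg_right ?_ hx.le)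
      have b1 : exp (-tau p.2 / 2) ≤ exp (-(j₀ : ℝ) / 2) :=
        exp_le_exp.2 (by have := phi_ge hy.le; unfold tau; linarith)
      have := hb j₀ le_rfl
      have : 0 < 1 / ((j₀ : ℝ) + 1) := by positivity
      have := exp_pos (-(j₀ : ℝ) / 2)
      nlinarith
    · intro _
      obtain ⟨j, h1, h2⟩ := exists_j (-log ‖p.2‖)
      have hj : j₀ ≤ j := Nat.le_of_lt_succ (aj_mono.lt_iff_lt.1 (hy.trans_le h1))
      refine (fderiv_bound p h0 h1 ?_).trans (hb j hj)
      rcases h2 with h2 | h2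
      · subst h2
        obtain rfl : j₀ = 0 := by omega
        exact hy
      · exact h2
  simpa using hP.add hA

lemma Gam_macro (t : ℝ) {x : E3} (hx : Lam⁻¹ ≤ ‖x‖) :
    Gam (ee t) x = mk3 (5 * Q (nu 0 * ‖x‖) (x 0)) 0 0 := by
  have hL := ten_le_Lam
  have h0 : tau x = 0 := by
    refine le_antisymm ?_ (tau_nonneg x)
    have : -log ‖x‖ ≤ aj 0 := by
      have a := log_le_log (by positivity) hx
      rw [log_inv] at a
      have b := log_le_sub_one_of_pos (show 0 < Lam by linarith)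
      linarith [(cj_parts 0).2.2, (aj_ge 0).2]
    simpa [tau] using phi_le this
  have hf : ∀ s, sg 0 (ee s) ≤ 0 := by
    intro s
    have := Complex.abs_re_le_norm (ee s)
    rw [norm_ee, abs_le] at this
    simp only [sg, neg_zero, exp_zero, mul_zero]; linarith
  unfold Gam GG
  rw [h0, G_full (hf t)]
  simp [Psi, ee_prev, hh_zero (show sg 0 (ee (t - al)) ≤ 1 by linarith [hf (t - al)])]

lemma nu_zero_le : nu 0 ≤ 1 / 10 := by
  have h := pow_nu (τ := 0) (k := 1) (by simp)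
  have h2 : exp (-exp 0) ≤ 1 := exp_le_one_iff.2 (by simp)
  have := ten_le_Lam
  have := nu_pos 0
  rw [pow_one] at h
  nlinarith

end Crest.Agent.H1.EC
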