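import Mathlib

/-! Shannon entropy of finite (unnormalised) measures. -/

set_option autoImplicit false

noncomputable section

namespace Crest.Agent.H1.Ent

open Finset Real

variable {α β γ δ : Type*}

open Classical in
/-- push-forward of a finite measure -/
def law [Fintype α] (ν : α → ℝ) (f : α → β) (b : β) : ℝ := ∑ a, if f a = b then ν a else 0

/-- entropy -/
def ent [Fintype α] (ν : α → ℝ) : ℝ := ∑ a, negMulLog (ν a)

variable [Fintype α]

lemma law_nonneg {ν : α → ℝ} (hν : ∀ a, 0 ≤ ν a) (f : α → β) (b : β) : 0 ≤ law ν f b :=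
  sum_nonneg fun a _ => by split_ifs <;> simp [hν]

lemma le_law {ν : α → ℝ} (hν : ∀ a, 0 ≤ ν a) (f : α → β) (a : α) : ν a ≤ law ν f (f a) := by
  classical
  have := single_le_sum (f := fun a' => if f a' = f a then ν a' else 0)
    (fun a' _ => by split_ifs <;> simp [hν]) (mem_univ a)
  simp only [if_true] at this
  refine this.trans (le_of_eq ?_)
  unfold law
  congr!

lemma law_eq [DecidableEq β] (ν : α → ℝ) (f : α → β) (b : β) :
    law ν f b = ∑ a, if f a = b then ν a else 0 := by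
  unfold law
  congr!

lemma sum_law_mul [Fintype β] (ν : α → ℝ) (f : α → β) (φ : β → ℝ) :
    ∑ b, law ν f b * φ b = ∑ a, ν a * φ (f a) := by
  classical
  simp only [law_eq, sum_mul]
  rw [sum_comm]
  refine sum_congr rfl fun a _ => ?_
  simp [ite_mul]

lemma sum_law [Fintype β] (ν : α → ℝ) (f : α → β) : ∑ b, law ν f b = ∑ a, ν a := by
  simpa using sum_law_mul ν f (fun _ => 1)

lemma law_law [Fintype β] (ν : α → ℝ) (f : α → β) (g : β → γ) :
    law (law ν f) g = law ν (fun a => g (f a)) := by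
  classical
  ext c
  have := sum_law_mul ν f (fun b => if g b = c then 1 else 0)
  simp only [mul_ite, mul_one, mul_zero] at this
  rw [law_eq, law_eq, this]

lemma law_id (ν : α → ℝ) : law ν (fun a => a) = ν := by
  classical
  ext a
  simp [law_eq]

lemma law_congr {ν : α → ℝ} {f g : α → β} (h : ∀ a, ν a ≠ 0 → f a = g a) :
    law ν f = law ν g := by
  classical
  ext b
  rw [law_eq, law_eq]
  refine sum_congr rfl fun a _ => ?_
  by_cases h2 : ν a = 0
  · simp [h2]
  · rw [h a h2]

lemma exists_of_law_ne {ν : α → ℝ} {f : α → β} {b : β} (h : law ν f b ≠ 0) :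
    ∃ a, ν a ≠ 0 ∧ f a = b := by
  classical
  rw [law_eq] at h
  obtain ⟨a, _, ha⟩ := exists_ne_zero_of_sum_ne_zero h
  by_cases h2 : f a = b
  · exact ⟨a, by simpa [h2] using ha, h2⟩
  · simp [h2] at ha

lemma ent_eq (ν : α → ℝ) : ent ν = -∑ a, ν a * log (ν a) := by
  simp [ent, negMulLog]

lemma ent_law [Fintype β] (ν : α → ℝ) (f : α → β) :
    ent (law ν f) = -∑ a, ν a * log (law ν f (f a)) := by
  rw [ent_eq, sum_law_mul ν f (fun b => log (law ν f b))]

lemma gibbs {ν r : α → ℝ} (hν : ∀ a, 0 ≤ ν a) (hr : ∀ a, 0 ≤ r a) (h : ∀ a, ν a ≠ 0 → r a ≠ 0) :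
    ∑ a, ν a * (log (r a) - log (ν a)) ≤ ∑ a, r a - ∑ a, ν a := by
  rw [← sum_sub_distrib]
  refine sum_le_sum fun a _ => ?_
  rcases (hν a).eq_or_lt with h2 | h2
  · simp [← h2, hr]
  · have h3 : 0 < r a := lt_of_le_of_ne (hr a) (h a h2.ne').symm
    rw [← log_div h3.ne' h2.ne']
    calc ν a * log (r a / ν a) ≤ ν a * (r a / ν a - 1) :=
          mul_le_mul_of_nonneg_left (log_le_sub_one_of_pos (by positivity)) h2.le
      _ = _ := by field_simp

lemma ent_law_congr [Fintype β] [Fintype γ] (ν : α → ℝ) {f : α → β} {g : α → γ}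
    (h : ∀ a a', f a = f a' ↔ g a = g a') : ent (law ν f) = ent (law ν g) := by
  classical
  rw [ent_law, ent_law]
  simp only [law_eq, h]

/-- submodularity -/
lemma submod [Fintype β] [Fintype γ] [Fintype δ] {ν : α → ℝ} (hν : ∀ a, 0 ≤ ν a) (X : α → β)
    (Y : α → γ) (Z : α → δ) (φ : β → δ) (ψ : γ → δ) (hφ : ∀ a, φ (X a) = Z a)
    (hψ : ∀ a, ψ (Y a) = Z a) :
    ent (law ν fun a => (X a, Y a)) + ent (law ν Z) ≤ ent (law ν X) + ent (law ν Y) := by
  classical
  set J := law ν fun a => (X a, Y a) with hJ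
  have hJ0 : ∀ b, 0 ≤ J b := law_nonneg hν _
  set r : β × γ → ℝ := fun b => if ψ b.2 = φ b.1 then
    law ν X b.1 * law ν Y b.2 / law ν Z (φ b.1) else 0 with hr
  have pos : ∀ a, ν a ≠ 0 → 0 < law ν X (X a) ∧ 0 < law ν Y (Y a) ∧ 0 < law ν Z (Z a) :=
    fun a ha => ⟨((hν a).lt_of_ne' ha).trans_le (le_law hν _ a),
      ((hν a).lt_of_ne' ha).trans_le (le_law hν _ a),
      ((hν a).lt_of_ne' ha).trans_le (le_law hν _ a)⟩
  have hr1 : ∀ a, r (X a, Y a) = law ν X (X a) * law ν Y (Y a) / law ν Z (Z a) := fun a => by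
    simp only [hr, hφ, hψ, if_true]
  have g := gibbs (ν := J) (r := r) hJ0 (fun b => by
    simp only [hr]
    split_ifs
    · exact div_nonneg (mul_nonneg (law_nonneg hν _ _) (law_nonneg hν _ _)) (law_nonneg hν _ _)
    · rfl) (fun b hb => by
    obtain ⟨a, ha, rfl⟩ := exists_of_law_ne hb
    obtain ⟨h1, h2, h3⟩ := pos a ha
    rw [hr1]
    positivity)
  have s1 : ∑ b, r b ≤ ∑ a, ν a := by
    rw [Fintype.sum_prod_type, ← sum_law ν X]
    refine sum_le_sum fun x _ => ?_
    have e : law ν Z (φ x) = ∑ y, if ψ y = φ x then law ν Y y else 0 := by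
      rw [← law_eq, law_law]
      simp only [hψ]
    have e2 : ∑ y, r (x, y) = law ν X x * (law ν Z (φ x) / law ν Z (φ x)) := by
      conv_rhs => rw [← mul_div_assoc]; enter [1, 2]; rw [e]
      rw [mul_sum, sum_div]
      refine sum_congr rfl fun y _ => ?_
      simp only [hr]
      split_ifs <;> simp
    rw [e2]
    exact mul_le_of_le_one_right (law_nonneg hν _ _) (div_self_le_one _)
  rw [hJ, sum_law, sum_law_mul ν _ (fun b => log (r b) - log (law ν (fun a => (X a, Y a)) b))] at g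
  rw [hJ, ent_law, ent_law, ent_law, ent_law]
  have e3 : ∀ a, ν a * (log (r (X a, Y a)) - log (law ν (fun a => (X a, Y a)) (X a, Y a))) =
      ν a * log (law ν X (X a)) + ν a * log (law ν Y (Y a)) - ν a * log (law ν Z (Z a)) -
        ν a * log (law ν (fun a => (X a, Y a)) (X a, Y a)) := by
    intro a
    by_cases ha : ν a = 0
    · simp [ha]
    · obtain ⟨h1, h2, h3⟩ := pos a ha
      rw [hr1, log_div (by positivity) h3.ne', log_mul h1.ne' h2.ne']
      ring
  simp only [e3, sum_sub_distrib, sum_add_distrib] at g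
  linarith

lemma subadd [Fintype β] [Fintype γ] {ν : α → ℝ} (hν : ∀ a, 0 ≤ ν a) (h1 : ∑ a, ν a = 1)
    (X : α → β) (Y : α → γ) :
    ent (law ν fun a => (X a, Y a)) ≤ ent (law ν X) + ent (law ν Y) := by
  have := submod hν X Y (fun _ => ()) (fun _ => ()) (fun _ => ()) (fun _ => rfl) (fun _ => rfl)
  have e : ent (law ν fun _ => ()) = 0 := by
    simp [ent, law_eq, h1]
  linarith

lemma ent_prod [Fintype β] {μ : α → ℝ} {ν : β → ℝ} (h1 : ∑ a, μ a = 1) (h2 : ∑ b, ν b = 1) :
    ent (fun x : α × β => μ x.1 * ν x.2) = ent μ + ent ν := by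
  simp only [ent, Fintype.sum_prod_type, negMulLog_mul, sum_add_distrib, ← sum_mul, ← mul_sum,
    h1, h2, one_mul]

/-- data processing for relative entropy -/
lemma data_proc [Fintype β] {ν σ : α → ℝ} (hν : ∀ a, 0 ≤ ν a) (hσ : ∀ a, 0 ≤ σ a)
    (h : ∀ a, ν a ≠ 0 → σ a ≠ 0) (f : α → β) :
    ∑ b, law ν f b * (log (law ν f b) - log (law σ f b)) ≤
      ∑ a, ν a * (log (ν a) - log (σ a)) := by
  classical
  have pos : ∀ a, ν a ≠ 0 → 0 < σ a ∧ 0 < law ν f (f a) ∧ 0 < law σ f (f a) :=
    fun a ha => ⟨(hσ a).lt_of_ne' (h a ha), ((hν a).lt_of_ne' ha).trans_le (le_law hν _ a),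
      ((hσ a).lt_of_ne' (h a ha)).trans_le (le_law hσ _ a)⟩
  have g := gibbs (ν := ν) (r := fun a => σ a * (law ν f (f a) / law σ f (f a))) hν
    (fun a => mul_nonneg (hσ a) (div_nonneg (law_nonneg hν _ _) (law_nonneg hσ _ _)))
    (fun a ha => by
      obtain ⟨h1, h2, h3⟩ := pos a ha
      positivity)
  have s1 : ∑ a, σ a * (law ν f (f a) / law σ f (f a)) ≤ ∑ a, ν a := by
    rw [← sum_law_mul σ f (fun b => law ν f b / law σ f b), ← sum_law ν f]
    refine sum_le_sum fun b _ => ?_
    rw [mul_div_left_comm]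
    exact mul_le_of_le_one_right (law_nonneg hν _ _) (div_self_le_one _)
  rw [sum_law_mul ν f (fun b => log (law ν f b) - log (law σ f b))]
  have e3 : ∀ a, ν a * (log (σ a * (law ν f (f a) / law σ f (f a))) - log (ν a)) =
      ν a * (log (law ν f (f a)) - log (law σ f (f a))) - ν a * (log (ν a) - log (σ a)) := by
    intro a
    by_cases ha : ν a = 0
    · simp [ha]
    · obtain ⟨h1, h2, h3⟩ := pos a ha
      rw [log_mul h1.ne' (by positivity), log_div h2.ne' h3.ne']
      ring
  simp only [e3, sum_sub_distrib] at g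
  linarith

/-- the pointwise inequality behind the revealing step -/
lemma local_ineq {q w t ξ : ℝ} (h0 : 0 ≤ q) (h1 : q ≤ w) (h2 : w ≤ t) (hξ : 0 < ξ) :
    3 / 2 * (negMulLog q + negMulLog (w - q) - negMulLog w) -
      1 / 2 * (negMulLog q + negMulLog (t - q) - negMulLog t) ≤
      q * (log ξ + 1 / 2) + w * √(w / t) / ξ := by
  rcases h0.eq_or_lt with h | h
  · subst h
    have : 0 ≤ w * √(w / t) / ξ := by positivity
    simpa using this
  have hw : 0 < w := by linarith
  have ht : 0 < t := by linarith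
  have a1 : (w - q) * (log w - log (w - q)) ≤ q := by
    rcases h1.eq_or_lt with h3 | h3
    · simp [h3, hw.le]
    · have h4 : 0 < w - q := by linarith
      rw [← log_div hw.ne' h4.ne']
      calc (w - q) * log (w / (w - q)) ≤ (w - q) * (w / (w - q) - 1) :=
            mul_le_mul_of_nonneg_left (log_le_sub_one_of_pos (by positivity)) h4.le
        _ = q := by field_simp; ring
  have a2 : 0 ≤ (t - q) * (log t - log (t - q)) := by
    rcases (h1.trans h2).eq_or_lt with h3 | h3
    · simp [h3]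
    · exact mul_nonneg (by linarith) (sub_nonneg.2 (log_le_log (by linarith) (by linarith)))
  have a3 : log (w * √(w / t) / ξ / q) ≤ w * √(w / t) / ξ / q - 1 :=
    log_le_sub_one_of_pos (by positivity)
  rw [log_div (by positivity) h.ne', log_div (by positivity) hξ.ne',
    log_mul hw.ne' (by positivity), log_sqrt (by positivity), log_div hw.ne' ht.ne'] at a3
  have a4 := mul_le_mul_of_nonneg_left a3 h.le
  have a5 : q * (w * √(w / t) / ξ / q - 1) = w * √(w / t) / ξ - q := by field_simp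
  rw [a5] at a4
  simp only [negMulLog]
  nlinarith

end Crest.Agent.H1.Ent
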