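import Crest.Agent.H1.EntA

/-! Revealing a random subset one element at a time. -/

set_option autoImplicit false

noncomputable section

namespace Crest.Agent.H1.Ent

open Finset Real

variable {X : Type*} [Fintype X] [DecidableEq X]

/-- load of an element -/
def ld (ν : Finset X → ℝ) (e : X) : ℝ := ∑ U, if e ∈ U then ν U else 0

/-- expected size -/
def sz (ν : Finset X → ℝ) : ℝ := ∑ U, ν U * #U

/-- the bonus of an element -/
def bon1 (ν : Finset X → ℝ) (e : X) : ℝ := ld ν e * √(ld ν e / ∑ U, ν U)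

/-- the bonus -/
def bon (ν : Finset X → ℝ) : ℝ := ∑ e, bon1 ν e

lemma ld_nonneg {ν : Finset X → ℝ} (hν : ∀ U, 0 ≤ ν U) (e : X) : 0 ≤ ld ν e :=
  sum_nonneg fun U _ => by split_ifs <;> simp [hν]

lemma bon1_nonneg {ν : Finset X → ℝ} (hν : ∀ U, 0 ≤ ν U) (e : X) : 0 ≤ bon1 ν e :=
  mul_nonneg (ld_nonneg hν e) (sqrt_nonneg _)

lemma bon_nonneg {ν : Finset X → ℝ} (hν : ∀ U, 0 ≤ ν U) : 0 ≤ bon ν :=
  sum_nonneg fun e _ => bon1_nonneg hν e

lemma sz_eq (ν : Finset X → ℝ) : sz ν = ∑ e, ld ν e := by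
  simp only [sz, ld]
  rw [sum_comm]
  refine sum_congr rfl fun U _ => ?_
  simp [mul_comm]

/-- the joint law of the first set and the part of the second inside `P` -/
def cut (ρ : Finset X × Finset X → ℝ) (P : Finset X) : Finset X × Finset X → ℝ :=
  law ρ fun x => (x.1, x.2 ∩ P)

/-- slices -/
def slice (ρ : Finset X × Finset X → ℝ) (P m : Finset X) (U : Finset X) : ℝ := cut ρ P (U, m)

/-- the potential -/
def pot (ρ : Finset X × Finset X → ℝ) (P : Finset X) : ℝ :=
  3 / 2 * ent (cut ρ P) - 1 / 2 * ent (law ρ fun x => x.2 ∩ P)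

lemma sum_slice_mul (ρ : Finset X × Finset X → ℝ) (P m : Finset X) (φ : Finset X → ℝ) :
    ∑ U, slice ρ P m U * φ U = ∑ x, if x.2 ∩ P = m then ρ x * φ x.1 else 0 := by
  have := sum_law_mul ρ (fun x => (x.1, x.2 ∩ P)) (fun y => if y.2 = m then φ y.1 else 0)
  simp only [mul_ite, mul_zero] at this
  rw [← this, Fintype.sum_prod_type]
  refine sum_congr rfl fun U _ => ?_
  simp [slice, cut]

lemma pot_step {ρ : Finset X × Finset X → ℝ} (hρ : ∀ x, 0 ≤ ρ x) (hs : ∀ x, ρ x ≠ 0 → x.2 ⊆ x.1)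
    (P : Finset X) (e : X) {ξ : ℝ} (hξ : 0 < ξ) :
    pot ρ (insert e P) - pot ρ P ≤ (∑ x, if e ∈ x.2 then ρ x else 0) * (log ξ + 1 / 2) +
      (∑ m, bon1 (slice ρ P m) e) / ξ := by
  have hi : ∀ B B' : Finset X, B ∩ insert e P = B' ∩ insert e P ↔
      B ∩ P = B' ∩ P ∧ (e ∈ B ↔ e ∈ B') := by
    intro B B'
    simp only [Finset.ext_iff, mem_inter, mem_insert]
    constructor
    · intro h
      refine ⟨fun a => ?_, by simpa using h e⟩
      have := h a
      constructor
      · exact fun h2 => ⟨(this.1 ⟨h2.1, Or.inr h2.2⟩).1, h2.2⟩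
      · exact fun h2 => ⟨(this.2 ⟨h2.1, Or.inr h2.2⟩).1, h2.2⟩
    · rintro ⟨h1, h2⟩ a
      constructor
      · rintro ⟨h3, rfl | h4⟩
        · exact ⟨h2.1 h3, Or.inl rfl⟩
        · exact ⟨((h1 a).1 ⟨h3, h4⟩).1, Or.inr h4⟩
      · rintro ⟨h3, rfl | h4⟩
        · exact ⟨h2.2 h3, Or.inl rfl⟩
        · exact ⟨((h1 a).2 ⟨h3, h4⟩).1, Or.inr h4⟩
  have s1 := submod hρ (fun x => (x.1, x.2 ∩ P))
    (fun x => (x.2 ∩ P, decide (e ∈ x.1), decide (e ∈ x.2)))
    (fun x => (x.2 ∩ P, decide (e ∈ x.1))) (fun y => (y.2, decide (e ∈ y.1)))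
    (fun y => (y.1, y.2.1)) (fun _ => rfl) (fun _ => rfl)
  have e1 : ent (cut ρ (insert e P)) = ent (law ρ fun x => ((x.1, x.2 ∩ P),
      (x.2 ∩ P, decide (e ∈ x.1), decide (e ∈ x.2)))) := by
    refine ent_law_congr ρ fun a a' => ?_
    simp only [Prod.mk.injEq, hi, decide_eq_decide]
    constructor
    · rintro ⟨h1, h2, h3⟩
      exact ⟨⟨h1, h2⟩, h2, by rw [h1], h3⟩
    · rintro ⟨⟨h1, h2⟩, -, -, h3⟩
      exact ⟨h1, h2, h3⟩
  have e2 : ent (law ρ fun x => x.2 ∩ insert e P) =
      ent (law ρ fun x => (x.2 ∩ P, decide (e ∈ x.2))) := by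
    refine ent_law_congr ρ fun a a' => ?_
    simp only [Prod.mk.injEq, hi, decide_eq_decide]
  set q : Finset X → ℝ := fun m => ∑ x, if x.2 ∩ P = m ∧ e ∈ x.2 then ρ x else 0 with hq
  set w : Finset X → ℝ := fun m => ∑ x, if x.2 ∩ P = m ∧ e ∈ x.1 then ρ x else 0 with hw
  set t : Finset X → ℝ := fun m => ∑ x, if x.2 ∩ P = m then ρ x else 0 with ht
  have hs' : ∀ x, e ∈ x.2 → e ∉ x.1 → ρ x = 0 := fun x h1 h2 => by
    by_contra h3
    exact h2 (hs x h3 h1)
  have e3 : ent (law ρ fun x => (x.2 ∩ P, decide (e ∈ x.1), decide (e ∈ x.2))) =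
      ∑ m, (negMulLog (q m) + negMulLog (w m - q m) + negMulLog (t m - w m)) := by
    simp only [ent, Fintype.sum_prod_type, Fintype.sum_bool]
    refine sum_congr rfl fun m _ => ?_
    have a1 : law ρ (fun x => (x.2 ∩ P, decide (e ∈ x.1), decide (e ∈ x.2))) (m, true, true) =
        q m := by
      rw [law_eq]
      refine sum_congr rfl fun x _ => ?_
      by_cases h1 : e ∈ x.1 <;> by_cases h2 : e ∈ x.2 <;> simp [h1, h2, hs' x]
    have a2 : law ρ (fun x => (x.2 ∩ P, decide (e ∈ x.1), decide (e ∈ x.2))) (m, true, false) =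
        w m - q m := by
      rw [law_eq, ← sum_sub_distrib]
      refine sum_congr rfl fun x _ => ?_
      by_cases h1 : e ∈ x.1 <;> by_cases h2 : e ∈ x.2 <;> simp [h1, h2, hs' x]
    have a3 : law ρ (fun x => (x.2 ∩ P, decide (e ∈ x.1), decide (e ∈ x.2))) (m, false, true) =
        0 := by
      rw [law_eq]
      refine sum_eq_zero fun x _ => ?_
      by_cases h1 : e ∈ x.1 <;> by_cases h2 : e ∈ x.2 <;> simp [h1, h2, hs' x]
    have a4 : law ρ (fun x => (x.2 ∩ P, decide (e ∈ x.1), decide (e ∈ x.2))) (m, false, false) =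
        t m - w m := by
      rw [law_eq, ← sum_sub_distrib]
      refine sum_congr rfl fun x _ => ?_
      by_cases h1 : e ∈ x.1 <;> by_cases h2 : e ∈ x.2 <;> simp [h1, h2, hs' x]
    rw [a1, a2, a3, a4]
    simp
  have e4 : ent (law ρ fun x => (x.2 ∩ P, decide (e ∈ x.1))) =
      ∑ m, (negMulLog (w m) + negMulLog (t m - w m)) := by
    simp only [ent, Fintype.sum_prod_type, Fintype.sum_bool]
    refine sum_congr rfl fun m _ => ?_
    have a1 : law ρ (fun x => (x.2 ∩ P, decide (e ∈ x.1))) (m, true) = w m := by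
      rw [law_eq]
      refine sum_congr rfl fun x _ => ?_
      by_cases h1 : e ∈ x.1 <;> simp [h1]
    have a2 : law ρ (fun x => (x.2 ∩ P, decide (e ∈ x.1))) (m, false) = t m - w m := by
      rw [law_eq, ← sum_sub_distrib]
      refine sum_congr rfl fun x _ => ?_
      by_cases h1 : e ∈ x.1 <;> simp [h1]
    rw [a1, a2]
  have e5 : ent (law ρ fun x => (x.2 ∩ P, decide (e ∈ x.2))) =
      ∑ m, (negMulLog (q m) + negMulLog (t m - q m)) := by
    simp only [ent, Fintype.sum_prod_type, Fintype.sum_bool]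
    refine sum_congr rfl fun m _ => ?_
    have a1 : law ρ (fun x => (x.2 ∩ P, decide (e ∈ x.2))) (m, true) = q m := by
      rw [law_eq]
      refine sum_congr rfl fun x _ => ?_
      by_cases h1 : e ∈ x.2 <;> simp [h1]
    have a2 : law ρ (fun x => (x.2 ∩ P, decide (e ∈ x.2))) (m, false) = t m - q m := by
      rw [law_eq, ← sum_sub_distrib]
      refine sum_congr rfl fun x _ => ?_
      by_cases h1 : e ∈ x.2 <;> simp [h1]
    rw [a1, a2]
  have e6 : ent (law ρ fun x => x.2 ∩ P) = ∑ m, negMulLog (t m) := by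
    simp only [ent, law_eq, ht]
  have e7 : (∑ x, if e ∈ x.2 then ρ x else 0) = ∑ m, q m := by
    simp only [hq]
    rw [sum_comm]
    refine sum_congr rfl fun x _ => ?_
    by_cases h1 : e ∈ x.2 <;> simp [h1]
  have e8 : ∀ m, bon1 (slice ρ P m) e = w m * √(w m / t m) := by
    intro m
    have b1 : ld (slice ρ P m) e = w m := by
      have := sum_slice_mul ρ P m (fun U => if e ∈ U then 1 else 0)
      simp only [mul_ite, mul_one, mul_zero] at this
      rw [ld, this]
      exact sum_congr rfl fun x _ => by rw [ite_and]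
    have b2 : ∑ U, slice ρ P m U = t m := by
      simpa using sum_slice_mul ρ P m (fun _ => 1)
    rw [bon1, b1, b2]
  have key : ∀ m ∈ (univ : Finset (Finset X)),
      3 / 2 * (negMulLog (q m) + negMulLog (w m - q m) - negMulLog (w m)) -
      1 / 2 * (negMulLog (q m) + negMulLog (t m - q m) - negMulLog (t m)) ≤
      q m * (log ξ + 1 / 2) + w m * √(w m / t m) / ξ := by
    intro m _
    refine local_ineq (sum_nonneg fun x _ => by split_ifs <;> simp [hρ])
      (sum_le_sum fun x _ => ?_) (sum_le_sum fun x _ => ?_) hξ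
    · by_cases h1 : e ∈ x.1 <;> by_cases h2 : e ∈ x.2 <;> by_cases h3 : x.2 ∩ P = m <;>
        simp [h1, h2, h3, hs' x, hρ]
    · by_cases h1 : e ∈ x.1 <;> by_cases h3 : x.2 ∩ P = m <;> simp [h1, h3, hρ]
  have k2 := sum_le_sum key
  rw [e3, e4] at s1
  rw [pot, pot, e1, e2, e5, e6, e7, cut]
  simp only [e8]
  simp only [sum_add_distrib, sum_sub_distrib, ← mul_sum, ← sum_mul, ← sum_div] at k2 s1 ⊢
  linarith

lemma pot_bound {ρ : Finset X × Finset X → ℝ} (hρ : ∀ x, 0 ≤ ρ x) (hs : ∀ x, ρ x ≠ 0 → x.2 ⊆ x.1)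
    {D ξ : ℝ} (hξ : 0 < ξ) (hD : ∀ P, ∑ m, bon (slice ρ P m) ≤ D) :
    pot ρ univ - pot ρ ∅ ≤ (∑ x, ρ x * #x.2) * (log ξ + 3 / 2) + D / ξ := by
  set n : X → ℝ := fun e => ∑ x, if e ∈ x.2 then ρ x else 0 with hn
  have hn0 : ∀ e, 0 ≤ n e := fun e => sum_nonneg fun x _ => by split_ifs <;> simp [hρ]
  set h : ℝ := (Fintype.card X : ℝ) with hh
  have hD0 : 0 ≤ D := le_trans (sum_nonneg fun m _ => bon_nonneg fun U => law_nonneg hρ _ _) (hD ∅)
  have key : ∀ r : ℕ, ∀ R : Finset X, #R = r → pot ρ univ - pot ρ Rᶜ ≤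
      (∑ e ∈ R, n e) * (log ξ + log (h / r) + 3 / 2) + D * (r / (ξ * h)) := by
    intro r
    induction r with
    | zero =>
      intro R hR
      rw [card_eq_zero] at hR
      simp [hR]
    | succ r ih =>
      intro R hR
      have hh1 : (r + 1 : ℝ) ≤ h := by
        rw [hh]
        exact_mod_cast hR ▸ card_le_univ R
      have hr0 : (0 : ℝ) ≤ r := Nat.cast_nonneg r
      have hh0 : 0 < h := by linarith
      have k1 : ∀ e ∈ R, pot ρ univ - pot ρ Rᶜ ≤
          (n e * (log (ξ * (h / (r + 1))) + 1 / 2) +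
            (∑ m, bon1 (slice ρ Rᶜ m) e) / (ξ * (h / (r + 1)))) +
          (((∑ e ∈ R, n e) - n e) * (log ξ + log (h / r) + 3 / 2) + D * (r / (ξ * h))) := by
        intro e he
        have a1 := ih (R.erase e) (by rw [card_erase_of_mem he, hR]; rfl)
        have a2 := pot_step hρ hs Rᶜ e (ξ := ξ * (h / (r + 1))) (by positivity)
        rw [compl_erase, sum_erase_eq_sub he] at a1
        linarith
      have k2 := sum_le_sum k1
      simp only [sum_add_distrib, sum_sub_distrib, ← sum_mul, ← sum_div, sum_const, hR,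
        nsmul_eq_mul] at k2
      have k3 : ∑ e ∈ R, ∑ m, bon1 (slice ρ Rᶜ m) e ≤ D := by
        refine le_trans (sum_le_sum_of_subset_of_nonneg (subset_univ R) fun e _ _ =>
          sum_nonneg fun m _ => bon1_nonneg (fun U => law_nonneg hρ _ _) e) ?_
        rw [sum_comm]
        exact hD _
      set N := ∑ e ∈ R, n e
      have hN : 0 ≤ N := sum_nonneg fun e _ => hn0 e
      have k4 : (∑ e ∈ R, ∑ m, bon1 (slice ρ Rᶜ m) e) / (ξ * (h / (r + 1))) ≤
          D * ((r + 1) / (ξ * h)) := by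
        refine (div_le_div_of_nonneg_right k3 (by positivity)).trans (le_of_eq ?_)
        field_simp
      have k5 : r * log (h / r) ≤ r * log (h / (r + 1)) + 1 := by
        rcases hr0.eq_or_lt with h0 | h0
        · rw [← h0]
          simp
        · have : log (h / r) = log (h / (r + 1)) + log ((r + 1) / r) := by
            rw [← log_mul (by positivity) (by positivity)]
            congr 1
            field_simp
          have h2 : log ((r + 1) / r) ≤ (r + 1) / r - 1 := log_le_sub_one_of_pos (by positivity)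
          have h3 : (r : ℝ) * ((r + 1) / r - 1) = 1 := by field_simp; ring
          rw [this]
          nlinarith
      rw [log_mul hξ.ne' (by positivity)] at k2
      push_cast at k2 ⊢
      refine le_of_mul_le_mul_left ?_ (show (0 : ℝ) < r + 1 by positivity)
      have k6 := mul_le_mul_of_nonneg_left k5 hN
      have k7 : (r + 1 : ℝ) * (D * ((r + 1) / (ξ * h))) =
          D * ((r + 1) / (ξ * h)) + (r + 1) * (D * (r / (ξ * h))) := by
        field_simp
        ring
      nlinarith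
  have := key _ univ rfl
  rw [compl_univ, card_univ, ← hh] at this
  have e1 : ∑ e, n e = ∑ x, ρ x * #x.2 := by
    simp only [hn]
    rw [sum_comm]
    refine sum_congr rfl fun x _ => ?_
    simp [mul_comm]
  rw [e1] at this
  refine this.trans ?_
  rcases (show 0 ≤ h from Nat.cast_nonneg _).eq_or_lt with h0 | h0
  · rw [← h0]
    simp only [div_zero, log_zero, add_zero, mul_zero]
    have : 0 ≤ D / ξ := by positivity
    linarith
  · rw [div_self h0.ne', log_one, add_zero]
    refine le_of_eq ?_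
    field_simp

end Crest.Agent.H1.Ent
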