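import Crest.Agent.H1.EntB

/-! Sparse sets have spread orbits. -/

set_option autoImplicit false

noncomputable section

namespace Crest.Agent.H1.Ent

open Finset Real Pointwise

section sym

variable (G : Type*) [Group G] [Fintype G] {Y Y' : Type*} [Fintype Y] [MulAction G Y]
  [Fintype Y'] [MulAction G Y']

/-- symmetrisation -/
def sym (ν : Y → ℝ) (y : Y) : ℝ := (∑ g : G, ν (g • y)) / Fintype.card G

/-- relative entropy with respect to the symmetrisation -/
def kd (ν : Y → ℝ) : ℝ := ent (sym G ν) - ent ν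

variable {G}

omit [Fintype Y] in
lemma sym_nonneg {ν : Y → ℝ} (hν : ∀ y, 0 ≤ ν y) (y : Y) : 0 ≤ sym G ν y :=
  div_nonneg (sum_nonneg fun _ _ => hν _) (Nat.cast_nonneg _)

omit [Fintype Y] in
lemma sym_pos {ν : Y → ℝ} (hν : ∀ y, 0 ≤ ν y) {y : Y} (h : ν y ≠ 0) : 0 < sym G ν y := by
  refine div_pos (sum_pos' (fun _ _ => hν _) ⟨1, mem_univ _, ?_⟩) (by
    exact_mod_cast Fintype.card_pos)
  rw [one_smul]
  exact (hν y).lt_of_ne' h

omit [Fintype Y] in
lemma sym_smul (ν : Y → ℝ) (g : G) (y : Y) : sym G ν (g • y) = sym G ν y := by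
  simp only [sym, smul_smul]
  congr 1
  exact Equiv.sum_comp (Equiv.mulRight g) (fun h => ν (h • y))

lemma sum_sym_mul (ν : Y → ℝ) {φ : Y → ℝ} (hφ : ∀ (g : G) y, φ (g • y) = φ y) :
    ∑ y, sym G ν y * φ y = ∑ y, ν y * φ y := by
  have hG : (Fintype.card G : ℝ) ≠ 0 := by exact_mod_cast Fintype.card_ne_zero
  simp only [sym, div_mul_eq_mul_div, sum_mul, ← sum_div]
  rw [sum_comm]
  have : ∀ g : G, ∑ y, ν (g • y) * φ y = ∑ y, ν y * φ y := fun g => by
    rw [← Equiv.sum_comp (MulAction.toPerm g) (fun y => ν y * φ y)]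
    simp [hφ]
  simp only [this, sum_const, card_univ, nsmul_eq_mul]
  field_simp

lemma sum_sym (ν : Y → ℝ) : ∑ y, sym G ν y = ∑ y, ν y := by
  simpa using sum_sym_mul (G := G) ν (φ := fun _ => 1) (fun _ _ => rfl)

omit [Fintype Y'] in
lemma sym_law (ν : Y → ℝ) {f : Y → Y'} (hf : ∀ (g : G) y, f (g • y) = g • f y) :
    sym G (law ν f) = law (sym G ν) f := by
  classical
  ext b
  simp only [sym, law_eq]
  have : ∀ g : G, (∑ a, if f a = g • b then ν a else 0) =
      ∑ a, if f a = b then ν (g • a) else 0 := fun g => by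
    rw [← Equiv.sum_comp (MulAction.toPerm g)]
    simp [hf]
  simp only [this]
  rw [sum_comm, sum_div]
  refine sum_congr rfl fun a _ => ?_
  split_ifs <;> simp

lemma kd_eq (ν : Y → ℝ) : kd G ν = ∑ y, ν y * (log (ν y) - log (sym G ν y)) := by
  rw [kd, ent_eq, ent_eq, sum_sym_mul ν (φ := fun y => log (sym G ν y))
    (fun g y => by rw [sym_smul])]
  simp only [mul_sub, sum_sub_distrib]
  ring

lemma kd_law_le {ν : Y → ℝ} (hν : ∀ y, 0 ≤ ν y) {f : Y → Y'}
    (hf : ∀ (g : G) y, f (g • y) = g • f y) : kd G (law ν f) ≤ kd G ν := by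
  rw [kd_eq, kd_eq, sym_law ν hf]
  exact data_proc hν (sym_nonneg hν) (fun a ha => (sym_pos hν ha).ne') f

lemma kd_mul {ν : Y → ℝ} (hν : ∀ y, 0 ≤ ν y) {c : ℝ} (hc : 0 < c) :
    kd G (fun y => c * ν y) = c * kd G ν := by
  rw [kd_eq, kd_eq, mul_sum]
  refine sum_congr rfl fun y _ => ?_
  by_cases h : ν y = 0
  · simp [h]
  · have : sym G (fun y => c * ν y) y = c * sym G ν y := by
      simp only [sym, ← mul_sum, mul_div_assoc]
    rw [this, log_mul hc.ne' h, log_mul hc.ne' (sym_pos hν h).ne']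
    ring

lemma continuous_kd : Continuous (kd G : (Y → ℝ) → ℝ) := by
  unfold kd ent sym
  fun_prop

end sym

variable {G : Type*} [Group G] [Fintype G] {X : Type*} [Fintype X] [DecidableEq X] [MulAction G X]

lemma law_fst {α β : Type*} [Fintype α] [Fintype β] (ν : α × β → ℝ) (a : α) :
    law ν Prod.fst a = ∑ b, ν (a, b) := by
  classical
  rw [law_eq, Fintype.sum_prod_type, sum_comm]
  simp

/-- admissible measures -/
def Adm (H : Finset X) (ν : Finset X → ℝ) : Prop := (∀ U, 0 ≤ ν U) ∧ ∀ U, ν U ≠ 0 → U ⊆ H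

lemma exists_opt {H : Finset X} (hH : H.Nonempty) (L : ℝ) :
    ∃ (μ : Finset X → ℝ) (Λ : ℝ), Adm H μ ∧ μ ∅ = 0 ∧ ∑ U, μ U = 1 ∧
      L * sz μ - kd G μ + bon μ = Λ * sz μ ∧
      ∀ ν, Adm H ν → ν ∅ = 0 → L * sz ν - kd G ν + bon ν ≤ Λ * sz ν := by
  set K : Set (Finset X → ℝ) := stdSimplex ℝ (Finset X) ∩
    ⋂ U ∈ {U : Finset X | U = ∅ ∨ ¬ U ⊆ H}, {ν | ν U = 0} with hK
  have hKc : IsCompact K := (isCompact_stdSimplex ℝ _).inter_right
    (isClosed_biInter fun U _ => isClosed_eq (continuous_apply U) continuous_const)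
  have mK : ∀ ν, ν ∈ K ↔ Adm H ν ∧ ν ∅ = 0 ∧ ∑ U, ν U = 1 := by
    intro ν
    simp only [hK, stdSimplex, Set.mem_inter_iff, Set.mem_ofPred_eq, Set.mem_iInter, Adm]
    constructor
    · rintro ⟨⟨h1, h2⟩, h3⟩
      exact ⟨⟨h1, fun U hU => by_contra fun h => hU (h3 U (Or.inr h))⟩, h3 _ (Or.inl rfl), h2⟩
    · rintro ⟨⟨h1, h2⟩, h3, h4⟩
      refine ⟨⟨h1, h4⟩, ?_⟩
      rintro U (rfl | hU)
      · exact h3
      · exact by_contra fun h => hU (h2 U h)
  have hne : K.Nonempty := by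
    refine ⟨fun U => if U = H then 1 else 0, (mK _).2 ⟨⟨fun U => ?_, fun U hU => ?_⟩, ?_, ?_⟩⟩
    · beta_reduce
      split_ifs <;> norm_num
    · by_cases h : U = H
      · exact h.le
      · simp [h] at hU
    · simp [hH.ne_empty.symm]
    · simp
  have hsz : ∀ ν ∈ K, 1 ≤ sz ν := by
    intro ν hν
    obtain ⟨h1, h2, h3⟩ := (mK ν).1 hν
    rw [← h3]
    refine sum_le_sum fun U _ => ?_
    by_cases hU : U = ∅
    · simp [hU, h2]
    · refine le_mul_of_one_le_right (h1.1 U) ?_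
      exact_mod_cast card_pos.2 (nonempty_iff_ne_empty.2 hU)
  have c1 : Continuous (sz : (Finset X → ℝ) → ℝ) := by
    unfold sz
    fun_prop
  have c2 : ∀ e : X, Continuous fun ν : Finset X → ℝ => ld ν e := fun e => by
    unfold ld
    refine continuous_finsetSum _ fun U _ => ?_
    split_ifs <;> fun_prop
  obtain ⟨μ, hμ, hmax⟩ := hKc.exists_isMaxOn hne
    (f := fun ν => (L * sz ν - kd G ν + ∑ e, ld ν e * √(ld ν e)) / sz ν)
    (ContinuousOn.div (Continuous.continuousOn (by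
      have := continuous_kd (G := G) (Y := Finset X)
      fun_prop)) c1.continuousOn fun ν hν => by linarith [hsz ν hν])
  have hb : ∀ ν ∈ K, bon ν = ∑ e, ld ν e * √(ld ν e) := fun ν hν => by
    simp only [bon, bon1, ((mK ν).1 hν).2.2, div_one]
  obtain ⟨h1, h2, h3⟩ := (mK μ).1 hμ
  refine ⟨μ, (L * sz μ - kd G μ + bon μ) / sz μ, h1, h2, h3, ?_, fun ν hν hν0 => ?_⟩
  · rw [div_mul_cancel₀ _ (by linarith [hsz μ hμ])]
  · rcases (sum_nonneg fun U _ => hν.1 U : 0 ≤ ∑ U, ν U).eq_or_lt with h | h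
    · have : ν = fun _ => 0 := funext fun U =>
        (sum_eq_zero_iff_of_nonneg fun U _ => hν.1 U).1 h.symm U (mem_univ _)
      subst this
      simp [sz, kd_eq, bon, bon1, ld]
    · set t := ∑ U, ν U
      have hm : (fun U => t⁻¹ * ν U) ∈ K := (mK _).2
        ⟨⟨fun U => mul_nonneg (by positivity) (hν.1 U), fun U hU => hν.2 U
          (right_ne_zero_of_mul hU)⟩, by simp [hν0], by
          rw [← mul_sum, inv_mul_cancel₀ h.ne']⟩
      have k := hmax hm
      simp only [Set.mem_ofPred_eq] at k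
      rw [← hb μ hμ, div_le_iff₀ (by linarith [hsz _ hm]), kd_mul hν.1 (by positivity)] at k
      have e1 : sz (fun U => t⁻¹ * ν U) = t⁻¹ * sz ν := by
        simp only [sz, mul_sum, mul_assoc]
      have e2 : ∀ e, ld (fun U => t⁻¹ * ν U) e = t⁻¹ * ld ν e := fun e => by
        simp only [ld, mul_sum, mul_ite, mul_zero]
      have e3 : ∑ e, t⁻¹ * ld ν e * √(t⁻¹ * ld ν e) = t⁻¹ * bon ν := by
        rw [bon, mul_sum]
        refine sum_congr rfl fun e _ => ?_
        rw [bon1, mul_assoc, inv_mul_eq_div t (ld ν e)]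
      simp only [e1, e2, e3] at k
      refine le_of_mul_le_mul_left ?_ (inv_pos.2 h)
      linarith

lemma opt_empty {H : Finset X} {L Λ : ℝ}
    (h : ∀ ν, Adm H ν → ν ∅ = 0 → L * sz ν - kd G ν + bon ν ≤ Λ * sz ν) {ν : Finset X → ℝ}
    (hν : Adm H ν) : L * sz ν - kd G ν ≤ Λ * sz ν := by
  set ν' : Finset X → ℝ := fun U => if U = ∅ then 0 else ν U with hν'
  have a1 : Adm H ν' := ⟨fun U => by
    simp only [hν']
    split_ifs <;> simp [hν.1], fun U hU => hν.2 U fun h2 => hU (by simp [hν', h2])⟩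
  have k := h ν' a1 (by simp [hν'])
  have e1 : sz ν' = sz ν := sum_congr rfl fun U _ => by
    by_cases hU : U = ∅ <;> simp [hν', hU]
  have e2 : kd G ν' = kd G ν := by
    rw [kd_eq, kd_eq]
    refine sum_congr rfl fun U _ => ?_
    by_cases hU : U = ∅
    · have hG : (Fintype.card G : ℝ) ≠ 0 := by exact_mod_cast Fintype.card_ne_zero
      have : sym G ν ∅ = ν ∅ := by
        simp only [sym, smul_finset_empty, sum_const, card_univ, nsmul_eq_mul]
        field_simp
      simp [hν', hU, this]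
    · simp [hν', hU, sym]
  have := bon_nonneg a1.1
  rw [e1, e2] at k
  linarith

lemma bon_double {w : ℝ} (h0 : 0 ≤ w) (h1 : w ≤ 1) :
    14 / 5 * (w * √w) - 11 / 5 * w ^ 2 ≤ (2 * w - w ^ 2) * √(2 * w - w ^ 2) := by
  have e1 : √(2 * w - w ^ 2) = √w * √(2 - w) := by
    rw [← sqrt_mul h0]
    congr 1
    ring
  have e2 : 7 / 5 - 2 / 5 * w ≤ √(2 - w) := le_sqrt_of_sq_le (by nlinarith)
  have e3 : √w ≤ 1 := sqrt_le_one.2 h1
  have e4 := sqrt_nonneg w
  have e5 : 0 ≤ w * √w := by positivity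
  rw [e1]
  calc _ ≤ w * √w * ((2 - w) * (7 / 5 - 2 / 5 * w)) := by
        have : w * √w * w ≤ w ^ 2 := by nlinarith [mul_nonneg h0 h0]
        nlinarith [mul_nonneg e5 (sq_nonneg w)]
    _ ≤ w * √w * ((2 - w) * √(2 - w)) :=
        mul_le_mul_of_nonneg_left (mul_le_mul_of_nonneg_left e2 (by linarith)) e5
    _ = _ := by ring

/-- the orbit of a set -/
def orb (G : Type*) [Group G] [Fintype G] [MulAction G X] (B : Finset X) : Finset (Finset X) :=
  univ.image fun g : G => g • B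

theorem lam_le {H : Finset X} {p : ℝ} (hp : 0 < p)
    (hs : ∀ B ⊆ H, B ≠ ∅ → 1 / 2 ≤ #(orb G B) * p ^ #B) {μ : Finset X → ℝ} {Λ : ℝ}
    (hμ : Adm H μ) (hμ0 : μ ∅ = 0) (hμ1 : ∑ U, μ U = 1)
    (heq : -log p * sz μ - kd G μ + bon μ = Λ * sz μ)
    (hopt : ∀ ν, Adm H ν → ν ∅ = 0 → -log p * sz ν - kd G ν + bon ν ≤ Λ * sz ν) : Λ ≤ 30 := by
  set L := -log p with hL
  set ν2 : Finset X × Finset X → ℝ := fun x => μ x.1 * μ x.2 with hν2
  have n0 : ∀ x, 0 ≤ ν2 x := fun x => mul_nonneg (hμ.1 _) (hμ.1 _)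
  have n1 : ∑ x, ν2 x = 1 := by
    simp only [hν2, Fintype.sum_prod_type, ← mul_sum, hμ1, mul_one]
  have nH : ∀ x, ν2 x ≠ 0 → x.1 ⊆ H ∧ x.2 ⊆ H := fun x hx =>
    ⟨hμ.2 _ (left_ne_zero_of_mul hx), hμ.2 _ (right_ne_zero_of_mul hx)⟩
  set ρ := law ν2 fun x => (x.1, x.1 ∩ x.2) with hρ
  set α := law ν2 fun x => x.1 ∩ x.2 with hα
  set V := law ν2 fun x => x.1 ∪ x.2 with hV
  have ρ0 : ∀ x, 0 ≤ ρ x := law_nonneg n0 _
  have α0 : ∀ x, 0 ≤ α x := law_nonneg n0 _
  have ρα : law ρ Prod.snd = α := law_law _ _ _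
  have ρμ : law ρ Prod.fst = μ := by
    rw [hρ, law_law]
    ext U
    simp [law_eq, hν2, Fintype.sum_prod_type, ← mul_sum, hμ1]
  -- loads
  have lα : ∀ e, ld α e = ld μ e ^ 2 := fun e => by
    have := sum_law_mul ν2 (fun x => x.1 ∩ x.2) (fun U => if e ∈ U then 1 else 0)
    simp only [mul_ite, mul_one, mul_zero] at this
    rw [ld, this, ld, sq, sum_mul_sum, Fintype.sum_prod_type]
    refine sum_congr rfl fun U _ => sum_congr rfl fun U' _ => ?_
    by_cases h1 : e ∈ U <;> by_cases h2 : e ∈ U' <;> simp [h1, h2, hν2]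
  have lV : ∀ e, ld V e = 2 * ld μ e - ld μ e ^ 2 := fun e => by
    have := sum_law_mul ν2 (fun x => x.1 ∪ x.2) (fun U => if e ∈ U then 1 else 0)
    simp only [mul_ite, mul_one, mul_zero] at this
    have e2 : 2 * ld μ e - ld μ e ^ 2 =
        ld μ e * (∑ U, μ U) + (∑ U, μ U) * ld μ e - ld μ e * ld μ e := by rw [hμ1]; ring
    rw [ld, this, e2, ld, sum_mul_sum, sum_mul_sum, sum_mul_sum, Fintype.sum_prod_type,
      ← sum_add_distrib, ← sum_sub_distrib]
    refine sum_congr rfl fun U _ => ?_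
    rw [← sum_add_distrib, ← sum_sub_distrib]
    refine sum_congr rfl fun U' _ => ?_
    by_cases h1 : e ∈ U <;> by_cases h2 : e ∈ U' <;> simp [h1, h2, hν2]
  have l1 : ∀ e, ld μ e ≤ 1 := fun e => hμ1 ▸ sum_le_sum fun U _ => by
    split_ifs <;> simp [hμ.1]
  set a := sz α with ha
  have a1 : a = ∑ e, ld μ e ^ 2 := by simp only [ha, sz_eq, lα]
  have szV : sz V = 2 * sz μ - a := by
    simp only [a1, sz_eq, lV, sum_sub_distrib, mul_sum]
  have bV : 14 / 5 * bon μ - 11 / 5 * a ≤ bon V := by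
    have hV1 : ∑ U, V U = 1 := by rw [hV, sum_law, n1]
    simp only [a1, bon, bon1, lV, hμ1, hV1, div_one, mul_sum, ← sum_sub_distrib]
    exact sum_le_sum fun e _ => bon_double (ld_nonneg hμ.1 e) (l1 e)
  have apos : 0 < a := by
    obtain ⟨U, _, hU⟩ := exists_ne_zero_of_sum_ne_zero (hμ1.trans_ne one_ne_zero)
    obtain ⟨e, he⟩ : U.Nonempty := nonempty_iff_ne_empty.2 fun h => hU (h ▸ hμ0)
    rw [a1]
    refine sum_pos' (fun _ _ => sq_nonneg _) ⟨e, mem_univ _, pow_pos ?_ 2⟩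
    refine sum_pos' (fun U _ => by split_ifs <;> simp [hμ.1]) ⟨U, mem_univ _, ?_⟩
    rw [if_pos he]
    exact (hμ.1 U).lt_of_ne' hU
  -- doubling
  have oV := hopt V ⟨law_nonneg n0 _, fun U hU => by
    obtain ⟨x, hx, rfl⟩ := exists_of_law_ne hU
    exact union_subset (nH x hx).1 (nH x hx).2⟩ (by
    by_contra h
    obtain ⟨x, hx, h2⟩ := exists_of_law_ne h
    rw [union_eq_empty] at h2
    exact left_ne_zero_of_mul hx (h2.1 ▸ hμ0))
  have d1 : kd G V ≤ kd G ν2 := kd_law_le n0 fun g x => by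
    simp [smul_finset_union]
  have eq1 : ∀ (g : G) (x : Finset X × Finset X), (g • x).1 ∩ (g • x).2 = g • (x.1 ∩ x.2) :=
    fun g x => by simp [smul_finset_inter]
  have d2 : ent (sym G ν2) + ent (sym G α) ≤ 2 * ent (sym G ρ) := by
    have := submod (sym_nonneg (G := G) n0) (fun x => (x.1, x.1 ∩ x.2)) (fun x => (x.2, x.1 ∩ x.2))
      (fun x => x.1 ∩ x.2) Prod.snd Prod.snd (fun _ => rfl) (fun _ => rfl)
    rw [ent_law_congr _ (g := fun x => x) (fun x x' => by
      constructor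
      · intro h
        simp only [Prod.mk.injEq] at h
        exact Prod.ext h.1.1 h.2.1
      · rintro rfl
        rfl), law_id, ← sym_law ν2 eq1, ← sym_law ν2 (fun g x => by rw [eq1]; rfl),
      ← sym_law ν2 (fun g x => by rw [eq1]; rfl)] at this
    have e : (law ν2 fun x => (x.2, x.1 ∩ x.2)) = ρ := by
      ext b
      rw [hρ, law_eq, law_eq, ← Equiv.sum_comp (Equiv.prodComm _ _)]
      simp [hν2, mul_comm, inter_comm]
    rw [e] at this
    linarith
  have d3 : ent ν2 = ent μ + ent μ := ent_prod hμ1 hμ1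
  -- sparseness
  have s1 : a * (L - log 2) ≤ ent (sym G α) := by
    rw [ent_eq, sum_sym_mul α (φ := fun y => log (sym G α y)) (fun g y => by rw [sym_smul]),
      ha, sz, sum_mul, ← sum_neg_distrib]
    refine sum_le_sum fun B _ => ?_
    by_cases hB : α B = 0
    · simp [hB]
    rw [mul_assoc, ← mul_neg]
    refine mul_le_mul_of_nonneg_left ?_ (α0 B)
    have hpos := sym_pos (G := G) α0 hB
    have hle : #(orb G B) * sym G α B ≤ 1 := by
      rw [← nsmul_eq_mul, ← sum_const, ← n1, ← sum_law ν2 (fun x => x.1 ∩ x.2),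
        ← sum_sym (G := G)]
      refine le_trans (le_of_eq (sum_congr rfl fun B' hB' => ?_))
        (sum_le_sum_of_subset_of_nonneg (subset_univ _) fun _ _ _ => sym_nonneg α0 _)
      obtain ⟨g, _, rfl⟩ := mem_image.1 hB'
      rw [sym_smul]
    by_cases hB0 : B = ∅
    · have : (1 : ℝ) ≤ #(orb G B) := by
        exact_mod_cast card_pos.2 (univ_nonempty.image _)
      have : log (sym G α B) ≤ 0 := log_nonpos hpos.le (by nlinarith)
      rw [hB0] at this ⊢
      simpa using this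
    · obtain ⟨x, hx, hxB⟩ := exists_of_law_ne hB
      have h1 := hs B (hxB ▸ inter_subset_left.trans (nH x hx).1) hB0
      have h2 : sym G α B ≤ 2 * p ^ #B := by
        have : 0 < p ^ #B := by positivity
        nlinarith
      have h3 := log_le_log hpos h2
      rw [log_mul two_ne_zero (by positivity), log_pow] at h3
      have h4 : (1 : ℝ) ≤ #B := by exact_mod_cast card_pos.2 (nonempty_iff_ne_empty.2 hB0)
      have h5 : 0 < log 2 := log_pos one_lt_two
      rw [hL]
      nlinarith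
  -- the decoy
  set k : Finset X × Finset X → ℝ := fun x => sym G ρ x / sym G μ x.1 with hk
  set ρ' : Finset X × Finset X → ℝ := fun x => μ x.1 * k x with hρ'
  have ρ'0 : ∀ x, 0 ≤ ρ' x := fun x =>
    mul_nonneg (hμ.1 _) (div_nonneg (sym_nonneg ρ0 _) (sym_nonneg hμ.1 _))
  have m1 : law (sym G ρ) Prod.fst = sym G μ := by
    rw [← sym_law ρ (fun g x => rfl), ρμ]
  have m2 : ∀ U, ∑ B, sym G ρ (U, B) = sym G μ U := fun U => by
    rw [← m1, law_fst]
  have m3 : law ρ' Prod.fst = μ := by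
    ext U
    have : law ρ' Prod.fst U = μ U * (sym G μ U / sym G μ U) := by
      conv_rhs => rw [← mul_div_assoc]; enter [1, 2]; rw [← m2]
      simp [law_eq, Fintype.sum_prod_type, hρ', hk, mul_sum, sum_div, mul_div_assoc]
    rw [this]
    by_cases h : μ U = 0
    · simp [h]
    · rw [div_self (sym_pos hμ.1 h).ne', mul_one]
  have m4 : sym G ρ' = sym G ρ := by
    ext x
    have e1 : sym G ρ' x = sym G μ x.1 * k x := by
      have : ∀ g : G, k (g • x) = k x := fun g => by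
        simp only [hk, sym_smul, Prod.smul_fst]
      simp only [hρ']
      conv_lhs => rw [sym]
      simp only [this, ← sum_mul, Prod.smul_fst]
      rw [sym]
      ring
    rw [e1, hk]
    by_cases h : sym G μ x.1 = 0
    · have := le_law (sym_nonneg (G := G) ρ0) Prod.fst x
      rw [m1, h] at this
      rw [h, zero_mul]
      exact le_antisymm (sym_nonneg ρ0 _) this
    · field_simp
  have ρ's : ∀ x, ρ' x ≠ 0 → x.2 ⊆ x.1 := fun x hx => by
    have h1 : sym G ρ x ≠ 0 := fun h => hx (by simp [hρ', hk, h])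
    obtain ⟨g, _, hg⟩ := exists_ne_zero_of_sum_ne_zero (div_ne_zero_iff.1 h1).1
    obtain ⟨y, _, hy⟩ := exists_of_law_ne hg
    have h2 : (g • x).2 ⊆ (g • x).1 := hy ▸ inter_subset_left
    simpa using h2
  have ρ'1 : ∑ x, ρ' x = 1 := by rw [← sum_law ρ' Prod.fst, m3, hμ1]
  have ρ'H : ∀ x, ρ' x ≠ 0 → μ x.1 ≠ 0 := fun x hx => left_ne_zero_of_mul hx
  have k1 : kd G ρ' = kd G μ := by
    rw [kd_eq, kd_eq, m4, ← m3, sum_law_mul ρ' Prod.fst, m3]
    refine sum_congr rfl fun x _ => ?_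
    by_cases hx : ρ' x = 0
    · simp [hx]
    · have h1 : sym G ρ x ≠ 0 := fun h => hx (by simp [hρ', hk, h])
      have h2 := ρ'H x hx
      congr 1
      simp only [hρ', hk]
      rw [log_mul h2 (right_ne_zero_of_mul hx), log_div h1 (sym_pos hμ.1 h2).ne']
      ring
  set α' := law ρ' Prod.snd with hα'
  have m5 : sym G α' = sym G α := by
    rw [hα', sym_law ρ' (fun g x => rfl), m4, ← sym_law ρ (fun g x => rfl), ρα]
  have m6 : sz α' = a := by
    rw [ha, sz, sz, ← sum_sym_mul (G := G) α' (fun g y => by rw [card_smul_finset]), m5,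
      sum_sym_mul (G := G) α (fun g y => by rw [card_smul_finset])]
  have oα := opt_empty hopt (ν := α') ⟨law_nonneg ρ'0 _, fun U hU => by
    obtain ⟨x, hx, rfl⟩ := exists_of_law_ne hU
    exact (ρ's x hx).trans (hμ.2 _ (ρ'H x hx))⟩
  -- conditioning
  have hD : ∀ P, ∑ m, bon (slice ρ' P m) ≤ bon μ + (ent μ + ent α' - ent ρ') := by
    intro P
    have sl0 : ∀ m U, 0 ≤ slice ρ' P m U := fun m U => law_nonneg ρ'0 _ _
    have sl1 : ∀ m U, slice ρ' P m U ≠ 0 → μ U ≠ 0 := fun m U h => by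
      obtain ⟨x, hx, h2⟩ := exists_of_law_ne h
      exact (Prod.mk.inj h2).1 ▸ ρ'H x hx
    have c1 := sum_le_sum fun m (_ : m ∈ univ) => hopt (slice ρ' P m)
      ⟨sl0 m, fun U hU => hμ.2 U (sl1 m U hU)⟩ (by_contra fun h => sl1 m _ h hμ0)
    have c2 : ∀ U, ∑ m, slice ρ' P m U = μ U := fun U => by
      have : law (cut ρ' P) Prod.fst = μ := by rw [cut, law_law]; exact m3
      rw [← this, law_fst]
      rfl
    have c3 : ∑ m, sz (slice ρ' P m) = sz μ := by
      simp only [sz]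
      rw [sum_comm]
      simp only [← sum_mul, c2]
    have c4 : ∑ m, ent (slice ρ' P m) = ent (cut ρ' P) := by
      simp only [ent, slice, Fintype.sum_prod_type]
      rw [sum_comm]
    have c5 : ∑ m, ent (sym G (slice ρ' P m)) ≤
        ent (sym G μ) + ent (law ρ' fun x => x.2 ∩ P) := by
      set τ : Finset X × Finset X → ℝ := fun x => sym G (slice ρ' P x.2) x.1 with hτ
      have t1 : law τ Prod.fst = sym G μ := by
        ext U
        simp only [law_eq, Fintype.sum_prod_type, hτ]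
        rw [sum_comm]
        simp only [sum_ite_eq', mem_univ, if_true, sym, ← sum_div]
        rw [sum_comm]
        simp only [c2]
      have t2 : law τ Prod.snd = law ρ' fun x => x.2 ∩ P := by
        ext m
        simp only [law_eq, Fintype.sum_prod_type, hτ, sum_ite_eq', mem_univ, if_true, sum_sym]
        simpa [Fintype.sum_prod_type] using sum_slice_mul ρ' P m (fun _ => 1)
      have := subadd (ν := τ) (fun x => sym_nonneg (sl0 _) _) (by
        rw [← sum_law τ Prod.fst, t1, sum_sym, hμ1]) Prod.fst Prod.snd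
      rw [t1, t2, law_id] at this
      refine le_trans (le_of_eq ?_) this
      simp only [ent, hτ, Fintype.sum_prod_type]
      rw [sum_comm]
    have c6 := submod ρ'0 (fun x => (x.1, x.2 ∩ P)) Prod.snd (fun x => x.2 ∩ P) Prod.snd
      (fun B => B ∩ P) (fun _ => rfl) (fun _ => rfl)
    rw [ent_law_congr _ (g := fun x => x) (fun x x' => by
      constructor
      · intro h
        simp only [Prod.mk.injEq] at h
        exact Prod.ext h.1.1 h.2
      · rintro rfl
        rfl), law_id] at c6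
    simp only [kd, sum_add_distrib, sum_sub_distrib, ← mul_sum, c3, c4] at c1
    rw [kd] at heq
    rw [cut] at c1
    linarith
  have pb := pot_bound ρ'0 ρ's (ξ := 8) (by norm_num) hD
  have p1 : pot ρ' univ = 3 / 2 * ent ρ' - 1 / 2 * ent α' := by
    simp only [pot, cut, inter_univ, Prod.mk.eta, law_id]
    rfl
  have p2 : pot ρ' ∅ = 3 / 2 * ent μ := by
    have e1 : ent (law ρ' fun x => x.2 ∩ ∅) = 0 := by
      rw [ent_law_congr _ (g := fun _ => ()) (by simp)]
      simp [ent, law_eq, ρ'1]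
    rw [pot, e1, cut, ent_law_congr _ (g := Prod.fst) (by simp), m3]
    ring
  have p3 : ∑ x, ρ' x * #x.2 = a := by
    rw [← m6, sz, hα', sum_law_mul]
  have p4 : log 8 ≤ 21 / 10 := by
    rw [show (8 : ℝ) = 2 ^ 3 by norm_num, log_pow]
    have := log_two_lt_d9
    push_cast
    linarith
  have p5 : log 2 ≤ 7 / 10 := by linarith [log_two_lt_d9]
  rw [p1, p2, p3] at pb
  rw [m6, kd, m5] at oα
  rw [kd, kd, m4] at k1
  rw [szV] at oV
  rw [kd, kd, d3] at d1
  rw [kd] at heq oV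
  have b0 := bon_nonneg hμ.1
  have q1 := mul_le_mul_of_nonneg_left p4 apos.le
  have q2 := mul_le_mul_of_nonneg_left p5 apos.le
  refine le_of_mul_le_mul_right ?_ apos
  linarith

theorem spread {H : Finset X} {p : ℝ} (hp : 0 < p)
    (hs : ∀ B ⊆ H, B ≠ ∅ → 1 / 2 ≤ #(orb G B) * p ^ #B) (S : Finset X) :
    (#{g : G | g • S ⊆ H} : ℝ) ≤ Fintype.card G * (exp 30 * p) ^ #S := by
  have hG : (0 : ℝ) < Fintype.card G := by exact_mod_cast Fintype.card_pos
  by_cases hS : S = ∅
  · simp [hS]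
  by_cases hc : #{g : G | g • S ⊆ H} = 0
  · rw [hc, Nat.cast_zero]
    positivity
  obtain ⟨g0, hg0⟩ := card_pos.1 (Nat.pos_of_ne_zero hc)
  have hg1 : g0 • S ⊆ H := (mem_filter.1 hg0).2
  have hH : H.Nonempty := (Nonempty.smul_finset (nonempty_iff_ne_empty.2 hS)).mono hg1
  obtain ⟨μ, Λ, h1, h2, h3, h4, h5⟩ := exists_opt (G := G) hH (-log p)
  have hΛ := lam_le hp hs h1 h2 h3 h4 h5
  set ν : Finset X → ℝ := fun B => if B ∈ orb G S ∧ B ⊆ H then 1 else 0 with hν
  have k := opt_empty h5 (ν := ν) ⟨fun B => by simp only [hν]; split_ifs <;> norm_num,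
    fun B hB => by
      by_contra h
      simp [hν, h] at hB⟩
  set θ : ℝ := #{g : G | g • S ⊆ H} / Fintype.card G with hθ
  have θ0 : 0 < θ := div_pos (by exact_mod_cast Nat.pos_of_ne_zero hc) hG
  have e1 : sym G ν S = θ := by
    simp [sym, hν, hθ, orb]
  set t := ∑ B, ν B
  have t0 : 0 < t := sum_pos' (fun B _ => by simp only [hν]; split_ifs <;> norm_num)
    ⟨g0 • S, mem_univ _, by simp [hν, hg1, orb]⟩
  have e2 : sz ν = t * #S := by
    rw [sz, sum_mul]
    refine sum_congr rfl fun B _ => ?_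
    simp only [hν]
    split_ifs with h
    · obtain ⟨g, _, rfl⟩ := mem_image.1 h.1
      rw [card_smul_finset]
    · simp
  have e3 : kd G ν = t * -log θ := by
    rw [kd_eq, sum_mul]
    refine sum_congr rfl fun B _ => ?_
    by_cases h : B ∈ orb G S ∧ B ⊆ H
    · obtain ⟨g, _, rfl⟩ := mem_image.1 h.1
      rw [sym_smul, e1]
      simp [hν, h]
    · simp [hν, h]
  rw [e2, e3] at k
  have k2 : log θ ≤ #S * (30 + log p) := by
    refine le_of_mul_le_mul_left ?_ t0
    have : Λ * (t * #S) ≤ 30 * (t * #S) := mul_le_mul_of_nonneg_right hΛ (by positivity)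
    linarith
  rw [← div_le_iff₀' hG, ← log_le_log_iff θ0 (by positivity), log_pow,
    log_mul (exp_pos _).ne' hp.ne', log_exp]
  exact k2

end Crest.Agent.H1.Ent
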