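import Mathlib

set_option autoImplicit false

open MeasureTheory Set Filter Topology Real

namespace Crest.Agent.H1.ExpTrunc

/-- indicator of the negative half-line -/
noncomputable def step (z : ℝ) : ℝ := if z < 0 then 1 else 0

/-- the Gamma(2) density extended by zero -/
noncomputable def wt (y : ℝ) : ℝ := max y 0 * exp (-y)

noncomputable def target : ℝ := 4 / 9 * exp (-1 / 3)

lemma step_meas : Measurable step := by
  unfold step
  exact Measurable.ite measurableSet_Iio measurable_const measurable_const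

lemma step_nonneg (z : ℝ) : 0 ≤ step z := by unfold step; split_ifs <;> norm_num
lemma step_le_one (z : ℝ) : step z ≤ 1 := by unfold step; split_ifs <;> norm_num

lemma wt_cont : Continuous wt := by unfold wt; fun_prop
lemma wt_nonneg (y : ℝ) : 0 ≤ wt y := by unfold wt; positivity
lemma wt_of_nonneg {y : ℝ} (hy : 0 ≤ y) : wt y = y * exp (-y) := by simp [wt, max_eq_left hy]
lemma wt_of_nonpos {y : ℝ} (hy : y ≤ 0) : wt y = 0 := by simp [wt, max_eq_right hy]

lemma wt_le_one (y : ℝ) : wt y ≤ 1 := by
  rcases le_total y 0 with h | h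
  · rw [wt_of_nonpos h]; norm_num
  · rw [wt_of_nonneg h, exp_neg, ← div_eq_mul_inv, div_le_one (exp_pos _)]
    linarith [add_one_le_exp y]

lemma wt_mono {a b : ℝ} (hab : a ≤ b) (hb : b ≤ 1) : wt a ≤ wt b := by
  rcases le_total a 0 with h | h
  · rw [wt_of_nonpos h]; exact wt_nonneg _
  · rw [wt_of_nonneg h, wt_of_nonneg (h.trans hab)]
    have h1 : exp (-b) = exp (-a) * exp (-(b - a)) := by rw [← exp_add]; ring_nf
    have h2 : 1 - (b - a) ≤ exp (-(b - a)) := by linarith [add_one_le_exp (-(b - a))]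
    have h3 : a ≤ b * exp (-(b - a)) := by nlinarith
    rw [h1]
    nlinarith [exp_pos (-a)]

lemma wt_anti {a b : ℝ} (ha : 1 ≤ a) (hab : a ≤ b) : wt b ≤ wt a := by
  rw [wt_of_nonneg (by linarith), wt_of_nonneg (by linarith)]
  have h1 : exp (-a) = exp (-b) * exp (b - a) := by rw [← exp_add]; ring_nf
  have h2 : (b - a) + 1 ≤ exp (b - a) := add_one_le_exp _
  have h3 : b ≤ a * exp (b - a) := by nlinarith
  rw [h1]
  nlinarith [exp_pos (-b)]

lemma tendsto_lin_exp {k : ℝ} (hk : 0 < k) (a b : ℝ) :
    Tendsto (fun y : ℝ => (a * y + b) * exp (-k * y)) atTop (𝓝 0) := by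
  have h0 : Tendsto (fun y : ℝ => k * y) atTop atTop := tendsto_id.const_mul_atTop hk
  have h1 := (tendsto_pow_mul_exp_neg_atTop_nhds_zero 1).comp h0
  have h2 := (tendsto_pow_mul_exp_neg_atTop_nhds_zero 0).comp h0
  have h3 := (h1.const_mul (a / k)).add (h2.const_mul b)
  simp only [mul_zero, add_zero] at h3
  refine h3.congr fun y => ?_
  simp only [Function.comp, pow_one, pow_zero, one_mul, neg_mul]
  field_simp

lemma hasDeriv_lin_exp {k : ℝ} (hk : 0 < k) (y : ℝ) :
    HasDerivAt (fun y : ℝ => (-(1 / k) * y + -(1 / k ^ 2)) * exp (-k * y)) (y * exp (-k * y)) y := by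
  have h1 : HasDerivAt (fun y : ℝ => -(1 / k) * y + -(1 / k ^ 2)) (-(1 / k)) y := by
    simpa using ((hasDerivAt_id y).const_mul (-(1 / k))).add_const (-(1 / k ^ 2))
  have h2 : HasDerivAt (fun y : ℝ => exp (-k * y)) (exp (-k * y) * (-k)) y := by
    simpa using ((hasDerivAt_id y).const_mul (-k)).exp
  have h3 := h1.mul h2
  have e : y * exp (-k * y) =
      -(1 / k) * exp (-k * y) + (-(1 / k) * y + -(1 / k ^ 2)) * (exp (-k * y) * (-k)) := by
    field_simp
    ring
  rw [e]
  exact h3

lemma integrableOn_lin_exp {k : ℝ} (hk : 0 < k) {s : ℝ} (hs : 0 ≤ s) :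
    IntegrableOn (fun y : ℝ => y * exp (-k * y)) (Ioi s) := by
  refine integrableOn_Ioi_deriv_of_nonneg' (fun y _ => hasDeriv_lin_exp hk y) ?_
    (tendsto_lin_exp hk _ _)
  intro y hy
  have : 0 ≤ y := hs.trans (le_of_lt hy)
  positivity

lemma integral_lin_exp {k : ℝ} (hk : 0 < k) {s : ℝ} (hs : 0 ≤ s) :
    ∫ y in Ioi s, y * exp (-k * y) = (s / k + 1 / k ^ 2) * exp (-k * s) := by
  rw [integral_Ioi_of_hasDerivAt_of_tendsto' (fun y _ => hasDeriv_lin_exp hk y)
    (integrableOn_lin_exp hk hs) (tendsto_lin_exp hk _ _)]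
  ring

lemma wt_eq_indicator : wt = (Ioi (0 : ℝ)).indicator (fun y => y * exp (-1 * y)) := by
  funext y
  by_cases h : y ∈ Ioi (0 : ℝ)
  · rw [indicator_of_mem h, wt_of_nonneg (le_of_lt h)]; simp
  · rw [indicator_of_notMem h, wt_of_nonpos (not_lt.mp h)]

lemma wt_integrable : Integrable wt := by
  rw [wt_eq_indicator]
  exact (integrableOn_lin_exp one_pos le_rfl).integrable_indicator measurableSet_Ioi

lemma wt_integral_Ioi {s : ℝ} (hs : 0 ≤ s) : ∫ y in Ioi s, wt y = (s + 1) * exp (-s) := by
  rw [setIntegral_congr_fun measurableSet_Ioi (g := fun y => y * exp (-1 * y))]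
  · rw [integral_lin_exp one_pos hs]; simp
  · intro y hy
    simp only
    rw [wt_of_nonneg (hs.trans (le_of_lt hy))]; simp

lemma wt_integral : ∫ y, wt y = 1 := by
  rw [wt_eq_indicator, integral_indicator measurableSet_Ioi, integral_lin_exp one_pos le_rfl]
  simp

lemma wt_mul_integrable {H : ℝ → ℝ} (hH : Measurable H) (h0 : ∀ z, 0 ≤ H z) (h1 : ∀ z, H z ≤ 1) :
    Integrable (fun z => wt z * H z) := by
  refine Integrable.mono' wt_integrable (wt_cont.measurable.mul hH).aestronglyMeasurable ?_
  refine Eventually.of_forall fun z => ?_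
  rw [Real.norm_eq_abs, abs_of_nonneg (mul_nonneg (wt_nonneg _) (h0 _))]
  nlinarith [wt_nonneg z, h1 z]

/-- shifting the step function -/
lemma step_shift (s : ℝ) :
    Integrable (fun z => step (z - s) - step z) ∧ ∫ z, (step (z - s) - step z) = s ∧
      ∫ z, |step (z - s) - step z| = |s| := by
  rcases le_total 0 s with h | h
  · have e : (fun z => step (z - s) - step z) = (Ico (0 : ℝ) s).indicator (fun _ => (1 : ℝ)) := by
      funext z
      simp only [step, indicator, mem_Ico]
      split_ifs <;> first | (exfalso; grind) | norm_num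
    have e2 : (fun z => |step (z - s) - step z|) = (Ico (0 : ℝ) s).indicator (fun _ => (1 : ℝ)) := by
      funext z
      rw [congrFun e z]
      simp only [indicator]
      split_ifs <;> norm_num
    refine ⟨?_, ?_, ?_⟩
    · rw [e]; exact (integrableOn_const (by simp)).integrable_indicator measurableSet_Ico
    · rw [e, integral_indicator measurableSet_Ico]; simp [h]
    · rw [e2, integral_indicator measurableSet_Ico]; simp [h, abs_of_nonneg h]
  · have e : (fun z => step (z - s) - step z) = (Ico s (0 : ℝ)).indicator (fun _ => (-1 : ℝ)) := by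
      funext z
      simp only [step, indicator, mem_Ico]
      split_ifs <;> first | (exfalso; grind) | norm_num
    have e2 : (fun z => |step (z - s) - step z|) = (Ico s (0 : ℝ)).indicator (fun _ => (1 : ℝ)) := by
      funext z
      rw [congrFun e z]
      simp only [indicator]
      split_ifs <;> norm_num
    refine ⟨?_, ?_, ?_⟩
    · rw [e]; exact (integrableOn_const (by simp)).integrable_indicator measurableSet_Ico
    · rw [e, integral_indicator measurableSet_Ico]; simp [h]
    · rw [e2, integral_indicator measurableSet_Ico]; simp [h, abs_of_nonpos h]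

/-- `H` has "mean" `m` as a survival function -/
def HasMean (H : ℝ → ℝ) (m : ℝ) : Prop :=
  Integrable (fun z => H z - step z) ∧ ∫ z, (H z - step z) = m

lemma HasMean.shift {H : ℝ → ℝ} {m : ℝ} (h : HasMean H m) (s : ℝ) :
    HasMean (fun z => H (z - s)) (m + s) ∧
      ∫ z, |H (z - s) - step z| ≤ (∫ z, |H z - step z|) + |s| := by
  have h1 : Integrable (fun z => H (z - s) - step (z - s)) := h.1.comp_sub_right s
  have h2 : ∫ z, (H (z - s) - step (z - s)) = m := by
    rw [integral_sub_right_eq_self (fun z => H z - step z) s]; exact h.2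
  have h3 : ∫ z, |H (z - s) - step (z - s)| = ∫ z, |H z - step z| :=
    integral_sub_right_eq_self (fun z => |H z - step z|) s
  obtain ⟨h4, h5, h6⟩ := step_shift s
  have e : (fun z => H (z - s) - step z) =
      fun z => (H (z - s) - step (z - s)) + (step (z - s) - step z) := by
    funext z; ring
  refine ⟨⟨?_, ?_⟩, ?_⟩
  · rw [e]; exact h1.add h4
  · simp only
    rw [e, integral_add h1 h4, h2, h5]
  · rw [← h3, ← h6, ← integral_add h1.abs h4.abs]
    refine integral_mono ?_ (h1.abs.add h4.abs) fun z => ?_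
    · have := (h1.add h4).abs
      refine this.congr (Eventually.of_forall fun z => ?_)
      simp
    · simp only
      rw [congrFun e z]
      exact abs_add_le _ _

/-- the shifted exponential survival function with rate `β` and mean `m` -/
noncomputable def hs (β m y : ℝ) : ℝ := min 1 (exp (-1 - β * (y - m)))

lemma hs_pos (β m y : ℝ) : 0 < hs β m y := lt_min one_pos (exp_pos _)
lemma hs_le_one (β m y : ℝ) : hs β m y ≤ 1 := min_le_left _ _
lemma hs_cont (β m : ℝ) : Continuous (hs β m) := by unfold hs; fun_prop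

lemma hs_hasMean {β : ℝ} (hβ : 0 < β) (m : ℝ) : HasMean (hs β m) m := by
  have h0 : HasMean (fun z => min 1 (exp (-β * z))) (1 / β) := by
    have e : (fun z => min 1 (exp (-β * z)) - step z) =
        (Ici (0 : ℝ)).indicator (fun z => exp (-β * z)) := by
      funext z
      simp only [step, indicator, mem_Ici]
      split_ifs with h1 h2 h2
      · exfalso; linarith
      · rw [min_eq_left]; · simp
        exact one_le_exp (by nlinarith)
      · rw [min_eq_right]; · simp
        exact exp_le_one_iff.mpr (by nlinarith)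
      · exfalso; push Not at h1 h2; linarith
    have hi : IntegrableOn (fun z => exp (-β * z)) (Ici (0 : ℝ)) := by
      rw [integrableOn_Ici_iff_integrableOn_Ioi]
      exact integrableOn_exp_mul_Ioi (by linarith) 0
    refine ⟨?_, ?_⟩
    · rw [e]; exact hi.integrable_indicator measurableSet_Ici
    · rw [e, integral_indicator measurableSet_Ici, integral_Ici_eq_integral_Ioi,
        integral_exp_mul_Ioi (by linarith) 0]
      simp
  have h1 := (h0.shift (m - 1 / β)).1
  have e1 : 1 / β + (m - 1 / β) = m := by ring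
  rw [e1] at h1
  convert h1 using 1
  funext z
  simp only [hs]
  congr 2
  field_simp
  ring

lemma target_le : target ≤ 8 / 25 := by
  unfold target
  have h1 : 25 / 18 ≤ exp (1 / 3 : ℝ) := by
    have := Real.quadratic_le_exp_of_nonneg (x := 1 / 3) (by norm_num)
    linarith
  have h2 : exp (-1 / 3 : ℝ) = (exp (1 / 3))⁻¹ := by rw [← exp_neg]; norm_num
  have h3 : (exp (1 / 3 : ℝ))⁻¹ ≤ (25 / 18)⁻¹ := inv_anti₀ (by norm_num) h1
  rw [h2]
  linarith [show ((25 : ℝ) / 18)⁻¹ = 18 / 25 by norm_num]

lemma cubic_le_exp {s : ℝ} (hs : 0 ≤ s) : 1 + s + s ^ 2 / 2 + s ^ 3 / 6 ≤ exp s := by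
  have := Real.sum_le_exp_of_nonneg hs 4
  simp only [Finset.sum_range_succ, Finset.sum_range_zero, Nat.factorial] at this
  norm_num at this
  linarith

lemma poly_ineq {c : ℝ} (h0 : 0 ≤ c) (h1 : c ≤ 4 / 3) :
    (7 / 3 + 7 * c / 3 - c ^ 2) * exp (-(4 / 3 - c)) ≤ 17 / 25 * (1 + c) ^ 2 := by
  set s := 4 / 3 - c with hs
  have hs0 : 0 ≤ s := by linarith
  have h2 := cubic_le_exp hs0
  rw [exp_neg, ← div_eq_mul_inv, div_le_iff₀ (exp_pos _)]
  have h3 : 7 / 3 + 7 * c / 3 - c ^ 2 ≤
      17 / 25 * (1 + c) ^ 2 * (1 + s + s ^ 2 / 2 + s ^ 3 / 6) := by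
    have hc : c = 4 / 3 - s := by linarith
    have hs1 : s ≤ 4 / 3 := by linarith
    rw [hc]
    nlinarith [mul_nonneg hs0 (sub_nonneg.mpr hs1), mul_nonneg (mul_nonneg hs0 hs0) (sub_nonneg.mpr hs1),
      mul_nonneg (mul_nonneg (mul_nonneg hs0 hs0) hs0) (sub_nonneg.mpr hs1), sq_nonneg (s - 1 / 2),
      mul_nonneg hs0 (sq_nonneg (s - 1)), mul_nonneg (mul_nonneg hs0 hs0) (sq_nonneg (s - 1)),
      mul_nonneg (mul_nonneg (mul_nonneg hs0 hs0) hs0) (sq_nonneg (s - 1))]
  have h4 : 0 ≤ 17 / 25 * (1 + c) ^ 2 := by positivity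
  nlinarith

lemma hs_lower {β : ℝ} (hβ : 0 ≤ β) : target ≤ ∫ y, wt y * hs β (4 / 3) y := by
  rcases le_or_gt β (3 / 4) with h | h
  · have e : (fun y => wt y * hs β (4 / 3) y) =
        (Ioi (0 : ℝ)).indicator (fun y => exp (-1 + β * (4 / 3)) * (y * exp (-(1 + β) * y))) := by
      funext y
      by_cases hy : y ∈ Ioi (0 : ℝ)
      · rw [indicator_of_mem hy, wt_of_nonneg (le_of_lt hy), hs, min_eq_right]
        · rw [mul_assoc, ← exp_add, mul_left_comm, ← exp_add]; congr 2; ring
        · have : 0 < y := hy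
          exact exp_le_one_iff.mpr (by nlinarith)
      · rw [indicator_of_notMem hy, wt_of_nonpos (not_lt.mp hy), zero_mul]
    rw [e, integral_indicator measurableSet_Ioi, integral_const_mul,
      integral_lin_exp (by linarith) le_rfl]
    simp only [zero_div, zero_add, mul_zero, exp_zero, mul_one]
    unfold target
    have h1 : exp (-1 + β * (4 / 3)) = exp (-1 / 3) * exp (2 / 3 * (β - 1 / 2)) ^ 2 := by
      rw [← exp_nat_mul, ← exp_add]; congr 1; push_cast; ring
    have h2 : 2 / 3 * (1 + β) ≤ exp (2 / 3 * (β - 1 / 2)) := by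
      linarith [add_one_le_exp (2 / 3 * (β - 1 / 2))]
    have h3 : (2 / 3 * (1 + β)) ^ 2 ≤ exp (2 / 3 * (β - 1 / 2)) ^ 2 :=
      pow_le_pow_left₀ (by positivity) h2 2
    rw [h1, mul_one_div, le_div_iff₀ (by positivity)]
    nlinarith [exp_pos (-1 / 3 : ℝ)]
  · have hβ0 : 0 < β := by linarith
    set c := 1 / β with hc
    have hc0 : 0 < c := by positivity
    have hc1 : c ≤ 4 / 3 := by
      rw [hc, div_le_iff₀ hβ0]; linarith
    set s := 4 / 3 - c with hsdef
    have hs0 : 0 ≤ s := by linarith
    have hβc : β * c = 1 := by rw [hc]; field_simp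
    have e : (fun y => wt y * hs β (4 / 3) y) = fun y => wt y -
        (Ioi s).indicator (fun y => y * exp (-1 * y) - exp (β * s) * (y * exp (-(1 + β) * y))) y := by
      funext y
      by_cases hy : y ∈ Ioi s
      · have hy' : s < y := hy
        rw [indicator_of_mem hy, wt_of_nonneg (by linarith), hs, min_eq_right]
        · have : exp (β * s) * (y * exp (-(1 + β) * y)) =
              y * exp (-y) * exp (-1 - β * (y - 4 / 3)) := by
            rw [mul_assoc, ← exp_add, mul_left_comm, ← exp_add]; congr 2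
            rw [hsdef]; nlinarith
          rw [this]; simp
        · exact exp_le_one_iff.mpr (by nlinarith)
      · have hy' : y ≤ s := not_lt.mp hy
        rw [indicator_of_notMem hy, hs, min_eq_left]
        · simp
        · exact one_le_exp (by nlinarith)
    have i1 := integrableOn_lin_exp one_pos hs0
    have i2 := (integrableOn_lin_exp (k := 1 + β) (by linarith) hs0).const_mul (exp (β * s))
    have i3 : IntegrableOn (fun y => y * exp (-1 * y) - exp (β * s) * (y * exp (-(1 + β) * y)))
      (Ioi s) := i1.sub i2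
    rw [e, integral_sub wt_integrable
      (IntegrableOn.integrable_indicator i3 measurableSet_Ioi),
      wt_integral, integral_indicator measurableSet_Ioi, integral_sub i1 i2, integral_const_mul,
      integral_lin_exp one_pos hs0, integral_lin_exp (by linarith) hs0]
    have h5 : exp (β * s) * ((s / (1 + β) + 1 / (1 + β) ^ 2) * exp (-(1 + β) * s)) =
        (s / (1 + β) + 1 / (1 + β) ^ 2) * exp (-s) := by
      rw [mul_left_comm, ← exp_add]; congr 2; ring
    rw [h5]
    have h6 : (s / 1 + 1 / 1 ^ 2) * exp (-1 * s) - (s / (1 + β) + 1 / (1 + β) ^ 2) * exp (-s) =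
        (7 / 3 + 7 * c / 3 - c ^ 2) * exp (-s) / (1 + c) ^ 2 := by
      have hb : β = 1 / c := by rw [hc]; field_simp
      rw [hb, hsdef]
      simp only [neg_mul, one_mul]
      field_simp
      ring
    rw [h6]
    have h7 := poly_ineq hc0.le hc1
    have h8 : (7 / 3 + 7 * c / 3 - c ^ 2) * exp (-s) / (1 + c) ^ 2 ≤ 17 / 25 := by
      rw [div_le_iff₀ (by positivity)]; exact h7
    linarith [target_le]

end Crest.Agent.H1.ExpTrunc
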