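import Mathlib
import Crest.Agent.H1.ExpTruncA

set_option autoImplicit false

open MeasureTheory Set Filter Topology Real

namespace Crest.Agent.H1.ExpTrunc

/-- positive log-concave survival functions with mean `m` -/
structure Good (H : ℝ → ℝ) (m : ℝ) : Prop where
  pos : ∀ z, 0 < H z
  le_one : ∀ z, H z ≤ 1
  anti : Antitone H
  conc : ConcaveOn ℝ univ (fun z => log (H z))
  mean : HasMean H m

lemma Good.cont {H : ℝ → ℝ} {m : ℝ} (h : Good H m) : Continuous H := by
  have h1 : Continuous (fun z => log (H z)) := by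
    rw [← continuousOn_univ]
    exact h.conc.continuousOn isOpen_univ
  have h2 : H = fun z => exp (log (H z)) := by
    funext z; rw [exp_log (h.pos z)]
  rw [h2]
  exact continuous_exp.comp h1

lemma three_point {f : ℝ → ℝ} (hf : ConcaveOn ℝ univ f) {x y z : ℝ} (hxy : x ≤ y) (hyz : y ≤ z) :
    (z - y) * f x + (y - x) * f z ≤ (z - x) * f y := by
  rcases eq_or_lt_of_le (hxy.trans hyz) with h | h
  · have h1 : y = x := le_antisymm (h ▸ hyz) hxy
    subst h; subst h1; simp
  have hd : 0 < z - x := by linarith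
  have h1 := hf.2 (mem_univ x) (mem_univ z)
    (show 0 ≤ (z - y) / (z - x) from div_nonneg (by linarith) hd.le)
    (show 0 ≤ (y - x) / (z - x) from div_nonneg (by linarith) hd.le) (by field_simp; ring)
  have e : ((z - y) / (z - x)) • x + ((y - x) / (z - x)) • z = y := by
    simp only [smul_eq_mul]; field_simp; ring
  rw [e] at h1
  simp only [smul_eq_mul] at h1
  have h2 := mul_le_mul_of_nonneg_left h1 hd.le
  have e2 : (z - x) * ((z - y) / (z - x) * f x + (y - x) / (z - x) * f z) =
      (z - y) * f x + (y - x) * f z := by field_simp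
  rw [e2] at h2
  exact h2

/-- secant line comparison -/
lemma secant {f : ℝ → ℝ} (hf : ConcaveOn ℝ univ f) {a b : ℝ} (hab : a < b) (y : ℝ) :
    (y ∈ Icc a b → f a - (f a - f b) / (b - a) * (y - a) ≤ f y) ∧
    (y ∉ Icc a b → f y ≤ f a - (f a - f b) / (b - a) * (y - a)) := by
  have hd : 0 < b - a := by linarith
  have e : f a - (f a - f b) / (b - a) * (y - a) = ((b - y) * f a + (y - a) * f b) / (b - a) := by
    field_simp; ring
  rw [e]
  constructor
  · intro hy
    rw [div_le_iff₀ hd]
    have := three_point hf hy.1 hy.2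
    linarith
  · intro hy
    rw [le_div_iff₀ hd]
    rcases lt_or_ge y a with h | h
    · have := three_point hf h.le hab.le
      linarith
    · have h2 : b < y := by
        by_contra h3
        exact hy ⟨h, not_lt.mp h3⟩
      have := three_point hf hab.le h2.le
      linarith

lemma HasMean.sub {H K : ℝ → ℝ} {m n : ℝ} (h : HasMean H m) (k : HasMean K n) :
    Integrable (fun z => H z - K z) ∧ ∫ z, (H z - K z) = m - n := by
  have e : (fun z => H z - K z) = fun z => (H z - step z) - (K z - step z) := by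
    funext z; ring
  rw [e]
  exact ⟨h.1.sub k.1, by rw [integral_sub h.1 k.1, h.2, k.2]⟩

lemma Good.wt_int {H : ℝ → ℝ} {m : ℝ} (h : Good H m) : Integrable (fun z => wt z * H z) :=
  wt_mul_integrable h.cont.measurable (fun z => (h.pos z).le) h.le_one

lemma hs_wt_int (β m : ℝ) : Integrable (fun z => wt z * hs β m z) :=
  wt_mul_integrable (hs_cont β m).measurable (fun z => (hs_pos β m z).le) (hs_le_one β m)

lemma caseAB {H : ℝ → ℝ} (h : Good H (4 / 3)) {a b : ℝ} (ha0 : 0 < a) (ha : a ≤ 1) (hb : 1 ≤ b)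
    (hab : a < b) (hw : wt a = wt b)
    (hD : log (H a) - (log (H a) - log (H b)) / (b - a) * (4 / 3 - a) ≤ -1) :
    target - (b - a) ≤ ∫ z, wt z * H z ∧
    (log (H a) - (log (H a) - log (H b)) / (b - a) * (4 / 3 - a) = -1 →
      target ≤ ∫ z, wt z * H z) := by
  set β := (log (H a) - log (H b)) / (b - a) with hβ
  have hd : 0 < b - a := by linarith
  have hβ0 : 0 ≤ β :=
    div_nonneg (sub_nonneg.mpr (log_le_log (h.pos b) (h.anti hab.le))) hd.le
  have hsec := secant h.conc hab
  rw [← hβ] at hsec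
  have hβp : 0 < β := by
    rcases eq_or_lt_of_le hβ0 with h0 | h0
    swap
    · exact h0
    exfalso
    have h1 := h.mean.1.measure_norm_ge_lt_top (ε := 1 - exp (-1))
      (by have := Real.exp_lt_one_iff.mpr (show (-1 : ℝ) < 0 by norm_num); linarith)
    have h2 : Iio (0 : ℝ) ⊆ {x | 1 - exp (-1) ≤ ‖H x - step x‖} := by
      intro x hx
      have hx' : x < 0 := hx
      have h3 := (hsec x).2 (fun hh => by linarith [hh.1])
      rw [← h0] at h3 hD
      have h4 : H x ≤ exp (-1) := by
        rw [← log_le_iff_le_exp (h.pos x)]; linarith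
      simp only [mem_ofPred_eq, step, if_pos hx', Real.norm_eq_abs]
      rw [abs_sub_comm]
      exact le_trans (by linarith) (le_abs_self _)
    have h3 := (measure_mono h2).trans_lt h1
    simp at h3
  set δ := (-1 - (log (H a) - β * (4 / 3 - a))) / β with hδ
  have hδ0 : 0 ≤ δ := div_nonneg (by linarith) hβ0
  have hL : ∀ y, log (H a) - β * (y - a) = -1 - β * (y - (4 / 3 - δ)) := by
    intro y
    rw [hδ]; field_simp; ring
  have hin : ∀ y, y ∈ Icc a b → hs β (4 / 3 - δ) y ≤ H y := by
    intro y hy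
    have h1 := (hsec y).1 hy
    rw [hL, le_log_iff_exp_le (h.pos y)] at h1
    exact (min_le_right _ _).trans h1
  have hout : ∀ y, y ∉ Icc a b → H y ≤ hs β (4 / 3 - δ) y := by
    intro y hy
    have h1 := (hsec y).2 hy
    rw [hL, log_le_iff_le_exp (h.pos y)] at h1
    exact le_min (h.le_one y) h1
  obtain ⟨i1, e1⟩ := h.mean.sub (hs_hasMean hβp (4 / 3 - δ))
  obtain ⟨i2, e2⟩ := (hs_hasMean hβp (4 / 3)).sub (hs_hasMean hβp (4 / 3 - δ))
  have e1' : ∫ z, (H z - hs β (4 / 3 - δ) z) = δ := by rw [e1]; ring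
  have e2' : ∫ z, (hs β (4 / 3) z - hs β (4 / 3 - δ) z) = δ := by rw [e2]; ring
  -- step 1
  have s1 : ∫ z, wt z * hs β (4 / 3 - δ) z ≤ ∫ z, wt z * H z := by
    have h1 : ∫ z, wt a * (H z - hs β (4 / 3 - δ) z) ≤
        ∫ z, (wt z * H z - wt z * hs β (4 / 3 - δ) z) := by
      refine integral_mono (i1.const_mul _) (h.wt_int.sub (hs_wt_int _ _)) fun z => ?_
      simp only
      by_cases hz : z ∈ Icc a b
      · have h2 := hin z hz
        have h3 : wt a ≤ wt z := by
          rcases le_total z 1 with h4 | h4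
          · exact wt_mono hz.1 h4
          · rw [hw]; exact wt_anti h4 hz.2
        nlinarith
      · have h2 := hout z hz
        have h3 : wt z ≤ wt a := by
          rcases lt_or_ge z a with h4 | h4
          · exact wt_mono h4.le ha
          · have h5 : b < z := by
              by_contra h6
              exact hz ⟨h4, not_lt.mp h6⟩
            rw [hw]; exact wt_anti hb h5.le
        nlinarith
    rw [integral_const_mul, e1', integral_sub h.wt_int (hs_wt_int _ _)] at h1
    nlinarith [wt_nonneg a]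
  -- step 2
  have s2 : ∫ z, wt z * hs β (4 / 3) z ≤ (∫ z, wt z * hs β (4 / 3 - δ) z) + δ := by
    have h1 : ∫ z, (wt z * hs β (4 / 3) z - wt z * hs β (4 / 3 - δ) z) ≤
        ∫ z, (hs β (4 / 3) z - hs β (4 / 3 - δ) z) := by
      refine integral_mono ((hs_wt_int _ _).sub (hs_wt_int _ _)) i2 fun z => ?_
      simp only
      have h2 : hs β (4 / 3 - δ) z ≤ hs β (4 / 3) z := by
        unfold hs
        refine min_le_min le_rfl (exp_le_exp.mpr ?_)
        nlinarith
      nlinarith [wt_le_one z, wt_nonneg z]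
    rw [e2', integral_sub (hs_wt_int _ _) (hs_wt_int _ _)] at h1
    linarith
  -- step 3
  have s3 : δ ≤ b - a := by
    have h1 : ∫ z, (H z - hs β (4 / 3 - δ) z) ≤ ∫ z, (Icc a b).indicator (fun _ => (1 : ℝ)) z := by
      refine integral_mono i1 ((integrableOn_const (by simp)).integrable_indicator
        measurableSet_Icc) fun z => ?_
      simp only
      by_cases hz : z ∈ Icc a b
      · rw [indicator_of_mem hz]
        linarith [h.le_one z, hs_pos β (4 / 3 - δ) z]
      · rw [indicator_of_notMem hz]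
        linarith [hout z hz]
    rw [e1', integral_indicator measurableSet_Icc] at h1
    simpa [hd.le, hab.le] using h1
  have s4 := hs_lower hβ0
  refine ⟨by linarith, fun h0 => ?_⟩
  have : δ = 0 := by rw [hδ, h0]; simp
  linarith

lemma caseC {H : ℝ → ℝ} {m : ℝ} (h : Good H m) {a b : ℝ} (ha0 : 0 < a) (hab : a < b)
    (hD : -1 ≤ log (H a) - (log (H a) - log (H b)) / (b - a) * (4 / 3 - a)) :
    target - (a + (b + 1) * exp (-b)) ≤ ∫ z, wt z * H z := by
  set β := (log (H a) - log (H b)) / (b - a) with hβ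
  have hd : 0 < b - a := by linarith
  have hβ0 : 0 ≤ β :=
    div_nonneg (sub_nonneg.mpr (log_le_log (h.pos b) (h.anti hab.le))) hd.le
  have hsec := secant h.conc hab
  rw [← hβ] at hsec
  have hin : ∀ y, y ∈ Icc a b → hs β (4 / 3) y ≤ H y := by
    intro y hy
    have h1 := (hsec y).1 hy
    have h2 : -1 - β * (y - 4 / 3) ≤ log (H y) := by nlinarith
    rw [le_log_iff_exp_le (h.pos y)] at h2
    exact (min_le_right _ _).trans h2
  have i1 : Integrable ((Ioo 0 a).indicator (fun _ => (1 : ℝ))) :=
    (integrableOn_const (by simp)).integrable_indicator measurableSet_Ioo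
  have i2 : Integrable ((Ioi b).indicator wt) :=
    wt_integrable.integrableOn.integrable_indicator measurableSet_Ioi
  have h1 : ∫ z, wt z * hs β (4 / 3) z ≤
      ∫ z, (wt z * H z + ((Ioo 0 a).indicator (fun _ => (1 : ℝ)) z + (Ioi b).indicator wt z)) := by
    refine integral_mono (hs_wt_int _ _) (h.wt_int.add (i1.add i2)) fun z => ?_
    simp only
    have p1 : 0 ≤ (Ioo 0 a).indicator (fun _ => (1 : ℝ)) z :=
      indicator_nonneg (fun _ _ => zero_le_one) z
    have p2 : 0 ≤ (Ioi b).indicator wt z := indicator_nonneg (fun y _ => wt_nonneg y) z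
    have p3 : 0 ≤ wt z * H z := mul_nonneg (wt_nonneg z) (h.pos z).le
    have p4 : wt z * hs β (4 / 3) z ≤ wt z := by
      nlinarith [wt_nonneg z, hs_le_one β (4 / 3) z]
    by_cases hz : z ∈ Icc a b
    · have := mul_le_mul_of_nonneg_left (hin z hz) (wt_nonneg z)
      linarith
    · rcases lt_or_ge z a with h4 | h4
      · rcases le_or_gt z 0 with h5 | h5
        · rw [wt_of_nonpos h5] at *
          linarith
        · rw [indicator_of_mem (show z ∈ Ioo 0 a from ⟨h5, h4⟩)]
          linarith [wt_le_one z]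
      · have h5 : b < z := by
          by_contra h6
          exact hz ⟨h4, not_lt.mp h6⟩
        rw [indicator_of_mem (show z ∈ Ioi b from h5)]
        linarith
  have i3 : Integrable (fun z => (Ioo 0 a).indicator (fun _ => (1 : ℝ)) z + (Ioi b).indicator wt z) :=
    i1.add i2
  rw [integral_add h.wt_int i3, integral_add i1 i2, integral_indicator measurableSet_Ioo,
    integral_indicator measurableSet_Ioi, wt_integral_Ioi (by linarith)] at h1
  have h2 : ∫ x in Ioo 0 a, (1 : ℝ) = a := by simp [ha0.le]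
  rw [h2] at h1
  linarith [hs_lower hβ0]

noncomputable def y1 (r : ℝ) : ℝ := r / (exp r - 1)

lemma exp_sub_one_pos {r : ℝ} (hr : 0 < r) : 0 < exp r - 1 := by
  linarith [add_one_le_exp r]

lemma y1_pos {r : ℝ} (hr : 0 < r) : 0 < y1 r := div_pos hr (exp_sub_one_pos hr)

lemma y1_le_one {r : ℝ} (hr : 0 < r) : y1 r ≤ 1 := by
  unfold y1
  rw [div_le_one (exp_sub_one_pos hr)]
  linarith [add_one_le_exp r]

lemma y1_add {r : ℝ} (hr : 0 < r) : y1 r + r = y1 r * exp r := by
  unfold y1
  have := exp_sub_one_pos hr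
  field_simp
  ring

lemma one_le_y2 {r : ℝ} (hr : 0 < r) : 1 ≤ y1 r + r := by
  rw [y1_add hr]
  unfold y1
  have h0 := exp_sub_one_pos hr
  rw [div_mul_eq_mul_div, le_div_iff₀ h0]
  have h1 : -r + 1 ≤ exp (-r) := add_one_le_exp _
  have h2 : exp (-r) * exp r = 1 := by rw [← exp_add]; simp
  nlinarith [exp_pos r]

lemma wt_y1 {r : ℝ} (hr : 0 < r) : wt (y1 r) = wt (y1 r + r) := by
  rw [wt_of_nonneg (y1_pos hr).le, wt_of_nonneg (by linarith [y1_pos hr])]
  have h : exp (-(y1 r + r)) * exp r = exp (-y1 r) := by rw [← exp_add]; congr 1; ring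
  rw [← h]
  have h2 := y1_add hr
  generalize exp (-(y1 r + r)) = e
  rw [h2]
  ring

lemma y1_le {r : ℝ} (hr : 0 < r) : y1 r ≤ 2 / r := by
  unfold y1
  have h := Real.quadratic_le_exp_of_nonneg hr.le
  rw [div_le_div_iff₀ (exp_sub_one_pos hr) hr]
  nlinarith

lemma tail_le {r b : ℝ} (hr : 0 < r) (hb : r ≤ b) : (b + 1) * exp (-b) ≤ 2 / r := by
  have hb0 : 0 < b := by linarith
  have h := Real.quadratic_le_exp_of_nonneg hb0.le
  rw [exp_neg, ← div_eq_mul_inv, div_le_div_iff₀ (exp_pos _) hr]
  nlinarith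

theorem main_ineq {H : ℝ → ℝ} (h : Good H (4 / 3)) : target ≤ ∫ z, wt z * H z := by
  set D : ℝ → ℝ := fun r => log (H (y1 r)) -
    (log (H (y1 r)) - log (H (y1 r + r))) / (y1 r + r - y1 r) * (4 / 3 - y1 r) with hD
  have hlog : Continuous (fun z => log (H z)) := by
    rw [← continuousOn_univ]
    exact h.conc.continuousOn isOpen_univ
  have hy1 : ContinuousOn y1 (Ioi 0) := by
    unfold y1
    exact continuousOn_id.div (by fun_prop) fun r hr => (exp_sub_one_pos hr).ne'
  have hDc : ContinuousOn D (Ioi 0) := by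
    have c1 : ContinuousOn (fun r => log (H (y1 r))) (Ioi 0) := hlog.comp_continuousOn hy1
    have c2 : ContinuousOn (fun r => log (H (y1 r + r))) (Ioi 0) :=
      hlog.comp_continuousOn (hy1.add continuousOn_id)
    refine c1.sub (((c1.sub c2).div ((hy1.add continuousOn_id).sub hy1) ?_).mul
      (continuousOn_const.sub hy1))
    intro r hr
    have : 0 < r := hr
    simp only [add_sub_cancel_left]
    exact this.ne'
  have hAB : ∀ r, 0 < r → D r ≤ -1 →
      target - r ≤ ∫ z, wt z * H z ∧ (D r = -1 → target ≤ ∫ z, wt z * H z) := by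
    intro r hr hDr
    have := caseAB h (y1_pos hr) (y1_le_one hr) (one_le_y2 hr) (by linarith) (wt_y1 hr) hDr
    simp only [add_sub_cancel_left] at this
    simpa only [hD, add_sub_cancel_left] using this
  have hC : ∀ r, 0 < r → -1 ≤ D r → target - 4 / r ≤ ∫ z, wt z * H z := by
    intro r hr hDr
    have h1 := caseC h (y1_pos hr) (show y1 r < y1 r + r by linarith) hDr
    have h2 := y1_le hr
    have h3 := tail_le hr (show r ≤ y1 r + r by linarith [y1_pos hr])
    have : 4 / r = 2 / r + 2 / r := by ring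
    linarith
  refine le_of_forall_pos_le_add fun ε hε => ?_
  set r1 := max ε (4 / ε) with hr1
  have hr1p : 0 < r1 := lt_max_of_lt_left hε
  rcases le_total (D ε) (-1) with h0 | h0
  · linarith [(hAB ε hε h0).1]
  rcases le_total (-1) (D r1) with h1 | h1
  · have h2 := hC r1 hr1p h1
    have h3 : 4 / r1 ≤ ε := by
      rw [div_le_iff₀ hr1p]
      have : 4 / ε ≤ r1 := le_max_right _ _
      rw [div_le_iff₀ hε] at this
      linarith
    linarith
  · have hsub : Icc ε r1 ⊆ Ioi 0 := fun x hx => lt_of_lt_of_le hε hx.1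
    obtain ⟨r, hr, hr'⟩ := intermediate_value_Icc' (le_max_left ε (4 / ε)) (hDc.mono hsub) ⟨h1, h0⟩
    have := (hAB r (hsub hr) hr'.le).2 hr'
    linarith

end Crest.Agent.H1.ExpTrunc
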