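import Mathlib
import Crest.Agent.H1.ExpTruncB

set_option autoImplicit false

open MeasureTheory Set Filter Topology Real

namespace Crest.Agent.H1.ExpTrunc

lemma shift_Ioi (f : ℝ → ℝ) (t : ℝ) : ∫ x in Ioi t, f x = ∫ v in Ioi 0, f (t + v) := by
  have := (measurePreserving_add_left (volume : Measure ℝ) t).setIntegral_preimage_emb
    (measurableEmbedding_addLeft t) f (Ioi t)
  rw [← this]
  simp

lemma shift_Ioi_int {f : ℝ → ℝ} {t : ℝ} (hf : IntegrableOn f (Ioi t)) :
    IntegrableOn (fun v => f (t + v)) (Ioi 0) := by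
  have := ((measurePreserving_add_left (volume : Measure ℝ) t).integrableOn_comp_preimage
    (measurableEmbedding_addLeft t) (f := f) (s := Ioi t)).mpr hf
  simpa [Function.comp_def] using this

lemma wright {f : ℝ → ℝ} (hf : ConcaveOn ℝ univ f) {x y v : ℝ} (hxy : x ≤ y) (hv : 0 ≤ v) :
    f x + f (y + v) ≤ f y + f (x + v) := by
  rcases eq_or_lt_of_le hv with h | h
  · subst h; simp [add_comm]
  have h1 := three_point hf hxy (show y ≤ y + v by linarith)
  have h2 := three_point hf (show x ≤ x + v by linarith) (show x + v ≤ y + v by linarith)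
  have hd : 0 < y + v - x := by linarith
  have h3 : (y + v - x) * (f x + f (y + v)) ≤ (y + v - x) * (f y + f (x + v)) := by nlinarith
  exact le_of_mul_le_mul_left h3 hd

lemma tail_logconcave {f : ℝ → ℝ} (hc : Continuous f) (hp : ∀ x, 0 < f x)
    (hl : ConcaveOn ℝ univ (fun x => log (f x))) (hi : ∀ t, IntegrableOn f (Ioi t)) :
    (∀ t, 0 < ∫ x in Ioi t, f x) ∧ ConcaveOn ℝ univ (fun t => log (∫ x in Ioi t, f x)) := by
  have hpos : ∀ t, 0 < ∫ x in Ioi t, f x := by
    intro t
    rw [setIntegral_pos_iff_support_of_nonneg_ae (Eventually.of_forall fun x => (hp x).le) (hi t)]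
    have : Function.support f = univ := by
      ext x; simp [(hp x).ne']
    rw [this]; simp
  refine ⟨hpos, ?_⟩
  have hder : ∀ t, HasDerivAt (fun t => ∫ x in Ioi t, f x) (-f t) t := by
    intro t
    have e : (fun t => ∫ x in Ioi t, f x) = fun t => (∫ x in Ioi 0, f x) - ∫ x in (0 : ℝ)..t, f x := by
      funext t
      rw [← intervalIntegral.integral_interval_add_Ioi (hi 0) (hi t)]; ring
    rw [e]
    exact (intervalIntegral.integral_hasDerivAt_right (hc.intervalIntegrable 0 t)
      hc.stronglyMeasurable.stronglyMeasurableAtFilter hc.continuousAt).const_sub _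
  have hder2 : ∀ t, HasDerivAt (fun t => log (∫ x in Ioi t, f x))
      (-f t / ∫ x in Ioi t, f x) t := fun t => (hder t).log (hpos t).ne'
  refine Antitone.concaveOn_univ_of_deriv (fun t => (hder2 t).differentiableAt) ?_
  intro x y hxy
  rw [(hder2 x).deriv, (hder2 y).deriv, div_le_div_iff₀ (hpos y) (hpos x)]
  have key : f x * ∫ v in Ioi y, f v ≤ f y * ∫ v in Ioi x, f v := by
    rw [shift_Ioi f y, shift_Ioi f x, ← integral_const_mul, ← integral_const_mul]
    refine setIntegral_mono_on ((shift_Ioi_int (hi y)).const_mul _)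
      ((shift_Ioi_int (hi x)).const_mul _) measurableSet_Ioi fun v hv => ?_
    have h1 := wright hl hxy (le_of_lt hv)
    rw [← log_mul (hp _).ne' (hp _).ne', ← log_mul (hp _).ne' (hp _).ne',
      log_le_log_iff (mul_pos (hp _) (hp _)) (mul_pos (hp _) (hp _))] at h1
    exact h1
  linarith

/-- convolution with a scaled exponential variable -/
noncomputable def Q (c : ℝ) (H : ℝ → ℝ) (z : ℝ) : ℝ := ∫ x in Ioi 0, H (z - c * x) * exp (-x)

lemma exp_neg_int : IntegrableOn (fun x : ℝ => exp (-x)) (Ioi 0) := by
  simpa using integrableOn_exp_mul_Ioi (a := -1) (by norm_num) 0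

lemma exp_neg_integral : ∫ x in Ioi (0 : ℝ), exp (-x) = 1 := by
  simpa using integral_exp_mul_Ioi (a := -1) (by norm_num) 0

lemma bdd_mul_exp_int {u : ℝ → ℝ} (hu : Measurable u) (hb : ∀ x, |u x| ≤ 1) (t : ℝ) :
    IntegrableOn (fun x => u x * exp (-x)) (Ioi t) := by
  have h0 : IntegrableOn (fun x : ℝ => exp (-x)) (Ioi t) := by
    simpa using integrableOn_exp_mul_Ioi (a := -1) (by norm_num) t
  refine Integrable.mono' h0 (by fun_prop) (Eventually.of_forall fun x => ?_)
  rw [Real.norm_eq_abs, abs_mul, abs_of_pos (exp_pos _)]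
  nlinarith [hb x, exp_pos (-x)]

lemma Q_hasMean {H : ℝ → ℝ} {m : ℝ} (hm : Measurable H) (hb : ∀ x, |H x| ≤ 1) (h : HasMean H m)
    (c : ℝ) : HasMean (Q c H) (m + c) := by
  set F : ℝ → ℝ → ℝ := fun z x => (H (z - c * x) - step z) * exp (-x) with hF
  have hFm : Measurable (Function.uncurry F) := by
    have h1 : Measurable (fun p : ℝ × ℝ => H (p.1 - c * p.2)) := hm.comp (by fun_prop)
    have h2 : Measurable (fun p : ℝ × ℝ => step p.1) := step_meas.comp measurable_fst
    exact (h1.sub h2).mul (by fun_prop)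
  have hint : Integrable (Function.uncurry F) (volume.prod (volume.restrict (Ioi (0 : ℝ)))) := by
    rw [integrable_prod_iff' hFm.aestronglyMeasurable]
    refine ⟨Eventually.of_forall fun x => ?_, ?_⟩
    · exact (h.shift (c * x)).1.1.mul_const (exp (-x))
    · have hg : IntegrableOn (fun x : ℝ => (∫ z, |H z - step z|) * exp (-x) +
          |c| * (x * exp (-1 * x))) (Ioi 0) :=
        (exp_neg_int.const_mul _).add ((integrableOn_lin_exp one_pos le_rfl).const_mul _)
      refine Integrable.mono' hg ?_ ?_
      · exact (hFm.norm.stronglyMeasurable.integral_prod_left).aestronglyMeasurable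
      · refine (ae_restrict_iff' measurableSet_Ioi).mpr (Eventually.of_forall fun x hx => ?_)
        have hx' : 0 < x := hx
        have h1 := (h.shift (c * x)).2
        simp only [Function.uncurry, hF, Real.norm_eq_abs, abs_mul, abs_of_pos (exp_pos _)]
        rw [integral_mul_const, abs_of_nonneg (mul_nonneg (integral_nonneg fun z => abs_nonneg _)
          (exp_pos _).le)]
        rw [abs_mul, abs_of_pos hx'] at h1
        simp only [neg_mul, one_mul]
        nlinarith [exp_pos (-x)]
  have e : (fun z => Q c H z - step z) = fun z => ∫ x in Ioi 0, F z x := by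
    funext z
    have i1 : IntegrableOn (fun x => H (z - c * x) * exp (-x)) (Ioi 0) :=
      bdd_mul_exp_int (hm.comp (by fun_prop)) (fun x => hb _) 0
    have : (fun x => F z x) = fun x => H (z - c * x) * exp (-x) - step z * exp (-x) := by
      funext x; simp only [hF]; ring
    rw [this, integral_sub i1 (exp_neg_int.const_mul _), integral_const_mul, exp_neg_integral]
    simp [Q]
  refine ⟨?_, ?_⟩
  · rw [e]; exact hint.integral_prod_left
  · rw [e, integral_integral_swap hint]
    have h2 : ∀ x, ∫ z, F z x = m * exp (-x) + c * (x * exp (-1 * x)) := by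
      intro x
      simp only [hF]
      rw [integral_mul_const, (h.shift (c * x)).1.2]
      simp only [neg_mul, one_mul]; ring
    simp only [h2]
    rw [integral_add (exp_neg_int.const_mul _) ((integrableOn_lin_exp one_pos le_rfl).const_mul _),
      integral_const_mul, integral_const_mul, exp_neg_integral, integral_lin_exp one_pos le_rfl]
    simp

lemma Good.abs_le {H : ℝ → ℝ} {m : ℝ} (h : Good H m) (x : ℝ) : |H x| ≤ 1 := by
  rw [abs_of_pos (h.pos x)]; exact h.le_one x

lemma Good.Q {H : ℝ → ℝ} {m : ℝ} (h : Good H m) (c : ℝ) : Good (Q c H) (m + c) := by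
  have hi : ∀ z, IntegrableOn (fun x => H (z - c * x) * exp (-x)) (Ioi 0) := fun z =>
    bdd_mul_exp_int (h.cont.measurable.comp (by fun_prop)) (fun x => h.abs_le _) 0
  have hpos : ∀ z, 0 < ExpTrunc.Q c H z := by
    intro z
    unfold ExpTrunc.Q
    rw [setIntegral_pos_iff_support_of_nonneg_ae
      (Eventually.of_forall fun x => (mul_pos (h.pos _) (exp_pos _)).le) (hi z)]
    have : Function.support (fun x => H (z - c * x) * exp (-x)) = univ := by
      ext x; simp [(h.pos _).ne']
    rw [this]; simp
  refine ⟨hpos, ?_, ?_, ?_, Q_hasMean h.cont.measurable h.abs_le h.mean c⟩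
  · intro z
    rw [← exp_neg_integral]
    refine setIntegral_mono_on (hi z) exp_neg_int measurableSet_Ioi fun x _ => ?_
    nlinarith [h.le_one (z - c * x), exp_pos (-x)]
  · intro y z hyz
    refine setIntegral_mono_on (hi z) (hi y) measurableSet_Ioi fun x _ => ?_
    exact mul_le_mul_of_nonneg_right (h.anti (by linarith)) (exp_pos _).le
  · rcases eq_or_ne c 0 with hc | hc
    · have : ExpTrunc.Q c H = H := by
        funext z
        simp only [ExpTrunc.Q, hc, zero_mul, sub_zero]
        rw [integral_const_mul, exp_neg_integral, mul_one]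
      rw [this]; exact h.conc
    set f : ℝ → ℝ := fun v => H (-c * v) * exp (-v) with hf
    have hfc : Continuous f := (h.cont.comp (by fun_prop)).mul (by fun_prop)
    have hfp : ∀ x, 0 < f x := fun x => mul_pos (h.pos _) (exp_pos _)
    have hfi : ∀ t, IntegrableOn f (Ioi t) := fun t =>
      bdd_mul_exp_int (h.cont.measurable.comp (by fun_prop)) (fun x => h.abs_le _) t
    have hfl : ConcaveOn ℝ univ (fun x => log (f x)) := by
      refine ⟨convex_univ, fun x _ y _ a b ha hb hab => ?_⟩
      have h1 := h.conc.2 (mem_univ (-c * x)) (mem_univ (-c * y)) ha hb hab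
      simp only [hf, smul_eq_mul, log_mul (h.pos _).ne' (exp_pos _).ne', log_exp] at h1 ⊢
      have e : -c * (a * x + b * y) = a * (-c * x) + b * (-c * y) := by ring
      rw [e]
      linarith
    obtain ⟨hTp, hTc⟩ := tail_logconcave hfc hfp hfl hfi
    have e : ∀ z, ExpTrunc.Q c H z = exp (-z / c) * ∫ x in Ioi (-z / c), f x := by
      intro z
      rw [shift_Ioi f, ← integral_const_mul]
      unfold ExpTrunc.Q
      congr 1
      funext x
      simp only [hf]
      have e1 : -c * (-z / c + x) = z - c * x := by field_simp; ring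
      rw [e1, mul_left_comm, ← exp_add]
      congr 2; ring
    refine ⟨convex_univ, fun x _ y _ a b ha hb hab => ?_⟩
    have h1 := hTc.2 (mem_univ (-x / c)) (mem_univ (-y / c)) ha hb hab
    simp only [e, smul_eq_mul, log_mul (exp_pos _).ne' (hTp _).ne', log_exp] at h1 ⊢
    have e2 : -(a * x + b * y) / c = a * (-x / c) + b * (-y / c) := by ring
    rw [e2]
    linarith

lemma Good.shift {H : ℝ → ℝ} {m : ℝ} (h : Good H m) (s : ℝ) : Good (fun z => H (z - s)) (m + s) := by
  refine ⟨fun z => h.pos _, fun z => h.le_one _, fun x y hxy => h.anti (by linarith), ?_,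
    (h.mean.shift s).1⟩
  refine ⟨convex_univ, fun x _ y _ a b ha hb hab => ?_⟩
  have h1 := h.conc.2 (mem_univ (x - s)) (mem_univ (y - s)) ha hb hab
  simp only [smul_eq_mul] at h1 ⊢
  have e : a * x + b * y - s = a * (x - s) + b * (y - s) := by
    have : s = (a + b) * s := by rw [hab, one_mul]
    linarith
  rw [e]
  exact h1

lemma hs_good {β : ℝ} (hβ : 0 < β) (m : ℝ) : Good (hs β m) m := by
  refine ⟨hs_pos β m, hs_le_one β m, ?_, ?_, hs_hasMean hβ m⟩
  · intro x y hxy
    exact min_le_min le_rfl (exp_le_exp.mpr (by nlinarith))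
  · have e : ∀ z, log (hs β m z) = min 0 (-1 - β * (z - m)) := by
      intro z
      unfold hs
      rcases le_total 0 (-1 - β * (z - m)) with h | h
      · rw [min_eq_left (one_le_exp h), min_eq_left h, log_one]
      · rw [min_eq_right (exp_le_one_iff.mpr h), min_eq_right h, log_exp]
    refine ⟨convex_univ, fun x _ y _ a b ha hb hab => ?_⟩
    simp only [e, smul_eq_mul]
    have h1 := min_le_left 0 (-1 - β * (x - m))
    have h2 := min_le_right 0 (-1 - β * (x - m))
    have h3 := min_le_left 0 (-1 - β * (y - m))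
    have h4 := min_le_right 0 (-1 - β * (y - m))
    refine le_min (by nlinarith) ?_
    have e2 : -1 - β * (a * x + b * y - m) = a * (-1 - β * (x - m)) + b * (-1 - β * (y - m)) := by
      have hb' : b = 1 - a := by linarith
      rw [hb']; ring
    rw [e2]
    nlinarith

lemma Q_step {c : ℝ} (hc : 0 < c) : Q c step = hs (1 / c) c := by
  funext z
  have e : ∀ x ∈ Ioi (0 : ℝ), step (z - c * x) * exp (-x) =
      (Ioi (z / c)).indicator (fun x => exp (-1 * x)) x := by
    intro x _
    simp only [step, indicator, mem_Ioi, div_lt_iff₀ hc]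
    split_ifs with h1 h2 h2
    · simp
    · exfalso; linarith
    · exfalso; linarith
    · simp
  unfold Q
  rw [setIntegral_congr_fun measurableSet_Ioi e, setIntegral_indicator measurableSet_Ioi,
    Ioi_inter_Ioi, integral_exp_mul_Ioi (by norm_num)]
  have e2 : -1 - 1 / c * (z - c) = -(z / c) := by field_simp; ring
  unfold hs
  rw [e2]
  rcases le_total 0 (z / c) with h | h
  · rw [sup_eq_right.mpr h, min_eq_right (exp_le_one_iff.mpr (by linarith))]; simp
  · rw [sup_eq_left.mpr h, min_eq_left (one_le_exp (by linarith))]; simp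

/-- the functional -/
noncomputable def Phi (H : ℝ → ℝ) (s : ℝ) : ℝ := ∫ z, wt z * H (z - s)

/-- averaging operator -/
noncomputable def P (c : ℝ) (u : ℝ → ℝ) (s : ℝ) : ℝ := ∫ x in Ioi 0, u (s + c * x) * exp (-x)

lemma Phi_meas {H : ℝ → ℝ} (hm : Measurable H) : Measurable (Phi H) := by
  have h1 : Measurable (Function.uncurry fun z s : ℝ => wt z * H (z - s)) :=
    (wt_cont.measurable.comp measurable_fst).mul (hm.comp (by fun_prop))
  exact (h1.stronglyMeasurable.integral_prod_left).measurable

lemma Phi_abs_le {H : ℝ → ℝ} (hm : Measurable H) (h0 : ∀ z, 0 ≤ H z) (h1 : ∀ z, H z ≤ 1) (s : ℝ) :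
    |Phi H s| ≤ 1 := by
  unfold Phi
  rw [abs_of_nonneg (integral_nonneg fun z => mul_nonneg (wt_nonneg _) (h0 _)), ← wt_integral]
  refine integral_mono (wt_mul_integrable (hm.comp (by fun_prop)) (fun z => h0 _) fun z => h1 _)
    wt_integrable fun z => ?_
  simp only
  nlinarith [wt_nonneg z, h1 (z - s)]

lemma P_Phi {H : ℝ → ℝ} (hm : Measurable H) (hb : ∀ z, |H z| ≤ 1) (c : ℝ) :
    P c (Phi H) = Phi (Q c H) := by
  funext s
  set F : ℝ → ℝ → ℝ := fun z x => wt z * (H (z - s - c * x) * exp (-x)) with hF
  have hFm : Measurable (Function.uncurry F) :=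
    (wt_cont.measurable.comp measurable_fst).mul ((hm.comp (by fun_prop)).mul (by fun_prop))
  have hint : Integrable (Function.uncurry F) (volume.prod (volume.restrict (Ioi (0 : ℝ)))) := by
    refine Integrable.mono' (wt_integrable.mul_prod exp_neg_int) hFm.aestronglyMeasurable
      (Eventually.of_forall fun p => ?_)
    simp only [Function.uncurry, hF, Real.norm_eq_abs, abs_mul, abs_of_pos (exp_pos _),
      abs_of_nonneg (wt_nonneg _)]
    refine mul_le_mul_of_nonneg_left ?_ (wt_nonneg _)
    nlinarith [hb (p.1 - s - c * p.2), exp_pos (-p.2)]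
  have e1 : Phi (Q c H) s = ∫ z, ∫ x in Ioi 0, F z x := by
    unfold Phi Q
    congr 1
    funext z
    rw [← integral_const_mul]
  rw [e1, integral_integral_swap hint]
  unfold P Phi
  congr 1
  funext x
  rw [← integral_mul_const]
  congr 1
  funext z
  simp only [hF]
  rw [show z - (s + c * x) = z - s - c * x by ring]
  ring

lemma Good.Phi_ge {H : ℝ → ℝ} {m : ℝ} (h : Good H m) {s : ℝ} (hs : m + s = 4 / 3) :
    target ≤ Phi H s := by
  have := h.shift s
  rw [hs] at this
  exact main_ineq this

end Crest.Agent.H1.ExpTrunc
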