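import Mathlib
import Crest.Prelude.Def_TruncExpWeight
import Crest.Agent.H1.ExpTruncC

set_option autoImplicit false

open MeasureTheory Set Filter Topology Real

namespace Crest.Agent.H1.ExpTrunc

noncomputable abbrev orth (n : ℕ) : Measure (Fin n → ℝ) :=
  Measure.pi fun _ : Fin n => (volume : Measure ℝ).restrict (Ioi 0)

noncomputable def En (n : ℕ) (a : Fin n → ℝ) (u : ℝ → ℝ) (s : ℝ) : ℝ :=
  ∫ x, u (s + ∑ i, a i * x i) * exp (-∑ i, x i) ∂(orth n)

lemma exp_sum_eq (n : ℕ) (x : Fin n → ℝ) : exp (-∑ i, x i) = ∏ i, exp (-x i) := by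
  rw [← Finset.sum_neg_distrib, exp_sum]

lemma orth_exp_int (n : ℕ) : Integrable (fun x : Fin n → ℝ => exp (-∑ i, x i)) (orth n) := by
  simp only [exp_sum_eq]
  exact Integrable.fintype_prod (f := fun _ x => exp (-x)) fun _ => exp_neg_int

lemma orth_exp_integral (n : ℕ) : ∫ x, exp (-∑ i, x i) ∂(orth n) = 1 := by
  simp only [exp_sum_eq]
  rw [integral_fintype_prod_eq_prod (f := fun _ x => exp (-x)), exp_neg_integral]
  simp

lemma En_int (n : ℕ) (a : Fin n → ℝ) {u : ℝ → ℝ} (hu : Measurable u) (hb : ∀ x, |u x| ≤ 1)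
    (s : ℝ) : Integrable (fun x => u (s + ∑ i, a i * x i) * exp (-∑ i, x i)) (orth n) := by
  refine Integrable.mono' (orth_exp_int n) ?_ (Eventually.of_forall fun x => ?_)
  · exact ((hu.comp (by fun_prop)).mul (by fun_prop)).aestronglyMeasurable
  · rw [Real.norm_eq_abs, abs_mul, abs_of_pos (exp_pos _)]
    nlinarith [hb (s + ∑ i, a i * x i), exp_pos (-∑ i, x i)]

lemma En_succ (n : ℕ) (a : Fin (n + 1) → ℝ) {u : ℝ → ℝ} (hu : Measurable u) (hb : ∀ x, |u x| ≤ 1)
    (s : ℝ) (i : Fin (n + 1)) :
    En (n + 1) a u s = En n (fun j => a (i.succAbove j)) (P (a i) u) s := by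
  have hmp := (measurePreserving_piFinSuccAbove
    (fun _ : Fin (n + 1) => (volume : Measure ℝ).restrict (Ioi 0)) i).symm
  have hint := (hmp.integrable_comp_emb (MeasurableEquiv.measurableEmbedding _)).mpr
    (En_int (n + 1) a hu hb s)
  unfold En
  rw [← hmp.integral_comp']
  have e : ∀ p : ℝ × (Fin n → ℝ),
      u (s + ∑ j, a j * ((MeasurableEquiv.piFinSuccAbove (fun _ => ℝ) i).symm p) j) *
        exp (-∑ j, ((MeasurableEquiv.piFinSuccAbove (fun _ => ℝ) i).symm p) j) =
      u (s + ∑ j, a (i.succAbove j) * p.2 j + a i * p.1) * exp (-p.1) * exp (-∑ j, p.2 j) := by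
    intro p
    rw [Fin.sum_univ_succAbove _ i, Fin.sum_univ_succAbove _ i]
    simp only [MeasurableEquiv.piFinSuccAbove_symm_apply, Fin.insertNthEquiv, Equiv.coe_fn_mk,
      Fin.insertNth_apply_same, Fin.insertNth_apply_succAbove]
    rw [mul_assoc, ← exp_add]
    congr 2 <;> ring
  simp only [Function.comp_def, e] at hint
  simp only [e]
  rw [integral_prod_symm _ hint]
  congr 1
  funext y
  simp only [P]
  rw [integral_mul_const]

lemma En_zero (a : Fin 0 → ℝ) (u : ℝ → ℝ) (s : ℝ) : En 0 a u s = u s := by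
  simp [En, orth, measureReal_def]

lemma En_Phi_ge (n : ℕ) : ∀ (a : Fin n → ℝ) (H : ℝ → ℝ) (m s : ℝ), Good H m →
    m + s + ∑ i, a i = 4 / 3 → target ≤ En n a (Phi H) s := by
  induction n with
  | zero =>
    intro a H m s h hs
    rw [En_zero]
    exact h.Phi_ge (by simpa using hs)
  | succ n ih =>
    intro a H m s h hs
    rw [En_succ n a (Phi_meas h.cont.measurable)
      (Phi_abs_le h.cont.measurable (fun z => (h.pos z).le) h.le_one) s 0,
      P_Phi h.cont.measurable h.abs_le]
    refine ih _ _ _ s (h.Q (a 0)) ?_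
    rw [Fin.sum_univ_succAbove _ 0] at hs
    linarith

lemma step_abs_le (z : ℝ) : |step z| ≤ 1 := by
  rw [abs_of_nonneg (step_nonneg z)]; exact step_le_one z

lemma Phi_step (s : ℝ) : Phi step s = 1 - Crest.AlgGeometry.truncExpWeight s := by
  unfold Phi Crest.AlgGeometry.truncExpWeight
  split_ifs with h
  · have : (fun z => wt z * step (z - s)) = fun _ => 0 := by
      funext z
      rcases le_or_gt z 0 with h1 | h1
      · rw [wt_of_nonpos h1, zero_mul]
      · simp only [step]
        rw [if_neg (by linarith), mul_zero]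
    rw [this]; simp
  · push Not at h
    have : (fun z => wt z * step (z - s)) = fun z => wt z - (Ici s).indicator wt z := by
      funext z
      simp only [step, indicator, mem_Ici]
      split_ifs with h1 h2 h2
      · exfalso; linarith
      · simp
      · simp
      · exfalso; push Not at h1 h2; linarith
    rw [this, integral_sub wt_integrable
      (wt_integrable.integrableOn.integrable_indicator measurableSet_Ici), wt_integral,
      integral_indicator measurableSet_Ici, integral_Ici_eq_integral_Ioi, wt_integral_Ioi h.le]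
    ring

lemma En_g (n : ℕ) (a : Fin n → ℝ) (s : ℝ) :
    ∫ x in Set.pi Set.univ (fun _ : Fin n => Set.Ioi (0 : ℝ)),
      Crest.AlgGeometry.truncExpWeight (s + ∑ i, a i * x i) * Real.exp (-∑ i, x i) =
    1 - En n a (Phi step) s := by
  rw [volume_pi, Measure.restrict_pi_pi, ← orth_exp_integral n]
  unfold En
  rw [← integral_sub (orth_exp_int n) (En_int n a (Phi_meas step_meas)
    (Phi_abs_le step_meas step_nonneg step_le_one) s)]
  congr 1
  funext x
  rw [Phi_step]; ring

lemma upper (N : ℕ) (a : Fin N → ℝ) (ha : ∑ i, a i = 0) : target ≤ En N a (Phi step) (4 / 3) := by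
  by_cases h : ∃ i, 0 < a i
  · obtain ⟨i, hi⟩ := h
    cases N with
    | zero => exact i.elim0
    | succ n =>
      rw [En_succ n a (Phi_meas step_meas) (Phi_abs_le step_meas step_nonneg step_le_one) _ i,
        P_Phi step_meas step_abs_le, Q_step hi]
      refine En_Phi_ge n _ _ (a i) _ (hs_good (by positivity) _) ?_
      rw [Fin.sum_univ_succAbove _ i] at ha
      linarith
  · push Not at h
    have h0 : ∀ i, a i = 0 := fun i =>
      (Finset.sum_eq_zero_iff_of_nonpos fun j _ => h j).mp ha i (Finset.mem_univ i)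
    unfold En
    simp only [h0, zero_mul, Finset.sum_const_zero, add_zero]
    rw [integral_const_mul, orth_exp_integral, Phi_step, mul_one]
    unfold Crest.AlgGeometry.truncExpWeight
    rw [if_neg (by norm_num)]
    have h1 := poly_ineq (c := 0) le_rfl (by norm_num)
    have h2 := target_le
    norm_num at h1 ⊢
    linarith

lemma Phi_hs_le (s : ℝ) : Phi (hs (1 / 2) 2) s ≤ 4 / 9 * exp (s / 2) := by
  have e : ∫ z, (Ioi (0 : ℝ)).indicator (fun z => exp (s / 2) * (z * exp (-(3 / 2) * z))) z =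
      4 / 9 * exp (s / 2) := by
    rw [integral_indicator measurableSet_Ioi, integral_const_mul,
      integral_lin_exp (by norm_num) le_rfl]
    simp only [zero_div, zero_add, mul_zero, exp_zero]
    ring
  rw [← e]
  unfold Phi
  refine integral_mono (wt_mul_integrable (((hs_cont _ _).comp (by fun_prop)).measurable)
    (fun z => (hs_pos _ _ _).le) fun z => hs_le_one _ _ _) ?_ fun z => ?_
  · exact IntegrableOn.integrable_indicator
      ((integrableOn_lin_exp (by norm_num) le_rfl).const_mul _) measurableSet_Ioi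
  · simp only
    by_cases hz : z ∈ Ioi (0 : ℝ)
    · have hz' : 0 < z := hz
      rw [indicator_of_mem hz, wt_of_nonneg hz'.le]
      have h1 : hs (1 / 2) 2 (z - s) ≤ exp (-1 - 1 / 2 * (z - s - 2)) := min_le_right _ _
      have h2 : exp (s / 2) * (z * exp (-(3 / 2) * z)) =
          z * exp (-z) * exp (-1 - 1 / 2 * (z - s - 2)) := by
        rw [mul_left_comm, ← exp_add, mul_assoc, ← exp_add]; congr 2; ring
      rw [h2]
      exact mul_le_mul_of_nonneg_left h1 (by positivity)
    · rw [indicator_of_notMem hz, wt_of_nonpos (not_lt.mp hz), zero_mul]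

lemma lower (n : ℕ) (hn : 0 < n) :
    En (n + 1) (Fin.cons 2 fun _ => -2 / n) (Phi step) (4 / 3) ≤
      4 / 9 * exp (2 / 3) * ((1 + 1 / (n : ℝ)) ^ n)⁻¹ := by
  rw [En_succ n _ (Phi_meas step_meas) (Phi_abs_le step_meas step_nonneg step_le_one) _ 0,
    P_Phi step_meas step_abs_le]
  simp only [Fin.cons_zero, Fin.zero_succAbove, Fin.cons_succ]
  rw [Q_step (by norm_num)]
  have hn' : (0 : ℝ) < n := by exact_mod_cast hn
  have hk : -(1 + 1 / (n : ℝ)) < 0 := by
    have : 0 < 1 / (n : ℝ) := by positivity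
    linarith
  have i1 : Integrable (fun x : Fin n → ℝ => ∏ i, exp (-(1 + 1 / (n : ℝ)) * x i)) (orth n) :=
    Integrable.fintype_prod (f := fun _ x => exp (-(1 + 1 / (n : ℝ)) * x))
      fun _ => integrableOn_exp_mul_Ioi hk 0
  have e1 : ∫ x, ∏ i, exp (-(1 + 1 / (n : ℝ)) * x i) ∂(orth n) = ((1 + 1 / (n : ℝ)) ^ n)⁻¹ := by
    rw [integral_fintype_prod_eq_prod (f := fun _ x => exp (-(1 + 1 / (n : ℝ)) * x)),
      integral_exp_mul_Ioi hk 0]
    simp only [mul_zero, exp_zero, Finset.prod_const, Finset.card_univ, Fintype.card_fin]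
    rw [neg_div_neg_eq, one_div, inv_pow]
  rw [← e1, ← integral_const_mul]
  unfold En
  have hg := hs_good (β := 1 / 2) (by norm_num) 2
  refine integral_mono (En_int n _ (Phi_meas hg.cont.measurable)
    (Phi_abs_le hg.cont.measurable (fun z => (hg.pos z).le) hg.le_one) _) (i1.const_mul _)
    fun x => ?_
  simp only
  refine (mul_le_mul_of_nonneg_right (Phi_hs_le _) (exp_pos _).le).trans (le_of_eq ?_)
  rw [← exp_sum, mul_assoc, mul_assoc, ← exp_add, ← exp_add]
  congr 2
  rw [← Finset.mul_sum, ← Finset.mul_sum]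
  ring

lemma lower_lim {ε : ℝ} (hε : 0 < ε) :
    ∃ n : ℕ, 0 < n ∧ 4 / 9 * exp (2 / 3) * ((1 + 1 / (n : ℝ)) ^ n)⁻¹ < target + ε := by
  have h1 := ((Real.tendsto_one_add_div_pow_exp 1).inv₀ (exp_pos 1).ne').const_mul
    (4 / 9 * exp (2 / 3))
  have e : 4 / 9 * exp (2 / 3) * (exp 1)⁻¹ = target := by
    unfold target
    rw [← exp_neg, mul_assoc, ← exp_add]; norm_num
  rw [e] at h1
  have h2 := h1.eventually (gt_mem_nhds (show target < target + ε by linarith))
  obtain ⟨n, hn1, hn2⟩ := (h2.and (eventually_gt_atTop 0)).exists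
  exact ⟨n, hn2, hn1⟩

lemma const_eq : exp (4 / 3) / (4 / 3) * target = exp 1 / 3 := by
  unfold target
  have : exp (4 / 3) * exp (-1 / 3) = exp 1 := by rw [← exp_add]; norm_num
  rw [← this]; ring

end Crest.Agent.H1.ExpTrunc
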