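import Mathlib

/-! Multi-level minimal fragments (towards fractional vs. integral expectation thresholds). -/

set_option autoImplicit false
set_option linter.unusedSectionVars false

noncomputable section

namespace Crest.Agent.H1.Frac

open Finset
open Classical

variable {α : Type} [Fintype α] [DecidableEq α]

/-- number of points at level `≤ i` -/
def tt (l : α → ℕ) (i : ℕ) : ℕ := #{a | l a ≤ i}

def Feas (I : ℕ) (lam : α → ℝ) (z : α → ℕ) (t : ℕ → ℕ) : Prop :=
  ∀ s : ℝ, 0 ≤ s → ∀ i < I,
    8 ^ (i + 1) * #{a | s < lam a ∧ i < z a} ≤ #{a | s < lam a} - 8 ^ (i + 1) * t i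

def Adm (I : ℕ) (F : Finset (Finset α)) (lam : Finset α → α → ℝ) (w l : α → ℕ) : Prop :=
  ∃ H ∈ F, Feas I (lam H) (fun a => min (w a) (l a)) (tt l)

def Tight (I : ℕ) (F : Finset (Finset α)) (lam : Finset α → α → ℝ) (w l : α → ℕ) : Prop :=
  Adm I F lam w l ∧ ∀ a, l a < I → ¬ Adm I F lam w (Function.update l a (l a + 1))

def Om (α : Type) [Fintype α] [DecidableEq α] (I : ℕ) : Finset (α → ℕ) :=
  Fintype.piFinset fun _ => range (I + 1)

lemma mem_Om {I : ℕ} {l : α → ℕ} : l ∈ Om α I ↔ ∀ a, l a ≤ I := by
  simp [Om]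

lemma exists_tight {I : ℕ} {F : Finset (Finset α)} {lam : Finset α → α → ℝ}
    (hlam : ∀ H a, 0 < lam H a → a ∈ H) (w : α → ℕ) {H : Finset α} (hH : H ∈ F) :
    ∃ l ∈ Om α I, (∀ a, a ∉ H → l a = I) ∧ Tight I F lam w l := by
  obtain ⟨l, hl, hmax⟩ := exists_max_image
    {l ∈ Om α I | (∀ a, a ∉ H → l a = I) ∧ Adm I F lam w l} (fun l => ∑ a, l a)
    ⟨fun a => if a ∈ H then 0 else I, by
      simp only [mem_filter, mem_Om]
      refine ⟨fun a => by split_ifs <;> omega, fun a ha => if_neg ha, H, hH, ?_⟩
      intro s hs i _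
      have : ({a | s < lam H a ∧ i < min (w a) (if a ∈ H then 0 else I)} : Finset α) = ∅ := by
        refine filter_eq_empty_iff.2 fun a _ h => ?_
        have := h.2
        rw [if_pos (hlam H a (hs.trans_lt h.1))] at this
        omega
      beta_reduce
      rw [this]
      simp⟩
  simp only [mem_filter, mem_Om] at hl hmax
  refine ⟨l, mem_Om.2 hl.1, hl.2.1, hl.2.2, fun a ha h => ?_⟩
  have := hmax (Function.update l a (l a + 1)) ⟨fun b => ?_, fun b hb => ?_, h⟩
  · rw [sum_update_of_mem (mem_univ a), ← add_sum_erase _ _ (mem_univ a), sdiff_singleton_eq_erase]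
      at this
    omega
  · rcases eq_or_ne b a with rfl | hb
    · simp; omega
    · simp [hb, hl.1 b]
  · rcases eq_or_ne b a with rfl | hba
    · have := hl.2.1 b hb
      omega
    · simp [hba, hl.2.1 b hb]

lemma tt_update_ne (l : α → ℕ) (a : α) {i : ℕ} (hi : i ≠ l a) :
    tt (Function.update l a (l a + 1)) i = tt l i := by
  unfold tt
  congr 1
  ext b
  rcases eq_or_ne b a with rfl | hb
  · simp; omega
  · simp [hb]

lemma tt_update_eq (l : α → ℕ) (a : α) :
    tt (Function.update l a (l a + 1)) (l a) + 1 = tt l (l a) := by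
  unfold tt
  rw [← card_insert_of_notMem (a := a) (by simp)]
  congr 1
  ext b
  rcases eq_or_ne b a with rfl | hb
  · simp
  · simp [hb]

lemma feas_update {I : ℕ} {lam : α → ℝ} {w l : α → ℕ} {a : α}
    (h : Feas I lam (fun a => min (w a) (l a)) (tt l))
    (ha : w a ≤ l a ∨ ∀ s, 0 ≤ s → s < lam a → 8 ^ (l a + 1) * tt l (l a) ≤ #{b | s < lam b}) :
    Feas I lam (fun b => min (w b) (Function.update l a (l a + 1) b))
      (tt (Function.update l a (l a + 1))) := by
  intro s hs i hi
  have h1 := h s hs i hi
  beta_reduce at h1 ⊢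
  have hsame : (i ≠ l a ∨ w a ≤ l a ∨ ¬ s < lam a) →
      ({b | s < lam b ∧ i < min (w b) (Function.update l a (l a + 1) b)} : Finset α) =
        ({b | s < lam b ∧ i < min (w b) (l b)} : Finset α) := fun hh => by
    ext b
    rcases eq_or_ne b a with rfl | hb
    · simp only [Function.update_self, mem_filter, mem_univ, true_and]
      refine and_congr_right fun h2 => ?_
      rcases hh with hh | hh | hh
      · omega
      · omega
      · exact absurd h2 hh
    · simp [hb]
  rcases eq_or_ne i (l a) with rfl | hne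
  · have h2 := tt_update_eq l a
    by_cases h3 : w a ≤ l a ∨ ¬ s < lam a
    · rw [hsame (Or.inr h3)]
      refine h1.trans (Nat.sub_le_sub_left (Nat.mul_le_mul_left _ (by omega)) _)
    · push Not at h3
      have h4 := (ha.resolve_left h3.1.not_ge) s hs h3.2
      have h5 : #{b | s < lam b ∧ l a < min (w b) (Function.update l a (l a + 1) b)} ≤
          #{b | s < lam b ∧ l a < min (w b) (l b)} + 1 := by
        refine (card_le_card ?_).trans (card_insert_le a _)
        intro b hb
        rcases eq_or_ne b a with rfl | hba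
        · simp
        · simp only [mem_filter, mem_univ, true_and, Function.update_of_ne hba] at hb
          simp only [mem_insert, mem_filter, mem_univ, true_and]
          exact Or.inr hb
      rw [← h2, mul_add] at h1 h4
      have := Nat.mul_le_mul_left (8 ^ (l a + 1)) h5
      rw [mul_add] at this
      omega
  · rw [hsame (Or.inl hne), tt_update_ne l a hne]
    exact h1

lemma Tight.lt {I : ℕ} {F : Finset (Finset α)} {lam : Finset α → α → ℝ} {w l : α → ℕ}
    (h : Tight I F lam w l) {a : α} (ha : l a < I) : l a < w a := by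
  by_contra h1
  obtain ⟨H, hH, h2⟩ := h.1
  exact h.2 a ha ⟨H, hH, feas_update h2 (Or.inl (not_lt.1 h1))⟩

/-- the points lying in a small chain set -/
def RR (lam : α → ℝ) (m : ℕ) : Finset α := {a | ∃ s, s < lam a ∧ #{b | s < lam b} < m}

lemma card_RR (lam : α → ℝ) (m : ℕ) : #(RR lam m) ≤ m := by
  rcases (RR lam m).eq_empty_or_nonempty with h | h
  · simp [h]
  obtain ⟨a, ha, hmin⟩ := exists_min_image _ lam h
  simp only [RR, mem_filter, mem_univ, true_and] at ha
  obtain ⟨s, h1, h2⟩ := ha
  refine le_trans (card_le_card fun b hb => ?_) h2.le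
  simp only [mem_filter, mem_univ, true_and]
  exact h1.trans_le (hmin b hb)

lemma Tight.mem {I : ℕ} {F : Finset (Finset α)} {lam : Finset α → α → ℝ} {w l : α → ℕ}
    (h : Tight I F lam w l) {H : Finset α} (hH : H ∈ F)
    (h2 : Feas I (lam H) (fun a => min (w a) (l a)) (tt l)) {a : α} (ha : l a < I) :
    a ∈ RR (lam H) (8 ^ (l a + 1) * tt l (l a)) := by
  by_contra h1
  refine h.2 a ha ⟨H, hH, feas_update h2 (Or.inr fun s _ hs => ?_)⟩
  by_contra h3
  exact h1 (by
    simp only [RR, mem_filter, mem_univ, true_and]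
    exact ⟨s, hs, not_le.1 h3⟩)

/-- the structural properties of a tight fragment seen from the merged configuration -/
def Good (I : ℕ) (F : Finset (Finset α)) (lam : Finset α → α → ℝ) (z l : α → ℕ) : Prop :=
  (∃ a, l a < I) ∧ (∀ a, l a < I → z a = l a) ∧ (∃ H ∈ F, Feas I (lam H) z (tt l)) ∧
    ∀ H ∈ F, Feas I (lam H) z (tt l) → ∀ a, l a < I → a ∈ RR (lam H) (8 ^ (l a + 1) * tt l (l a))

def sz (I : ℕ) (l : α → ℕ) : Fin I → ℕ := fun i => #{a | l a = i}

lemma tt_eq_of_sz {I : ℕ} {l l' : α → ℕ} (h : sz I l = sz I l') {i : ℕ} (hi : i < I) :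
    tt l i = tt l' i := by
  have key : ∀ l : α → ℕ, tt l i = ∑ j ∈ range (i + 1), #{a | l a = j} := fun l => by
    unfold tt
    rw [card_eq_sum_card_fiberwise (f := l) (t := range (i + 1))
      (fun a ha => by simpa [Nat.lt_succ_iff] using ha)]
    refine sum_congr rfl fun j hj => ?_
    congr 1
    ext a
    simp only [mem_range] at hj
    simp only [mem_filter, mem_univ, true_and]
    omega
  rw [key, key]
  refine sum_congr rfl fun j hj => ?_
  exact congrFun h ⟨j, by simp only [mem_range] at hj; omega⟩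

lemma prod_sz {I : ℕ} (l : α → ℕ) (x : ℕ → ℝ) :
    ∏ a, (if l a < I then x (l a) else 1) = ∏ i : Fin I, x i ^ sz I l i := by
  unfold sz
  rw [← prod_filter, Fin.prod_univ_eq_prod_range (fun i => x i ^ #{a | l a = i}) I,
    ← prod_fiberwise_of_maps_to (g := l) (t := range I) (fun a ha => by simpa using ha)]
  refine prod_congr rfl fun i hi => ?_
  rw [prod_congr rfl (g := fun _ => x i) fun a ha => by rw [(mem_filter.1 ha).2], prod_const]
  congr 2
  ext a
  simp only [mem_range] at hi
  simp only [mem_filter, mem_univ, true_and]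
  omega

lemma tt_le_sz {I : ℕ} (l : α → ℕ) {i : ℕ} (hi : i < I) : tt l i ≤ ∑ j, sz I l j := by
  unfold tt sz
  rw [Fin.sum_univ_eq_sum_range (fun j => #{a | l a = j}) I,
    card_eq_sum_card_fiberwise (f := l) (t := range I)
      (fun a ha => by simp at ha ⊢; omega)]
  exact sum_le_sum fun j _ => card_le_card fun a ha => by
    simp only [mem_filter, mem_univ, true_and] at ha ⊢
    exact ha.2

lemma geo_half (I : ℕ) : ∑ i ∈ range I, (1 / 2 : ℝ) ^ (i + 1) ≤ 1 := by
  have : ∑ i ∈ range I, (1 / 2 : ℝ) ^ (i + 1) = 1 - (1 / 2) ^ I := by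
    induction I with
    | zero => simp
    | succ n ih => rw [sum_range_succ, ih]; ring
  rw [this]
  have : (0 : ℝ) ≤ (1 / 2) ^ I := by positivity
  linarith

lemma count_fiber {I : ℕ} {F : Finset (Finset α)} {lam : Finset α → α → ℝ} (z : α → ℕ)
    (s : Fin I → ℕ) :
    ∑ l ∈ Om α I with Good I F lam z l ∧ sz I l = s,
      ∏ a, (if l a < I then (1 / 16 : ℝ) ^ (l a + 1) else 1) ≤ ∏ i, Real.exp 1 ^ s i := by
  rcases ({l ∈ Om α I | Good I F lam z l ∧ sz I l = s}).eq_empty_or_nonempty with h | ⟨l0, h0⟩
  · rw [h, sum_empty]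
    positivity
  obtain ⟨-, ⟨-, -, ⟨H, hH, hF⟩, -⟩, hs0⟩ := mem_filter.1 h0
  set R : ℕ → Finset α := fun i => RR (lam H) (8 ^ (i + 1) * tt l0 i) with hR
  let f : α → ℕ → ℝ := fun a i =>
    if i < I then (1 / 16 : ℝ) ^ (i + 1) * (if a ∈ R i then 1 else 0) else 1
  have hf : ∀ a i, 0 ≤ f a i := fun a i => by
    simp only [f]
    split_ifs <;> positivity
  calc _ ≤ ∑ l ∈ Om α I with Good I F lam z l ∧ sz I l = s, ∏ a, f a (l a) := by
        refine sum_le_sum fun l hl => le_of_eq (prod_congr rfl fun a _ => ?_)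
        obtain ⟨-, ⟨-, -, -, h4⟩, hs⟩ := mem_filter.1 hl
        have ht : ∀ i < I, tt l i = tt l0 i := fun i hi => tt_eq_of_sz (hs.trans hs0.symm) hi
        simp only [f]
        split_ifs with h1 h2
        · simp
        · refine absurd ?_ h2
          have := h4 H hH (fun s hs i hi => by rw [ht i hi]; exact hF s hs i hi) a h1
          rwa [ht _ h1] at this
        · rfl
    _ ≤ ∑ l ∈ Om α I, ∏ a, f a (l a) :=
        sum_le_sum_of_subset_of_nonneg (filter_subset _ _) fun l _ _ =>
          prod_nonneg fun a _ => hf _ _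
    _ = ∏ a, ∑ i ∈ range (I + 1), f a i := (prod_univ_sum _ _).symm
    _ ≤ ∏ a, Real.exp (∑ i ∈ range I, (1 / 16 : ℝ) ^ (i + 1) * (if a ∈ R i then 1 else 0)) := by
        refine prod_le_prod (fun a _ => sum_nonneg fun i _ => hf _ _) fun a _ => ?_
        refine le_trans (le_of_eq ?_) (Real.add_one_le_exp _)
        rw [sum_range_succ]
        congr 1
        · exact sum_congr rfl fun i hi => if_pos (mem_range.1 hi)
        · exact if_neg (lt_irrefl _)
    _ ≤ _ := by
        rw [← Real.exp_sum, prod_pow_eq_pow_sum, ← Real.exp_nat_mul, mul_one]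
        refine Real.exp_le_exp.2 ?_
        rw [sum_comm]
        calc _ ≤ ∑ i ∈ range I, (1 / 2 : ℝ) ^ (i + 1) * ((∑ i, s i : ℕ) : ℝ) := by
              refine sum_le_sum fun i hi => ?_
              rw [← mul_sum, sum_boole, filter_mem_eq_inter, univ_inter]
              have h1 : (#(R i) : ℝ) ≤ 8 ^ (i + 1) * ((∑ i, s i : ℕ) : ℝ) := by
                have := (card_RR (lam H) _).trans
                  (Nat.mul_le_mul_left (8 ^ (i + 1)) (tt_le_sz l0 (mem_range.1 hi)))
                rw [hs0] at this
                exact_mod_cast this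
              refine (mul_le_mul_of_nonneg_left h1 (by positivity)).trans (le_of_eq ?_)
              rw [← mul_assoc, ← mul_pow]
              norm_num
          _ ≤ _ := by
              rw [← sum_mul]
              exact mul_le_of_le_one_left (by positivity) (geo_half I)

lemma count_good {I : ℕ} {F : Finset (Finset α)} {lam : Finset α → α → ℝ} (z : α → ℕ) :
    ∑ l ∈ Om α I with Good I F lam z l,
      ∏ a, (if l a < I then (1 / 64 : ℝ) * (1 / 32) ^ (l a + 1) else 1) ≤ 1 / 5 := by
  set N := Fintype.card α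
  let x : ℕ → ℝ := fun i => Real.exp 1 * ((1 / 64) * (1 / 2) ^ (i + 1))
  have hx0 : ∀ i, 0 ≤ x i := fun i => by positivity
  have hx1 : ∀ i, x i ≤ 3 / 64 * (1 / 2) ^ (i + 1) := fun i => by
    have := Real.exp_one_lt_three
    have h2 : (0 : ℝ) < (1 / 2) ^ (i + 1) := by positivity
    simp only [x]
    nlinarith
  have hx2 : ∀ i, x i ≤ 1 / 2 := fun i => by
    have h2 : (1 / 2 : ℝ) ^ (i + 1) ≤ 1 := pow_le_one₀ (by norm_num) (by norm_num)
    linarith [hx1 i]
  set S := (Fintype.piFinset fun _ : Fin I => range (N + 1)).erase 0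
  rw [← sum_fiberwise_of_maps_to (g := sz I) (t := S) (fun l hl => ?_)]
  · calc _ ≤ ∑ s ∈ S, ∏ i : Fin I, x i ^ s i := by
          refine sum_le_sum fun s _ => ?_
          rw [filter_filter]
          calc _ = (∑ l ∈ Om α I with Good I F lam z l ∧ sz I l = s,
                ∏ a, (if l a < I then (1 / 16 : ℝ) ^ (l a + 1) else 1)) *
                ∏ i : Fin I, ((1 / 64 : ℝ) * (1 / 2) ^ ((i : ℕ) + 1)) ^ s i := by
                rw [sum_mul]
                refine sum_congr rfl fun l hl => ?_
                rw [← (mem_filter.1 hl).2.2,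
                  ← prod_sz l (fun i => (1 / 64 : ℝ) * (1 / 2) ^ (i + 1)), ← prod_mul_distrib]
                refine prod_congr rfl fun a _ => ?_
                split_ifs
                · rw [mul_left_comm, ← mul_pow]
                  norm_num
                · simp
            _ ≤ _ := by
                refine (mul_le_mul_of_nonneg_right (count_fiber z s) (by positivity)).trans
                  (le_of_eq ?_)
                rw [← prod_mul_distrib]
                exact prod_congr rfl fun i _ => (mul_pow _ _ _).symm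
      _ = ∏ i : Fin I, (∑ k ∈ range (N + 1), x i ^ k) - 1 := by
          rw [prod_univ_sum, ← add_sum_erase (Fintype.piFinset fun _ : Fin I => range (N + 1)) _
            (a := 0) (by simp)]
          simp only [Pi.zero_apply, pow_zero, prod_const_one, add_sub_cancel_left, S]
      _ ≤ Real.exp (∑ i : Fin I, 2 * x i) - 1 := by
          rw [Real.exp_sum]
          refine sub_le_sub_right (prod_le_prod
            (fun i _ => sum_nonneg fun k _ => pow_nonneg (hx0 _) _) fun i _ => ?_) _
          refine le_trans ?_ (Real.add_one_le_exp _)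
          rw [sum_range_succ', pow_zero, add_le_add_iff_right]
          calc _ ≤ ∑ k ∈ range N, 2 * x i * (1 / 2) ^ (k + 1) := by
                refine sum_le_sum fun k _ => ?_
                have := pow_le_pow_left₀ (hx0 i) (hx2 i) k
                have h2 := hx0 i
                rw [pow_succ, pow_succ]
                nlinarith
            _ ≤ _ := by
                rw [← mul_sum]
                exact mul_le_of_le_one_right (by linarith [hx0 i]) (geo_half N)
      _ ≤ 1 / 5 := by
          have h1 : ∑ i : Fin I, 2 * x i ≤ 3 / 32 := by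
            rw [Fin.sum_univ_eq_sum_range (fun i => 2 * x i) I]
            calc _ ≤ ∑ i ∈ range I, 3 / 32 * (1 / 2 : ℝ) ^ (i + 1) :=
                  sum_le_sum fun i _ => by linarith [hx1 i]
              _ ≤ _ := by
                  rw [← mul_sum]
                  linarith [geo_half I]
          have h2 := Real.exp_le_exp.2 h1
          have h3 := Real.exp_bound_div_one_sub_of_interval (x := 3 / 32) (by norm_num)
            (by norm_num)
          norm_num at h3
          linarith
  · obtain ⟨-, ⟨a, ha⟩, -⟩ := mem_filter.1 hl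
    simp only [S, mem_erase, Fintype.mem_piFinset, mem_range]
    refine ⟨fun h => ?_, fun i => Nat.lt_succ_of_le (card_le_univ _)⟩
    have := congrFun h ⟨l a, ha⟩
    simp only [sz, Pi.zero_apply, card_eq_zero, filter_eq_empty_iff] at this
    exact this (mem_univ a) rfl

end Crest.Agent.H1.Frac
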