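import Crest.Agent.H1.FracA
import Crest.Agent.H1.Layer

/-! Fractional versus integral expectation thresholds. -/

set_option autoImplicit false
set_option linter.unusedSectionVars false

noncomputable section

namespace Crest.Agent.H1.Frac

open Finset
open Classical

variable {α : Type} [Fintype α] [DecidableEq α]

lemma exists_pi (I : ℕ) {q : ℝ} (hq : 0 ≤ q) : ∃ π : ℕ → ℝ, (∀ i, 0 ≤ π i) ∧
    ∑ i ∈ range (I + 1), π i = 1 ∧
    (∀ i < I, ∑ j ∈ range (I + 1), π j * (q * if i < j then 1 else 0) ≤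
      π i * ((1 / 64) * (1 / 32) ^ (i + 1))) ∧
    ∀ i < I, π i ≤ 128 * q * 32 ^ (i + 1) := by
  let Q : ℕ → ℝ := fun i => if i = 0 then 1 else max 0 (1 - 128 * q * 32 ^ i)
  have hQ0 : ∀ i, 0 ≤ Q i := fun i => by
    simp only [Q]
    split_ifs
    · norm_num
    · exact le_max_left _ _
  have hQ1 : ∀ i, Q i ≤ 1 := fun i => by
    simp only [Q]
    split_ifs
    · rfl
    · exact max_le zero_le_one (sub_le_self _ (by positivity))
  have hQl : ∀ i, 1 - 128 * q * 32 ^ i ≤ Q i := fun i => by
    simp only [Q]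
    split_ifs
    · exact sub_le_self _ (by positivity)
    · exact le_max_right _ _
  have hQs : ∀ i, Q (i + 1) = max 0 (1 - 128 * q * 32 ^ (i + 1)) := fun i => if_neg (by omega)
  have hmono : ∀ i, Q (i + 1) ≤ Q i := fun i => by
    rw [hQs]
    refine max_le (hQ0 i) (le_trans ?_ (hQl i))
    have : (0 : ℝ) ≤ 128 * q * 32 ^ i := by positivity
    rw [pow_succ]
    linarith
  have htel : ∀ k i, ∑ j ∈ range k, (Q j - Q (j + 1)) * (if i ≤ j then 1 else 0) =
      if i ≤ k then Q i - Q k else 0 := fun k i => by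
    induction k with
    | zero =>
      split_ifs with h
      · obtain rfl : i = 0 := by omega
        simp
      · simp
    | succ k ih =>
      rw [sum_range_succ, ih]
      rcases lt_trichotomy i (k + 1) with h | rfl | h
      · rw [if_pos (by omega), if_pos (by omega), if_pos (by omega)]
        ring
      · simp
      · rw [if_neg (by omega), if_neg (by omega), if_neg (by omega)]
        ring
  have htail : ∀ i ≤ I, ∑ j ∈ range (I + 1),
      (if j < I then Q j - Q (j + 1) else Q I) * (if i ≤ j then 1 else 0) = Q i := fun i hi => by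
    rw [sum_range_succ, if_neg (lt_irrefl _), if_pos hi,
      sum_congr rfl fun j hj => by rw [if_pos (mem_range.1 hj)], htel, if_pos hi]
    ring
  refine ⟨fun j => if j < I then Q j - Q (j + 1) else Q I, fun i => ?_, ?_, fun i hi => ?_,
    fun i hi => ?_⟩
  · beta_reduce
    split_ifs
    · linarith [hmono i]
    · exact hQ0 _
  · simpa [Q] using htail 0 (Nat.zero_le _)
  · have := htail (i + 1) hi
    simp only [Nat.succ_le_iff] at this
    beta_reduce
    rw [sum_congr rfl fun j _ => mul_left_comm _ _ _, ← mul_sum, this, if_pos hi]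
    have h1 := hQl i
    have h2 : (0 : ℝ) ≤ 128 * q * 32 ^ i := by positivity
    have h3 : (0 : ℝ) < (1 / 64) * (1 / 32) ^ (i + 1) := by positivity
    rcases le_total 0 (1 - 128 * q * 32 ^ (i + 1)) with h | h
    · have h4 : 64 * q * 32 ^ (i + 1) ≤ Q i - Q (i + 1) := by
        rw [hQs, max_eq_right h, pow_succ]
        linarith
      calc q * Q (i + 1) ≤ q := mul_le_of_le_one_right hq (hQ1 _)
        _ = 64 * q * 32 ^ (i + 1) * ((1 / 64) * (1 / 32) ^ (i + 1)) := by
            rw [one_div_pow]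
            field_simp
        _ ≤ _ := mul_le_mul_of_nonneg_right h4 h3.le
    · rw [hQs, max_eq_left h, mul_zero, sub_zero]
      exact mul_nonneg (hQ0 _) h3.le
  · beta_reduce
    rw [if_pos hi]
    linarith [hQ1 i, hQl (i + 1)]

lemma tight_sum {I : ℕ} {F : Finset (Finset α)} {lam : Finset α → α → ℝ} {q : ℝ} (hq : 0 ≤ q)
    {π : ℕ → ℝ} (h0 : ∀ i, 0 ≤ π i) (h1 : ∑ i ∈ range (I + 1), π i = 1)
    (h2 : ∀ i < I, ∑ j ∈ range (I + 1), π j * (q * if i < j then 1 else 0) ≤
      π i * ((1 / 64) * (1 / 32) ^ (i + 1))) :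
    ∑ w ∈ Om α I, (∏ a, π (w a)) *
      ∑ l ∈ Om α I with Tight I F lam w l ∧ ∃ a, l a < I, q ^ #{a | l a < I} ≤ 1 / 5 := by
  let f : (α → ℕ) → (α → ℕ) → α → ℕ → ℝ := fun z l a j =>
    π j * if l a < I then q * (if l a < j then 1 else 0) else (if j = z a then 1 else 0)
  have hf : ∀ z l a j, 0 ≤ f z l a j := fun z l a j => by
    simp only [f]
    have := h0 j
    split_ifs <;> positivity
  calc _ = ∑ l ∈ Om α I, ∑ w ∈ Om α I,
        if Tight I F lam w l ∧ ∃ a, l a < I then (∏ a, π (w a)) * q ^ #{a | l a < I} else 0 := by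
        rw [sum_comm]
        refine sum_congr rfl fun w _ => ?_
        rw [mul_sum, sum_filter]
    _ ≤ ∑ l ∈ Om α I, ∑ w ∈ Om α I, ∑ z ∈ Om α I,
        if Good I F lam z l then ∏ a, f z l a (w a) else 0 := by
        refine sum_le_sum fun l hl => sum_le_sum fun w hw => ?_
        have hnn : ∀ z ∈ Om α I,
            0 ≤ if Good I F lam z l then ∏ a, f z l a (w a) else 0 := fun z _ => by
          split_ifs
          · exact prod_nonneg fun a _ => hf _ _ _ _
          · rfl
        split_ifs with h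
        · rw [mem_Om] at hl hw
          refine le_trans (le_of_eq ?_) (single_le_sum hnn (a := fun a => min (w a) (l a))
            (mem_Om.2 fun a => (min_le_left _ _).trans (hw a)))
          rw [if_pos ⟨h.2, fun a ha => min_eq_right (h.1.lt ha).le, h.1.1,
            fun H hH hF a ha => h.1.mem hH hF ha⟩, ← prod_const, prod_filter, ← prod_mul_distrib]
          refine prod_congr rfl fun a _ => ?_
          simp only [f]
          split_ifs with h3 h4 h5
          · simp
          · exact absurd (h.1.lt h3) h4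
          · rfl
          · have := hw a
            omega
        · exact sum_nonneg hnn
    _ = ∑ z ∈ Om α I, ∑ l ∈ Om α I with Good I F lam z l,
        ∏ a, ∑ j ∈ range (I + 1), f z l a j := by
        rw [sum_congr rfl fun l _ => sum_comm, sum_comm]
        refine sum_congr rfl fun z _ => ?_
        rw [sum_filter]
        refine sum_congr rfl fun l _ => ?_
        split_ifs
        · rw [prod_univ_sum]
          rfl
        · simp
    _ ≤ ∑ z ∈ Om α I, (∏ a, π (z a)) * ∑ l ∈ Om α I with Good I F lam z l,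
        ∏ a, (if l a < I then (1 / 64 : ℝ) * (1 / 32) ^ (l a + 1) else 1) := by
        refine sum_le_sum fun z hz => ?_
        rw [mul_sum]
        refine sum_le_sum fun l hl => ?_
        rw [← prod_mul_distrib]
        refine prod_le_prod (fun a _ => sum_nonneg fun j _ => hf _ _ _ _) fun a _ => ?_
        simp only [f]
        split_ifs with h3
        · rw [(mem_filter.1 hl).2.2.1 a h3]
          exact h2 _ h3
        · simp [mem_Om.1 hz a]
    _ ≤ ∑ z ∈ Om α I, (∏ a, π (z a)) * (1 / 5) :=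
        sum_le_sum fun z _ => mul_le_mul_of_nonneg_left (count_good z)
          (prod_nonneg fun a _ => h0 _)
    _ = 1 / 5 := by
        rw [← sum_mul, Om, ← prod_univ_sum]
        simp [h1]

lemma fail_cost {I : ℕ} {F : Finset (Finset α)} {lam : Finset α → α → ℝ} {q : ℝ} (hq : 0 ≤ q)
    (hlam : ∀ H a, 0 < lam H a → a ∈ H)
    (hno : ∀ G : Finset (Finset α), (∀ H ∈ F, ∃ S ∈ G, S ⊆ H) → 1 / 2 < ∑ S ∈ G, q ^ S.card)
    {w : α → ℕ} (hw : w ∈ Om α I) (hfail : ¬ ∃ H ∈ F, Feas I (lam H) w fun _ => 0) :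
    1 / 2 ≤ ∑ l ∈ Om α I with Tight I F lam w l ∧ ∃ a, l a < I, q ^ #{a | l a < I} := by
  refine (hno (({l ∈ Om α I | Tight I F lam w l ∧ ∃ a, l a < I}).image
    fun l => ({a | l a < I} : Finset α)) fun H hH => ?_).le.trans
      (sum_image_le_of_nonneg (f := fun S : Finset α => q ^ S.card) fun _ _ => by positivity)
  obtain ⟨l, hl, h1, h2⟩ := exists_tight (I := I) (F := F) hlam w hH
  refine ⟨_, mem_image_of_mem _ (mem_filter.2 ⟨hl, h2, ?_⟩), fun a ha => ?_⟩
  · by_contra h3
    push Not at h3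
    obtain ⟨H', hH', h4⟩ := h2.1
    refine hfail ⟨H', hH', fun s hs i hi => ?_⟩
    have h5 := h4 s hs i hi
    have h6 : ∀ a, min (w a) (l a) = w a := fun a => min_eq_left ((mem_Om.1 hw a).trans (h3 a))
    simp only [h6] at h5
    exact h5.trans (by simp)
  · by_contra h3
    have := h1 a h3
    have := (mem_filter.1 ha).2
    omega

def lamOf (g : Finset α → ℝ) (H : Finset α) (a : α) : ℝ :=
  ∑ S ∈ H.powerset with a ∈ S, g S / S.card

lemma lamOf_sum (g : Finset α → ℝ) (H : Finset α) (u : α → ℝ) :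
    ∑ a, lamOf g H a * u a = ∑ S ∈ H.powerset, g S / S.card * ∑ a ∈ S, u a := by
  unfold lamOf
  simp only [sum_filter, sum_mul]
  rw [sum_comm]
  refine sum_congr rfl fun S _ => ?_
  simp [mul_sum]

lemma geo_eighth (I : ℕ) : ∑ i ∈ range I, (1 / 8 : ℝ) ^ (i + 1) ≤ 1 / 7 := by
  have : ∑ i ∈ range I, (1 / 8 : ℝ) ^ (i + 1) = (1 - (1 / 8) ^ I) / 7 := by
    induction I with
    | zero => simp
    | succ n ih => rw [sum_range_succ, ih]; ring
  rw [this]
  have : (0 : ℝ) ≤ (1 / 8) ^ I := by positivity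
  linarith

lemma success {I : ℕ} (hI : Fintype.card α < 8 ^ I) {g : Finset α → ℝ} (hg : ∀ S, 0 ≤ g S)
    (hg0 : g ∅ ≤ 1 / 2) {H : Finset α} (hH : 1 ≤ ∑ S ∈ H.powerset, g S) {w : α → ℕ}
    (hw : w ∈ Om α I) (hF : Feas I (lamOf g H) w fun _ => 0) :
    3 / 7 ≤ ∑ S ∈ univ.erase ∅, g S *
      if (∀ a ∈ S, w a < I) ∧ ∑ a ∈ S, w a ≤ S.card then 1 else 0 := by
  have hl0 : ∀ a, 0 ≤ lamOf g H a := fun a =>
    sum_nonneg fun S _ => div_nonneg (hg S) (Nat.cast_nonneg _)
  have hlt : ∀ a, 0 < lamOf g H a → w a < I := fun a ha => by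
    by_contra h
    rcases I with _ | I
    · have := Fintype.card_pos_iff.2 ⟨a⟩
      omega
    have h1 := hF 0 le_rfl I (Nat.lt_succ_self _)
    have h2 : 1 ≤ #{a | 0 < lamOf g H a ∧ I < w a} :=
      card_pos.2 ⟨a, by simp only [mem_filter, mem_univ, true_and]; exact ⟨ha, by omega⟩⟩
    have h3 := card_le_univ ({a | 0 < lamOf g H a} : Finset α)
    have h4 := Nat.mul_le_mul_left (8 ^ (I + 1)) h2
    omega
  have hlev : ∀ i < I, ∑ a, lamOf g H a * (if i < w a then 1 else 0) ≤
      (1 / 8) ^ (i + 1) * ∑ a, lamOf g H a := fun i hi => by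
    rw [mul_sum, sum_congr rfl fun a _ => mul_comm _ _]
    refine layer_cake _ _ _ _ _ _ (fun a _ => hl0 a) (fun a _ => hl0 a) fun s hs => ?_
    have h1 := hF s hs i hi
    simp only [mul_zero, Nat.sub_zero] at h1
    have h2 : ((8 : ℝ) ^ (i + 1)) * #{a | s < lamOf g H a ∧ i < w a} ≤
        #{a | s < lamOf g H a} := by exact_mod_cast h1
    rw [← mul_sum, sum_boole, one_div_pow, one_div, ← div_eq_inv_mul, le_div_iff₀ (by positivity),
      mul_comm]
    refine le_trans (le_of_eq ?_) h2
    congr 1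
    rw [← sum_boole]
    refine sum_congr rfl fun a _ => ?_
    by_cases h3 : s < lamOf g H a <;> by_cases h4 : i < w a <;> simp [h3, h4]
  have hsum : ∑ a, lamOf g H a * w a ≤ 1 / 7 * ∑ a, lamOf g H a := by
    calc _ = ∑ i ∈ range I, ∑ a, lamOf g H a * (if i < w a then 1 else 0) := by
          rw [sum_comm]
          refine sum_congr rfl fun a _ => ?_
          rw [← mul_sum, sum_boole]
          congr 2
          have := mem_Om.1 hw a
          have e : ({i ∈ range I | i < w a} : Finset ℕ) = range (w a) := by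
            ext i
            simp only [mem_range, mem_filter]
            omega
          rw [e, card_range]
      _ ≤ ∑ i ∈ range I, (1 / 8) ^ (i + 1) * ∑ a, lamOf g H a :=
          sum_le_sum fun i hi => hlev i (mem_range.1 hi)
      _ ≤ _ := by
          rw [← sum_mul]
          exact mul_le_mul_of_nonneg_right (geo_eighth I) (sum_nonneg fun a _ => hl0 a)
  have e1 := lamOf_sum g H fun _ => 1
  simp only [mul_one] at e1
  rw [lamOf_sum, e1, ← add_sum_erase _ _ (empty_mem_powerset H),
    ← add_sum_erase _ _ (empty_mem_powerset H)] at hsum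
  rw [← add_sum_erase _ _ (empty_mem_powerset H)] at hH
  simp only [sum_empty, mul_zero, zero_add] at hsum
  have e2 : ∑ S ∈ H.powerset.erase ∅, g S / S.card * ∑ _ ∈ S, (1 : ℝ) =
      ∑ S ∈ H.powerset.erase ∅, g S := sum_congr rfl fun S hS => by
    have : (S.card : ℝ) ≠ 0 := by simpa using (mem_erase.1 hS).1
    simp [this]
  rw [e2] at hsum
  have h3 : ∑ S ∈ H.powerset.erase ∅, g S ≤ ∑ S ∈ H.powerset.erase ∅,
      ((g S * if (∀ a ∈ S, w a < I) ∧ ∑ a ∈ S, w a ≤ S.card then 1 else 0) +
        g S / S.card * ∑ a ∈ S, (w a : ℝ)) := by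
    refine sum_le_sum fun S hS => ?_
    have hc : (0 : ℝ) < S.card := by
      exact_mod_cast card_pos.2 (nonempty_iff_ne_empty.2 (mem_erase.1 hS).1)
    have h4 : 0 ≤ g S / S.card * ∑ a ∈ S, (w a : ℝ) :=
      mul_nonneg (div_nonneg (hg S) hc.le) (sum_nonneg fun a _ => Nat.cast_nonneg _)
    split_ifs with h5
    · linarith
    rcases (hg S).eq_or_lt with h6 | h6
    · rw [← h6]
      simp
    have h7 : ∀ a ∈ S, w a < I := fun a ha => hlt a (lt_of_lt_of_le (div_pos h6 hc)
      (single_le_sum (f := fun S : Finset α => g S / S.card)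
        (fun S _ => div_nonneg (hg S) (Nat.cast_nonneg _))
        (mem_filter.2 ⟨(mem_erase.1 hS).2, ha⟩)))
    have h8 : (S.card : ℝ) ≤ ∑ a ∈ S, (w a : ℝ) := by
      exact_mod_cast (not_le.1 fun h => h5 ⟨h7, h⟩).le
    rw [mul_zero, zero_add, div_mul_eq_mul_div, le_div_iff₀ hc]
    exact mul_le_mul_of_nonneg_left h8 h6.le
  rw [sum_add_distrib] at h3
  refine le_trans (by linarith) (sum_le_sum_of_subset_of_nonneg
    (erase_subset_erase ∅ (subset_univ H.powerset)) fun S _ _ => ?_)
  have := hg S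
  split_ifs <;> positivity

lemma good_prob {I : ℕ} {q : ℝ} (hq : 0 ≤ q) {π : ℕ → ℝ} (h0 : ∀ i, 0 ≤ π i)
    (h1 : ∑ i ∈ range (I + 1), π i = 1) (h3 : ∀ i < I, π i ≤ 128 * q * 32 ^ (i + 1))
    (S : Finset α) :
    ∑ w ∈ Om α I, (∏ a, π (w a)) *
      (if (∀ a ∈ S, w a < I) ∧ ∑ a ∈ S, w a ≤ S.card then 1 else 0) ≤ (2 ^ 19 * q) ^ S.card := by
  let f : α → ℕ → ℝ := fun a j =>
    π j * if a ∈ S then (if j < I then 64 * (1 / 64) ^ j else 0) else 1
  have hf : ∀ a j, 0 ≤ f a j := fun a j => by
    simp only [f]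
    have := h0 j
    split_ifs <;> positivity
  calc _ ≤ ∑ w ∈ Om α I, ∏ a, f a (w a) := by
        refine sum_le_sum fun w _ => ?_
        split_ifs with h
        · simp only [f]
          rw [prod_mul_distrib]
          refine mul_le_mul_of_nonneg_left ?_ (prod_nonneg fun a _ => h0 _)
          rw [← prod_filter, filter_mem_eq_inter, univ_inter,
            prod_congr rfl fun a ha => if_pos (h.1 a ha), prod_mul_distrib, prod_const,
            prod_pow_eq_pow_sum, one_div_pow, mul_one_div, one_le_div (by positivity)]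
          exact pow_le_pow_right₀ (by norm_num) h.2
        · rw [mul_zero]
          exact prod_nonneg fun a _ => hf _ _
    _ = ∏ a, ∑ j ∈ range (I + 1), f a j := (prod_univ_sum _ _).symm
    _ ≤ ∏ a, if a ∈ S then 2 ^ 19 * q else 1 := by
        refine prod_le_prod (fun a _ => sum_nonneg fun j _ => hf _ _) fun a _ => ?_
        simp only [f]
        split_ifs
        · rw [sum_range_succ, if_neg (lt_irrefl _), mul_zero, add_zero]
          calc _ ≤ ∑ j ∈ range I, 2 ^ 19 * q * (1 / 2) ^ (j + 1) := by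
                refine sum_le_sum fun j hj => ?_
                rw [if_pos (mem_range.1 hj)]
                refine (mul_le_mul_of_nonneg_right (h3 j (mem_range.1 hj))
                  (by positivity)).trans (le_of_eq ?_)
                have : (32 : ℝ) ^ j * (1 / 64) ^ j = (1 / 2) ^ j := by
                  rw [← mul_pow]
                  norm_num
                rw [pow_succ (32 : ℝ), pow_succ (1 / 2 : ℝ), ← this]
                ring
            _ ≤ _ := by
                rw [← mul_sum]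
                exact mul_le_of_le_one_right (by positivity) (geo_half I)
        · simp [h1]
    _ = _ := by rw [← prod_filter, filter_mem_eq_inter, univ_inter, prod_const]

theorem frac_cover (F : Finset (Finset α)) (r q : ℝ) (hq : 0 ≤ q) (hr : 2 ^ 23 * q ≤ r)
    (g : Finset α → ℝ) (hg : ∀ S, 0 ≤ g S) (hcov : ∀ H ∈ F, 1 ≤ ∑ S ∈ H.powerset, g S)
    (hcost : ∑ S : Finset α, g S * r ^ S.card ≤ 1 / 2) :
    ∃ G : Finset (Finset α), (∀ H ∈ F, ∃ S ∈ G, S ⊆ H) ∧ ∑ S ∈ G, q ^ S.card ≤ 1 / 2 := by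
  by_contra hno
  push Not at hno
  have hr0 : 0 ≤ r := le_trans (by positivity) hr
  set I := Fintype.card α
  have hI : Fintype.card α < 8 ^ I := Nat.lt_pow_self (by norm_num)
  obtain ⟨π, h0, h1, h2, h3⟩ := exists_pi I hq
  have hg0 : g ∅ ≤ 1 / 2 := by
    have := single_le_sum (f := fun S : Finset α => g S * r ^ S.card)
      (fun S _ => mul_nonneg (hg S) (pow_nonneg hr0 _)) (mem_univ ∅)
    simp only [card_empty, pow_zero, mul_one] at this
    linarith
  have hlam : ∀ H a, 0 < lamOf g H a → a ∈ H := fun H a h => by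
    obtain ⟨S, hS, -⟩ := exists_ne_zero_of_sum_ne_zero h.ne'
    rw [mem_filter, mem_powerset] at hS
    exact hS.1 hS.2
  have hT := tight_sum (F := F) (lam := lamOf g) hq h0 h1 h2
  have hS : ∑ w ∈ Om α I, (∏ a, π (w a)) * ∑ S ∈ univ.erase ∅, g S *
      (if (∀ a ∈ S, w a < I) ∧ ∑ a ∈ S, w a ≤ S.card then 1 else 0) ≤ 1 / 32 := by
    simp only [mul_sum]
    rw [sum_comm]
    calc _ ≤ ∑ S ∈ univ.erase ∅, 1 / 16 * (g S * r ^ S.card) := by
          refine sum_le_sum fun S hS => ?_
          rw [sum_congr rfl fun w _ => mul_left_comm _ _ _, ← mul_sum, mul_left_comm]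
          refine mul_le_mul_of_nonneg_left ((good_prob hq h0 h1 h3 S).trans ?_) (hg S)
          obtain ⟨k, hk⟩ := Nat.exists_eq_succ_of_ne_zero (card_ne_zero.2
            (nonempty_iff_ne_empty.2 (mem_erase.1 hS).1))
          rw [hk, pow_succ _ k, pow_succ r k, mul_left_comm (1 / 16 : ℝ)]
          have h4 : 0 ≤ 2 ^ 19 * q := by positivity
          have h5 : 2 ^ 19 * q ≤ r := by linarith
          exact mul_le_mul (pow_le_pow_left₀ h4 h5 k) (by linarith) h4 (by positivity)
      _ ≤ 1 / 16 * ∑ S : Finset α, g S * r ^ S.card := by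
          rw [← mul_sum]
          exact mul_le_mul_of_nonneg_left (sum_le_sum_of_subset_of_nonneg (subset_univ _)
            fun S _ _ => mul_nonneg (hg S) (pow_nonneg hr0 _)) (by norm_num)
      _ ≤ _ := by linarith
  have htot : ∑ w ∈ Om α I, ∏ a, π (w a) = 1 := by
    rw [Om, ← prod_univ_sum]
    simp [h1]
  have : ∑ w ∈ Om α I, ∏ a, π (w a) ≤ 2 * (1 / 5) + 7 / 3 * (1 / 32) := by
    refine le_trans ?_ (add_le_add (mul_le_mul_of_nonneg_left hT (by norm_num))
      (mul_le_mul_of_nonneg_left hS (by norm_num)))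
    rw [mul_sum, mul_sum, ← sum_add_distrib]
    refine sum_le_sum fun w hw => ?_
    have hP : 0 ≤ ∏ a, π (w a) := prod_nonneg fun a _ => h0 _
    have hA : 0 ≤ ∑ l ∈ Om α I with Tight I F (lamOf g) w l ∧ ∃ a, l a < I,
        q ^ #{a | l a < I} := sum_nonneg fun _ _ => by positivity
    have hB : 0 ≤ ∑ S ∈ univ.erase ∅, g S *
        (if (∀ a ∈ S, w a < I) ∧ ∑ a ∈ S, w a ≤ S.card then (1 : ℝ) else 0) :=
      sum_nonneg fun S _ => by
        have := hg S
        split_ifs <;> positivity
    by_cases h : ∃ H ∈ F, Feas I (lamOf g H) w fun _ => 0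
    · obtain ⟨H, hH, hF⟩ := h
      have := success hI hg hg0 (hcov H hH) hw hF
      nlinarith
    · have := fail_cost hq hlam hno hw h
      nlinarith
  linarith

end Crest.Agent.H1.Frac
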