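import Mathlib

/-! Row 258: graded algebra over a base ring (interpolation on three graphs). -/

set_option autoImplicit false

noncomputable section

namespace Crest.Agent.H1.Gr

open MvPolynomial

abbrev R4 (S : Type) [CommRing S] := MvPolynomial (Fin 4) S

variable {S : Type} [CommRing S]

/-- forms of degree `D` in `X 0, X 1` -/
def IsA : ℕ → R4 S → Prop
  | 0, f => ∃ s, f = C s
  | D + 1, f => ∃ f0 f1, IsA D f0 ∧ IsA D f1 ∧ f = X 0 * f0 + X 1 * f1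

theorem IsA.zero : ∀ D, IsA D (0 : R4 S)
  | 0 => ⟨0, by simp⟩
  | D + 1 => ⟨0, 0, IsA.zero D, IsA.zero D, by simp⟩

theorem IsA.add : ∀ {D} {f g : R4 S}, IsA D f → IsA D g → IsA D (f + g)
  | 0, _, _, ⟨s, hs⟩, ⟨t, ht⟩ => ⟨s + t, by simp [hs, ht]⟩
  | _ + 1, _, _, ⟨f0, f1, a, b, h⟩, ⟨g0, g1, c, d, h'⟩ =>
    ⟨f0 + g0, f1 + g1, a.add c, b.add d, by rw [h, h']; ring⟩

theorem IsA.cmul (s : S) : ∀ {D} {f : R4 S}, IsA D f → IsA D (C s * f)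
  | 0, _, ⟨t, ht⟩ => ⟨s * t, by simp [ht]⟩
  | _ + 1, _, ⟨f0, f1, a, b, h⟩ => ⟨C s * f0, C s * f1, a.cmul s, b.cmul s, by rw [h]; ring⟩

theorem IsA.neg {D} {f : R4 S} (h : IsA D f) : IsA D (-f) := by
  simpa using h.cmul (-1)

theorem IsA.sub {D} {f g : R4 S} (h : IsA D f) (h' : IsA D g) : IsA D (f - g) := by
  simpa [sub_eq_add_neg] using h.add h'.neg

theorem IsA.mul {E} {g : R4 S} (hg : IsA E g) : ∀ {D} {f : R4 S}, IsA D f → IsA (E + D) (f * g)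
  | 0, _, ⟨s, hs⟩ => by rw [hs]; exact hg.cmul s
  | _ + 1, _, ⟨f0, f1, a, b, h⟩ =>
    ⟨f0 * g, f1 * g, hg.mul a, hg.mul b, by rw [h]; ring⟩

theorem IsA.mul' {D E K} {f g : R4 S} (hf : IsA D f) (hg : IsA E g) (h : K = D + E) :
    IsA K (f * g) := by
  rw [h, add_comm]; exact hg.mul hf

theorem IsA.cast {D E} {f : R4 S} (hf : IsA D f) (h : E = D) : IsA E f := h ▸ hf

theorem IsA.C' (s : S) : IsA 0 (C s : R4 S) := ⟨s, rfl⟩

theorem IsA.pow {D} {f : R4 S} (hf : IsA D f) : ∀ k, IsA (D * k) (f ^ k)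
  | 0 => ⟨1, by simp⟩
  | k + 1 => by rw [pow_succ]; exact (hf.pow k).mul' hf (by ring)

theorem IsA.pow1 {f : R4 S} (hf : IsA 1 f) (k : ℕ) : IsA k (f ^ k) := (hf.pow k).cast (by simp)

theorem IsA.lin (a b : S) : IsA 1 (C a * X 0 + C b * X 1 : R4 S) :=
  ⟨C a, C b, ⟨a, rfl⟩, ⟨b, rfl⟩, by ring⟩

theorem IsA.X0 : IsA 1 (X 0 : R4 S) := by simpa using IsA.lin (1 : S) 0
theorem IsA.X1 : IsA 1 (X 1 : R4 S) := by simpa using IsA.lin (0 : S) 1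

theorem IsA.ext {B : Type} [CommRing B] (φ ψ : R4 S →+* B) (hC : ∀ s, φ (C s) = ψ (C s))
    (h0 : φ (X 0) = ψ (X 0)) (h1 : φ (X 1) = ψ (X 1)) : ∀ {D} {f : R4 S}, IsA D f → φ f = ψ f
  | 0, _, ⟨s, hs⟩ => by rw [hs, hC]
  | _ + 1, _, ⟨f0, f1, a, b, h⟩ => by
    rw [h]; simp only [map_add, map_mul, h0, h1, IsA.ext φ ψ hC h0 h1 a, IsA.ext φ ψ hC h0 h1 b]

theorem IsA.map {L : Type} [CommRing L] (Φ : R4 S →+* R4 L) (φ : S → L)
    (hC : ∀ s, Φ (C s) = C (φ s)) (h0 : Φ (X 0) = X 0) (h1 : Φ (X 1) = X 1) :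
    ∀ {D} {f : R4 S}, IsA D f → IsA D (Φ f)
  | 0, _, ⟨s, hs⟩ => ⟨φ s, by rw [hs, hC]⟩
  | _ + 1, _, ⟨f0, f1, a, b, h⟩ => ⟨Φ f0, Φ f1, IsA.map Φ φ hC h0 h1 a, IsA.map Φ φ hC h0 h1 b, by
      rw [h]; simp only [map_add, map_mul, h0, h1]⟩

/-- evaluation at `X = (a, b)` -/
def evz (a b : S) : R4 S →+* S := eval ![a, b, 0, 0]

@[simp] theorem evz_C (a b s : S) : evz a b (C s) = s := by simp [evz]
@[simp] theorem evz_X0 (a b : S) : evz a b (X 0) = a := by simp [evz]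
@[simp] theorem evz_X1 (a b : S) : evz a b (X 1) = b := by simp [evz]

theorem dec {la nu : R4 S} (hnu : IsA 1 nu) {z0 z1 s0 s1 : S}
    (h0 : X 0 = C z0 * nu + C s0 * la) (h1 : X 1 = C z1 * nu + C s1 * la) :
    ∀ {D} {f : R4 S}, IsA (D + 1) f →
      ∃ g, IsA D g ∧ f = C (evz z0 z1 f) * nu ^ (D + 1) + la * g
  | 0, _, ⟨_, _, ⟨a, rfl⟩, ⟨b, rfl⟩, h⟩ => by
    refine ⟨C (s0 * a + s1 * b), ⟨_, rfl⟩, ?_⟩
    rw [h]
    simp only [map_add, map_mul, evz_C, evz_X0, evz_X1]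
    linear_combination C a * h0 + C b * h1
  | D + 1, _, ⟨f0, f1, a, b, h⟩ => by
    obtain ⟨g0, a0, e0⟩ := dec hnu h0 h1 a
    obtain ⟨g1, a1, e1⟩ := dec hnu h0 h1 b
    refine ⟨C (s0 * evz z0 z1 f0 + s1 * evz z0 z1 f1) * nu ^ (D + 1) + (X 0 * g0 + X 1 * g1),
      ((hnu.pow1 _).cmul _).add ⟨g0, g1, a0, a1, rfl⟩, ?_⟩
    rw [h]
    simp only [map_add, map_mul, evz_X0, evz_X1]
    linear_combination X 0 * e0 + X 1 * e1 + C (evz z0 z1 f0) * nu ^ (D + 1) * h0 +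
      C (evz z0 z1 f1) * nu ^ (D + 1) * h1

/-- three linear forms `la i` with roots `z i` -/
structure Fr (S : Type) [CommRing S] where
  z0 : Fin 3 → S
  z1 : Fin 3 → S
  s0 : Fin 3 → S
  s1 : Fin 3 → S
  la : Fin 3 → R4 S
  nu : Fin 3 → R4 S
  hla : ∀ i, IsA 1 (la i)
  hnu : ∀ i, IsA 1 (nu i)
  h0 : ∀ i, X 0 = C (z0 i) * nu i + C (s0 i) * la i
  h1 : ∀ i, X 1 = C (z1 i) * nu i + C (s1 i) * la i
  ela : ∀ i, evz (z0 i) (z1 i) (la i) = 0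
  enu : ∀ i, evz (z0 i) (z1 i) (nu i) = 1
  hδ : ∀ i j, i ≠ j → evz (z0 j) (z1 j) (la i) ≠ 0

namespace Fr

variable (F : Fr S)

def ev (i : Fin 3) : R4 S →+* S := evz (F.z0 i) (F.z1 i)

@[simp] theorem ev_C (i : Fin 3) (s : S) : F.ev i (C s) = s := by simp [ev]
@[simp] theorem ev_la (i : Fin 3) : F.ev i (F.la i) = 0 := F.ela i
@[simp] theorem ev_nu (i : Fin 3) : F.ev i (F.nu i) = 1 := F.enu i

def Λ : R4 S := F.la 0 * F.la 1 * F.la 2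

theorem hΛ : IsA 3 F.Λ := ((F.hla 0).mul' (F.hla 1) rfl).mul' (F.hla 2) rfl

@[simp] theorem ev_Λ (i : Fin 3) : F.ev i F.Λ = 0 := by
  fin_cases i <;> simp [Λ]

theorem dec' (i : Fin 3) {D} {f : R4 S} (hf : IsA (D + 1) f) :
    ∃ g, IsA D g ∧ f = C (F.ev i f) * F.nu i ^ (D + 1) + F.la i * g :=
  dec (F.hnu i) (F.h0 i) (F.h1 i) hf

theorem div1 (i : Fin 3) {D} {f : R4 S} (hf : IsA (D + 1) f) (h : F.ev i f = 0) :
    ∃ g, IsA D g ∧ f = F.la i * g := by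
  obtain ⟨g, a, b⟩ := F.dec' i hf
  exact ⟨g, a, by rw [b, h]; simp⟩

theorem cong (i j : Fin 3) {D} {f : R4 S} (hf : IsA (D + 1) f) :
    F.ev j (F.la i) ∣ F.ev j f - F.ev j (F.nu i) ^ (D + 1) * F.ev i f := by
  obtain ⟨g, -, b⟩ := F.dec' i hf
  refine ⟨F.ev j g, ?_⟩
  have := congrArg (F.ev j) b
  simp only [map_add, map_mul, map_pow, ev_C] at this
  linear_combination this

theorem ker [IsDomain S] {D} {h : R4 S} (hh : IsA (D + 3) h) (h0 : ∀ i, F.ev i h = 0) :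
    ∃ g, IsA D g ∧ h = F.Λ * g := by
  obtain ⟨g1, a1, e1⟩ := F.div1 0 hh (h0 0)
  have k : ∀ j, j ≠ 0 → F.ev j g1 = 0 := fun j hj => by
    have := h0 j
    rw [e1, map_mul] at this
    exact (mul_eq_zero.1 this).resolve_left (F.hδ 0 j hj.symm)
  obtain ⟨g2, a2, e2⟩ := F.div1 1 a1 (k 1 (by decide))
  have k2 : F.ev 2 g2 = 0 := by
    have := k 2 (by decide)
    rw [e2, map_mul] at this
    exact (mul_eq_zero.1 this).resolve_left (F.hδ 1 2 (by decide))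
  obtain ⟨g3, a3, e3⟩ := F.div1 2 a2 k2
  exact ⟨g3, a3, by rw [e1, e2, e3, Λ]; ring⟩

theorem Λ_ne [IsDomain S] : F.Λ ≠ 0 := by
  have h : ∀ i j, i ≠ j → F.la i ≠ 0 := fun i j hij h0 => F.hδ i j hij (by rw [h0]; simp)
  exact mul_ne_zero (mul_ne_zero (h 0 1 (by decide)) (h 1 0 (by decide))) (h 2 0 (by decide))

/-- the arithmetic condition at the nodes -/
structure Good : Prop where
  hμ : ∀ i j, i ≠ j → F.ev j (F.la i) ∣ F.ev j (F.nu i) ^ 8 - 1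
  hcop : IsCoprime (F.ev 2 (F.la 0)) (F.ev 2 (F.la 1))

theorem lift (G : F.Good) (D : ℕ) (f : Fin 3 → S)
    (hf : ∀ i j, i ≠ j → F.ev j (F.la i) ∣ f j - F.ev j (F.nu i) ^ (D + 2) * f i) :
    ∃ P, IsA (D + 2) P ∧ ∀ i, F.ev i P = f i := by
  obtain ⟨h1, e1⟩ := hf 0 1 (by decide)
  set P1 := C (f 0) * F.nu 0 ^ (D + 2) + C h1 * (F.la 0 * F.nu 1 ^ (D + 1)) with hP1
  have A1 : IsA (D + 2) P1 := (((F.hnu 0).pow1 _).cmul _).add
    (((F.hla 0).mul' ((F.hnu 1).pow1 _) (by ring)).cmul _)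
  have v0 : F.ev 0 P1 = f 0 := by simp [hP1]
  have v1 : F.ev 1 P1 = f 1 := by
    simp only [hP1, map_add, map_mul, map_pow, ev_C, ev_nu]
    linear_combination -e1
  have d0 : F.ev 2 (F.la 0) ∣ f 2 - F.ev 2 P1 := by
    have := dvd_sub (hf 0 2 (by decide)) (F.cong 0 2 A1)
    rw [v0] at this
    convert this using 1; ring
  have d1 : F.ev 2 (F.la 1) ∣ f 2 - F.ev 2 P1 := by
    have := dvd_sub (hf 1 2 (by decide)) (F.cong 1 2 A1)
    rw [v1] at this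
    convert this using 1; ring
  obtain ⟨h2, e2⟩ := G.hcop.mul_dvd d0 d1
  refine ⟨P1 + C h2 * (F.la 0 * F.la 1 * F.nu 2 ^ D), A1.add
    (((((F.hla 0).mul' (F.hla 1) rfl)).mul' ((F.hnu 2).pow1 _) (by ring)).cmul _), fun i => ?_⟩
  fin_cases i
  · simpa using v0
  · simpa using v1
  · simp only [Fin.reduceFinMk, map_add, map_mul, map_pow, ev_C, ev_nu]
    linear_combination -e2

theorem exists_c (G : F.Good) : ∃ c, IsA 8 c ∧ ∀ i, F.ev i c = 1 :=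
  F.lift G 6 (fun _ => 1) fun i j hij => by
    have := (G.hμ i j hij).neg_right
    convert this using 1; ring

theorem divN [IsDomain S] (G : F.Good) {c : R4 S} (hc : IsA 8 c) (hc1 : ∀ i, F.ev i c = 1)
    (m n : ℕ) {g : R4 S} (hg : IsA (m + 7 + 8 * n + 3) g) :
    ∃ f g', IsA (m + 2) f ∧ IsA (m + 7 + 8 * n) g' ∧ g = f * c ^ (n + 1) + F.Λ * g' := by
  obtain ⟨f, a, e⟩ := F.lift G m (fun i => F.ev i g) fun i j hij => by
    have h1 := F.cong i j (D := m + 7 + 8 * n + 2) hg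
    have h2 : F.ev j (F.la i) ∣ (F.ev j (F.nu i) ^ 8) ^ (n + 1) - 1 ^ (n + 1) :=
      (G.hμ i j hij).trans (sub_dvd_pow_sub_pow _ _ _)
    have := dvd_add h1 (h2.mul_left (F.ev j (F.nu i) ^ (m + 2) * F.ev i g))
    convert this using 1; ring
  obtain ⟨g', a', e'⟩ := F.ker (D := m + 7 + 8 * n) (h := g - f * c ^ (n + 1))
    (hg.sub (a.mul' (hc.pow (n + 1)) (by ring))) (fun i => by simp [e, hc1])
  exact ⟨f, g', a, a', by linear_combination e'⟩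

end Fr

/-- sections of `Symⁿ` with `x`-degree `m` in the frame `U = X 2`, `V = X 3` -/
def IsG : ℕ → ℕ → R4 S → Prop
  | 0, m, T => IsA m T
  | n + 1, m, T => ∃ f T', IsA m f ∧ IsG n (m + 5) T' ∧ T = f * X 3 ^ (n + 1) + X 2 * T'

theorem IsG.zero : ∀ n m, IsG n m (0 : R4 S)
  | 0, m => IsA.zero m
  | n + 1, m => ⟨0, 0, IsA.zero m, IsG.zero n _, by simp⟩

theorem IsG.add : ∀ {n m} {T T' : R4 S}, IsG n m T → IsG n m T' → IsG n m (T + T')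
  | 0, _, _, _, h, h' => IsA.add h h'
  | _ + 1, _, _, _, ⟨f, T, a, b, h⟩, ⟨g, T', c, d, h'⟩ =>
    ⟨f + g, T + T', a.add c, b.add d, by rw [h, h']; ring⟩

theorem IsG.amul {k} {a : R4 S} (ha : IsA k a) :
    ∀ {n m K} {T : R4 S}, IsG n m T → K = m + k → IsG n K (a * T)
  | 0, _, _, _, h, hK => IsA.mul' ha h (by omega)
  | _ + 1, _, _, _, ⟨f, T, b, c, h⟩, hK =>
    ⟨a * f, a * T, ha.mul' b (by omega), IsG.amul ha c (by omega), by rw [h]; ring⟩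

theorem IsG.cmul (s : S) {n m} {T : R4 S} (h : IsG n m T) : IsG n m (C s * T) :=
  IsG.amul (IsA.C' s) h rfl

theorem IsG.neg {n m} {T : R4 S} (h : IsG n m T) : IsG n m (-T) := by simpa using h.cmul (-1)

theorem IsG.sub {n m} {T T' : R4 S} (h : IsG n m T) (h' : IsG n m T') : IsG n m (T - T') := by
  simpa [sub_eq_add_neg] using h.add h'.neg

theorem IsG.umul {n m} {T : R4 S} (h : IsG n (m + 5) T) : IsG (n + 1) m (X 2 * T) :=
  ⟨0, T, IsA.zero m, h, by simp⟩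

theorem IsG.vmul : ∀ {n m} {T : R4 S}, IsG n m T → IsG (n + 1) m (X 3 * T)
  | 0, m, T, h => ⟨T, 0, h, IsG.zero _ _, by ring⟩
  | _ + 1, _, _, ⟨f, T, a, b, h⟩ => ⟨f, X 3 * T, a, b.vmul, by rw [h]; ring⟩

theorem IsG.vpow {m} {f : R4 S} (hf : IsA m f) : ∀ n, IsG n m (f * X 3 ^ n)
  | 0 => by simpa [IsG] using hf
  | n + 1 => ⟨f, 0, hf, IsG.zero _ _, by simp⟩

theorem IsG.v1pow (a : S) {W : R4 S} (hW : IsA 5 W) :
    ∀ n, IsG n 0 ((C a * X 3 + W * X 2) ^ n)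
  | 0 => ⟨1, by simp⟩
  | n + 1 => by
    have h := IsG.v1pow a hW n
    have := (h.vmul.cmul a).add (IsG.umul (IsG.amul hW h rfl))
    convert this using 1; ring

theorem v1dec (a : S) {W : R4 S} (hW : IsA 5 W) :
    ∀ n, ∃ T, IsG n 5 T ∧ (C a * X 3 + W * X 2) ^ (n + 1) = C a ^ (n + 1) * X 3 ^ (n + 1) + X 2 * T
  | 0 => ⟨W, hW, by ring⟩
  | n + 1 => by
    obtain ⟨T, h, e⟩ := v1dec a hW n
    refine ⟨C a * (X 3 * T) + W * (C a * X 3 + W * X 2) ^ (n + 1),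
      (h.vmul.cmul a).add (IsG.amul hW (IsG.v1pow a hW (n + 1)) rfl), ?_⟩
    linear_combination (C a * X 3) * e

theorem IsG.map {L : Type} [CommRing L] (Φ : R4 S →+* R4 L) (φ : S → L)
    (hC : ∀ s, Φ (C s) = C (φ s)) (h0 : Φ (X 0) = X 0) (h1 : Φ (X 1) = X 1) {u a : L} {W : R4 L}
    (hW : IsA 5 W) (h2 : Φ (X 2) = C u * X 2) (h3 : Φ (X 3) = C a * X 3 + W * X 2) :
    ∀ {n m} {T : R4 S}, IsG n m T → IsG n m (Φ T)
  | 0, _, _, h => IsA.map Φ φ hC h0 h1 h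
  | n + 1, _, _, ⟨f, T, b, c, h⟩ => by
    have := (IsG.amul (IsA.map Φ φ hC h0 h1 b) (IsG.v1pow a hW (n + 1)) (zero_add _).symm).add
      ((IsG.map Φ φ hC h0 h1 hW h2 h3 c).umul.cmul u)
    rw [h]; simp only [map_add, map_mul, map_pow, h2, h3]
    convert this using 1; ring

/-- the coefficient of the top power of the first summand -/
def pX (Λ c : R4 S) : R4 S →+* R4 S := eval₂Hom C ![X 0, X 1, Λ, c]

@[simp] theorem pX_C (Λ c : R4 S) (s : S) : pX Λ c (C s) = C s := by simp [pX]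
@[simp] theorem pX_X0 (Λ c : R4 S) : pX Λ c (X 0) = X 0 := by simp [pX]
@[simp] theorem pX_X1 (Λ c : R4 S) : pX Λ c (X 1) = X 1 := by simp [pX]
@[simp] theorem pX_X2 (Λ c : R4 S) : pX Λ c (X 2) = Λ := by simp [pX]
@[simp] theorem pX_X3 (Λ c : R4 S) : pX Λ c (X 3) = c := by simp [pX]

theorem IsA.pX (Λ c : R4 S) {D} {f : R4 S} (hf : IsA D f) : pX Λ c f = f :=
  IsA.ext (Gr.pX Λ c) (RingHom.id _) (by simp) (by simp) (by simp) hf

theorem IsG.pX {Λ c : R4 S} (hΛ : IsA 3 Λ) (hc : IsA 8 c) :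
    ∀ {n m} {T : R4 S}, IsG n m T → IsA (m + 8 * n) (pX Λ c T)
  | 0, _, _, h => by rw [IsA.pX Λ c h]; exact h
  | n + 1, _, _, ⟨f, T, a, b, h⟩ => by
    rw [h]; simp only [map_add, map_mul, map_pow, pX_X2, pX_X3, a.pX]
    exact (a.mul' (hc.pow _) rfl).add (hΛ.mul' (IsG.pX hΛ hc b) (by ring))

namespace Fr

variable (F : Fr S)

theorem surj [IsDomain S] (G : F.Good) {c : R4 S} (hc : IsA 8 c) (hc1 : ∀ i, F.ev i c = 1) :
    ∀ (n m : ℕ) {g : R4 S}, IsA (m + 2 + 8 * n) g → ∃ T, IsG n (m + 2) T ∧ pX F.Λ c T = g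
  | 0, _, g, hg => ⟨g, hg, hg.pX _ _⟩
  | n + 1, m, g, hg => by
    obtain ⟨f, g', a, a', e⟩ := F.divN G hc hc1 m n (hg.cast (by ring))
    obtain ⟨T, b, e'⟩ := surj G hc hc1 n (m + 5) (a'.cast (by ring))
    refine ⟨f * X 3 ^ (n + 1) + X 2 * T, ⟨f, T, a, by rwa [show m + 2 + 5 = m + 5 + 2 by ring], rfl⟩, ?_⟩
    simp only [map_add, map_mul, map_pow, pX_X2, pX_X3, a.pX, e', e]

theorem kerG [IsDomain S] {c : R4 S} (hc : IsA 8 c) (hc1 : ∀ i, F.ev i c = 1) :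
    ∀ (n m : ℕ) {T : R4 S}, IsG (n + 1) (m + 3) T → pX F.Λ c T = 0 →
      ∃ T', IsG n m T' ∧ T = (F.Λ * X 3 - c * X 2) * T' := by
  have key : ∀ (n m : ℕ) {T : R4 S}, IsG (n + 1) (m + 3) T → pX F.Λ c T = 0 →
      ∃ f T', IsA m f ∧ IsG n (m + 8) T' ∧ pX F.Λ c T' = 0 ∧
        T = (F.Λ * X 3 - c * X 2) * (f * X 3 ^ n) + X 2 * T' := by
    rintro n m _ ⟨f, T, a, b, rfl⟩ h
    simp only [map_add, map_mul, map_pow, pX_X2, pX_X3, a.pX] at h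
    obtain ⟨f', a', e⟩ := F.ker a fun i => by
      have := congrArg (F.ev i) h
      simpa [hc1] using this
    refine ⟨f', T + c * (f' * X 3 ^ n), a', b.add (IsG.amul hc (IsG.vpow a' n) rfl), ?_, ?_⟩
    · apply mul_left_cancel₀ F.Λ_ne
      simp only [map_add, map_mul, map_pow, pX_X3, a'.pX, hc.pX]
      rw [e] at h
      linear_combination h
    · rw [e]; ring
  intro n
  induction n with
  | zero =>
    intro m T hT h
    obtain ⟨f, T', a, b, e, rfl⟩ := key 0 m hT h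
    rw [IsA.pX _ _ b] at e
    exact ⟨f, a, by rw [e]; ring⟩
  | succ n ih =>
    intro m T hT h
    obtain ⟨f, T', a, b, e, rfl⟩ := key (n + 1) m hT h
    obtain ⟨T4, b4, rfl⟩ := ih (m + 5) b e
    exact ⟨f * X 3 ^ (n + 1) + X 2 * T4, ⟨f, T4, a, b4, rfl⟩, by ring⟩

theorem wmul {c : R4 S} (hc : IsA 8 c) {n m} {T : R4 S} (h : IsG n m T) :
    IsG (n + 1) (m + 3) ((F.Λ * X 3 - c * X 2) * T) := by
  have := (IsG.amul F.hΛ h.vmul rfl).sub (IsG.umul (m := m + 3) (IsG.amul hc h rfl))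
  convert this using 1; ring

end Fr

end Crest.Agent.H1.Gr
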