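import Crest.Agent.H1.GrA

/-! Row 258: Čech vanishing and global generation by induction. -/

set_option autoImplicit false

noncomputable section

namespace Crest.Agent.H1.Gr

open MvPolynomial

abbrev P2 := MvPolynomial (Fin 2) ℂ

/-- fibre forms of degree `n` -/
def Hm : ℕ → P2 → Prop
  | 0, R => ∃ k, R = C k
  | n + 1, R => ∃ k R', Hm n R' ∧ R = C k * X 1 ^ (n + 1) + X 0 * R'

theorem Hm.zero : ∀ n, Hm n 0
  | 0 => ⟨0, by simp⟩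
  | n + 1 => ⟨0, 0, Hm.zero n, by simp⟩

theorem Hm.add : ∀ {n} {R R' : P2}, Hm n R → Hm n R' → Hm n (R + R')
  | 0, _, _, ⟨s, hs⟩, ⟨t, ht⟩ => ⟨s + t, by simp [hs, ht]⟩
  | _ + 1, _, _, ⟨k, R, a, h⟩, ⟨k', R', b, h'⟩ =>
    ⟨k + k', R + R', a.add b, by rw [h, h', map_add]; ring⟩

theorem Hm.cmul (s : ℂ) : ∀ {n} {R : P2}, Hm n R → Hm n (C s * R)
  | 0, _, ⟨t, ht⟩ => ⟨s * t, by simp [ht]⟩
  | _ + 1, _, ⟨k, R, a, h⟩ => ⟨s * k, C s * R, a.cmul s, by rw [h, map_mul]; ring⟩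

theorem Hm.sub {n} {R R' : P2} (h : Hm n R) (h' : Hm n R') : Hm n (R - R') := by
  simpa [sub_eq_add_neg] using h.add (h'.cmul (-1))

theorem Hm.vpow (k : ℂ) : ∀ n, Hm n (C k * X 1 ^ n)
  | 0 => ⟨k, by simp⟩
  | n + 1 => ⟨k, 0, Hm.zero n, by simp⟩

theorem Hm.mono (k : ℂ) (j : ℕ) : ∀ i, Hm (j + i) (C k * X 0 ^ i * X 1 ^ j)
  | 0 => by simpa using Hm.vpow k j
  | i + 1 => ⟨0, _, Hm.mono k j i, by simp; ring⟩

theorem Hm.of_hom {n} {R : P2} (h : R.IsHomogeneous n) : Hm n R := by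
  rw [R.as_sum]
  refine Finset.sum_induction _ (Hm n) (fun _ _ => Hm.add) (Hm.zero n) fun d hd => ?_
  have h1 : Finsupp.weight 1 d = n := h (mem_support_iff.1 hd)
  rw [Finsupp.weight_apply, Finsupp.sum_fintype _ _ (by simp), Fin.sum_univ_two] at h1
  simp only [Pi.one_apply, smul_eq_mul, mul_one] at h1
  have := Hm.mono (coeff d R) (d 1) (d 0)
  rw [add_comm, h1] at this
  rw [monomial_eq, Finsupp.prod_fintype _ _ (by simp), Fin.prod_univ_two, ← mul_assoc]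
  exact this

theorem Hm.hom : ∀ {n} {R : P2}, Hm n R → R.IsHomogeneous n
  | 0, _, ⟨s, hs⟩ => hs ▸ isHomogeneous_C _ s
  | n + 1, _, ⟨k, R, a, h⟩ => by
    rw [h]
    refine IsHomogeneous.add ?_ ?_
    · simpa using (isHomogeneous_C _ k).mul ((isHomogeneous_X ℂ (1 : Fin 2)).pow (n + 1))
    · simpa [add_comm] using (isHomogeneous_X ℂ (0 : Fin 2)).mul a.hom

theorem Hm.divw {l c : ℂ} (hlc : l ≠ 0 ∨ c ≠ 0) : ∀ (n) {R : P2}, Hm (n + 1) R →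
    eval ![l, c] R = 0 → ∃ R', Hm n R' ∧ R = (C l * X 1 - C c * X 0) * R' := by
  by_cases hl : l = 0
  · rintro n _ ⟨k, R, a, rfl⟩ h
    have hc := hlc.resolve_left (by simpa using hl)
    have hk : k = 0 := by simpa [hl, hc] using h
    refine ⟨C (-c⁻¹) * R, a.cmul _, ?_⟩
    have : (C c * C c⁻¹ : P2) = 1 := by rw [← map_mul, mul_inv_cancel₀ hc, map_one]
    rw [hk, hl]; simp only [map_zero, map_neg]
    linear_combination (-(X 0 * R)) * this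
  have key : ∀ n {R : P2}, Hm (n + 1) R → eval ![l, c] R = 0 → ∃ k R', Hm n R' ∧
      eval ![l, c] R' = 0 ∧ R = (C l * X 1 - C c * X 0) * (C k * X 1 ^ n) + X 0 * R' := by
    rintro n _ ⟨k, R, a, rfl⟩ h
    have e : (C l * C (k / l) : P2) = C k := by rw [← map_mul, mul_div_cancel₀ _ hl]
    refine ⟨k / l, R + C c * (C (k / l) * X 1 ^ n), a.add ((Hm.vpow _ n).cmul c), ?_, ?_⟩
    · apply mul_left_cancel₀ hl
      simp only [map_add, map_mul, map_pow, eval_C, eval_X, Matrix.cons_val_one,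
        Matrix.cons_val_zero] at h ⊢
      field_simp
      linear_combination h
    · linear_combination (-X 1 ^ (n + 1)) * e
  intro n
  induction n with
  | zero =>
    intro R hR h
    obtain ⟨k, _, ⟨s, rfl⟩, e, rfl⟩ := key 0 hR h
    have : s = 0 := by simpa using e
    exact ⟨C k, ⟨k, rfl⟩, by rw [this]; simp⟩
  | succ n ih =>
    intro R hR h
    obtain ⟨k, R', a, e, rfl⟩ := key (n + 1) hR h
    obtain ⟨R4, b, rfl⟩ := ih a e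
    exact ⟨C k * X 1 ^ (n + 1) + X 0 * R4, ⟨k, R4, b, rfl⟩, by ring⟩

/-- evaluation at a point of a chart -/
def Ev {S : Type} [CommRing S] (ε : S →+* ℂ) (x : Fin 2 → ℂ) : R4 S →+* P2 :=
  eval₂Hom (C.comp ε) ![C (x 0), C (x 1), X 0, X 1]

/-- evaluation of a coefficient at a point of a chart -/
def e0 {S : Type} [CommRing S] (ε : S →+* ℂ) (x : Fin 2 → ℂ) : R4 S →+* ℂ :=
  eval₂Hom ε ![x 0, x 1, 0, 0]

section
variable {S : Type} [CommRing S] (ε : S →+* ℂ) (x : Fin 2 → ℂ)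
@[simp] theorem Ev_C (s : S) : Ev ε x (C s) = C (ε s) := by simp [Ev]
@[simp] theorem Ev_X0 : Ev ε x (X 0) = C (x 0) := by simp [Ev]
@[simp] theorem Ev_X1 : Ev ε x (X 1) = C (x 1) := by simp [Ev]
@[simp] theorem Ev_X2 : Ev ε x (X 2) = X 0 := by simp [Ev]
@[simp] theorem Ev_X3 : Ev ε x (X 3) = X 1 := by simp [Ev]
@[simp] theorem e0_C (s : S) : e0 ε x (C s) = ε s := by simp [e0]
@[simp] theorem e0_X0 : e0 ε x (X 0) = x 0 := by simp [e0]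
@[simp] theorem e0_X1 : e0 ε x (X 1) = x 1 := by simp [e0]
@[simp] theorem e0_X2 : e0 ε x (X 2) = 0 := by simp [e0]
@[simp] theorem e0_X3 : e0 ε x (X 3) = 0 := by simp [e0]

theorem IsA.Ev {D} {f : R4 S} (hf : IsA D f) : Ev ε x f = C (e0 ε x f) :=
  IsA.ext (Gr.Ev ε x) (C.comp (e0 ε x)) (by simp) (by simp) (by simp) hf

theorem IsG.Ev : ∀ {n m} {T : R4 S}, IsG n m T → Hm n (Ev ε x T)
  | 0, _, _, h => ⟨_, IsA.Ev ε x h⟩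
  | n + 1, _, _, ⟨f, T, a, b, h⟩ => ⟨e0 ε x f, Gr.Ev ε x T, IsG.Ev b, by
      rw [h]; simp [a.Ev ε x]⟩

theorem eval_Ev (Λ c T : R4 S) :
    eval ![e0 ε x Λ, e0 ε x c] (Ev ε x T) = e0 ε x (pX Λ c T) := by
  have : (eval ![e0 ε x Λ, e0 ε x c]).comp (Ev ε x) = (e0 ε x).comp (pX Λ c) := by
    refine ringHom_ext (fun s => by simp) fun i => ?_
    fin_cases i <;> simp
  exact RingHom.congr_fun this T
end

/-- abstract gluing data -/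
structure Glue (S L : Type) [CommRing S] [CommRing L] where
  Φ : Fin 2 → R4 S →+* R4 L
  φ : Fin 2 → S → L
  τ : L
  τ' : L
  W : R4 L
  F : Fin 2 → Fr S
  FL : Fr L
  c : Fin 2 → R4 S
  cL : R4 L
  y : S
  k : ℂ → S
  hτ : τ * τ' = 1
  hW : IsA 5 W
  hC : ∀ b s, Φ b (C s) = C (φ b s)
  h0 : ∀ b, Φ b (X 0) = X 0
  h1 : ∀ b, Φ b (X 1) = X 1
  h02 : Φ 0 (X 2) = X 2
  h03 : Φ 0 (X 3) = X 3
  h12 : Φ 1 (X 2) = C (τ' ^ 3) * X 2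
  h13 : Φ 1 (X 3) = C (τ ^ 8) * X 3 + W * X 2
  good : ∀ b, (F b).Good
  hc : ∀ b, IsA 8 (c b)
  hc1 : ∀ b i, (F b).ev i (c b) = 1
  hcL : IsA 8 cL
  hcL1 : ∀ i, FL.ev i cL = 1
  Λ0 : Φ 0 (F 0).Λ = FL.Λ
  c0 : Φ 0 (c 0) = cL
  Λ1 : Φ 1 (F 1).Λ = C (τ' ^ 3) * FL.Λ
  c1 : Φ 1 (c 1) = C (τ ^ 8) * cL + W * FL.Λ
  split : ∀ (m : ℕ) (l : L), ∃ a b, l = φ 0 a + τ ^ m * φ 1 b
  y0 : φ 0 y = τ
  y1 : φ 1 y = τ'
  hk : ∀ z, φ 0 (k z) = φ 1 (k z)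

namespace Glue

variable {S L : Type} [CommRing S] [CommRing L] (G : Glue S L)

theorem mapA (b : Fin 2) {D} {f : R4 S} (h : IsA D f) : IsA D (G.Φ b f) :=
  IsA.map _ _ (G.hC b) (G.h0 b) (G.h1 b) h

theorem mapG (b : Fin 2) {n m} {T : R4 S} (h : IsG n m T) : IsG n m (G.Φ b T) := by
  fin_cases b
  · exact IsG.map _ _ (G.hC 0) (G.h0 0) (G.h1 0) (u := 1) (a := 1) (IsA.zero 5)
      (by simp [G.h02]) (by simp [G.h03]) h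
  · exact IsG.map _ _ (G.hC 1) (G.h0 1) (G.h1 1) G.hW G.h12 G.h13 h

theorem splitA (m : ℕ) : ∀ {D} {f : R4 L}, IsA D f →
    ∃ f0 f1, IsA D f0 ∧ IsA D f1 ∧ f = G.Φ 0 f0 + C G.τ ^ m * G.Φ 1 f1
  | 0, _, ⟨s, hs⟩ => by
    obtain ⟨a, b, e⟩ := G.split m s
    exact ⟨C a, C b, ⟨a, rfl⟩, ⟨b, rfl⟩, by rw [hs, e]; simp [G.hC]⟩
  | _ + 1, _, ⟨f, g, a, b, h⟩ => by
    obtain ⟨f0, f1, a0, a1, e⟩ := splitA m a
    obtain ⟨g0, g1, b0, b1, e'⟩ := splitA m b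
    refine ⟨X 0 * f0 + X 1 * g0, X 0 * f1 + X 1 * g1, ⟨_, _, a0, b0, rfl⟩, ⟨_, _, a1, b1, rfl⟩, ?_⟩
    rw [h, e, e']; simp only [map_add, map_mul, G.h0, G.h1]; ring

theorem hτC : (C G.τ * C G.τ' : R4 L) = 1 := by rw [← map_mul, G.hτ, map_one]

theorem hτ3 : (C G.τ ^ 3 * C G.τ' ^ 3 : R4 L) = 1 := by rw [← mul_pow, G.hτC, one_pow]

def H (n m1 m2 : ℕ) : Prop := ∀ T : R4 L, IsG n m1 T →
  ∃ T0 T1, IsG n m1 T0 ∧ IsG n m1 T1 ∧ T = G.Φ 0 T0 + C G.τ ^ m2 * G.Φ 1 T1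

theorem stepA {n m1 m2 : ℕ} (h : G.H n (m1 + 5) m2) {f0 f1 : R4 S} (a1 : IsA m1 f1) {T : R4 L}
    (hT : IsG n (m1 + 5) T) : ∃ T0 T1, IsG n (m1 + 5) T0 ∧ IsG n (m1 + 5) T1 ∧
      (G.Φ 0 f0 + C G.τ ^ (m2 + 3 + 8 * (n + 1)) * G.Φ 1 f1) * X 3 ^ (n + 1) + X 2 * T =
      G.Φ 0 (f0 * X 3 ^ (n + 1) + X 2 * T0) +
        C G.τ ^ (m2 + 3) * G.Φ 1 (f1 * X 3 ^ (n + 1) + X 2 * T1) := by
  obtain ⟨T2, b2, e2⟩ := v1dec (G.τ ^ 8) G.hW n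
  obtain ⟨T0, T1, b0, b1, e⟩ := h (T - C (G.τ ^ (m2 + 3)) * (G.Φ 1 f1 * T2))
    (hT.sub ((IsG.amul (G.mapA 1 a1) b2 (by ring)).cmul _))
  refine ⟨T0, T1, b0, b1, ?_⟩
  simp only [map_add, map_mul, map_pow, G.h02, G.h03, G.h12, G.h13] at e e2 ⊢
  rw [e2]
  linear_combination X 2 * e - (C G.τ ^ m2 * X 2 * G.Φ 1 T1) * G.hτ3

theorem inter (b : Fin 2) (T : R4 S) :
    pX G.FL.Λ G.cL (G.Φ b T) = G.Φ b (pX (G.F b).Λ (G.c b) T) := by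
  have : (pX G.FL.Λ G.cL).comp (G.Φ b) = (G.Φ b).comp (pX (G.F b).Λ (G.c b)) := by
    refine ringHom_ext (fun s => by simp [G.hC]) fun i => ?_
    fin_cases b <;> fin_cases i <;>
      simp [G.h0, G.h1, G.h02, G.h03, G.h12, G.h13, G.Λ0, G.Λ1, G.c0, G.c1, G.hW.pX]
  exact RingHom.congr_fun this T

theorem stepB [IsDomain S] [IsDomain L] {n m1 m2 : ℕ} (h : G.H n m1 (m2 + 5)) {T : R4 L}
    (hT : IsG (n + 1) (m1 + 3) T) {g0 g1 : R4 S} (a0 : IsA (m1 + 3 + 8 * (n + 1)) g0)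
    (a1 : IsA (m1 + 3 + 8 * (n + 1)) g1)
    (e : pX G.FL.Λ G.cL T = G.Φ 0 g0 + C G.τ ^ m2 * G.Φ 1 g1) :
    ∃ T0 T1, IsG (n + 1) (m1 + 3) T0 ∧ IsG (n + 1) (m1 + 3) T1 ∧
      pX (G.F 0).Λ (G.c 0) T0 = g0 ∧ pX (G.F 1).Λ (G.c 1) T1 = g1 ∧
      T = G.Φ 0 T0 + C G.τ ^ m2 * G.Φ 1 T1 := by
  obtain ⟨S0, b0, e0⟩ := (G.F 0).surj (G.good 0) (G.hc 0) (G.hc1 0) (n + 1) (m1 + 1) a0
  obtain ⟨S1, b1, e1⟩ := (G.F 1).surj (G.good 1) (G.hc 1) (G.hc1 1) (n + 1) (m1 + 1) a1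
  obtain ⟨T', b', e'⟩ := G.FL.kerG G.hcL G.hcL1 n m1
    (T := T - G.Φ 0 S0 - C (G.τ ^ m2) * G.Φ 1 S1)
    ((hT.sub (G.mapG 0 b0)).sub ((G.mapG 1 b1).cmul _)) (by
      simp only [map_sub, map_mul, pX_C, G.inter, e0, e1, e, map_pow]; ring)
  obtain ⟨T0, T1, c0, c1, e3⟩ := h T' b'
  refine ⟨S0 + ((G.F 0).Λ * X 3 - G.c 0 * X 2) * T0, S1 + ((G.F 1).Λ * X 3 - G.c 1 * X 2) * T1,
    IsG.add b0 ((G.F 0).wmul (G.hc 0) c0), IsG.add b1 ((G.F 1).wmul (G.hc 1) c1), ?_, ?_, ?_⟩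
  · simp only [map_add, map_mul, map_sub, pX_X2, pX_X3, e0, (G.F 0).hΛ.pX, (G.hc 0).pX]; ring
  · simp only [map_add, map_mul, map_sub, pX_X2, pX_X3, e1, (G.F 1).hΛ.pX, (G.hc 1).pX]; ring
  · simp only [map_add, map_mul, map_sub, map_pow, G.h02, G.h03, G.h12, G.h13, G.Λ0, G.Λ1, G.c0,
      G.c1] at e' ⊢
    rw [e3] at e'
    linear_combination e' - (C G.τ ^ (m2 + 5) * (G.FL.Λ * X 3 - G.cL * X 2) * G.Φ 1 T1) * G.hτ3

theorem H0 (m1 m2 : ℕ) : G.H 0 m1 m2 := fun _ hT => G.splitA m2 hT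

theorem HA {n m1 m2 : ℕ} (h : G.H n (m1 + 5) m2) : G.H (n + 1) m1 (m2 + 3) := by
  rintro _ ⟨f, T, a, b, rfl⟩
  obtain ⟨f0, f1, a0, a1, rfl⟩ := G.splitA (m2 + 3 + 8 * (n + 1)) a
  obtain ⟨T0, T1, b0, b1, e⟩ := G.stepA h (f0 := f0) a1 b
  exact ⟨_, _, ⟨f0, T0, a0, b0, rfl⟩, ⟨f1, T1, a1, b1, rfl⟩, e⟩

theorem HB [IsDomain S] [IsDomain L] {n m1 m2 : ℕ} (h : G.H n m1 (m2 + 5)) :
    G.H (n + 1) (m1 + 3) m2 := by
  intro T hT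
  obtain ⟨g0, g1, a0, a1, e⟩ := G.splitA m2 (hT.pX G.FL.hΛ G.hcL)
  obtain ⟨T0, T1, b0, b1, -, -, e'⟩ := G.stepB h hT a0 a1 e
  exact ⟨T0, T1, b0, b1, e'⟩

def Glob (n m1 m2 : ℕ) (T : Fin 2 → R4 S) : Prop :=
  (∀ b, IsG n m1 (T b)) ∧ G.Φ 0 (T 0) = C G.τ ^ m2 * G.Φ 1 (T 1)

theorem Glob.comb {n m1 m2 : ℕ} {T T' : Fin 2 → R4 S} (h : G.Glob n m1 m2 T)
    (h' : G.Glob n m1 m2 T') (z : ℂ) : G.Glob n m1 m2 (fun b => C (G.k z) * T b + T' b) :=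
  ⟨fun b => ((h.1 b).cmul _).add (h'.1 b), by
    simp only [map_add, map_mul, G.hC, h.2, h'.2, G.hk]; ring⟩

theorem mono (ε : S →+* ℂ) (x : Fin 2 → ℂ) (hx : x ≠ 0) (b : Fin 2) (m1 m2 : ℕ) :
    ∃ f : Fin 2 → R4 S, (∀ b, IsA m1 (f b)) ∧ G.Φ 0 (f 0) = C G.τ ^ m2 * G.Φ 1 (f 1) ∧
      e0 ε x (f b) ≠ 0 := by
  obtain ⟨u, hu, hu0, hu1⟩ : ∃ u : R4 S, IsA 1 u ∧ G.Φ 0 u = G.Φ 1 u ∧ e0 ε x u ≠ 0 := by
    by_cases h : x 0 = 0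
    · refine ⟨X 1, IsA.X1, by simp [G.h1], ?_⟩
      intro h'
      apply hx; ext i; fin_cases i
      · exact h
      · simpa using h'
    · exact ⟨X 0, IsA.X0, by simp [G.h0], by simpa using h⟩
  have t : (C G.τ ^ m2 * C G.τ' ^ m2 : R4 L) = 1 := by rw [← mul_pow, G.hτC, one_pow]
  fin_cases b
  · refine ⟨![u ^ m1, C (G.y ^ m2) * u ^ m1], fun b => ?_, ?_, by simp [hu1]⟩
    · fin_cases b
      · exact hu.pow1 _
      · exact (hu.pow1 _).cmul _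
    · simp only [Matrix.cons_val_zero, Matrix.cons_val_one, map_mul, map_pow, G.hC, G.y1, hu0]
      linear_combination (-(G.Φ 1 u) ^ m1) * t
  · refine ⟨![C (G.y ^ m2) * u ^ m1, u ^ m1], fun b => ?_, ?_, by simp [hu1]⟩
    · fin_cases b
      · exact (hu.pow1 _).cmul _
      · exact hu.pow1 _
    · simp only [Matrix.cons_val_zero, Matrix.cons_val_one, map_mul, map_pow, G.hC, G.y0, hu0]

def GGp (ε : S →+* ℂ) (x : Fin 2 → ℂ) (b : Fin 2) (n m1 m2 : ℕ) : Prop :=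
  ∀ R, Hm n R → ∃ T, G.Glob n m1 m2 T ∧ Ev ε x (T b) = R

variable (ε : S →+* ℂ) (hε : ∀ z, ε (G.k z) = z) (x : Fin 2 → ℂ) (hx : x ≠ 0) (b : Fin 2)
include hε hx

theorem GG0 (m1 m2 : ℕ) : G.GGp ε x b 0 m1 m2 := by
  rintro _ ⟨k, rfl⟩
  obtain ⟨f, a, e, h⟩ := G.mono ε x hx b m1 m2
  have z : G.Glob 0 m1 m2 (fun _ => 0) := ⟨fun _ => IsG.zero _ _, by simp⟩
  refine ⟨_, Glob.comb G (n := 0) (T := f) ⟨a, e⟩ z (k / e0 ε x (f b)), ?_⟩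
  simp only [add_zero, map_mul, Ev_C, hε, (a b).Ev ε x]
  rw [← map_mul, div_mul_cancel₀ _ h]

theorem GGA {n m1 m2 : ℕ} (h : G.H n (m1 + 5) m2) (g : G.GGp ε x b n (m1 + 5) m2) :
    G.GGp ε x b (n + 1) m1 (m2 + 3) := by
  rintro _ ⟨k, R, hR, rfl⟩
  obtain ⟨f, a, e, hf⟩ := G.mono ε x hx b m1 (m2 + 3 + 8 * (n + 1))
  obtain ⟨T0, T1, b0, b1, e'⟩ := G.stepA h (f0 := f 0) (a 1).neg (IsG.zero _ _)
  set T' : Fin 2 → R4 S := ![T0, -T1] with hT'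
  have bT : ∀ b, IsG n (m1 + 5) (T' b) := fun b => by
    fin_cases b
    · exact b0
    · exact b1.neg
  have gA : G.Glob (n + 1) m1 (m2 + 3) (fun b => f b * X 3 ^ (n + 1) + X 2 * T' b) := by
    refine ⟨fun b => ⟨_, _, a b, bT b, rfl⟩, ?_⟩
    simp only [hT', Matrix.cons_val_zero, Matrix.cons_val_one, map_add, map_mul, map_neg, e] at e' ⊢
    linear_combination -e'
  obtain ⟨T2, g2, e2⟩ := g _ (hR.sub (((bT b).Ev ε x).cmul (k / e0 ε x (f b))))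
  have gU : G.Glob (n + 1) m1 (m2 + 3) (fun b => X 2 * T2 b) := by
    refine ⟨fun b => (g2.1 b).umul, ?_⟩
    simp only [map_mul, map_pow, G.h02, G.h12, g2.2]
    linear_combination (-(C G.τ ^ m2 * X 2 * G.Φ 1 (T2 1))) * G.hτ3
  refine ⟨_, Glob.comb G gA gU (k / e0 ε x (f b)), ?_⟩
  have : (C (k / e0 ε x (f b)) * C (e0 ε x (f b)) : P2) = C k := by
    rw [← map_mul, div_mul_cancel₀ _ hf]
  simp only [map_add, map_mul, map_pow, Ev_C, hε, (a b).Ev ε x, Ev_X2, Ev_X3, e2]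
  linear_combination X 1 ^ (n + 1) * this

theorem GGB [IsDomain S] [IsDomain L] {n m1 m2 : ℕ} (h : G.H n m1 (m2 + 5))
    (g : G.GGp ε x b n m1 (m2 + 5)) : G.GGp ε x b (n + 1) (m1 + 3) m2 := by
  intro R hR
  obtain ⟨f, a, e, hf⟩ := G.mono ε x hx b (m1 + 3 + 8 * (n + 1)) m2
  obtain ⟨T0, T1, b0, b1, p0, p1, e'⟩ := G.stepB h (IsG.zero _ _) (a 0) (a 1).neg (by
    simp [e])
  set T' : Fin 2 → R4 S := ![T0, -T1] with hT'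
  have gB : G.Glob (n + 1) (m1 + 3) m2 T' := by
    refine ⟨fun b => ?_, ?_⟩
    · fin_cases b
      · exact b0
      · exact b1.neg
    · simp only [hT', Matrix.cons_val_zero, Matrix.cons_val_one, map_neg]
      linear_combination -e'
  have pT : pX (G.F b).Λ (G.c b) (T' b) = f b := by
    fin_cases b
    · exact p0
    · simp only [hT', Fin.mk_one, Matrix.cons_val_one, Matrix.cons_val_zero, map_neg]
      rw [p1, neg_neg]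
  set l := e0 ε x (G.F b).Λ
  set c := e0 ε x (G.c b)
  have hlc : l ≠ 0 ∨ c ≠ 0 := by
    by_contra hn
    push Not at hn
    obtain ⟨f', g', -, -, e3⟩ := (G.F b).divN (G.good b) (G.hc b) (G.hc1 b) (m1 + 1) n
      ((a b).cast (by ring))
    apply hf
    rw [e3]
    simp only [map_add, map_mul, map_pow]
    change _ * c ^ _ + l * _ = 0
    simp [hn.1, hn.2]
  obtain ⟨R', hR', e4⟩ := Hm.divw hlc n
    (hR.sub (((gB.1 b).Ev ε x).cmul (eval ![l, c] R / e0 ε x (f b)))) (by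
      simp only [map_sub, map_mul, eval_C]
      rw [eval_Ev, pT, div_mul_cancel₀ _ hf, sub_self])
  obtain ⟨T2, g2, e2⟩ := g _ hR'
  have gW : G.Glob (n + 1) (m1 + 3) m2 (fun b => ((G.F b).Λ * X 3 - G.c b * X 2) * T2 b) := by
    refine ⟨fun b => (G.F b).wmul (G.hc b) (g2.1 b), ?_⟩
    simp only [map_mul, map_sub, map_pow, map_add, G.h02, G.h03, G.h12, G.h13, G.Λ0, G.Λ1, G.c0,
      G.c1, g2.2]
    linear_combination (-(C G.τ ^ (m2 + 5) * (G.FL.Λ * X 3 - G.cL * X 2) * G.Φ 1 (T2 1))) * G.hτ3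
  refine ⟨_, Glob.comb G gB gW (eval ![l, c] R / e0 ε x (f b)), ?_⟩
  simp only [map_add, map_mul, map_sub, Ev_C, hε, Ev_X2, Ev_X3, e2, (G.F b).hΛ.Ev ε x,
    (G.hc b).Ev ε x]
  linear_combination -e4

theorem main [IsDomain S] [IsDomain L] :
    ∀ n m1 m2, G.H n (m1 + 3) m2 ∧ G.GGp ε x b n (m1 + 3) m2
  | 0, _, _ => ⟨G.H0 _ _, G.GG0 ε hε x hx b _ _⟩
  | 1, _, _ => ⟨G.HB (G.H0 _ _), G.GGB ε hε x hx b (G.H0 _ _) (G.GG0 ε hε x hx b _ _)⟩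
  | n + 2, m1, m2 => by
    obtain ⟨h, g⟩ := main n (m1 + 2) (m2 + 2)
    exact ⟨G.HB (G.HA h), G.GGB ε hε x hx b (G.HA h) (G.GGA ε hε x hx b h g)⟩

end Glue

end Crest.Agent.H1.Gr
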