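import Mathlib
import Crest.Prelude.Def_QuadricBundle

/-! Interface for row 258 (S0396, Griffiths' conjecture fails on `ℙ¹ × ℙ¹`). -/

set_option autoImplicit false

noncomputable section

namespace Crest.Agent.H1.Gr

open Crest.AlgGeometry.QuadricBundle
open scoped ComplexConjugate Topology

/-- Parameters: unit circles centred at `P i` (equilateral triangle), meeting at angle `π/4`. -/
structure Par where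
  t : ℝ
  s : ℂ
  θ : ℝ
  P : Fin 3 → ℂ
  ht : 0 < t
  hs : s ^ 2 = 2
  hP : ∀ i, P i * conj (P i) = 1 + (t : ℂ) ^ 2
  hD : ∀ i j, i ≠ j → (P i - P j) * (conj (P i) - conj (P j)) = 2 + s
  hθ0 : 0 ≤ θ
  hθ : θ < 1
  hcov : ∀ X : ℂ, ‖X‖ = 1 → ∃ i, ‖(t : ℂ) * X - P i‖ ≤ θ

/-- Equation of the `i`-th graph in homogeneous coordinates `X = (X 0, X 1)`, `(Y0, Y1)`. -/
def lamI (π : Par) (i : Fin 3) (X : Fin 2 → ℂ) (Y0 Y1 : ℂ) : ℂ :=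
  ((π.t : ℂ) * Y1 - conj (π.P i) * Y0) * X 1 - (π.P i * Y1 - (π.t : ℂ) * Y0) * X 0

/-- Equation of the union of the three graphs in the `y`-chart `b`. -/
def lam (π : Par) (b : Fin 2) (X : Fin 2 → ℂ) (y : ℂ) : ℂ :=
  ∏ i, lamI π i X (if b = 0 then 1 else y) (if b = 0 then y else 1)

/-- Gluing data of the rank two bundle `E₀ = ker (O(8,0) ⊕ O(0,8) → O_Z(8,0))`. -/
structure Dat (π : Par) where
  c : Fin 2 → (Fin 2 → ℂ) → ℂ → ℂ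
  W : (Fin 2 → ℂ) → ℂ → ℂ
  κ : Fin 3 → ℂ → ℂ → ℂ
  c_diff : ∀ b, Differentiable ℂ (fun q : (Fin 2 → ℂ) × ℂ => c b q.1 q.2)
  c_hom : ∀ b (r : ℂ) X y, c b (r • X) y = r ^ 8 * c b X y
  W_diff : DifferentiableOn ℂ (fun q : (Fin 2 → ℂ) × ℂ => W q.1 q.2) {q | q.2 ≠ 0}
  W_hom : ∀ (r : ℂ) X y, W (r • X) y = r ^ 5 * W X y
  glue : ∀ X y, y ≠ 0 → c 1 X y⁻¹ = y ^ 8 * c 0 X y + lam π 0 X y * W X y
  κ_cont : ∀ i, Continuous (fun q : ℂ × ℂ => κ i q.1 q.2)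
  c_eq : ∀ i X Y, c 0 ![1, X] Y = ((π.t : ℂ) * X - π.P i) ^ 8 + lamI π i ![1, X] 1 Y * κ i X Y

/-- Global section of `Symⁿ E₀ ⊗ O(m1, m2)`: homogeneous in `X`, two charts `b` in `y`. -/
structure Sec (W : (Fin 2 → ℂ) → ℂ → ℂ) (n m1 m2 : ℕ)
    (T : Fin 2 → (Fin 2 → ℂ) → ℂ → MvPolynomial (Fin 2) ℂ) : Prop where
  hom : ∀ b X y, (T b X y).IsHomogeneous n
  diff : ∀ b m, Differentiable ℂ
    (fun q : (Fin 2 → ℂ) × ℂ => MvPolynomial.coeff m (T b q.1 q.2))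
  scal : ∀ b (r : ℂ) X y, T b (r • X) y = r ^ m1 • frameSubst !![r ^ 5, 0; 0, 1] (T b X y)
  glue : ∀ X y, y ≠ 0 →
    T 0 X y = y ^ m2 • frameSubst !![y⁻¹ ^ 3, W X y; 0, y ^ 8] (T 1 X y⁻¹)

/-- `Symⁿ E₀ ⊗ O(3, 0)` is globally generated for every `n`. -/
def GG (W : (Fin 2 → ℂ) → ℂ → ℂ) : Prop :=
  ∀ (n : ℕ) (b : Fin 2) (X : Fin 2 → ℂ) (y : ℂ) (R : MvPolynomial (Fin 2) ℂ), X ≠ 0 →
    R.IsHomogeneous n → ∃ T, Sec W n 3 0 T ∧ T b X y = R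

/-- Homogeneous coordinates of the chart `a`. -/
def hom (a : Fin 2) (x : ℂ) : Fin 2 → ℂ := if a = 0 then ![1, x] else ![x, 1]

/-- Transition matrices of `f^* E₀ ⊗ O(1,1)`, `f (x, y) = (x ^ N, y ^ N)`. -/
def gT (W : (Fin 2 → ℂ) → ℂ → ℂ) (N : ℕ) : Transition 2 := fun α β p =>
  (if α.2 = β.2 then 1 else if α.2 = 0 then
      !![p 1 * (p 1)⁻¹ ^ (3 * N), p 1 * W (hom α.1 (p 0 ^ N)) (p 1 ^ N); 0, p 1 ^ (8 * N + 1)]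
    else
      !![p 1 * (p 1)⁻¹ ^ (3 * N), -(p 1 ^ (5 * N + 1) * W (hom α.1 (p 0 ^ N)) (p 1 ^ N)⁻¹);
        0, p 1 ^ (8 * N + 1)]) *
  (if α.1 = β.1 then 1 else !![p 0 ^ (5 * N + 1), 0; 0, p 0])

/-- The covector `(P, Q) ↦ P` in the dual frame of the chart `(0, 0)`. -/
def s1 {π : Par} (D : Dat π) (N : ℕ) (x y : ℂ) : Fin 2 → ℂ :=
  ![lam π 0 ![1, x ^ N] (y ^ N), D.c 0 ![1, x ^ N] (y ^ N)]

/-- What the dual norm of a Griffiths positive metric satisfies on the chart `(0, 0)`. -/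
structure Nrm {π : Par} (D : Dat π) (N : ℕ) (n : ℂ → ℂ → (Fin 2 → ℂ) → ℝ) : Prop where
  cont : Continuous (fun q : ℂ × ℂ × (Fin 2 → ℂ) => n q.1 q.2.1 q.2.2)
  pos : ∀ x y σ, σ ≠ 0 → 0 < n x y σ
  add : ∀ x y σ σ', n x y (σ + σ') ≤ n x y σ + n x y σ'
  smul : ∀ x y (r : ℂ) σ, n x y (r • σ) = ‖r‖ * n x y σ
  mpx : ∀ x y (σ : ℂ → Fin 2 → ℂ), (∀ᶠ z in 𝓝 x, DifferentiableAt ℂ σ z) → σ x ≠ 0 →
    ¬ IsLocalMax (fun z => n z y (σ z)) x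
  mpy : ∀ x y (σ : ℂ → Fin 2 → ℂ), (∀ᶠ z in 𝓝 y, DifferentiableAt ℂ σ z) → σ y ≠ 0 →
    ¬ IsLocalMax (fun z => n x z (σ z)) y
  g1x : ∀ y, ∃ C, ∀ x, 1 ≤ ‖x‖ → n x y (s1 D N x y) ≤ C * ‖x‖ ^ (8 * N + 1)
  g1y : ∀ x, ∃ C, ∀ y, 1 ≤ ‖y‖ → n x y (s1 D N x y) ≤ C * ‖y‖
  g2x : ∀ y, ∃ C, ∀ x, 1 ≤ ‖x‖ → n x y ![0, 1] ≤ C * ‖x‖
  g2y : ∀ x, ∃ C, ∀ y, 1 ≤ ‖y‖ → n x y ![0, 1] ≤ C * ‖y‖ ^ (8 * N + 1)

def ParStmt : Prop := Nonempty Par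

def AlgStmt : Prop := ∀ π : Par, ∃ D : Dat π, GG D.W

def CocStmt : Prop := ∀ (π : Par) (D : Dat π) (N : ℕ), IsHoloCocycle (gT D.W N)

def AmpStmt : Prop := ∀ (π : Par) (D : Dat π) (N : ℕ), GG D.W → IsAmple (gT D.W N)

def BridgeStmt : Prop := ∀ (π : Par) (D : Dat π) (N : ℕ) (H : MetricData 2),
  IsHermitianMetric (gT D.W N) H → IsGriffithsPositive H → ∃ n, Nrm D N n

def AnaStmt : Prop := ∀ (π : Par) (D : Dat π), ∃ N : ℕ, ∀ n, ¬ Nrm D N n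

theorem final (h0 : ParStmt) (h1 : AlgStmt) (h2 : CocStmt) (h3 : AmpStmt) (h4 : BridgeStmt)
    (h5 : AnaStmt) : ∃ g : Transition 2, IsHoloCocycle g ∧ IsAmple g ∧
      ∀ H : MetricData 2, IsHermitianMetric g H → ¬ IsGriffithsPositive H := by
  obtain ⟨π⟩ := h0
  obtain ⟨D, hD⟩ := h1 π
  obtain ⟨N, hN⟩ := h5 π D
  refine ⟨gT D.W N, h2 π D N, h3 π D N hD, fun H hH hG => ?_⟩
  obtain ⟨n, hn⟩ := h4 π D N H hH hG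
  exact hN n hn

end Crest.Agent.H1.Gr
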