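import Crest.Agent.H1.GrB
import Crest.Agent.H1.GrI

/-! Row 258: the concrete gluing data. -/

set_option autoImplicit false

noncomputable section

namespace Crest.Agent.H1.Gr

open MvPolynomial Crest.AlgGeometry.QuadricBundle
open scoped ComplexConjugate LaurentPolynomial Polynomial

section frames
variable {S : Type} [CommRing S] (π : Par) (ι : ℂ →+* S) (Y0 Y1 : S)

def zz0 (i : Fin 3) : S := ι π.t * Y1 - ι (conj (π.P i)) * Y0
def zz1 (i : Fin 3) : S := ι (π.P i) * Y1 - ι π.t * Y0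

theorem hPι (i : Fin 3) : ι (π.P i) * ι (conj (π.P i)) = 1 + ι π.t ^ 2 := by
  rw [← map_mul, π.hP]; simp

def mkFr (a b : S) (hab : a * Y0 + b * Y1 = 1)
    (hδ : ∀ i j, i ≠ j → zz0 π ι Y0 Y1 i * zz1 π ι Y0 Y1 j - zz1 π ι Y0 Y1 i * zz0 π ι Y0 Y1 j ≠ 0) :
    Fr S where
  z0 := zz0 π ι Y0 Y1
  z1 := zz1 π ι Y0 Y1
  s0 i := -(a * ι π.t + b * ι (conj (π.P i)))
  s1 i := -(a * ι (π.P i) + b * ι π.t)
  la i := C (-zz1 π ι Y0 Y1 i) * X 0 + C (zz0 π ι Y0 Y1 i) * X 1
  nu i := C (-(a * ι (π.P i) + b * ι π.t)) * X 0 + C (a * ι π.t + b * ι (conj (π.P i))) * X 1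
  hla _ := IsA.lin _ _
  hnu _ := IsA.lin _ _
  h0 i := by
    have h1 := congrArg (C : S → R4 S) (hPι π ι i)
    have h2 := congrArg (C : S → R4 S) hab
    simp only [zz0, zz1, map_add, map_mul, map_sub, map_neg, map_pow, map_one] at h1 h2 ⊢
    linear_combination (-X 0 * (C a * C Y0 + C b * C Y1)) * h1 - X 0 * h2
  h1 i := by
    have h1 := congrArg (C : S → R4 S) (hPι π ι i)
    have h2 := congrArg (C : S → R4 S) hab
    simp only [zz0, zz1, map_add, map_mul, map_sub, map_neg, map_pow, map_one] at h1 h2 ⊢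
    linear_combination (-X 1 * (C a * C Y0 + C b * C Y1)) * h1 - X 1 * h2
  ela i := by simp only [map_add, map_mul, evz_C, evz_X0, evz_X1]; ring
  enu i := by
    simp only [map_add, map_mul, evz_C, evz_X0, evz_X1, zz0, zz1]
    linear_combination (a * Y0 + b * Y1) * hPι π ι i + hab
  hδ i j hij := by
    simp only [map_add, map_mul, evz_C, evz_X0, evz_X1]
    intro h; apply hδ i j hij; linear_combination h

end frames

theorem two_add_s (π : Par) : 2 + π.s ≠ 0 := by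
  intro h
  have : π.s = -2 := by linear_combination h
  have h2 := π.hs
  rw [this] at h2
  norm_num at h2

theorem t_ne (π : Par) : (π.t : ℂ) ≠ 0 := by exact_mod_cast π.ht.ne'

theorem no_triple (π : Par) (Y0 Y1 : ℂ) (hY : Y0 = 1 ∨ Y1 = 1)
    (h02 : zz0 π (RingHom.id ℂ) Y0 Y1 0 * zz1 π (RingHom.id ℂ) Y0 Y1 2 -
      zz1 π (RingHom.id ℂ) Y0 Y1 0 * zz0 π (RingHom.id ℂ) Y0 Y1 2 = 0)
    (h12 : zz0 π (RingHom.id ℂ) Y0 Y1 1 * zz1 π (RingHom.id ℂ) Y0 Y1 2 -
      zz1 π (RingHom.id ℂ) Y0 Y1 1 * zz0 π (RingHom.id ℂ) Y0 Y1 2 = 0) : False := by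
  simp only [zz0, zz1, RingHom.id_apply] at h02 h12
  have d1 := π.hD 1 0 (by decide)
  have d2 := π.hD 2 0 (by decide)
  have d3 := π.hD 1 2 (by decide)
  have p2 := π.hP 2
  have hs := π.hs
  have k := two_add_s π
  have ht := t_ne π
  generalize (π.t : ℂ) = t at *
  generalize π.s = s at *
  generalize conj (π.P 0) = a0 at *
  generalize conj (π.P 1) = a1 at *
  generalize conj (π.P 2) = a2 at *
  generalize π.P 0 = b0 at *
  generalize π.P 1 = b1 at *
  generalize π.P 2 = b2 at *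
  set Δ := (b1 - b0) * (a2 - a0) - (b2 - b0) * (a1 - a0) with hΔ
  have hΔ0 : Δ ≠ 0 := by
    intro h
    have u : 2 * ((b1 - b0) * (a2 - a0)) = 2 + s := by linear_combination h + d1 + d2 - d3 - hΔ
    have v : 2 * ((b2 - b0) * (a1 - a0)) = 2 + s := by linear_combination -h + d1 + d2 - d3 + hΔ
    have w : (2 + s) ^ 2 * 3 = 0 := by
      linear_combination (2 * ((b2 - b0) * (a1 - a0))) * u + (2 + s) * v -
        4 * ((b2 - b0) * (a2 - a0)) * d1 - 4 * (2 + s) * d2
    exact k (pow_eq_zero_iff (n := 2) (by norm_num) |>.1 ((mul_eq_zero.1 w).resolve_right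
      (by norm_num)))
  set E := -(t * (b1 - b0) * Y1 ^ 2 - (a0 * b1 - a1 * b0) * Y0 * Y1 + t * (a0 - a1) * Y0 ^ 2) with hE
  have e1 : Δ * (t * Y1 ^ 2) = -(a2 * E) := by
    rw [hΔ, hE]; linear_combination (-a1) * h02 + a0 * h12
  have e2 : Δ * (Y0 * Y1) = -E := by
    rw [hΔ, hE]; linear_combination (-1 : ℂ) * h02 + h12
  have e3 : Δ * (t * Y0 ^ 2) = -(b2 * E) := by
    rw [hΔ, hE]; linear_combination (-b1) * h02 + b0 * h12
  have e4 : Δ ^ 2 * (Y0 * Y1) ^ 2 = 0 := by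
    linear_combination (-(Δ * (t * Y0 ^ 2))) * e1 + (a2 * E) * e3 +
      (1 + t ^ 2) * (Δ * (Y0 * Y1) - E) * e2 - E ^ 2 * p2
  have e5 : Y0 * Y1 = 0 := by simpa [hΔ0] using e4
  have e6 : E = 0 := by rw [e5] at e2; simpa using e2
  rw [e6] at e1 e3
  rcases hY with h | h
  · simp [h, hΔ0, ht] at e3
  · simp [h, hΔ0, ht] at e1

theorem δ_ne (π : Par) (Y0 Y1 : ℂ[X]) (hY : (Y0 = 1 ∧ Y1 = Polynomial.X) ∨ (Y0 = Polynomial.X ∧ Y1 = 1))
    (i j : Fin 3) (hij : i ≠ j) : zz0 π Polynomial.C Y0 Y1 i * zz1 π Polynomial.C Y0 Y1 j -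
      zz1 π Polynomial.C Y0 Y1 i * zz0 π Polynomial.C Y0 Y1 j ≠ 0 := by
  intro h
  have h2 := congrArg (Polynomial.eval 0) h
  have d := π.hD i j hij
  apply mul_ne_zero (t_ne π) (two_add_s π)
  rcases hY with ⟨rfl, rfl⟩ | ⟨rfl, rfl⟩
  · simp [zz0, zz1] at h2
    linear_combination (π.P i - π.P j) * h2 - π.t * d
  · simp [zz0, zz1] at h2
    linear_combination -(conj (π.P i) - conj (π.P j)) * h2 - π.t * d

def F0 (π : Par) : Fr ℂ[X] :=
  mkFr π Polynomial.C 1 Polynomial.X 1 0 (by simp) (δ_ne π _ _ (Or.inl ⟨rfl, rfl⟩))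
def F1 (π : Par) : Fr ℂ[X] :=
  mkFr π Polynomial.C Polynomial.X 1 0 1 (by simp) (δ_ne π _ _ (Or.inr ⟨rfl, rfl⟩))

theorem dvd8 {S : Type} [CommRing S] {d μ s k : S} (hs : s ^ 2 = 2) (h : μ ^ 2 + s * μ + 1 = d * k) :
    d ∣ μ ^ 8 - 1 :=
  ⟨k * ((μ ^ 2 - s * μ + 1) * (μ ^ 4 - 1)), by
    linear_combination ((μ ^ 2 - s * μ + 1) * (μ ^ 4 - 1)) * h + μ ^ 2 * (μ ^ 4 - 1) * hs⟩

theorem good0 (π : Par) : (F0 π).Good where
  hμ i j hij := by
    have hs : (Polynomial.C π.s : ℂ[X]) ^ 2 = 2 := by rw [← map_pow, π.hs]; rfl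
    refine dvd8 hs (k := Polynomial.C (π.t : ℂ) * (Polynomial.C (π.P j) - Polynomial.C (π.P i))) ?_
    have h1 := hPι π Polynomial.C i
    have h2 := hPι π Polynomial.C j
    have h3 := congrArg (Polynomial.C : ℂ → ℂ[X]) (π.hD i j hij)
    simp only [map_mul, map_sub, map_add, map_ofNat] at h3
    simp only [F0, mkFr, Fr.ev, map_add, map_mul, evz_C, evz_X0, evz_X1, zz0, zz1]
    generalize Polynomial.C (π.t : ℂ) = t at *
    generalize Polynomial.C π.s = s at *
    generalize Polynomial.C (conj (π.P i)) = a' at *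
    generalize Polynomial.C (conj (π.P j)) = b' at *
    generalize Polynomial.C (π.P i) = a at *
    generalize Polynomial.C (π.P j) = b at *
    linear_combination (t * (b - a) * Polynomial.X + (a * b' - t ^ 2) - b * b' - t ^ 2 * 0) * h1 +
      (t * (b - a) * Polynomial.X + (a * b' - t ^ 2) - (1 + t ^ 2)) * h2 -
      (t * (b - a) * Polynomial.X + (a * b' - t ^ 2)) * h3 + t ^ 2 * (h1 + h2)
  hcop := by
    rw [Polynomial.isCoprime_iff_aeval_ne_zero_of_isAlgClosed ℂ ℂ]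
    intro y
    by_contra hn
    push Not at hn
    refine no_triple π 1 y (Or.inl rfl) ?_ ?_
    · have := hn.1
      simp [F0, mkFr, Fr.ev, zz0, zz1] at this ⊢
      linear_combination this
    · have := hn.2
      simp [F0, mkFr, Fr.ev, zz0, zz1] at this ⊢
      linear_combination this

theorem good1 (π : Par) : (F1 π).Good where
  hμ i j hij := by
    have hs : (Polynomial.C π.s : ℂ[X]) ^ 2 = 2 := by rw [← map_pow, π.hs]; rfl
    refine dvd8 hs (k := Polynomial.C (π.t : ℂ) *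
      (Polynomial.C (conj (π.P i)) - Polynomial.C (conj (π.P j)))) ?_
    have h1 := hPι π Polynomial.C i
    have h2 := hPι π Polynomial.C j
    have h3 := congrArg (Polynomial.C : ℂ → ℂ[X]) (π.hD i j hij)
    simp only [map_mul, map_sub, map_add, map_ofNat] at h3
    simp only [F1, mkFr, Fr.ev, map_add, map_mul, evz_C, evz_X0, evz_X1, zz0, zz1]
    generalize Polynomial.C (π.t : ℂ) = t at *
    generalize Polynomial.C π.s = s at *
    generalize Polynomial.C (conj (π.P i)) = a' at *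
    generalize Polynomial.C (conj (π.P j)) = b' at *
    generalize Polynomial.C (π.P i) = a at *
    generalize Polynomial.C (π.P j) = b at *
    linear_combination (t * (b' - a') * Polynomial.X + (a' * b - t ^ 2) - b * b' - t ^ 2 * 0) * h1 +
      (t * (b' - a') * Polynomial.X + (a' * b - t ^ 2) - (1 + t ^ 2)) * h2 -
      (t * (b' - a') * Polynomial.X + (a' * b - t ^ 2)) * h3 + t ^ 2 * (h1 + h2)
  hcop := by
    rw [Polynomial.isCoprime_iff_aeval_ne_zero_of_isAlgClosed ℂ ℂ]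
    intro y
    by_contra hn
    push Not at hn
    refine no_triple π y 1 (Or.inr rfl) ?_ ?_
    · have := hn.1
      simp [F1, mkFr, Fr.ev, zz0, zz1] at this ⊢
      linear_combination this
    · have := hn.2
      simp [F1, mkFr, Fr.ev, zz0, zz1] at this ⊢
      linear_combination this


abbrev LL := ℂ[T;T⁻¹]

def φ0 : ℂ[X] →+* LL := Polynomial.toLaurent
def φ1 : ℂ[X] →+* LL :=
  ((LaurentPolynomial.invert (R := ℂ)).toRingEquiv.toRingHom).comp Polynomial.toLaurent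

@[simp] theorem φ0_C (z : ℂ) : φ0 (Polynomial.C z) = LaurentPolynomial.C z := by simp [φ0]
@[simp] theorem φ1_C (z : ℂ) : φ1 (Polynomial.C z) = LaurentPolynomial.C z := by simp [φ1]
@[simp] theorem φ0_X : φ0 Polynomial.X = LaurentPolynomial.T 1 := by simp [φ0]
@[simp] theorem φ1_X : φ1 Polynomial.X = LaurentPolynomial.T (-1) := by simp [φ1]

theorem TT : (LaurentPolynomial.T 1 * LaurentPolynomial.T (-1) : LL) = 1 := by
  rw [← LaurentPolynomial.T_add]; simp

theorem splitL (m : ℕ) (l : LL) : ∃ a b, l = φ0 a + LaurentPolynomial.T 1 ^ m * φ1 b := by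
  induction l using LaurentPolynomial.induction_on' with
  | add p q hp hq =>
    obtain ⟨a, b, rfl⟩ := hp
    obtain ⟨a', b', rfl⟩ := hq
    exact ⟨a + a', b + b', by simp only [map_add]; ring⟩
  | C_mul_T n a =>
    rcases le_total 0 n with h | h
    · lift n to ℕ using h
      exact ⟨Polynomial.C a * Polynomial.X ^ n, 0, by simp [LaurentPolynomial.T_pow]⟩
    · obtain ⟨k, hk⟩ : ∃ k : ℕ, (k : ℤ) = m - n := ⟨(m - n).toNat, by omega⟩
      refine ⟨0, Polynomial.C a * Polynomial.X ^ k, ?_⟩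
      simp only [map_zero, zero_add, map_mul, map_pow, φ1_C, φ1_X, LaurentPolynomial.T_pow]
      rw [mul_left_comm, ← LaurentPolynomial.T_add]
      congr 2; omega

def FL (π : Par) : Fr LL :=
  mkFr π LaurentPolynomial.C 1 (LaurentPolynomial.T 1) 1 0 (by simp) fun i j hij h => by
    apply δ_ne π _ _ (Or.inl ⟨rfl, rfl⟩) i j hij
    apply Polynomial.toLaurent_injective
    simpa [zz0, zz1] using h

theorem evz_map {S L : Type} [CommRing S] [CommRing L] (φ : S →+* L) (a b : S) (f : R4 S) :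
    evz (φ a) (φ b) (map φ f) = φ (evz a b f) := by
  have : (evz (φ a) (φ b)).comp (map φ) = φ.comp (evz a b) := by
    refine ringHom_ext (fun s => by simp) fun i => ?_
    fin_cases i <;> simp [evz]
  exact RingHom.congr_fun this f

theorem evz_hom {S : Type} [CommRing S] (r a b : S) : ∀ {D} {f : R4 S}, IsA D f →
    evz (r * a) (r * b) f = r ^ D * evz a b f
  | 0, _, ⟨s, hs⟩ => by simp [hs]
  | _ + 1, _, ⟨f0, f1, h0, h1, h⟩ => by
    rw [h]; simp only [map_add, map_mul, evz_X0, evz_X1, evz_hom r a b h0, evz_hom r a b h1]; ring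

theorem FL_ev0 (π : Par) (i : Fin 3) (f : R4 ℂ[X]) :
    (FL π).ev i (map φ0 f) = φ0 ((F0 π).ev i f) := by
  rw [Fr.ev, Fr.ev, ← evz_map]
  simp [FL, F0, mkFr, zz0, zz1]

theorem FL_ev1 (π : Par) (i : Fin 3) {D} {f : R4 ℂ[X]} (hf : IsA D f) :
    (FL π).ev i (map φ1 f) = LaurentPolynomial.T 1 ^ D * φ1 ((F1 π).ev i f) := by
  rw [Fr.ev, Fr.ev, ← evz_map, ← evz_hom _ _ _ (IsA.map (map φ1) φ1 (by simp) (by simp) (by simp) hf)]
  congr 2
  · simp only [FL, F1, mkFr, zz0, zz1, map_sub, map_mul, φ1_C, φ1_X, map_one]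
    linear_combination LaurentPolynomial.C (conj (π.P i)) * TT
  · simp only [FL, F1, mkFr, zz0, zz1, map_sub, map_mul, φ1_C, φ1_X, map_one]
    linear_combination LaurentPolynomial.C (π.t : ℂ) * TT

theorem la0 (π : Par) (i : Fin 3) : map φ0 ((F0 π).la i) = (FL π).la i := by
  simp [FL, F0, mkFr, zz0, zz1]

theorem la1 (π : Par) (i : Fin 3) :
    map φ1 ((F1 π).la i) = C (LaurentPolynomial.T (-1)) * (FL π).la i := by
  have h := congrArg (C : LL → R4 LL) TT
  simp only [FL, F1, mkFr, zz0, zz1, map_sub, map_mul, φ1_C, φ1_X, map_one, map_add, map_C, map_X,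
    map_neg] at h ⊢
  linear_combination (C (LaurentPolynomial.C (π.P i)) * X 0 -
    C (LaurentPolynomial.C (π.t : ℂ)) * X 1) * h

theorem exists_glue (π : Par) : ∃ G : Glue ℂ[X] LL, G.F 0 = F0 π ∧ G.F 1 = F1 π ∧
    G.φ 0 = φ0 ∧ G.φ 1 = φ1 ∧ G.τ = LaurentPolynomial.T 1 ∧ G.τ' = LaurentPolynomial.T (-1) ∧
    G.k = Polynomial.C := by
  obtain ⟨c0, a0, e0⟩ := (F0 π).exists_c (good0 π)
  obtain ⟨c1, a1, e1⟩ := (F1 π).exists_c (good1 π)
  have m0 : IsA 8 (map φ0 c0) := IsA.map (map φ0) φ0 (by simp) (by simp) (by simp) a0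
  have m1 : IsA 8 (map φ1 c1) := IsA.map (map φ1) φ1 (by simp) (by simp) (by simp) a1
  obtain ⟨W, hW, eW⟩ := (FL π).ker (D := 5)
    (h := map φ1 c1 - C (LaurentPolynomial.T 1 ^ 8) * map φ0 c0) (m1.sub (m0.cmul _)) fun i => by
      simp only [map_sub, map_mul, Fr.ev_C, FL_ev0, FL_ev1 π i a1, e0, e1, map_one, sub_self]
  set Φ1 : R4 ℂ[X] →+* R4 LL := eval₂Hom (C.comp φ1) ![X 0, X 1,
    C (LaurentPolynomial.T (-1) ^ 3) * X 2, C (LaurentPolynomial.T 1 ^ 8) * X 3 + W * X 2] with hΦ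
  have ext : ∀ {D} {f : R4 ℂ[X]}, IsA D f → Φ1 f = map φ1 f := fun hf =>
    IsA.ext Φ1 (map φ1) (by simp [hΦ]) (by simp [hΦ]) (by simp [hΦ]) hf
  refine ⟨{ Φ := ![map φ0, Φ1], φ := ![φ0, φ1], τ := LaurentPolynomial.T 1,
            τ' := LaurentPolynomial.T (-1), W := W, F := ![F0 π, F1 π], FL := FL π,
            c := ![c0, c1], cL := map φ0 c0, y := Polynomial.X, k := Polynomial.C,
            hτ := TT, hW := hW, hC := ?_, h0 := ?_, h1 := ?_, h02 := by simp, h03 := by simp,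
            h12 := by simp [hΦ], h13 := by simp [hΦ], good := ?_, hc := ?_, hc1 := ?_,
            hcL := m0, hcL1 := fun i => by rw [FL_ev0, e0, map_one], Λ0 := ?_, c0 := rfl,
            Λ1 := ?_, c1 := ?_, split := splitL, y0 := by simp, y1 := by simp,
            hk := by simp }, rfl, rfl, rfl, rfl, rfl, rfl, rfl⟩
  · intro b s; fin_cases b <;> simp [hΦ]
  · intro b; fin_cases b <;> simp [hΦ]
  · intro b; fin_cases b <;> simp [hΦ]
  · intro b; fin_cases b
    · exact good0 π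
    · exact good1 π
  · intro b; fin_cases b
    · exact a0
    · exact a1
  · intro b; fin_cases b
    · exact e0
    · exact e1
  · simp [Fr.Λ, la0]
  · change Φ1 (F1 π).Λ = _
    rw [ext (F1 π).hΛ]
    simp only [Fr.Λ, map_mul, la1, map_pow]; ring
  · change Φ1 c1 = _
    rw [ext a1]
    linear_combination eW

end Crest.Agent.H1.Gr
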