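import Crest.Agent.H1.GrC

/-! Row 258: `AlgStmt`. -/

set_option autoImplicit false

noncomputable section

namespace Crest.Agent.H1.Gr

open MvPolynomial Crest.AlgGeometry.QuadricBundle
open scoped ComplexConjugate LaurentPolynomial Polynomial

def ε (y : ℂ) : ℂ[X] →+* ℂ := Polynomial.evalRingHom y
def εL (y : ℂ) (hy : y ≠ 0) : LL →+* ℂ := LaurentPolynomial.eval₂ (RingHom.id ℂ) (Units.mk0 y hy)

@[simp] theorem ε_C (y z : ℂ) : ε y (Polynomial.C z) = z := by simp [ε]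
@[simp] theorem ε_X (y : ℂ) : ε y Polynomial.X = y := by simp [ε]
@[simp] theorem εL_C (y : ℂ) (hy : y ≠ 0) (z : ℂ) : εL y hy (LaurentPolynomial.C z) = z := by
  simp [εL]
@[simp] theorem εL_T (y : ℂ) (hy : y ≠ 0) (n : ℤ) : εL y hy (LaurentPolynomial.T n) = y ^ n := by
  simp [εL, LaurentPolynomial.eval₂_T]

theorem εL_φ0 (y : ℂ) (hy : y ≠ 0) (s : ℂ[X]) : εL y hy (φ0 s) = ε y s := by
  have : (εL y hy).comp φ0 = ε y := Polynomial.ringHom_ext (by simp) (by simp)
  exact RingHom.congr_fun this s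

theorem εL_φ1 (y : ℂ) (hy : y ≠ 0) (s : ℂ[X]) : εL y hy (φ1 s) = ε y⁻¹ s := by
  have : (εL y hy).comp φ1 = ε y⁻¹ := Polynomial.ringHom_ext (by simp) (by simp)
  exact RingHom.congr_fun this s

theorem e0_hom {S : Type} [CommRing S] (η : S →+* ℂ) (r : ℂ) (x : Fin 2 → ℂ) :
    ∀ {D} {f : R4 S}, IsA D f → e0 η (r • x) f = r ^ D * e0 η x f
  | 0, _, ⟨s, hs⟩ => by simp [hs]
  | _ + 1, _, ⟨f0, f1, h0, h1, h⟩ => by
    rw [h]
    simp only [map_add, map_mul, e0_X0, e0_X1, e0_hom η r x h0, e0_hom η r x h1, Pi.smul_apply,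
      smul_eq_mul]
    ring

theorem ε_diff (s : ℂ[X]) : Differentiable ℂ (fun q : (Fin 2 → ℂ) × ℂ => ε q.2 s) :=
  s.differentiable.comp differentiable_snd

theorem e0_diff (p : R4 ℂ[X]) : Differentiable ℂ (fun q : (Fin 2 → ℂ) × ℂ => e0 (ε q.2) q.1 p) := by
  induction p using MvPolynomial.induction_on with
  | C s => simpa using ε_diff s
  | add p q hp hq => simp only [map_add]; exact hp.add hq
  | mul_X p i hp =>
    simp only [map_mul]
    refine hp.mul ?_
    fin_cases i <;> simp <;> fun_prop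

theorem Ev_diff (p : R4 ℂ[X]) : ∀ m,
    Differentiable ℂ (fun q : (Fin 2 → ℂ) × ℂ => coeff m (Ev (ε q.2) q.1 p)) := by
  classical
  induction p using MvPolynomial.induction_on with
  | C s =>
    intro m
    simp only [Ev_C, coeff_C]
    split_ifs
    · exact ε_diff s
    · fun_prop
  | add p q hp hq => intro m; simp only [map_add, coeff_add]; exact (hp m).add (hq m)
  | mul_X p i hp =>
    intro m
    have hx : ∀ j : Fin 2, Differentiable ℂ
        (fun q : (Fin 2 → ℂ) × ℂ => coeff m (Ev (ε q.2) q.1 p * X j)) := fun j => by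
      simp only [coeff_mul_X']
      split_ifs
      · exact hp _
      · fun_prop
    have hc : ∀ j : Fin 2, Differentiable ℂ
        (fun q : (Fin 2 → ℂ) × ℂ => coeff m (Ev (ε q.2) q.1 p * C (q.1 j))) := fun j => by
      simp only [mul_comm _ (C _), coeff_C_mul]
      exact Differentiable.mul (by fun_prop) (hp m)
    simp only [map_mul]
    fin_cases i
    · simpa using hc 0
    · simpa using hc 1
    · simpa using hx 0
    · simpa using hx 1

def Wf (p : R4 LL) (x : Fin 2 → ℂ) (y : ℂ) : ℂ := by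
  classical exact if h : y ≠ 0 then e0 (εL y h) x p else 0

theorem Wf_eq (p : R4 LL) (x : Fin 2 → ℂ) {y : ℂ} (h : y ≠ 0) : Wf p x y = e0 (εL y h) x p := by
  simp [Wf, h]

theorem Wf_diff (p : R4 LL) :
    DifferentiableOn ℂ (fun q : (Fin 2 → ℂ) × ℂ => Wf p q.1 q.2) {q | q.2 ≠ 0} := by
  induction p using MvPolynomial.induction_on with
  | C s =>
    induction s using LaurentPolynomial.induction_on' with
    | add p q hp hq =>
      refine (hp.add hq).congr fun z hz => ?_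
      simp [Wf_eq _ _ hz]
    | C_mul_T n a =>
      have : DifferentiableOn ℂ (fun q : (Fin 2 → ℂ) × ℂ => a * q.2 ^ n) {q | q.2 ≠ 0} :=
        fun z hz => (DifferentiableAt.const_mul
          (differentiableAt_snd.zpow (Or.inl hz)) a).differentiableWithinAt
      refine this.congr fun z hz => ?_
      simp [Wf_eq _ _ hz]
  | add p q hp hq =>
    refine (hp.add hq).congr fun z hz => ?_
    simp [Wf_eq _ _ hz]
  | mul_X p i hp =>
    have : Differentiable ℂ (fun q : (Fin 2 → ℂ) × ℂ => (![q.1 0, q.1 1, 0, 0] : Fin 4 → ℂ) i) := by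
      fin_cases i <;> simp <;> fun_prop
    refine (hp.mul this.differentiableOn).congr fun z hz => ?_
    simp only [Wf_eq _ _ hz, map_mul, Pi.mul_apply]
    congr 1
    simp [e0]

theorem fs_C (M : Matrix (Fin 2) (Fin 2) ℂ) (z : ℂ) : frameSubst M (C z) = C z := by
  simp [frameSubst]

theorem Ev_scal {S : Type} [CommRing S] (η : S →+* ℂ) (r : ℂ) (x : Fin 2 → ℂ) :
    ∀ {n m} {T : R4 S}, IsG n m T →
      Ev η (r • x) T = r ^ m • frameSubst !![r ^ 5, 0; 0, 1] (Ev η x T)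
  | 0, _, _, h => by
    rw [IsA.Ev _ _ h, IsA.Ev _ _ h, e0_hom η r x h, fs_C, smul_eq_C_mul, map_mul]
  | n + 1, m, _, ⟨f, T, a, b, h⟩ => by
    rw [h]
    simp only [map_add, map_mul, map_pow, Ev_X2, Ev_X3, a.Ev, Ev_scal η r x b, e0_hom η r x a,
      smul_eq_C_mul, frameSubst, bind₁_X_right, bind₁_C_right, Fin.sum_univ_two]
    simp
    ring

theorem lam_eq0 (π : Par) (x : Fin 2 → ℂ) (y : ℂ) (i : Fin 3) :
    e0 (ε y) x ((F0 π).la i) = lamI π i x 1 y := by
  simp [F0, mkFr, zz0, zz1, lamI]; ring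

theorem algStmt : AlgStmt := by
  intro π
  obtain ⟨G, hF0, hF1, p0, p1, ht, ht', hk⟩ := exists_glue π
  have A0 : ∀ y (hy : y ≠ 0) x {D} {f : R4 ℂ[X]}, IsA D f →
      e0 (εL y hy) x (G.Φ 0 f) = e0 (ε y) x f := fun y hy x _ _ hf =>
    IsA.ext ((e0 (εL y hy) x).comp (G.Φ 0)) (e0 (ε y) x) (by simp [G.hC, p0, εL_φ0])
      (by simp [G.h0]) (by simp [G.h1]) hf
  have A1 : ∀ y (hy : y ≠ 0) x {D} {f : R4 ℂ[X]}, IsA D f →
      e0 (εL y hy) x (G.Φ 1 f) = e0 (ε y⁻¹) x f := fun y hy x _ _ hf =>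
    IsA.ext ((e0 (εL y hy) x).comp (G.Φ 1)) (e0 (ε y⁻¹) x) (by simp [G.hC, p1, εL_φ1])
      (by simp [G.h0]) (by simp [G.h1]) hf
  have hκ : ∀ i, ∃ g : R4 ℂ[X], G.c 0 = (F0 π).nu i ^ 8 + (F0 π).la i * g := fun i => by
    obtain ⟨g, -, e⟩ := (G.F 0).dec' i (G.hc 0)
    rw [G.hc1, hF0] at e
    exact ⟨g, by simpa using e⟩
  choose κ hκ using hκ
  refine ⟨{ c := fun b x y => e0 (ε y) x (G.c b), W := Wf G.W,
            κ := fun i x y => e0 (ε y) ![1, x] (κ i), c_diff := fun b => e0_diff _,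
            c_hom := fun b r x y => e0_hom _ r x (G.hc b), W_diff := Wf_diff _,
            W_hom := ?_, glue := ?_, κ_cont := ?_, c_eq := ?_ }, ?_⟩
  · intro r x y
    by_cases h : y = 0
    · simp [Wf, h]
    · rw [Wf_eq _ _ h, Wf_eq _ _ h, e0_hom _ r x G.hW]
  · intro x y hy
    have hl : lam π 0 x y = e0 (εL y hy) x G.FL.Λ := by
      rw [← G.Λ0, A0 y hy x (G.F 0).hΛ, hF0, lam, Fin.prod_univ_three]
      simp [Fr.Λ, lam_eq0]
    rw [← A1 y hy x (G.hc 1), G.c1, ← A0 y hy x (G.hc 0), G.c0, hl, Wf_eq _ _ hy]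
    simp [ht, mul_comm]
  · intro i
    exact (e0_diff (κ i)).continuous.comp (f := fun q : ℂ × ℂ => (![1, q.1], q.2)) (by fun_prop)
  · intro i x y
    simp only [hκ i, map_add, map_mul, map_pow, lam_eq0]
    simp [F0, mkFr]; ring
  · intro n b x y R hx hR
    obtain ⟨T, hT, e⟩ := (G.main (ε y) (by simp [hk]) x hx b n 0 0).2 R (Hm.of_hom hR)
    refine ⟨fun b x y => Ev (ε y) x (T b), ⟨fun b x y => ((hT.1 b).Ev _ _).hom,
      fun b m => Ev_diff _ m, fun b r x y => Ev_scal _ r x (hT.1 b), fun x y hy => ?_⟩, e⟩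
    have B0 : (Ev (εL y hy) x).comp (G.Φ 0) = Ev (ε y) x := by
      refine ringHom_ext (fun s => by simp [G.hC, p0, εL_φ0]) fun i => ?_
      fin_cases i <;> simp [G.h0, G.h1, G.h02, G.h03]
    have B1 : (Ev (εL y hy) x).comp (G.Φ 1) = ((bind₁ fun j => ∑ i,
        C (!![y⁻¹ ^ 3, Wf G.W x y; 0, y ^ 8] i j) * X i : P2 →ₐ[ℂ] P2) : P2 →+* P2).comp
        (Ev (ε y⁻¹) x) := by
      refine ringHom_ext (fun s => by simp [G.hC, p1, εL_φ1]) fun i => ?_
      fin_cases i <;> simp [G.h0, G.h1, G.h12, G.h13, ht, ht', G.hW.Ev, Wf_eq _ _ hy, add_comm]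
    have := congrArg (Ev (εL y hy) x) hT.2
    rw [pow_zero, one_mul] at this
    have b0 := RingHom.congr_fun B0 (T 0)
    have b1 := RingHom.congr_fun B1 (T 1)
    simp only [RingHom.comp_apply] at b0 b1
    rw [pow_zero, one_smul, ← b0, this, b1]
    rfl

end Crest.Agent.H1.Gr
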