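import Crest.Agent.H1.GrI

/-! Row 258: `AnaStmt`. -/

set_option autoImplicit false

noncomputable section

namespace Crest.Agent.H1.Gr

open Filter Metric Set
open scoped ComplexConjugate Topology

structure N1 (ν : ℂ → (Fin 2 → ℂ) → ℝ) : Prop where
  cont : Continuous (fun q : ℂ × (Fin 2 → ℂ) => ν q.1 q.2)
  add : ∀ z σ σ', ν z (σ + σ') ≤ ν z σ + ν z σ'
  smul : ∀ z (r : ℂ) σ, ν z (r • σ) = ‖r‖ * ν z σ
  mp : ∀ z (σ : ℂ → Fin 2 → ℂ), (∀ᶠ w in 𝓝 z, DifferentiableAt ℂ σ w) → σ z ≠ 0 →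
    ¬ IsLocalMax (fun w => ν w (σ w)) z

namespace N1

variable {ν : ℂ → (Fin 2 → ℂ) → ℝ} (h : N1 ν)
include h

theorem zero (z : ℂ) : ν z 0 = 0 := by simpa using h.smul z 0 0

theorem nonneg (z : ℂ) (σ : Fin 2 → ℂ) : 0 ≤ ν z σ := by
  have h1 := h.add z σ ((-1 : ℂ) • σ)
  rw [h.smul] at h1
  simp [h.zero] at h1
  linarith

theorem contσ {σ : ℂ → Fin 2 → ℂ} (hσ : Differentiable ℂ σ) : Continuous fun z => ν z (σ z) :=
  h.cont.comp (f := fun z => (z, σ z)) (continuous_id.prodMk hσ.continuous)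

theorem inner {σ : ℂ → Fin 2 → ℂ} (hσ : Differentiable ℂ σ) {N : ℕ} (hN : 1 ≤ N) {R B : ℝ}
    (hR : 1 ≤ R) (hB0 : 0 ≤ B) (hB : ∀ z : ℂ, ‖z‖ ^ N = R → ν z (σ z) ≤ B) (z : ℂ)
    (hz : ‖z‖ ^ N ≤ R) : ν z (σ z) ≤ B := by
  have hc : Continuous fun z : ℂ => ‖z‖ ^ N := by fun_prop
  have hK : IsCompact {z : ℂ | ‖z‖ ^ N ≤ R} := by
    refine (isCompact_closedBall (0 : ℂ) R).of_isClosed_subset (isClosed_le hc continuous_const) ?_
    intro w hw
    rw [mem_closedBall_zero_iff]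
    by_contra hn
    push Not at hn
    have := le_self_pow₀ (hR.trans hn.le) (by omega : N ≠ 0)
    exact absurd (this.trans hw) (not_le.2 hn)
  obtain ⟨w, hw, hm⟩ := hK.exists_isMaxOn ⟨z, hz⟩ (h.contσ hσ).continuousOn
  refine (hm hz).trans ?_
  rcases (show ‖w‖ ^ N ≤ R from hw).eq_or_lt with e | e
  · exact hB w e
  by_cases h0 : σ w = 0
  · simp [h0, h.zero, hB0]
  exact absurd (hm.isLocalMax (mem_of_superset ((isOpen_lt hc continuous_const).mem_nhds e)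
    fun u (hu : ‖u‖ ^ N < R) => hu.le)) (h.mp w σ (Eventually.of_forall hσ) h0)

theorem outer {σ : ℂ → Fin 2 → ℂ} (hσ : Differentiable ℂ σ) {g : ℂ → ℂ} (hg : Differentiable ℂ g)
    {γ r B C : ℝ} (hr : 0 < r) (hB0 : 0 ≤ B)
    (hC : ∀ z : ℂ, 2 ≤ ‖z‖ → ν z (σ z) * ‖z‖ ≤ C * ‖g z‖ ^ γ)
    (hB : ∀ z : ℂ, ‖g z‖ = r → ν z (σ z) ≤ B) (z : ℂ) (hz : r ≤ ‖g z‖) :
    ν z (σ z) ≤ B * (‖g z‖ / r) ^ γ := by
  set f := fun w => ν w (σ w) / ‖g w‖ ^ γ with hf
  have pos : ∀ w, r ≤ ‖g w‖ → 0 < ‖g w‖ ^ γ := fun w hw => Real.rpow_pos_of_pos (by linarith) _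
  have hrγ := Real.rpow_pos_of_pos hr γ
  suffices H : f z ≤ B / r ^ γ by
    rw [Real.div_rpow (norm_nonneg _) hr.le]
    rw [hf, div_le_iff₀ (pos z hz)] at H
    calc _ ≤ _ := H
      _ = _ := by ring
  rcases (div_nonneg (h.nonneg z (σ z)) (pos z hz).le).eq_or_lt with e | e
  · change 0 = f z at e; rw [← e]; positivity
  change 0 < f z at e
  have hgc : Continuous fun w => ‖g w‖ := hg.continuous.norm
  have cf : ContinuousOn f {w | r ≤ ‖g w‖} :=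
    (h.contσ hσ).continuousOn.div (hgc.continuousOn.rpow_const fun w hw =>
      Or.inl (by have : r ≤ ‖g w‖ := hw; linarith)) fun w hw => (pos w hw).ne'
  obtain ⟨w, hw, hm⟩ := cf.exists_isMaxOn' (isClosed_le continuous_const hgc) (x₀ := z) hz (by
    rw [eventually_inf_principal]
    filter_upwards [(tendsto_norm_cocompact_atTop (E := ℂ)).eventually_ge_atTop (max 2 (C / f z))]
      with w hw hw'
    have h1 := hC w ((le_max_left _ _).trans hw)
    have h2 : C / f z ≤ ‖w‖ := (le_max_right _ _).trans hw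
    have h3 : 0 < ‖w‖ := lt_of_lt_of_le (by norm_num) ((le_max_left _ _).trans hw)
    rw [div_le_iff₀ e] at h2
    rw [hf, div_le_iff₀ (pos w hw')]
    have := mul_le_mul_of_nonneg_right h2 (pos w hw').le
    change _ ≤ f z * _
    nlinarith)
  refine (hm hz).trans ?_
  rcases (show r ≤ ‖g w‖ from hw).eq_or_lt with e' | e'
  · simp only [hf, ← e']
    exact div_le_div_of_nonneg_right (hB w e'.symm) hrγ.le
  exfalso
  have fw : 0 < f w := e.trans_le (hm hz)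
  have gw : g w ≠ 0 := norm_pos_iff.1 (hr.trans e')
  have lm := hm.isLocalMax (mem_of_superset ((isOpen_lt continuous_const hgc).mem_nhds e')
    fun u (hu : r < ‖g u‖) => hu.le)
  refine h.mp w (fun u => (g u / g w) ^ ((-γ : ℝ) : ℂ) • σ u) ?_ ?_ ?_
  · have c1 : Continuous fun u => g u / g w := hg.continuous.div_const _
    have : ∀ᶠ u in 𝓝 w, g u / g w ∈ Complex.slitPlane :=
      c1.continuousAt.preimage_mem_nhds (Complex.isOpen_slitPlane.mem_nhds (by simp [gw]))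
    filter_upwards [this] with u hu
    exact (((hg u).div_const _).cpow (differentiableAt_const _) hu).smul (hσ u)
  · simp only [div_self gw, Complex.one_cpow, one_smul]
    intro h0
    simp [hf, h0, h.zero] at fw
  · have : (fun u => ν u ((g u / g w) ^ ((-γ : ℝ) : ℂ) • σ u)) = fun u => ‖g w‖ ^ γ * f u := by
      funext u
      rw [h.smul, Complex.norm_cpow_real, norm_div, Real.rpow_neg (by positivity),
        Real.div_rpow (norm_nonneg _) (norm_nonneg _), inv_div, hf]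
      ring
    rw [this]
    exact lm.mono fun u hu => mul_le_mul_of_nonneg_left hu (pos w hw).le

theorem whole {σ : ℂ → Fin 2 → ℂ} (hσ : Differentiable ℂ σ) {k : ℕ} {B C : ℝ} (hB0 : 0 ≤ B)
    (hC : ∀ z : ℂ, 1 ≤ ‖z‖ → ν z (σ z) ≤ C * ‖z‖ ^ k)
    (hB : ∀ z : ℂ, ‖z‖ = 1 → ν z (σ z) ≤ B) {Q : ℝ} (hQ : 1 ≤ Q) (z : ℂ) (hz : ‖z‖ ^ (k + 1) ≤ Q) :
    ν z (σ z) ≤ Q * B := by
  rcases le_total ‖z‖ 1 with h1 | h1
  · have := h.inner hσ (N := 1) le_rfl le_rfl hB0 (by simpa using hB) z (by simpa using h1)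
    nlinarith
  · have := h.outer hσ differentiable_id (γ := (k + 1 : ℕ)) (C := C) one_pos hB0 (fun w hw => by
      rw [Real.rpow_natCast, pow_succ, ← mul_assoc]
      exact mul_le_mul_of_nonneg_right (hC w (by linarith)) (norm_nonneg _)) hB z h1
    rw [Real.rpow_natCast, div_one] at this
    simp only [id] at this
    nlinarith

theorem line {sa sb : ℂ → Fin 2 → ℂ} (ha : Differentiable ℂ sa) (hb : Differentiable ℂ sb)
    {N : ℕ} (hN : 1 ≤ N) {a : ℂ} (ha1 : ‖a‖ = 1) {r K q M Ca Cb : ℝ} (hr : 0 < r) (hr1 : r ≤ 1)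
    (hK : 0 ≤ K) (hq : 0 ≤ q) (hM : 0 ≤ M)
    (ga : ∀ z : ℂ, 1 ≤ ‖z‖ → ν z (sa z) ≤ Ca * ‖z‖)
    (gb : ∀ z : ℂ, 1 ≤ ‖z‖ → ν z (sb z) ≤ Cb * ‖z‖ ^ (8 * N + 1))
    (ma : ∀ z : ℂ, ‖z‖ = 1 → ν z (sa z) ≤ M) (mb : ∀ z : ℂ, ‖z‖ = 1 → ν z (sb z) ≤ M)
    (R1 : ∀ z : ℂ, ‖z‖ ^ N = 2 → ν z ![1, 0] ≤ K * (ν z (sa z) + ν z (sb z)))
    (R2 : ∀ z : ℂ, ‖z ^ N - a‖ ≤ r →
      ν z (sa z) ≤ (q + K * r) * ν z (sb z) + K * r * ν z ![1, 0] + K * r * ν z (sa z))
    (z : ℂ) (hz : ‖z‖ = 1) : ν z (sa z) ≤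
      (2 / r) ^ (2 / N : ℝ) * (((q + K * r) * (1 + r) ^ 10 + K * r * (K * 1028) + K * r * 4) * M) := by
  have p2 : ∀ (w : ℂ) (Q : ℝ), 1 ≤ Q → ‖w‖ ^ N ≤ Q → ‖w‖ ^ 2 ≤ Q ^ 2 := fun w Q hQ hw => by
    refine pow_le_pow_left₀ (norm_nonneg _) ?_ 2
    rcases le_total ‖w‖ 1 with h1 | h1
    · linarith
    · exact (le_self_pow₀ h1 (by omega)).trans hw
  have A : ∀ w : ℂ, ‖w‖ ^ N ≤ 2 → ν w (sa w) ≤ 4 * M := fun w hw =>
    h.whole ha (k := 1) (C := Ca) hM (by simpa using ga) ma (by norm_num) w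
      ((p2 w 2 (by norm_num) hw).trans (by norm_num))
  have B : ∀ (w : ℂ) (Q : ℝ), 1 ≤ Q → ‖w‖ ^ N ≤ Q → ν w (sb w) ≤ Q ^ 10 * M := fun w Q hQ hw =>
    h.whole hb hM gb mb (one_le_pow₀ hQ) w (by
      calc ‖w‖ ^ (8 * N + 1 + 1) = (‖w‖ ^ N) ^ 8 * ‖w‖ ^ 2 := by ring
        _ ≤ Q ^ 8 * Q ^ 2 := mul_le_mul (pow_le_pow_left₀ (by positivity) hw 8) (p2 w Q hQ hw)
          (by positivity) (by positivity)
        _ = _ := by ring)
  have E : ∀ w : ℂ, ‖w‖ ^ N ≤ 2 → ν w ![1, 0] ≤ K * 1028 * M := fun w hw =>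
    h.inner (σ := fun _ => ![1, 0]) (differentiable_const _) hN (by norm_num) (by positivity)
      (fun u hu => (R1 u hu).trans (by
        have := A u hu.le
        have := B u 2 (by norm_num) hu.le
        rw [mul_assoc]
        exact mul_le_mul_of_nonneg_left (by linarith) hK)) w hw
  set T := ((q + K * r) * (1 + r) ^ 10 + K * r * (K * 1028) + K * r * 4) * M with hT
  have T0 : 0 ≤ T := by positivity
  have near : ∀ w : ℂ, ‖w ^ N - a‖ ≤ r → ν w (sa w) ≤ T := fun w hw => by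
    have h1 : ‖w‖ ^ N ≤ 1 + r := by
      rw [← norm_pow]
      have := norm_sub_norm_le (w ^ N) a
      linarith
    have a1 := A w (by linarith)
    have a2 := B w (1 + r) (by linarith) h1
    have a3 := E w (by linarith)
    have a4 : 0 ≤ K * r := by positivity
    calc _ ≤ _ := R2 w hw
      _ ≤ (q + K * r) * ((1 + r) ^ 10 * M) + K * r * (K * 1028 * M) + K * r * (4 * M) := by gcongr
      _ = T := by rw [hT]; ring
  have γ0 : (0 : ℝ) ≤ 2 / N := by positivity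
  have one : 1 ≤ (2 / r) ^ (2 / N : ℝ) := Real.one_le_rpow (by rw [le_div_iff₀ hr]; linarith) γ0
  rcases le_total ‖z ^ N - a‖ r with h1 | h1
  · have := near z h1
    nlinarith
  have N0 : (0 : ℝ) < N := by exact_mod_cast hN
  have := h.outer ha (g := fun w => w ^ N - a) (by fun_prop) (γ := 2 / N) (C := 4 * |Ca|) hr T0
    (fun w hw => ?_) (fun w hw => near w hw.le) z h1
  · refine this.trans ?_
    rw [mul_comm]
    gcongr
    calc ‖z ^ N - a‖ ≤ ‖z ^ N‖ + ‖a‖ := norm_sub_le _ _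
      _ = 2 := by rw [norm_pow, hz, ha1]; norm_num
  · have w0 : 0 < ‖w‖ := by linarith
    have h2 : (‖w‖ / 2) ^ N ≤ ‖w ^ N - a‖ := by
      have e1 := norm_sub_norm_le (w ^ N) a
      rw [norm_pow, ha1] at e1
      have e2 : (2 : ℝ) ≤ 2 ^ N := le_self_pow₀ (by norm_num) (by omega)
      have e3 : 2 ≤ ‖w‖ ^ N := hw.trans (le_self_pow₀ (by linarith) (by omega))
      rw [div_pow]
      calc ‖w‖ ^ N / 2 ^ N ≤ ‖w‖ ^ N / 2 := by gcongr
        _ ≤ _ := by linarith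
    have h3 : (‖w‖ / 2) ^ 2 ≤ ‖w ^ N - a‖ ^ (2 / N : ℝ) := by
      calc (‖w‖ / 2) ^ 2 = ((‖w‖ / 2) ^ N) ^ (2 / N : ℝ) := by
            rw [← Real.rpow_natCast _ N, ← Real.rpow_mul (by positivity), mul_div_cancel₀ _ N0.ne']
            norm_num
        _ ≤ _ := Real.rpow_le_rpow (by positivity) h2 γ0
    have h4 := (ga w (by linarith)).trans (mul_le_mul_of_nonneg_right (le_abs_self Ca) w0.le)
    have h5 := abs_nonneg Ca
    calc ν w (sa w) * ‖w‖ ≤ |Ca| * ‖w‖ * ‖w‖ := by gcongr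
      _ = 4 * |Ca| * (‖w‖ / 2) ^ 2 := by ring
      _ ≤ _ := by gcongr

end N1

theorem Nrm.vert {π : Par} {D : Dat π} {N : ℕ} {n : ℂ → ℂ → (Fin 2 → ℂ) → ℝ} (h : Nrm D N n)
    (x : ℂ) : N1 (n x) :=
  ⟨h.cont.comp (f := fun q : ℂ × (Fin 2 → ℂ) => (x, q.1, q.2)) (by fun_prop), h.add x, h.smul x,
    h.mpy x⟩

theorem Nrm.hor {π : Par} {D : Dat π} {N : ℕ} {n : ℂ → ℂ → (Fin 2 → ℂ) → ℝ} (h : Nrm D N n)
    (y : ℂ) : N1 (fun z => n z y) :=
  ⟨h.cont.comp (f := fun q : ℂ × (Fin 2 → ℂ) => (q.1, y, q.2)) (by fun_prop),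
    fun z => h.add z y, fun z => h.smul z y, fun z => h.mpx z y⟩

theorem bdd (f : ℂ × ℂ → ℂ) (hf : Continuous f) :
    ∃ K, ∀ X Y : ℂ, ‖X‖ ≤ 2 → ‖Y‖ ≤ 2 → ‖f (X, Y)‖ ≤ K := by
  obtain ⟨K, hK⟩ := ((isCompact_closedBall (0 : ℂ) 2).prod
    (isCompact_closedBall (0 : ℂ) 2)).exists_bound_of_continuousOn hf.continuousOn
  exact ⟨K, fun X Y hX hY => hK (X, Y) ⟨by simpa using hX, by simpa using hY⟩⟩

theorem lamI_cont (π : Par) (i : Fin 3) : Continuous fun q : ℂ × ℂ => lamI π i ![1, q.1] 1 q.2 := by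
  simp only [lamI, Matrix.cons_val_zero, Matrix.cons_val_one]; fun_prop

theorem lam_fac (π : Par) (i : Fin 3) : ∃ ρ : ℂ × ℂ → ℂ, Continuous ρ ∧
    ∀ X Y, lam π 0 ![1, X] Y = lamI π i ![1, X] 1 Y * ρ (X, Y) :=
  ⟨fun q => ∏ j ∈ Finset.univ.erase i, lamI π j ![1, q.1] 1 q.2,
    continuous_finsetProd _ fun j _ => lamI_cont π j, fun X Y => by
      rw [lam, ← Finset.mul_prod_erase _ _ (Finset.mem_univ i)]; simp⟩

theorem c_cont {π : Par} (D : Dat π) : Continuous fun q : ℂ × ℂ => D.c 0 ![1, q.1] q.2 :=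
  (D.c_diff 0).continuous.comp (f := fun q : ℂ × ℂ => (![1, q.1], q.2)) (by fun_prop)

theorem low (π : Par) : ∃ d : ℝ, 0 < d ∧ ∀ i (X : ℂ), ‖X‖ = 1 → d ≤ ‖(π.t : ℂ) * X - π.P i‖ := by
  refine ⟨√(1 + π.t ^ 2) - π.t, ?_, fun i X hX => ?_⟩
  · rw [sub_pos]; exact Real.lt_sqrt_of_sq_lt (by linarith)
  · have h1 : ‖π.P i‖ = √(1 + π.t ^ 2) := by
      have := π.hP i
      rw [Complex.mul_conj, Complex.normSq_eq_norm_sq] at this
      have h2 : ‖π.P i‖ ^ 2 = 1 + π.t ^ 2 := by exact_mod_cast this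
      rw [← h2, Real.sqrt_sq (norm_nonneg _)]
    have := norm_sub_norm_le (π.P i) ((π.t : ℂ) * X)
    rw [norm_sub_rev, norm_mul, hX, Complex.norm_real, Real.norm_of_nonneg π.ht.le, h1] at this
    linarith

theorem flip (t : ℝ) (P X : ℂ) (hX : ‖X‖ = 1) : ‖conj P * X - t‖ = ‖(t : ℂ) * X - P‖ := by
  have h : X * conj X = 1 := by rw [Complex.mul_conj, Complex.normSq_eq_norm_sq, hX]; simp
  have : conj P * X - t = -(X * conj ((t : ℂ) * X - P)) := by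
    simp only [map_sub, map_mul, Complex.conj_ofReal]; linear_combination (t : ℂ) * h
  rw [this, norm_neg, norm_mul, hX, one_mul, Complex.norm_conj]

theorem lowl (u v Y : ℂ) {d : ℝ} (h1 : ‖v‖ = ‖u‖) (h2 : d ≤ ‖u‖) (hY : ‖Y‖ = 2) :
    d ≤ ‖u * Y - v‖ := by
  have := norm_sub_norm_le (u * Y) v
  rw [norm_mul, hY, h1] at this
  linarith

theorem anaStmt : AnaStmt := by
  intro π D
  obtain ⟨d, d0, hd⟩ := low π
  choose ρ ρc hρ using lam_fac π
  have hd' : ∀ i (Y : ℂ), ‖Y‖ = 1 → d ≤ ‖(π.t : ℂ) * Y - conj (π.P i)‖ := fun i Y hY => by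
    have := hd i (conj Y) (by simpa using hY)
    rwa [← Complex.norm_conj, map_sub, map_mul, Complex.conj_ofReal, Complex.conj_conj] at this
  set κ' : Fin 3 → ℂ × ℂ → ℂ := fun i q =>
    -(π.t * ∑ k ∈ Finset.range 8, (1 + π.t * lamI π i ![1, q.1] 1 q.2) ^ k) -
      (π.t * q.2 - conj (π.P i)) ^ 8 * D.κ i q.1 q.2 with hκ'
  have κc : ∀ i, Continuous (κ' i) := fun i => by
    have := lamI_cont π i
    have := D.κ_cont i
    simp only [hκ']; fun_prop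
  obtain ⟨K0, hK0⟩ := bdd _ (c_cont D)
  choose K1 hK1 using fun i => bdd _ (D.κ_cont i)
  choose K2 hK2 using fun i => bdd _ (ρc i)
  choose K3 hK3 using fun i => bdd _ (κc i)
  obtain ⟨K, k1, k0, k1', k2, k3, k4⟩ : ∃ K : ℝ, 1 ≤ K ∧ K0 ≤ K ∧ (∀ i, K1 i ≤ K) ∧ (∀ i, K2 i ≤ K) ∧
      (∀ i, K3 i ≤ K) ∧ max 1 K0 / d ^ 3 ≤ K := by
    obtain ⟨a, ha⟩ := (Set.finite_range K1).bddAbove
    obtain ⟨b, hb⟩ := (Set.finite_range K2).bddAbove
    obtain ⟨c, hc⟩ := (Set.finite_range K3).bddAbove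
    refine ⟨max (max (max 1 K0) (max a b)) (max c (max 1 K0 / d ^ 3)), by simp, by simp,
      fun i => ?_, fun i => ?_, fun i => ?_, by simp⟩
    · have := ha ⟨i, rfl⟩; simp [this]
    · have := hb ⟨i, rfl⟩; simp [this]
    · have := hc ⟨i, rfl⟩; simp [this]
  have q1 : π.θ ^ 8 < 1 := pow_lt_one₀ π.hθ0 π.hθ (by norm_num)
  have q0 : 0 ≤ π.θ ^ 8 := pow_nonneg π.hθ0 _
  set F : ℝ → ℝ := fun r => (π.θ ^ 8 + K * r) * (1 + r) ^ 10 + K * r * (K * 1028) + K * r * 4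
    with hF
  obtain ⟨r, r0, r1, hr⟩ : ∃ r : ℝ, 0 < r ∧ r ≤ 1 ∧ F r < 1 := by
    have c : ContinuousAt F 0 := by simp only [hF]; fun_prop
    have e1 : ∀ᶠ r in 𝓝 (0 : ℝ), F r < 1 := c.eventually_lt continuousAt_const (by simpa [hF])
    have e2 : ∀ᶠ r in 𝓝 (0 : ℝ), r < 1 := eventually_lt_nhds one_pos
    obtain ⟨r, ⟨a, b⟩, c⟩ := (((e1.and e2).filter_mono nhdsWithin_le_nhds).and
      (self_mem_nhdsWithin (s := Ioi (0 : ℝ)))).exists
    exact ⟨r, c, b.le, a⟩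
  obtain ⟨N, hN, hN1⟩ : ∃ N : ℕ, (2 / r) ^ (2 / N : ℝ) * F r < 1 ∧ 1 ≤ N := by
    have t1 : Tendsto (fun N : ℕ => (2 / N : ℝ)) atTop (𝓝 0) := tendsto_const_div_atTop_nhds_zero_nat 2
    have t2 := (((Real.continuousAt_const_rpow (a := 2 / r) (b := 0) (by positivity)).tendsto.comp
      t1).mul_const (F r))
    rw [Real.rpow_zero, one_mul] at t2
    exact ((t2.eventually_lt_const hr).and (eventually_ge_atTop 1)).exists
  refine ⟨N, fun n h => ?_⟩
  have ds : Differentiable ℂ fun q : ℂ × ℂ => s1 D N q.1 q.2 := by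
    refine differentiable_pi.2 fun i => ?_
    fin_cases i
    · simp only [s1, lam, lamI, Fin.prod_univ_three]; simp; fun_prop
    · refine (D.c_diff 0).comp (f := fun q : ℂ × ℂ => (![1, q.1 ^ N], q.2 ^ N))
        (Differentiable.prodMk (differentiable_pi.2 fun i => ?_) (by fun_prop))
      fin_cases i <;> simp <;> fun_prop
  have dx : ∀ y, Differentiable ℂ fun x => s1 D N x y := fun y =>
    ds.comp (f := fun x => (x, y)) (by fun_prop)
  have dy : ∀ x, Differentiable ℂ fun y => s1 D N x y := fun x =>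
    ds.comp (f := fun y => (x, y)) (by fun_prop)
  have nn : ∀ x y σ, 0 ≤ n x y σ := fun x => (h.vert x).nonneg
  have sd : ∀ x y, s1 D N x y = lam π 0 ![1, x ^ N] (y ^ N) • ![(1 : ℂ), 0] +
      D.c 0 ![1, x ^ N] (y ^ N) • ![(0 : ℂ), 1] := fun x y => by
    ext i; fin_cases i <;> simp [s1]
  have R1 : ∀ x y, ‖x ^ N‖ ≤ 2 → ‖y ^ N‖ ≤ 2 → (∀ i, d ≤ ‖lamI π i ![1, x ^ N] 1 (y ^ N)‖) →
      n x y ![1, 0] ≤ K * (n x y (s1 D N x y) + n x y ![0, 1]) := fun x y hx hy hl => by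
    have l3 : d ^ 3 ≤ ‖lam π 0 ![1, x ^ N] (y ^ N)‖ := by
      rw [lam, Fin.prod_univ_three, norm_mul, norm_mul, pow_three']
      simp only [if_true]
      gcongr <;> exact hl _
    have e : lam π 0 ![1, x ^ N] (y ^ N) • ![(1 : ℂ), 0] =
        s1 D N x y + (-D.c 0 ![1, x ^ N] (y ^ N)) • ![(0 : ℂ), 1] := by rw [sd]; simp
    have a1 := h.add x y (s1 D N x y) ((-D.c 0 ![1, x ^ N] (y ^ N)) • ![(0 : ℂ), 1])
    rw [← e, h.smul, h.smul, norm_neg] at a1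
    have a2 := (hK0 _ _ hx hy).trans (le_max_right 1 K0)
    have a3 := le_max_left 1 K0
    have d3 := pow_pos d0 3
    rw [div_le_iff₀ d3] at k4
    have b1 := nn x y ![1, 0]
    have b2 := nn x y ![0, 1]
    have b3 := nn x y (s1 D N x y)
    refine le_of_mul_le_mul_left ?_ d3
    calc d ^ 3 * n x y ![1, 0] ≤ _ := mul_le_mul_of_nonneg_right l3 b1
      _ ≤ _ := a1
      _ ≤ max 1 K0 * (n x y (s1 D N x y) + n x y ![0, 1]) := by nlinarith
      _ ≤ K * d ^ 3 * (n x y (s1 D N x y) + n x y ![0, 1]) := by gcongr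
      _ = _ := by ring
  have cT : Continuous fun q : ℂ × ℂ => max (n q.1 q.2 (s1 D N q.1 q.2)) (n q.1 q.2 ![0, 1]) :=
    (h.cont.comp (f := fun q : ℂ × ℂ => (q.1, q.2, s1 D N q.1 q.2))
      (continuous_fst.prodMk (continuous_snd.prodMk ds.continuous))).max
      (h.cont.comp (f := fun q : ℂ × ℂ => (q.1, q.2, ![(0 : ℂ), 1])) (by fun_prop))
  obtain ⟨⟨x, y⟩, ⟨hx, hy⟩, hm⟩ := ((isCompact_sphere (0 : ℂ) 1).prod
    (isCompact_sphere (0 : ℂ) 1)).exists_isMaxOn ⟨(1, 1), by simp⟩ cT.continuousOn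
  simp only [mem_sphere_iff_norm, sub_zero] at hx hy
  set M := max (n x y (s1 D N x y)) (n x y ![0, 1]) with hM
  have M0 : 0 < M := (h.pos x y _ (by simp)).trans_le (le_max_right _ _)
  have m1 : ∀ u v : ℂ, ‖u‖ = 1 → ‖v‖ = 1 → n u v (s1 D N u v) ≤ M := fun u v hu hv =>
    (le_max_left _ _).trans (hm (a := (u, v)) ⟨by simpa using hu, by simpa using hv⟩)
  have m2 : ∀ u v : ℂ, ‖u‖ = 1 → ‖v‖ = 1 → n u v ![0, 1] ≤ M := fun u v hu hv =>
    (le_max_right _ _).trans (hm (a := (u, v)) ⟨by simpa using hu, by simpa using hv⟩)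
  have hX : ‖x ^ N‖ = 1 := by rw [norm_pow, hx, one_pow]
  have hY : ‖y ^ N‖ = 1 := by rw [norm_pow, hy, one_pow]
  have n2 : ∀ z a : ℂ, ‖a‖ = 1 → ‖z - a‖ ≤ r → ‖z‖ ≤ 2 := fun z a ha hz => by
    have := norm_sub_norm_le z a
    linarith
  suffices H : M ≤ (2 / r) ^ (2 / N : ℝ) * (F r * M) by
    rw [← mul_assoc] at H; nlinarith
  rcases max_choice (n x y (s1 D N x y)) (n x y ![0, 1]) with e | e
  · obtain ⟨i, hi⟩ := π.hcov _ hX
    have u0 : (π.t : ℂ) * x ^ N - π.P i ≠ 0 := norm_pos_iff.1 (d0.trans_le (hd i _ hX))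
    obtain ⟨Ca, ga⟩ := h.g1y x
    obtain ⟨Cb, gb⟩ := h.g2y x
    have := (h.vert x).line (sb := fun _ => ![0, 1]) (dy x) (differentiable_const _) hN1
      (a := (conj (π.P i) * x ^ N - π.t) / ((π.t : ℂ) * x ^ N - π.P i))
      (by rw [norm_div, flip _ _ _ hX, div_self (norm_ne_zero_iff.2 u0)]) r0 r1
      (by linarith : 0 ≤ K) q0 M0.le ga gb (fun z => m1 x z hx) (fun z => m2 x z hx)
      (fun z hz => R1 x z (by linarith) (by rw [norm_pow, hz]) fun j => by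
        have := lowl _ _ (z ^ N) (flip π.t (π.P j) _ hX) (hd j _ hX) (by rw [norm_pow, hz])
        convert this using 2
        simp [lamI]; ring) (fun z hz => ?_) y hy
    · exact (hM.trans e).le.trans this
    have z2 := n2 _ _ (by rw [norm_div, flip _ _ _ hX, div_self (norm_ne_zero_iff.2 u0)]) hz
    have l1 : ‖lamI π i ![1, x ^ N] 1 (z ^ N)‖ ≤ r := by
      have : lamI π i ![1, x ^ N] 1 (z ^ N) = ((π.t : ℂ) * x ^ N - π.P i) *
          (z ^ N - (conj (π.P i) * x ^ N - π.t) / ((π.t : ℂ) * x ^ N - π.P i)) := by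
        simp only [lamI, Matrix.cons_val_zero, Matrix.cons_val_one]; field_simp; ring
      rw [this, norm_mul]
      have := π.hθ
      calc _ ≤ 1 * r := by gcongr; linarith
        _ = r := one_mul r
    have l2 : ‖lam π 0 ![1, x ^ N] (z ^ N)‖ ≤ K * r := by
      rw [hρ i, norm_mul, mul_comm]
      gcongr
      exact (hK2 i _ _ (by linarith) z2).trans (k2 i)
    have l3 : ‖D.c 0 ![1, x ^ N] (z ^ N)‖ ≤ π.θ ^ 8 + K * r := by
      rw [D.c_eq i]
      refine (norm_add_le _ _).trans (add_le_add ?_ ?_)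
      · rw [norm_pow]; gcongr
      · rw [norm_mul, mul_comm]
        gcongr
        exact (hK1 i _ _ (by linarith) z2).trans (k1' i)
    have a1 := h.add x z (lam π 0 ![1, x ^ N] (z ^ N) • ![(1 : ℂ), 0])
      (D.c 0 ![1, x ^ N] (z ^ N) • ![(0 : ℂ), 1])
    rw [← sd, h.smul, h.smul] at a1
    have b1 := mul_le_mul_of_nonneg_right l2 (nn x z ![1, 0])
    have b2 := mul_le_mul_of_nonneg_right l3 (nn x z ![0, 1])
    have b3 : 0 ≤ K * r * n x z (s1 D N x z) := by have := nn x z (s1 D N x z); positivity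
    linarith
  · obtain ⟨i, hi⟩ := π.hcov (conj (y ^ N)) (by rw [Complex.norm_conj, hY])
    rw [← Complex.norm_conj, map_sub, map_mul, Complex.conj_ofReal, Complex.conj_conj] at hi
    have u0 : (π.t : ℂ) * y ^ N - conj (π.P i) ≠ 0 := norm_pos_iff.1 (d0.trans_le (hd' i _ hY))
    have fl : ∀ j, ‖π.P j * y ^ N - π.t‖ = ‖(π.t : ℂ) * y ^ N - conj (π.P j)‖ := fun j => by
      simpa using flip π.t (conj (π.P j)) _ hY
    obtain ⟨Ca, ga⟩ := h.g2x y
    obtain ⟨Cb, gb⟩ := h.g1x y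
    have := (h.hor y).line (sa := fun _ => ![0, 1]) (differentiable_const _) (dx y) hN1
      (a := (π.P i * y ^ N - π.t) / ((π.t : ℂ) * y ^ N - conj (π.P i)))
      (by rw [norm_div, fl, div_self (norm_ne_zero_iff.2 u0)]) r0 r1
      (by linarith : 0 ≤ K) q0 M0.le ga gb (fun z hz => m2 z y hz hy) (fun z hz => m1 z y hz hy)
      (fun z hz => by
        rw [add_comm]
        exact R1 z y (by rw [norm_pow, hz]) (by linarith) fun j => by
          have := lowl _ _ (z ^ N) (fl j) (hd' j _ hY) (by rw [norm_pow, hz])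
          convert this using 2
          simp [lamI]) (fun z hz => ?_) x hx
    · exact (hM.trans e).le.trans this
    have z2 := n2 _ _ (by rw [norm_div, fl, div_self (norm_ne_zero_iff.2 u0)]) hz
    set u := (π.t : ℂ) * y ^ N - conj (π.P i) with hu
    have l1 : ‖lamI π i ![1, z ^ N] 1 (y ^ N)‖ ≤ r := by
      have : lamI π i ![1, z ^ N] 1 (y ^ N) = u * (z ^ N - (π.P i * y ^ N - π.t) / u) := by
        simp only [lamI, Matrix.cons_val_zero, Matrix.cons_val_one, mul_one, ← hu]; field_simp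
      rw [this, norm_mul]
      have := π.hθ
      calc _ ≤ 1 * r := by gcongr; linarith
        _ = r := one_mul r
    have l0 : ‖u ^ 8‖ ≤ π.θ ^ 8 := by rw [norm_pow]; gcongr
    have l2 : ‖-(u ^ 8 * lam π 0 ![1, z ^ N] (y ^ N))‖ ≤ K * r := by
      rw [norm_neg, norm_mul, hρ i, norm_mul]
      calc _ ≤ 1 * (r * K) := by
            gcongr
            · linarith
            · exact (hK2 i _ _ z2 (by linarith)).trans (k2 i)
        _ = _ := by ring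
    have l3 : ‖1 - u ^ 8 * D.c 0 ![1, z ^ N] (y ^ N)‖ ≤ K * r := by
      have e1 : u * (π.t * z ^ N - π.P i) = 1 + π.t * lamI π i ![1, z ^ N] 1 (y ^ N) := by
        simp only [lamI, Matrix.cons_val_zero, Matrix.cons_val_one, hu]
        linear_combination π.hP i
      have : 1 - u ^ 8 * D.c 0 ![1, z ^ N] (y ^ N) =
          κ' i (z ^ N, y ^ N) * lamI π i ![1, z ^ N] 1 (y ^ N) := by
        rw [D.c_eq i, mul_add, ← mul_pow, e1]
        simp only [hκ', ← hu, Finset.sum_range_succ, Finset.sum_range_zero]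
        ring
      rw [this, norm_mul]
      gcongr
      exact (hK3 i _ _ z2 (by linarith)).trans (k3 i)
    have e2 : (![0, 1] : Fin 2 → ℂ) = u ^ 8 • s1 D N z y +
        (-(u ^ 8 * lam π 0 ![1, z ^ N] (y ^ N))) • ![(1 : ℂ), 0] +
        (1 - u ^ 8 * D.c 0 ![1, z ^ N] (y ^ N)) • ![(0 : ℂ), 1] := by
      ext j; fin_cases j <;> simp [s1]
    have a1 := h.add z y (u ^ 8 • s1 D N z y +
        (-(u ^ 8 * lam π 0 ![1, z ^ N] (y ^ N))) • ![(1 : ℂ), 0])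
        ((1 - u ^ 8 * D.c 0 ![1, z ^ N] (y ^ N)) • ![(0 : ℂ), 1])
    have a2 := h.add z y (u ^ 8 • s1 D N z y)
        ((-(u ^ 8 * lam π 0 ![1, z ^ N] (y ^ N))) • ![(1 : ℂ), 0])
    rw [← e2, h.smul] at a1
    rw [h.smul, h.smul] at a2
    have b0 := mul_le_mul_of_nonneg_right l0 (nn z y (s1 D N z y))
    have b1 := mul_le_mul_of_nonneg_right l2 (nn z y ![1, 0])
    have b2 := mul_le_mul_of_nonneg_right l3 (nn z y ![0, 1])
    have b3 : 0 ≤ K * r * n z y (s1 D N z y) := by have := nn z y (s1 D N z y); positivity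
    change n z y ![0, 1] ≤ (π.θ ^ 8 + K * r) * n z y (s1 D N z y) + K * r * n z y ![1, 0] +
      K * r * n z y ![0, 1]
    linarith

end Crest.Agent.H1.Gr
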