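import Crest.Agent.H1.GrI

/-! Row 258: the dual norm of a Griffiths positive metric (`bridgeStmt`). -/

set_option autoImplicit false

noncomputable section

namespace Crest.Agent.H1.Gr

open Crest.AlgGeometry.QuadricBundle Matrix Filter
open scoped ComplexConjugate Topology ComplexOrder

abbrev M2 := Matrix (Fin 2) (Fin 2) ℂ
abbrev V2 := Fin 2 → ℂ

/-- Squared norm of a vector. -/
def hq (M : M2) (v : V2) : ℝ := (∑ i, ∑ j, M i j * v i * conj (v j)).re

/-- Squared dual norm of a covector. -/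
def dn2 (M : M2) (σ : V2) : ℝ := (star σ ⬝ᵥ M⁻¹ *ᵥ σ).re

/-- Dual norm of a covector. -/
def dn (M : M2) (σ : V2) : ℝ := √(dn2 M σ)

/-- The vector dual to a covector. -/
def dv (M : M2) (σ : V2) : V2 := star (M⁻¹ *ᵥ σ)

theorem hq_eq (M : M2) (v : V2) : hq M v = (v ⬝ᵥ M *ᵥ star v).re := by
  simp only [hq, dotProduct, mulVec, Fin.sum_univ_two, Pi.star_apply, RCLike.star_def]
  congr 1; ring

theorem mul_inv_vec {M : M2} (hM : M.PosDef) (σ : V2) : M *ᵥ (M⁻¹ *ᵥ σ) = σ := by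
  rw [mulVec_mulVec, mul_nonsing_inv _ ((isUnit_iff_isUnit_det _).1 hM.isUnit), one_mulVec]

theorem re_star_dot (a b : V2) : (star a ⬝ᵥ b).re = (a ⬝ᵥ star b).re := by
  simp [dotProduct, Fin.sum_univ_two]

theorem dot_dv (M : M2) (σ : V2) : (σ ⬝ᵥ dv M σ).re = dn2 M σ := by
  rw [dv, dn2, re_star_dot]

theorem hq_dv {M : M2} (hM : M.PosDef) (σ : V2) : hq M (dv M σ) = dn2 M σ := by
  rw [hq_eq, dv, star_star, mul_inv_vec hM, dotProduct_comm, ← dv, dot_dv]

theorem herm {M : M2} (hM : M.PosDef) (a b : V2) :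
    (star a ⬝ᵥ M *ᵥ b).re = (star b ⬝ᵥ M *ᵥ a).re := by
  have h := hM.isHermitian
  rw [re_star_dot, star_mulVec, h.eq, dotProduct_comm, ← dotProduct_mulVec]

theorem key {M : M2} (hM : M.PosDef) (σ w : V2) : 2 * (σ ⬝ᵥ w).re - hq M w ≤ dn2 M σ := by
  obtain ⟨u, hu⟩ : ∃ u, u = M⁻¹ *ᵥ σ := ⟨_, rfl⟩
  have hσ : M *ᵥ u = σ := by rw [hu, mul_inv_vec hM]
  have h0 : 0 ≤ (star (star w - u) ⬝ᵥ M *ᵥ (star w - u)).re :=
    hM.posSemidef.re_dotProduct_nonneg _
  rw [star_sub, mulVec_sub, sub_dotProduct, dotProduct_sub, dotProduct_sub, Complex.sub_re,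
    Complex.sub_re, Complex.sub_re, herm hM u (star w), star_star, hσ] at h0
  rw [hq_eq, dn2, ← hu, re_star_dot σ u, dotProduct_comm σ w, dotProduct_comm σ]
  linarith

theorem dn2_nonneg {M : M2} (hM : M.PosDef) (σ : V2) : 0 ≤ dn2 M σ :=
  hM.inv.posSemidef.re_dotProduct_nonneg _

theorem dn2_pos {M : M2} (hM : M.PosDef) {σ : V2} (h : σ ≠ 0) : 0 < dn2 M σ :=
  hM.inv.re_dotProduct_pos h

theorem dn_sq {M : M2} (hM : M.PosDef) (σ : V2) : dn M σ ^ 2 = dn2 M σ :=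
  Real.sq_sqrt (dn2_nonneg hM σ)

theorem hq_smul (M : M2) (r : ℝ) (w : V2) : hq M ((r : ℂ) • w) = r ^ 2 * hq M w := by
  simp only [hq, Fin.sum_univ_two, Pi.smul_apply, smul_eq_mul, map_mul, Complex.conj_ofReal]
  rw [← Complex.re_ofReal_mul]
  congr 1; push_cast; ring

theorem cs {M : M2} (hM : M.PosDef) (σ τ : V2) : (σ ⬝ᵥ dv M τ).re ≤ dn M σ * dn M τ := by
  have h : ∀ r : ℝ, 0 ≤ dn M τ ^ 2 * (r * r) + (-2 * (σ ⬝ᵥ dv M τ).re) * r + dn M σ ^ 2 := by
    intro r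
    have := key hM σ ((r : ℂ) • dv M τ)
    rw [hq_smul, hq_dv hM, dotProduct_smul, smul_eq_mul, Complex.re_ofReal_mul, ← dn_sq hM,
      ← dn_sq hM] at this
    nlinarith
  have h2 := discrim_le_zero h
  rw [discrim] at h2
  have h3 : 0 ≤ dn M σ * dn M τ := mul_nonneg (Real.sqrt_nonneg _) (Real.sqrt_nonneg _)
  exact abs_le_of_sq_le_sq' (by nlinarith) h3 |>.2

theorem dn_add {M : M2} (hM : M.PosDef) (σ τ : V2) : dn M (σ + τ) ≤ dn M σ + dn M τ := by
  have h1 := cs hM σ (σ + τ)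
  have h2 := cs hM τ (σ + τ)
  have h3 := dot_dv M (σ + τ)
  rw [add_dotProduct, Complex.add_re, ← dn_sq hM] at h3
  have a0 : 0 ≤ dn M σ := Real.sqrt_nonneg _
  have b0 : 0 ≤ dn M τ := Real.sqrt_nonneg _
  have c0 : 0 ≤ dn M (σ + τ) := Real.sqrt_nonneg _
  by_contra hc
  push Not at hc
  nlinarith

theorem dn_smul (M : M2) (r : ℂ) (σ : V2) : dn M (r • σ) = ‖r‖ * dn M σ := by
  have : dn2 M (r • σ) = ‖r‖ ^ 2 * dn2 M σ := by
    rw [dn2, dn2, star_smul, mulVec_smul, smul_dotProduct, dotProduct_smul, smul_smul,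
      smul_eq_mul, RCLike.star_def, Complex.conj_mul', ← Complex.ofReal_pow,
      Complex.re_ofReal_mul]
  rw [dn, this, Real.sqrt_mul (sq_nonneg _), Real.sqrt_sq (norm_nonneg _), dn]

theorem dn_cont {X : Type} [TopologicalSpace X] {M : X → M2} {σ : X → V2} (hM : Continuous M)
    (hp : ∀ x, (M x).PosDef) (hσ : Continuous σ) : Continuous fun x => dn (M x) (σ x) := by
  have hi : Continuous fun x => (M x)⁻¹ := by
    simp only [Matrix.inv_def, Ring.inverse_eq_inv']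
    exact (hM.matrix_det.inv₀ fun x => (hp x).det_pos.ne').smul hM.matrix_adjugate
  unfold dn dn2
  exact (Complex.continuous_re.comp (hσ.star.dotProduct (hi.matrix_mulVec hσ))).sqrt

theorem dn_le {M M' g : M2} (hM : M.PosDef) (hM' : M'.PosDef) (h : M' = gᵀ * M * g.map conj)
    (σ : V2) : dn M σ ≤ dn M' (gᵀ *ᵥ σ) := by
  have hg : IsUnit g.det := by
    have := hM'.det_pos.ne'
    rw [h, det_mul, det_mul, det_transpose] at this
    exact (left_ne_zero_of_mul (left_ne_zero_of_mul this)).isUnit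
  obtain ⟨w, hw⟩ : ∃ w, g *ᵥ w = dv M σ :=
    ⟨g⁻¹ *ᵥ dv M σ, by rw [mulVec_mulVec, mul_nonsing_inv _ hg, one_mulVec]⟩
  have h1 := key hM' (gᵀ *ᵥ σ) w
  have h2 : (gᵀ *ᵥ σ) ⬝ᵥ w = σ ⬝ᵥ dv M σ := by
    rw [← hw, mulVec_transpose, ← dotProduct_mulVec]
  have h3 : hq M' w = hq M (dv M σ) := by
    rw [← hw, h]
    simp only [hq, Fin.sum_univ_two, Matrix.mul_apply, transpose_apply, map_apply, mulVec,
      dotProduct, map_add, map_mul]
    congr 1; ring
  rw [h2, h3, dot_dv, hq_dv hM] at h1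
  exact Real.sqrt_le_sqrt (by linarith)

theorem d2_le {f : ℝ → ℝ} (hc : ContinuousAt f 0) (h : IsLocalMax f 0) :
    deriv (deriv f) 0 ≤ 0 := by
  by_contra hh
  push Not at hh
  have hm := isLocalMin_of_deriv_deriv_pos hh h.deriv_eq_zero hc
  have he : f =ᶠ[𝓝 0] fun _ => f 0 := by
    filter_upwards [h, hm] with x h1 h2 using le_antisymm h1 h2
  have := he.deriv.deriv_eq
  simp at this
  linarith

theorem re_d1 {G : ℂ → ℂ} (hG : AnalyticAt ℂ G 0) (c : ℂ) :
    ∀ᶠ t : ℝ in 𝓝 0, HasDerivAt (fun t : ℝ => (G (c * t)).re) (c * deriv G (c * t)).re t := by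
  have ht : Tendsto (fun t : ℝ => c * (t : ℂ)) (𝓝 0) (𝓝 0) := by
    have : Continuous fun t : ℝ => c * (t : ℂ) := by fun_prop
    simpa using this.tendsto 0
  filter_upwards [ht.eventually hG.eventually_analyticAt] with t h
  have h1 : HasDerivAt (fun w : ℂ => G (c * w)) (c * deriv G (c * t)) (t : ℂ) := by
    have := h.differentiableAt.hasDerivAt.comp (t : ℂ) ((hasDerivAt_id (t : ℂ)).const_mul c)
    rw [mul_one, mul_comm] at this
    exact this
  exact h1.real_of_complex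

theorem re_d2 {G : ℂ → ℂ} (hG : AnalyticAt ℂ G 0) (c : ℂ) :
    deriv (deriv fun t : ℝ => (G (c * t)).re) 0 = (c ^ 2 * deriv (deriv G) 0).re := by
  have h1 : (deriv fun t : ℝ => (G (c * t)).re) =ᶠ[𝓝 0]
      fun t : ℝ => (c * deriv G (c * t)).re := by
    filter_upwards [re_d1 hG c] with t h using h.deriv
  rw [h1.deriv_eq]
  have h2 : AnalyticAt ℂ (fun w => c * deriv G w) 0 := analyticAt_const.mul hG.deriv
  have h3 := (re_d1 h2 c).self_of_nhds.deriv
  rw [h3, deriv_const_mul_field]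
  simp only [Complex.ofReal_zero, mul_zero]
  congr 1; ring

theorem d2_sub {f g : ℝ → ℝ} (hf : ContDiffAt ℝ 2 f 0) (hg : ContDiffAt ℝ 2 g 0) :
    deriv (deriv (f - g)) 0 = deriv (deriv f) 0 - deriv (deriv g) 0 := by
  have := iteratedDeriv_sub (n := 2) hf hg
  simpa [iteratedDeriv_succ] using this

theorem dir_le {A : ℂ → ℝ} {G : ℂ → ℂ} (hA : ContDiffAt ℝ 2 A 0) (hG : AnalyticAt ℂ G 0)
    (h : IsLocalMax (fun z => (G z).re - A z) 0) (c : ℂ) :
    (c ^ 2 * deriv (deriv G) 0).re ≤ deriv (deriv fun t : ℝ => A (c * t)) 0 := by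
  have hl : ContDiffAt ℝ 2 (fun t : ℝ => c * (t : ℂ)) 0 :=
    (contDiff_const.mul Complex.ofRealCLM.contDiff).contDiffAt
  have e0 : c * ((0 : ℝ) : ℂ) = 0 := by simp
  have h1 : ContDiffAt ℝ 2 (fun t : ℝ => A (c * t)) 0 :=
    ContDiffAt.comp (g := A) 0 (by rw [e0]; exact hA) hl
  have h2 : ContDiffAt ℝ 2 (fun t : ℝ => (G (c * t)).re) 0 := by
    have hG' : ContDiffAt ℝ 2 G 0 := hG.contDiffAt.restrict_scalars ℝ
    exact Complex.reCLM.contDiff.contDiffAt.comp 0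
      (ContDiffAt.comp (g := G) 0 (by rw [e0]; exact hG') hl)
  have h3 : IsLocalMax ((fun t : ℝ => (G (c * t)).re) - fun t : ℝ => A (c * t)) 0 := by
    have h' : IsLocalMax (fun z => (G z).re - A z) ((fun t : ℝ => c * (t : ℂ)) 0) := by
      simpa using h
    exact IsLocalMax.comp_continuous (g := fun t : ℝ => c * (t : ℂ)) h' hl.continuousAt
  have h4 := d2_le (f := (fun t : ℝ => (G (c * t)).re) - fun t : ℝ => A (c * t))
    (h2.sub h1).continuousAt h3
  rw [d2_sub h2 h1, re_d2 hG] at h4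
  linarith

theorem levi_nonneg {A : ℂ → ℝ} {G : ℂ → ℂ} (hA : ContDiffAt ℝ 2 A 0) (hG : AnalyticAt ℂ G 0)
    (h : IsLocalMax (fun z => (G z).re - A z) 0) :
    0 ≤ deriv (deriv fun t : ℝ => A (1 * t)) 0 +
      deriv (deriv fun t : ℝ => A (Complex.I * t)) 0 := by
  have h1 := dir_le hA hG h 1
  have h2 := dir_le hA hG h Complex.I
  rw [Complex.I_sq] at h2
  simp only [one_pow, one_mul, neg_mul, Complex.neg_re] at h1 h2 ⊢
  linarith

section
variable {g : Transition 2} {H : MetricData 2}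

theorem Hcont (hH : IsHermitianMetric g H) (α : Chart) : Continuous (H α) :=
  continuous_matrix fun i j => (hH.smooth α i j).continuous

theorem mp (hH : IsHermitianMetric g H) (hG : IsGriffithsPositive H) (α : Chart) (p ξ : V2)
    (hξ : ξ ≠ 0) (σ : ℂ → V2) (hσ : ∀ᶠ z in 𝓝 0, DifferentiableAt ℂ σ z) (h0 : σ 0 ≠ 0) :
    ¬ IsLocalMax (fun z : ℂ => dn (H α (p + z • ξ)) (σ z)) 0 := by
  intro hmax
  have hv : dv (H α p) (σ 0) ≠ 0 := by
    intro h
    have h1 := dot_dv (H α p) (σ 0)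
    rw [h] at h1
    have := dn2_pos (hH.posDef α p) h0
    simp at h1
    linarith
  obtain ⟨U, s, hU, hp, hs, hsp, hlt⟩ := hG α p ξ _ hξ hv
  have hline : Differentiable ℂ (fun z : ℂ => p + z • ξ) := by fun_prop
  have hS : AnalyticAt ℂ (fun z : ℂ => s (p + z • ξ)) 0 := by
    rw [Complex.analyticAt_iff_eventually_differentiableAt]
    have : ∀ᶠ z : ℂ in 𝓝 0, p + z • ξ ∈ U :=
      hline.continuous.continuousAt.eventually_mem (by simpa using hU.mem_nhds hp)
    filter_upwards [this] with z hz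
    exact (hs.differentiableAt (hU.mem_nhds hz)).comp z (hline z)
  have hσa : AnalyticAt ℂ σ 0 := Complex.analyticAt_iff_eventually_differentiableAt.2 hσ
  have hSi : ∀ i, AnalyticAt ℂ (fun z : ℂ => s (p + z • ξ) i) 0 := fun i =>
    analyticAt_pi_iff.1 hS i
  have hσi : ∀ i, AnalyticAt ℂ (fun z : ℂ => σ z i) 0 := fun i => analyticAt_pi_iff.1 hσa i
  have hGa : AnalyticAt ℂ (fun z : ℂ => 2 * (σ z ⬝ᵥ s (p + z • ξ))) 0 := by
    simp only [dotProduct, Fin.sum_univ_two]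
    exact analyticAt_const.mul (((hσi 0).mul (hSi 0)).add ((hσi 1).mul (hSi 1)))
  have hA : ContDiffAt ℝ 2 (fun z : ℂ => hq (H α (p + z • ξ)) (s (p + z • ξ))) 0 := by
    have hl : ContDiff ℝ 2 (fun z : ℂ => p + z • ξ) :=
      (hline.contDiff (n := 2)).restrict_scalars ℝ
    have hHij : ∀ i j, ContDiffAt ℝ 2 (fun z : ℂ => H α (p + z • ξ) i j) 0 := fun i j =>
      (((hH.smooth α i j).of_le (by exact WithTop.coe_le_coe.2 (le_top (a := (2 : ℕ∞))))).comp hl).contDiffAt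
    have hS2 : ∀ i, ContDiffAt ℝ 2 (fun z : ℂ => s (p + z • ξ) i) 0 := fun i =>
      (hSi i).contDiffAt.restrict_scalars ℝ
    have hS3 : ∀ i, ContDiffAt ℝ 2 (fun z : ℂ => conj (s (p + z • ξ) i)) 0 := fun i =>
      Complex.conjCLE.contDiff.contDiffAt.comp 0 (hS2 i)
    unfold hq
    have hsum : ContDiffAt ℝ 2 (fun z : ℂ => ∑ i, ∑ j,
        H α (p + z • ξ) i j * s (p + z • ξ) i * conj (s (p + z • ξ) j)) 0 :=
      ContDiffAt.sum fun i _ => ContDiffAt.sum fun j _ => ((hHij i j).mul (hS2 i)).mul (hS3 j)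
    exact Complex.reCLM.contDiff.contDiffAt.comp 0 hsum
  have hm : IsLocalMax (fun z : ℂ => (2 * (σ z ⬝ᵥ s (p + z • ξ))).re -
      hq (H α (p + z • ξ)) (s (p + z • ξ))) 0 := by
    filter_upwards [hmax] with z hz
    have k1 := key (hH.posDef α (p + z • ξ)) (σ z) (s (p + z • ξ))
    simp only [zero_smul, add_zero] at hz ⊢
    have e2 : ∀ w : ℂ, (2 * w).re = 2 * w.re := fun w => by simp
    rw [e2, e2, hsp, dot_dv, hq_dv (hH.posDef α p), ← dn_sq (hH.posDef α p)]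
    rw [← dn_sq (hH.posDef _ _)] at k1
    have a0 : 0 ≤ dn (H α (p + z • ξ)) (σ z) := Real.sqrt_nonneg _
    nlinarith
  have hl := levi_nonneg hA hGa hm
  refine absurd hlt (not_lt.2 (le_of_le_of_eq hl ?_))
  simp only [leviAlong, secondDerivAlong, one_mul, smul_smul, mul_comm Complex.I]
  rfl

theorem grow (hH : IsHermitianMetric g H) (β : Chart) {P : ℂ → V2} {σ : ℂ → V2}
    (hP : Continuous P) (hσ : Continuous σ) :
    ∃ C, ∀ u : ℂ, 1 ≤ ‖u‖ → dn (H β (P u⁻¹)) (σ u⁻¹) ≤ C := by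
  have hc : Continuous fun u => dn (H β (P u)) (σ u) :=
    dn_cont ((Hcont hH β).comp hP) (fun _ => hH.posDef _ _) hσ
  obtain ⟨C, hC⟩ := (isCompact_closedBall (0 : ℂ) 1).bddAbove_image hc.continuousOn
  refine ⟨C, fun u hu => hC ⟨u⁻¹, ?_, rfl⟩⟩
  simpa using inv_le_one_of_one_le₀ hu

end

theorem lam_hom (π : Par) (b : Fin 2) (r : ℂ) (X : V2) (y : ℂ) :
    lam π b (r • X) y = r ^ 3 * lam π b X y := by
  simp only [lam, lamI, Fin.prod_univ_three, Pi.smul_apply, smul_eq_mul]; ring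

theorem lam_glue (π : Par) (X : V2) {y : ℂ} (hy : y ≠ 0) :
    lam π 1 X y⁻¹ = y⁻¹ ^ 3 * lam π 0 X y := by
  simp only [lam, lamI, Fin.prod_univ_three, one_ne_zero, if_false, if_true]; field_simp

theorem lam_cont (π : Par) (b : Fin 2) : Continuous fun q : V2 × ℂ => lam π b q.1 q.2 := by
  unfold lam lamI
  split_ifs <;> fun_prop

theorem bridgeStmt : BridgeStmt := by
  intro π D N H hH hG
  have hpd := hH.posDef
  have hy : ∀ x y : ℂ, 1 ≤ ‖y‖ → ∀ σ, dn (H (0, 0) ![x, y]) σ ≤ dn (H (0, 1) ![x, y⁻¹])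
      (!![y * y⁻¹ ^ (3 * N), y * D.W ![1, x ^ N] (y ^ N); 0, y ^ (8 * N + 1)]ᵀ *ᵥ σ) := by
    intro x y h σ
    have hy0 : y ≠ 0 := by rintro rfl; norm_num at h
    have := hH.compat (0, 0) (0, 1) ![x, y] ⟨by simp, by simpa using hy0⟩
    refine dn_le (hpd _ _) (hpd _ _) ?_ σ
    simpa [tau, gT, hom] using this
  have hx : ∀ x y : ℂ, 1 ≤ ‖x‖ → ∀ σ, dn (H (0, 0) ![x, y]) σ ≤ dn (H (1, 0) ![x⁻¹, y])
      (!![x ^ (5 * N + 1), 0; 0, x]ᵀ *ᵥ σ) := by
    intro x y h σ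
    have hx0 : x ≠ 0 := by rintro rfl; norm_num at h
    have := hH.compat (0, 0) (1, 0) ![x, y] ⟨by simpa using hx0, by simp⟩
    refine dn_le (hpd _ _) (hpd _ _) ?_ σ
    simpa [tau, gT, hom] using this
  refine ⟨fun x y σ => dn (H (0, 0) ![x, y]) σ, ?_, ?_, ?_, ?_, ?_, ?_, ?_, ?_, ?_, ?_⟩
  · exact dn_cont ((Hcont hH _).comp (by fun_prop)) (fun _ => hpd _ _) (by fun_prop)
  · intro x y σ h
    exact Real.sqrt_pos.2 (dn2_pos (hpd _ _) h)
  · intro x y σ σ'
    exact dn_add (hpd _ _) _ _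
  · intro x y r σ
    exact dn_smul _ _ _
  · intro x y σ hσ h0 hmax
    have ht : Tendsto (fun z : ℂ => x + z) (𝓝 0) (𝓝 x) := by
      have : Continuous fun z : ℂ => x + z := by fun_prop
      simpa using this.tendsto 0
    refine mp hH hG (0, 0) ![x, y] ![1, 0] (by simp) (fun z => σ (x + z)) ?_ (by simpa using h0) ?_
    · filter_upwards [ht.eventually hσ] with z hz
      exact hz.comp z (by fun_prop)
    · filter_upwards [ht.eventually hmax] with z hz
      simpa using hz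
  · intro x y σ hσ h0 hmax
    have ht : Tendsto (fun z : ℂ => y + z) (𝓝 0) (𝓝 y) := by
      have : Continuous fun z : ℂ => y + z := by fun_prop
      simpa using this.tendsto 0
    refine mp hH hG (0, 0) ![x, y] ![0, 1] (by simp) (fun z => σ (y + z)) ?_ (by simpa using h0) ?_
    · filter_upwards [ht.eventually hσ] with z hz
      exact hz.comp z (by fun_prop)
    · filter_upwards [ht.eventually hmax] with z hz
      simpa using hz
  · intro y
    obtain ⟨C, hC⟩ := grow hH (1, 0) (P := fun u => ![u, y])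
      (σ := fun u => ![lam π 0 ![u ^ N, 1] (y ^ N), D.c 0 ![u ^ N, 1] (y ^ N)]) (by fun_prop) (by
        have h1 := (lam_cont π 0).comp
          (f := fun u : ℂ => ((![u ^ N, 1] : V2), y ^ N)) (by fun_prop)
        have h2 := (D.c_diff 0).continuous.comp
          (f := fun u : ℂ => ((![u ^ N, 1] : V2), y ^ N)) (by fun_prop)
        exact h1.matrixVecCons (h2.matrixVecCons continuous_const))
    refine ⟨C, fun x h => (hx x y h _).trans ?_⟩
    have hx0 : x ≠ 0 := by rintro rfl; norm_num at h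
    have e1 : (![1, x ^ N] : V2) = x ^ N • ![x⁻¹ ^ N, 1] := by
      ext i; fin_cases i <;> simp [hx0]
    have e : !![x ^ (5 * N + 1), 0; 0, x]ᵀ *ᵥ s1 D N x y = x ^ (8 * N + 1) •
        ![lam π 0 ![x⁻¹ ^ N, 1] (y ^ N), D.c 0 ![x⁻¹ ^ N, 1] (y ^ N)] := by
      rw [s1, e1, lam_hom, D.c_hom]
      ext i; fin_cases i <;> simp [mulVec, dotProduct, Fin.sum_univ_two] <;> ring
    rw [e, dn_smul, norm_pow, mul_comm]
    exact mul_le_mul_of_nonneg_right (hC x h) (by positivity)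
  · intro x
    obtain ⟨C, hC⟩ := grow hH (0, 1) (P := fun u => ![x, u])
      (σ := fun u => ![lam π 1 ![1, x ^ N] (u ^ N), D.c 1 ![1, x ^ N] (u ^ N)]) (by fun_prop) (by
        have h1 := (lam_cont π 1).comp
          (f := fun u : ℂ => ((![1, x ^ N] : V2), u ^ N)) (by fun_prop)
        have h2 := (D.c_diff 1).continuous.comp
          (f := fun u : ℂ => ((![1, x ^ N] : V2), u ^ N)) (by fun_prop)
        exact h1.matrixVecCons (h2.matrixVecCons continuous_const))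
    refine ⟨C, fun y h => (hy x y h _).trans ?_⟩
    have hy0 : y ≠ 0 := by rintro rfl; norm_num at h
    have hyN : y ^ N ≠ 0 := pow_ne_zero _ hy0
    have e : !![y * y⁻¹ ^ (3 * N), y * D.W ![1, x ^ N] (y ^ N); 0, y ^ (8 * N + 1)]ᵀ *ᵥ
        s1 D N x y = y • ![lam π 1 ![1, x ^ N] (y⁻¹ ^ N), D.c 1 ![1, x ^ N] (y⁻¹ ^ N)] := by
      rw [s1, inv_pow y N, lam_glue _ _ hyN, D.glue _ _ hyN]
      ext i; fin_cases i <;> simp [mulVec, dotProduct, Fin.sum_univ_two] <;> ring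
    rw [e, dn_smul, mul_comm]
    exact mul_le_mul_of_nonneg_right (hC y h) (by positivity)
  · intro y
    obtain ⟨C, hC⟩ := grow hH (1, 0) (P := fun u => ![u, y]) (σ := fun _ => ![0, 1])
      (by fun_prop) continuous_const
    refine ⟨C, fun x h => (hx x y h _).trans ?_⟩
    have e : !![x ^ (5 * N + 1), 0; 0, x]ᵀ *ᵥ ![0, 1] = x • (![0, 1] : V2) := by
      ext i; fin_cases i <;> simp [mulVec, dotProduct, Fin.sum_univ_two]
    rw [e, dn_smul, mul_comm]
    exact mul_le_mul_of_nonneg_right (hC x h) (by positivity)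
  · intro x
    obtain ⟨C, hC⟩ := grow hH (0, 1) (P := fun u => ![x, u]) (σ := fun _ => ![0, 1])
      (by fun_prop) continuous_const
    refine ⟨C, fun y h => (hy x y h _).trans ?_⟩
    have e : !![y * y⁻¹ ^ (3 * N), y * D.W ![1, x ^ N] (y ^ N); 0, y ^ (8 * N + 1)]ᵀ *ᵥ ![0, 1] =
        y ^ (8 * N + 1) • (![0, 1] : V2) := by
      ext i; fin_cases i <;> simp [mulVec, dotProduct, Fin.sum_univ_two]
    rw [e, dn_smul, norm_pow, mul_comm]
    exact mul_le_mul_of_nonneg_right (hC y h) (by positivity)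

end Crest.Agent.H1.Gr
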