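import Mathlib

/-!
A weak Dvoretzky–Rogers lemma: every infinite-dimensional normed space contains, for each finite
index type, vectors whose combinations have norm between `‖a‖_∞ / 16` and `‖a‖_2`.
-/

set_option autoImplicit false
open Module
open scoped InnerProductSpace

namespace Crest.Agent.H1.LP

lemma le_of_sq_le_sq_aux {a b : ℝ} (hb : 0 ≤ b) (h : a ^ 2 ≤ b ^ 2) : a ≤ b :=
  (abs_le_of_sq_le_sq' h hb).2

section john
variable {E : Type*} [NormedAddCommGroup E] [InnerProductSpace ℝ E] [FiniteDimensional ℝ E]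
variable {B : Type*} [NormedAddCommGroup B] [NormedSpace ℝ B]

lemma john (ι : E →ₗ[ℝ] B) (hι : Function.Injective ι) (hn : 0 < finrank ℝ E) :
    ∃ T : E →ₗ[ℝ] B, (∀ a, ‖T a‖ ≤ ‖a‖) ∧
      ∀ W : Submodule ℝ E, finrank ℝ E ≤ 2 * finrank ℝ W →
        ∃ w ∈ W, ‖w‖ = 1 ∧ 1 / 8 ≤ ‖T w‖ := by
  obtain ⟨K, -, hK⟩ := ι.exists_antilipschitzWith (LinearMap.ker_eq_bot.2 hι)
  set 𝒜 : Set (E →L[ℝ] E) := {A | ∀ a, ‖ι (A a)‖ ≤ ‖a‖} with h𝒜
  have hιc : Continuous ι := ι.continuous_of_finiteDimensional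
  have hcl : IsClosed 𝒜 := by
    have : 𝒜 = ⋂ a, {A : E →L[ℝ] E | ‖ι (A a)‖ ≤ ‖a‖} := by
      ext A; simp [h𝒜]
    rw [this]
    refine isClosed_iInter fun a => isClosed_le ?_ continuous_const
    exact (hιc.comp (ContinuousLinearMap.apply ℝ E a).continuous).norm
  have hbd : Bornology.IsBounded 𝒜 := by
    refine (Metric.isBounded_closedBall (x := 0) (r := K)).subset fun A hA => ?_
    rw [mem_closedBall_zero_iff]
    refine A.opNorm_le_bound K.2 fun a => ?_
    have h1 := ZeroHomClass.bound_of_antilipschitz ι hK (A a)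
    exact h1.trans (mul_le_mul_of_nonneg_left (hA a) K.2)
  have hcomp : IsCompact 𝒜 := Metric.isCompact_of_isClosed_isBounded hcl hbd
  set C : ℝ := ‖LinearMap.toContinuousLinearMap ι‖ + 1 with hC
  have hCpos : 0 < C := by positivity
  have hA0 : (C⁻¹ • ContinuousLinearMap.id ℝ E) ∈ 𝒜 := by
    intro a
    simp only [smul_apply, ContinuousLinearMap.id_apply, map_smul, norm_smul,
      norm_inv, Real.norm_eq_abs, abs_of_pos hCpos]
    have h1 : ‖ι a‖ ≤ C * ‖a‖ := by
      have := (LinearMap.toContinuousLinearMap ι).le_opNorm a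
      simp only [LinearMap.coe_toContinuousLinearMap'] at this
      nlinarith [norm_nonneg a]
    rw [inv_mul_le_iff₀ hCpos]; exact h1
  obtain ⟨A, hA, hmax⟩ := hcomp.exists_isMaxOn ⟨_, hA0⟩
    (ContinuousLinearMap.continuous_det (𝕜 := ℝ) (E := E)).continuousOn
  have hpos : 0 < A.det := by
    have h1 := hmax hA0
    simp only [Set.mem_ofPred_eq] at h1
    refine lt_of_lt_of_le ?_ h1
    unfold ContinuousLinearMap.det
    have : ((C⁻¹ • ContinuousLinearMap.id ℝ E : E →L[ℝ] E) : E →ₗ[ℝ] E) = C⁻¹ • LinearMap.id := rfl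
    rw [this, LinearMap.det_smul, LinearMap.det_id]
    positivity
  refine ⟨ι ∘ₗ (A : E →ₗ[ℝ] E), fun a => hA a, fun W hW => ?_⟩
  by_contra hcon
  push Not at hcon
  have hsmall : ∀ w ∈ W, ‖ι (A w)‖ ≤ 1 / 8 * ‖w‖ := by
    intro w hw
    by_cases h0 : w = 0
    · simp [h0]
    have hw0 : 0 < ‖w‖ := norm_pos_iff.2 h0
    have h1 := hcon (‖w‖⁻¹ • w) (W.smul_mem _ hw) (by
      rw [norm_smul, norm_inv, norm_norm, inv_mul_cancel₀ hw0.ne'])
    simp only [map_smul, LinearMap.coe_comp, Function.comp_apply, ContinuousLinearMap.coe_coe,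
      norm_smul, norm_inv, norm_norm] at h1
    rw [inv_mul_lt_iff₀ hw0] at h1
    linarith
  have hc : IsCompl W Wᗮ := W.isCompl_orthogonal
  set e := Submodule.prodEquivOfIsCompl W Wᗮ hc with he
  set S : E →ₗ[ℝ] E := (e : (W × Wᗮ) →ₗ[ℝ] E) ∘ₗ
    (LinearMap.prodMap ((4 : ℝ) • LinearMap.id) ((1 / 2 : ℝ) • LinearMap.id)) ∘ₗ
      (e.symm : E →ₗ[ℝ] (W × Wᗮ)) with hS
  have hdet : LinearMap.det S = 4 ^ finrank ℝ W * (1 / 2) ^ finrank ℝ Wᗮ := by
    rw [hS, LinearMap.det_conj, LinearMap.det_prodMap, LinearMap.det_smul, LinearMap.det_smul]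
    simp
  have hdet1 : 1 < LinearMap.det S := by
    rw [hdet]
    have h1 := W.finrank_add_finrank_orthogonal
    have h2 : finrank ℝ Wᗮ < 2 * finrank ℝ W := by omega
    have h3 : (2 : ℝ) ^ finrank ℝ Wᗮ < 2 ^ (2 * finrank ℝ W) := pow_lt_pow_right₀ (by norm_num) h2
    rw [pow_mul] at h3
    norm_num at h3
    rw [one_div, inv_pow, ← div_eq_mul_inv, one_lt_div (by positivity)]
    exact h3
  have hAS : A ∘L LinearMap.toContinuousLinearMap S ∈ 𝒜 := by
    intro a
    obtain ⟨⟨w, w'⟩, rfl⟩ := e.surjective a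
    have h1 : S (e (w, w')) = (4 : ℝ) • (w : E) + (1 / 2 : ℝ) • (w' : E) := by
      simp only [hS, LinearMap.coe_comp, LinearEquiv.coe_coe, Function.comp_apply,
        LinearEquiv.symm_apply_apply]
      rfl
    have h2 : e (w, w') = (w : E) + w' := rfl
    have h3 : ‖(w : E) + w'‖ * ‖(w : E) + w'‖ = ‖(w : E)‖ * ‖(w : E)‖ + ‖(w' : E)‖ * ‖(w' : E)‖ :=
      norm_add_sq_eq_norm_sq_add_norm_sq_of_inner_eq_zero _ _
        (Submodule.inner_right_of_mem_orthogonal w.2 w'.2)
    have h4 : ‖(w : E)‖ ≤ ‖(w : E) + w'‖ := by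
      apply le_of_sq_le_sq_aux (norm_nonneg _)
      nlinarith [norm_nonneg (w' : E)]
    have h5 : ‖(w' : E)‖ ≤ ‖(w : E) + w'‖ := by
      apply le_of_sq_le_sq_aux (norm_nonneg _)
      nlinarith [norm_nonneg (w : E)]
    simp only [ContinuousLinearMap.comp_apply, LinearMap.coe_toContinuousLinearMap']
    rw [h1, h2, map_add, map_add, map_smul, map_smul, map_smul, map_smul]
    refine (norm_add_le _ _).trans ?_
    rw [norm_smul, norm_smul]
    have h6 := hsmall w w.2
    have h7 := hA (w' : E)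
    norm_num
    linarith
  have h1 := hmax hAS
  simp only [Set.mem_ofPred_eq] at h1
  have h2 : (A ∘L LinearMap.toContinuousLinearMap S).det = A.det * LinearMap.det S := by
    unfold ContinuousLinearMap.det
    rw [← LinearMap.det_comp]; rfl
  rw [h2] at h1
  nlinarith

lemma triangular (T : E →ₗ[ℝ] B) (hT : ∀ W : Submodule ℝ E, finrank ℝ E ≤ 2 * finrank ℝ W →
      ∃ w ∈ W, ‖w‖ = 1 ∧ 1 / 8 ≤ ‖T w‖) (N : ℕ) (hN : 4 * N ≤ finrank ℝ E) :
    ∃ u g : ℕ → E, (∀ i < N, ‖u i‖ = 1) ∧ (∀ i < N, ∀ j < i, ⟪u j, u i⟫_ℝ = 0) ∧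
      (∀ i < N, ∀ j < i, ⟪g j, u i⟫_ℝ = 0) ∧ (∀ i < N, 1 / 8 ≤ ⟪g i, u i⟫_ℝ) ∧
      (∀ i < N, ∀ a, |⟪g i, a⟫_ℝ| ≤ ‖T a‖) := by
  induction N with
  | zero => exact ⟨0, 0, by simp, by simp, by simp, by simp, by simp⟩
  | succ N ih =>
    obtain ⟨u, g, h1, h2, h3, h4, h5⟩ := ih (by omega)
    set v : Fin N ⊕ Fin N → E := Sum.elim (fun i => u i) (fun i => g i) with hv
    set V : Submodule ℝ E := Submodule.span ℝ (Set.range v) with hV
    have hVr : finrank ℝ V ≤ 2 * N := by
      have := finrank_range_le_card (R := ℝ) v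
      simp only [Fintype.card_sum, Fintype.card_fin] at this
      unfold Set.finrank at this
      rw [hV]; omega
    have hsum := V.finrank_add_finrank_orthogonal
    obtain ⟨w, hw, hw1, hw2⟩ := hT Vᗮ (by omega)
    obtain ⟨f, hf1, hf2⟩ := exists_dual_vector'' ℝ (T w)
    set g' : E := (InnerProductSpace.toDual ℝ E).symm
      (f ∘L LinearMap.toContinuousLinearMap T) with hg'
    have hg'a : ∀ a, ⟪g', a⟫_ℝ = f (T a) := fun a => by
      rw [hg', InnerProductSpace.toDual_symm_apply]; rfl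
    have hwu : ∀ j < N, ⟪u j, w⟫_ℝ = 0 := fun j hj =>
      Submodule.inner_right_of_mem_orthogonal
        (Submodule.subset_span (s := Set.range v) ⟨Sum.inl ⟨j, hj⟩, rfl⟩) hw
    have hwg : ∀ j < N, ⟪g j, w⟫_ℝ = 0 := fun j hj =>
      Submodule.inner_right_of_mem_orthogonal
        (Submodule.subset_span (s := Set.range v) ⟨Sum.inr ⟨j, hj⟩, rfl⟩) hw
    refine ⟨Function.update u N w, Function.update g N g', ?_, ?_, ?_, ?_, ?_⟩
    · intro i hi
      rcases Nat.lt_succ_iff_lt_or_eq.1 hi with h | rfl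
      · rw [Function.update_of_ne h.ne]; exact h1 i h
      · rw [Function.update_self]; exact hw1
    · intro i hi j hj
      rcases Nat.lt_succ_iff_lt_or_eq.1 hi with h | rfl
      · rw [Function.update_of_ne h.ne, Function.update_of_ne (by omega)]; exact h2 i h j hj
      · rw [Function.update_self, Function.update_of_ne hj.ne]; exact hwu j hj
    · intro i hi j hj
      rcases Nat.lt_succ_iff_lt_or_eq.1 hi with h | rfl
      · rw [Function.update_of_ne h.ne, Function.update_of_ne (by omega)]; exact h3 i h j hj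
      · rw [Function.update_self, Function.update_of_ne hj.ne]; exact hwg j hj
    · intro i hi
      rcases Nat.lt_succ_iff_lt_or_eq.1 hi with h | rfl
      · rw [Function.update_of_ne h.ne, Function.update_of_ne h.ne]; exact h4 i h
      · rw [Function.update_self, Function.update_self, hg'a, hf2]; exact hw2
    · intro i hi a
      rcases Nat.lt_succ_iff_lt_or_eq.1 hi with h | rfl
      · rw [Function.update_of_ne h.ne]; exact h5 i h a
      · rw [Function.update_self, hg'a]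
        have := f.le_opNorm (T a)
        rw [Real.norm_eq_abs] at this
        nlinarith [norm_nonneg (T a)]

end john

lemma select (bad : ℕ → ℕ → Prop) [DecidableRel bad] (b : ℕ) (M : ℕ) :
    ∀ I : Finset ℕ, (∀ j ∈ I, (I.filter fun i => bad j i).card ≤ b) → M * (b + 1) ≤ I.card →
      ∃ I' ⊆ I, I'.card = M ∧ ∀ j ∈ I', ∀ i ∈ I', i < j → ¬ bad j i := by
  induction M with
  | zero => intro I _ _; exact ⟨∅, by simp, rfl, by simp⟩
  | succ M ih =>
    intro I hI hc
    have hne : I.Nonempty := by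
      rw [← Finset.card_pos]; nlinarith
    set j := I.max' hne with hj
    have hjI : j ∈ I := I.max'_mem hne
    set I1 := (I.erase j).filter fun i => ¬ bad j i with hI1
    have hsub : I1 ⊆ I := (Finset.filter_subset _ _).trans (Finset.erase_subset _ _)
    have hcard : M * (b + 1) ≤ I1.card := by
      have h1 := Finset.card_filter_add_card_filter_not (s := I.erase j) (fun i => bad j i)
      have h2 : ((I.erase j).filter fun i => bad j i).card ≤ b :=
        (Finset.card_le_card (Finset.filter_subset_filter _ (Finset.erase_subset _ _))).trans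
          (hI j hjI)
      have h3 := Finset.card_erase_of_mem hjI
      rw [← hI1] at h1
      have h4 : (M + 1) * (b + 1) = M * (b + 1) + b + 1 := by ring
      omega
    obtain ⟨I', hI', hc', hgood⟩ := ih I1 (fun k hk =>
      (Finset.card_le_card (Finset.filter_subset_filter _ hsub)).trans (hI k (hsub hk))) hcard
    have hjn : j ∉ I' := fun h => by
      have := hI' h
      simp [hI1] at this
    refine ⟨insert j I', ?_, by rw [Finset.card_insert_of_notMem hjn, hc'], ?_⟩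
    · intro x hx
      rcases Finset.mem_insert.1 hx with rfl | h
      · exact hjI
      · exact hsub (hI' h)
    · intro k hk i hi hik
      rcases Finset.mem_insert.1 hk with rfl | hk'
      · rcases Finset.mem_insert.1 hi with h | hi'
        · omega
        · exact (Finset.mem_filter.1 (hI' hi')).2
      · rcases Finset.mem_insert.1 hi with h | hi'
        · have := I.le_max' k (hsub (hI' hk'))
          omega
        · exact hgood k hk' i hi' hik

lemma DR_aux {E : Type*} [NormedAddCommGroup E] [InnerProductSpace ℝ E]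
    {B : Type*} [NormedAddCommGroup B] [NormedSpace ℝ B] (T : E →ₗ[ℝ] B) (hT1 : ∀ a, ‖T a‖ ≤ ‖a‖)
    (ι : Type*) [Fintype ι] (M b N : ℕ) (hM : M = Fintype.card ι) (hMpos : 0 < M)
    (hb : b = 256 * M ^ 2) (hN : N = M * (b + 1)) (u g : ℕ → E) (h1 : ∀ i < N, ‖u i‖ = 1)
    (h2 : ∀ i < N, ∀ j < i, ⟪u j, u i⟫_ℝ = 0)
    (h3 : ∀ i < N, ∀ j < i, ⟪g j, u i⟫_ℝ = 0) (h4 : ∀ i < N, 1 / 8 ≤ ⟪g i, u i⟫_ℝ)
    (h5 : ∀ i < N, ∀ a, |⟪g i, a⟫_ℝ| ≤ ‖T a‖) :
    ∃ T : EuclideanSpace ℝ ι →ₗ[ℝ] B, (∀ a, ‖T a‖ ≤ ‖a‖) ∧ ∀ a i, |a i| ≤ 16 * ‖T a‖ := by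
  classical
  have hon : Orthonormal ℝ (fun i : Fin N => u i) := by
    refine ⟨fun i => h1 i i.2, fun i j hij => ?_⟩
    rcases lt_or_gt_of_ne (Fin.val_ne_of_ne hij) with h | h
    · exact h2 j j.2 i h
    · rw [real_inner_comm]; exact h2 i i.2 j h
  have hg : ∀ j < N, ‖g j‖ ≤ 1 := by
    intro j hj
    have := (h5 j hj (g j)).trans (hT1 _)
    rw [real_inner_self_eq_norm_sq, abs_of_nonneg (by positivity)] at this
    nlinarith [norm_nonneg (g j)]
  have hMr : (0 : ℝ) < M := by exact_mod_cast hMpos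
  obtain ⟨I, hI, hIc, hgood⟩ := select (fun j i => 1 / (16 * (M : ℝ)) < |⟪g j, u i⟫_ℝ|) b M
    (Finset.range N) (by
      intro j hj
      have hj' := Finset.mem_range.1 hj
      set s : Finset (Fin N) := Finset.univ.filter fun i => 1 / (16 * (M : ℝ)) < |⟪g j, u i⟫_ℝ|
      have hs := hon.sum_inner_products_le (g j) (s := s)
      have hs2 : (s.card : ℝ) * (1 / (16 * (M : ℝ))) ^ 2 ≤ 1 := by
        have : ∑ _i ∈ s, (1 / (16 * (M : ℝ))) ^ 2 ≤ ∑ i ∈ s, ‖⟪u i, g j⟫_ℝ‖ ^ 2 := by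
          refine Finset.sum_le_sum fun i hi => ?_
          have := (Finset.mem_filter.1 hi).2
          rw [real_inner_comm, Real.norm_eq_abs]
          exact pow_le_pow_left₀ (by positivity) this.le 2
        rw [Finset.sum_const, nsmul_eq_mul] at this
        have h6 := hg j hj'
        nlinarith [norm_nonneg (g j)]
      have hs3 : (s.card : ℝ) ≤ b := by
        rw [hb]; push_cast
        rw [div_pow, one_pow, mul_one_div, div_le_one (by positivity)] at hs2
        linarith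
      have hs4 : ((Finset.range N).filter fun i => 1 / (16 * (M : ℝ)) < |⟪g j, u i⟫_ℝ|).card
          ≤ s.card := by
        rw [← Finset.card_map Fin.valEmbedding]
        refine Finset.card_le_card fun i hi => ?_
        rw [Finset.mem_filter, Finset.mem_range] at hi
        exact Finset.mem_map.2 ⟨⟨i, hi.1⟩, Finset.mem_filter.2 ⟨Finset.mem_univ _, hi.2⟩, rfl⟩
      exact hs4.trans (by exact_mod_cast hs3)) (by simp [hN])
  obtain ⟨e⟩ : Nonempty (ι ≃ I) := Fintype.card_eq.1 (by simp [hIc, hM])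
  have heN : ∀ o, (e o : ℕ) < N := fun o => Finset.mem_range.1 (hI (e o).2)
  have heinj : ∀ o o', (e o : ℕ) = e o' → o = o' := fun o o' h => e.injective (Subtype.ext h)
  set S : EuclideanSpace ℝ ι →ₗ[ℝ] E :=
    (EuclideanSpace.basisFun ι ℝ).toBasis.constr ℝ (fun o => u (e o)) with hS
  have hSa : ∀ a, S a = ∑ o, a o • u (e o) := by
    intro a
    rw [hS, Basis.constr_apply_fintype]
    simp
  have hon' : Orthonormal ℝ (S ∘ (EuclideanSpace.basisFun ι ℝ).toBasis) := by
    have : S ∘ (EuclideanSpace.basisFun ι ℝ).toBasis =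
        (fun i : Fin N => u i) ∘ (fun o => ⟨e o, heN o⟩) := by
      funext o
      simp only [Function.comp_apply, hS, Basis.constr_basis]
    rw [this]
    exact hon.comp _ fun o o' h => heinj o o' (by simpa using h)
  have hSn : ∀ a, ‖S a‖ = ‖a‖ := fun a =>
    (S.isometryOfOrthonormal (v := (EuclideanSpace.basisFun ι ℝ).toBasis)
      (by rw [OrthonormalBasis.coe_toBasis]; exact (EuclideanSpace.basisFun ι ℝ).orthonormal)
      hon').norm_map a
  refine ⟨T ∘ₗ S, fun a => (hT1 _).trans (hSn a).le, fun a i => ?_⟩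
  obtain ⟨j, -, hj⟩ := Finset.exists_max_image Finset.univ (fun o => |a o|) ⟨i, Finset.mem_univ _⟩
  refine (hj i (Finset.mem_univ _)).trans ?_
  have h6 := h5 (e j) (heN j) (S a)
  have h7 : ⟪g (e j), S a⟫_ℝ = a j * ⟪g (e j), u (e j)⟫_ℝ +
      ∑ o ∈ Finset.univ.erase j, a o * ⟪g (e j), u (e o)⟫_ℝ := by
    rw [hSa, inner_sum, ← Finset.add_sum_erase _ _ (Finset.mem_univ j)]
    simp only [real_inner_smul_right]
  have h8 : |∑ o ∈ Finset.univ.erase j, a o * ⟪g (e j), u (e o)⟫_ℝ| ≤ |a j| / 16 := by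
    refine (Finset.abs_sum_le_sum_abs _ _).trans ?_
    have : ∀ o ∈ Finset.univ.erase j, |a o * ⟪g (e j), u (e o)⟫_ℝ| ≤ |a j| * (1 / (16 * (M : ℝ))) := by
      intro o ho
      rw [abs_mul]
      refine mul_le_mul (hj o (Finset.mem_univ _)) ?_ (abs_nonneg _) (abs_nonneg _)
      have hne : (e o : ℕ) ≠ e j := fun h => (Finset.mem_erase.1 ho).1 (heinj _ _ h)
      rcases lt_or_gt_of_ne hne with h | h
      · exact not_lt.1 (hgood _ (e j).2 _ (e o).2 h)
      · rw [h3 _ (heN o) _ h]; simp only [abs_zero]; positivity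
    refine (Finset.sum_le_sum this).trans ?_
    rw [Finset.sum_const, nsmul_eq_mul]
    have hc : ((Finset.univ.erase j).card : ℝ) ≤ M := by
      rw [hM]; exact_mod_cast (Finset.card_le_univ _)
    calc _ ≤ (M : ℝ) * (|a j| * (1 / (16 * (M : ℝ)))) :=
          mul_le_mul_of_nonneg_right hc (by positivity)
      _ = |a j| / 16 := by field_simp
  have h9 := h4 _ (heN j)
  rw [h7] at h6
  change |a j| ≤ 16 * ‖T (S a)‖
  generalize ⟪g (e j), u (e j)⟫_ℝ = x at h6 h9
  generalize ∑ o ∈ Finset.univ.erase j, a o * ⟪g (e j), u (e o)⟫_ℝ = y at h6 h8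
  generalize a j = z at h6 h8 ⊢
  generalize ‖T (S a)‖ = w at h6 ⊢
  have h10 : |z| / 8 ≤ |z * x| := by
    rw [abs_mul, abs_of_nonneg (by linarith : (0 : ℝ) ≤ x)]
    nlinarith [abs_nonneg z]
  have h11 : |z * x| ≤ |z * x + y| + |y| := by
    have := abs_sub (z * x + y) y
    rwa [add_sub_cancel_right] at this
  linarith

theorem exists_DR (B : Type*) [NormedAddCommGroup B] [NormedSpace ℝ B]
    (hB : ¬ FiniteDimensional ℝ B) (ι : Type*) [Fintype ι] :
    ∃ T : EuclideanSpace ℝ ι →ₗ[ℝ] B, (∀ a, ‖T a‖ ≤ ‖a‖) ∧ ∀ a i, |a i| ≤ 16 * ‖T a‖ := by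
  classical
  obtain ⟨M, hM⟩ : ∃ M, M = Fintype.card ι := ⟨_, rfl⟩
  rcases Nat.eq_zero_or_pos M with h0 | hMpos
  · have : IsEmpty ι := Fintype.card_eq_zero_iff.1 (hM ▸ h0)
    exact ⟨0, by simp, fun a i => this.elim i⟩
  obtain ⟨b, hb⟩ : ∃ b, b = 256 * M ^ 2 := ⟨_, rfl⟩
  obtain ⟨N, hN⟩ : ∃ N, N = M * (b + 1) := ⟨_, rfl⟩
  obtain ⟨n, hn⟩ : ∃ n, n = 4 * N := ⟨_, rfl⟩
  have hnpos : 0 < n := by rw [hn, hN]; positivity
  obtain ⟨v, hv⟩ : ∃ f : Fin n → B, LinearIndependent ℝ f := by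
    apply exists_linearIndependent_of_le_rank
    rw [FiniteDimensional, ← Module.rank_lt_aleph0_iff, not_lt] at hB
    exact (Cardinal.natCast_lt_aleph0).le.trans hB
  have hinj : Function.Injective ((EuclideanSpace.basisFun (Fin n) ℝ).toBasis.constr ℝ v) :=
    (EuclideanSpace.basisFun (Fin n) ℝ).toBasis.injective_constr_of_linearIndependent hv
  have hfr : finrank ℝ (EuclideanSpace ℝ (Fin n)) = n := finrank_euclideanSpace_fin
  obtain ⟨T, hT1, hT2⟩ := john _ hinj (by rw [hfr]; exact hnpos)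
  obtain ⟨u, g, h1, h2, h3, h4, h5⟩ := triangular T hT2 N (by rw [hfr, hn])
  exact DR_aux T hT1 ι M b N hM hMpos hb hN u g h1 h2 h3 h4 h5

end Crest.Agent.H1.LP
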