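import Mathlib

/-!
The outer recursion for the Lang–Plaut example: a thin "gadget" is substituted into each of its own
edges, in fresh orthogonal coordinates.  Covering property and forcing.
-/

set_option autoImplicit false
set_option linter.unusedSectionVars false
open scoped InnerProductSpace

namespace Crest.Agent.H1.LP

abbrev Col := ZMod 2050 × ZMod 2050 × Bool

def Cov {ι : Type} [Fintype ι] (X : Set (EuclideanSpace ℝ ι)) : Prop :=
  ∀ r : ℝ, 0 < r → ∀ S ⊆ X, (∀ p ∈ S, ∀ q ∈ S, ∀ o, |p o - q o| ≤ 64 * r) →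
    ∃ col : EuclideanSpace ℝ ι → Col, ∀ p ∈ S, ∀ q ∈ S, col p = col q → ‖p - q‖ ≤ r

def Concl (Y : Type) [NormedAddCommGroup Y] (K : ℕ) (D : ℝ) : Prop :=
  ∃ δ : ℝ, 0 < δ ∧ ∃ z : ℕ → Y, ∀ k < K, ∀ l < K, k ≠ l →
    δ ≤ ‖z k - z l‖ ∧ ‖z k - z l‖ ≤ 8 * D ^ 2 * δ

/-- interpolation along step `i` -/
def itp {V : Type} [AddCommGroup V] [Module ℝ V] (a : ℕ → V) (i : ℕ) (l : ℝ) : V :=
  a i + l • (a (i + 1) - a i)

structure Gad (κ T : Type) [Fintype κ] where
  n : ℕ
  s : ℕ → ℝ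
  ζ : T → ℕ → EuclideanSpace ℝ κ
  ρ : ℝ
  μ : ℝ
  c : ℝ
  npos : 0 < n
  s0 : s 0 = 0
  sn : s n = 1
  slt : ∀ i < n, s i < s (i + 1)
  sle : ∀ i < n, s (i + 1) - s i ≤ 2 / 3
  ζ0 : ∀ t, ζ t 0 = 0
  ζn : ∀ t, ζ t n = 0
  ρpos : 0 ≤ ρ
  cpos : 0 < c
  ρbd : ∀ i ≤ n, ∀ t, ‖ζ t i‖ ≤ ρ
  mid : ∀ i < n, (∀ t, ζ t i = 0 ∧ ζ t (i + 1) = 0) ∨
    (1 / 3 ≤ s i ∧ s (i + 1) ≤ 2 / 3 ∧ s (i + 1) - s i ≤ μ)
  nocross : ∀ i < n, ∀ t t', (ζ t i = ζ t' i ∧ ζ t (i + 1) = ζ t' (i + 1)) ∨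
    ∃ k, ∀ l, 0 ≤ l → l ≤ 1 → c * min l (1 - l) ≤ |itp (ζ t) i l k - itp (ζ t') i l k|
  slope : ∀ i < n, ∀ t, ‖ζ t (i + 1) - ζ t i‖ ≤ s (i + 1) - s i
  skel : ∀ r : ℝ, 0 < r → ∃ col : ℕ → T → ℝ → Col, ∀ i < n, ∀ i' < n, ∀ t t' l l',
    0 ≤ l → l ≤ 1 → 0 ≤ l' → l' ≤ 1 → |itp s i l - itp s i' l'| ≤ 64 * r →
    (∀ k, |itp (ζ t) i l k - itp (ζ t') i' l' k| ≤ 64 * r) → col i t l = col i' t' l' →
    |itp s i l - itp s i' l'| ≤ r / 8 ∧ ‖itp (ζ t) i l - itp (ζ t') i' l'‖ ≤ r / 4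
  small1 : 9 * ρ * 64 ≤ 1 / 4
  small2 : 9 * ρ * μ * 128 ≤ c / 4

variable {κ T : Type} [Fintype κ]

def Gad.Force (g : Gad κ T) (C η D : ℝ) (Y : Type) [NormedAddCommGroup Y] (K : ℕ) : Prop :=
  ∀ (f : T → ℕ → Y) (A sl : Y), (∀ t, f t 0 = A) → (∀ t, f t g.n = A + sl) →
    (∀ i < g.n, ∀ t, ‖f t (i + 1) - f t i‖ ^ 2 ≤
      (‖sl‖ ^ 2 + η) * (g.s (i + 1) - g.s i) ^ 2 + C * ‖g.ζ t (i + 1) - g.ζ t i‖ ^ 2) →
    (∀ i ≤ g.n, ∀ t t', ‖f t i - f t' i‖ ≤ D * ‖g.ζ t i - g.ζ t' i‖) →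
    (∀ i ≤ g.n, ∀ t t' k, |g.ζ t i k - g.ζ t' i k| ≤ D * ‖f t i - f t' i‖) → Concl Y K D

abbrev Amb (N : ℕ) (κ : Type) := EuclideanSpace ℝ (Option (Fin N × κ))

noncomputable def J (N j : ℕ) : EuclideanSpace ℝ κ →ₗ[ℝ] Amb N κ where
  toFun z := WithLp.toLp 2 fun o => o.elim 0 fun x => if (x.1 : ℕ) = j then z x.2 else 0
  map_add' z z' := by
    ext o
    rcases o with _ | ⟨i, k⟩
    · simp
    · simp only [Option.elim_some, PiLp.add_apply]
      split_ifs <;> simp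
  map_smul' a z := by
    ext o
    rcases o with _ | ⟨i, k⟩
    · simp
    · simp only [Option.elim_some, PiLp.smul_apply]
      split_ifs <;> simp

@[simp] lemma J_none (N j : ℕ) (z : EuclideanSpace ℝ κ) : J N j z none = 0 := rfl
lemma J_some (N j : ℕ) (z : EuclideanSpace ℝ κ) (i : Fin N) (k : κ) :
    J N j z (some (i, k)) = if (i : ℕ) = j then z k else 0 := rfl

lemma norm_J_le (N j : ℕ) (z : EuclideanSpace ℝ κ) : ‖J N j z‖ ≤ ‖z‖ := by
  have h : ‖J N j z‖ ^ 2 ≤ ‖z‖ ^ 2 := by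
    rw [EuclideanSpace.real_norm_sq_eq, Fintype.sum_option, Fintype.sum_prod_type]
    simp only [J_none, J_some]
    have : ∀ i : Fin N, ∑ k, (if (i : ℕ) = j then z k else 0) ^ 2 =
        if (i : ℕ) = j then ‖z‖ ^ 2 else 0 := by
      intro i
      split_ifs
      · rw [EuclideanSpace.real_norm_sq_eq]
      · simp
    simp only [this]
    rw [← Finset.sum_filter, Finset.sum_const, nsmul_eq_mul]
    have hc : ((Finset.univ.filter fun i : Fin N => (i : ℕ) = j).card : ℝ) ≤ 1 := by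
      have : (Finset.univ.filter fun i : Fin N => (i : ℕ) = j).card ≤ 1 := by
        rw [Finset.card_le_one]
        intro a ha b hb
        simp only [Finset.mem_filter, Finset.mem_univ, true_and] at ha hb
        exact Fin.ext (ha.trans hb.symm)
      exact_mod_cast this
    nlinarith [sq_nonneg ‖z‖]
  exact (abs_le_of_sq_le_sq' h (norm_nonneg _)).2

def Fresh {N : ℕ} (j : ℕ) (v : Amb N κ) : Prop :=
  ∀ i : Fin N, (i : ℕ) < j → ∀ k, v (some (i, k)) = 0

def Below {N : ℕ} (j : ℕ) (v : Amb N κ) : Prop :=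
  v none = 0 ∧ ∀ i : Fin N, j ≤ (i : ℕ) → ∀ k, v (some (i, k)) = 0

lemma inner_J {N j : ℕ} {v : Amb N κ} (hv : Fresh (j + 1) v) (z : EuclideanSpace ℝ κ) :
    ⟪v, J N j z⟫_ℝ = 0 := by
  rw [PiLp.inner_apply]
  refine Finset.sum_eq_zero fun o _ => ?_
  rcases o with _ | ⟨i, k⟩
  · simp
  · rw [J_some]
    split_ifs with h
    · rw [hv i (by omega) k]; simp
    · simp

namespace Gad
variable (g : Gad κ T) {N : ℕ}

noncomputable def V (j : ℕ) (P Q : Amb N κ) (t : T) (i : ℕ) : Amb N κ :=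
  P + g.s i • (Q - P) + (Q none - P none) • J N j (g.ζ t i)

open Classical in
noncomputable def X : ℕ → Amb N κ → Amb N κ → Set (Amb N κ)
  | 0, P, Q => {P, Q}
  | j + 1, P, Q => if ‖Q - P‖ ^ 2 ≤ 2 * (Q none - P none) ^ 2 then
      ⋃ i ∈ Finset.range g.n, ⋃ t : T, X j (g.V j P Q t i) (g.V j P Q t (i + 1)) else {P, Q}

lemma V_none (j : ℕ) (P Q : Amb N κ) (t : T) (i : ℕ) :
    g.V j P Q t i none = P none + g.s i * (Q none - P none) := by
  simp [V]

lemma V_len (j : ℕ) (P Q : Amb N κ) (t : T) (i : ℕ) :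
    g.V j P Q t (i + 1) none - g.V j P Q t i none = (g.s (i + 1) - g.s i) * (Q none - P none) := by
  rw [V_none, V_none]; ring

lemma V_zero (j : ℕ) (P Q : Amb N κ) (t : T) : g.V j P Q t 0 = P := by
  simp [V, g.s0, g.ζ0]

lemma V_n (j : ℕ) (P Q : Amb N κ) (t : T) : g.V j P Q t g.n = Q := by
  simp [V, g.sn, g.ζn]

lemma V_fresh {j : ℕ} {P Q : Amb N κ} (hP : Fresh (j + 1) P) (hQ : Fresh (j + 1) Q) (t : T)
    (i : ℕ) : Fresh j (g.V j P Q t i) := by
  intro a ha k
  simp [V, J_some, hP a (by omega) k, hQ a (by omega) k, ha.ne]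

lemma V_itp (j : ℕ) (P Q : Amb N κ) (t : T) (i : ℕ) (l : ℝ) :
    g.V j P Q t i + l • (g.V j P Q t (i + 1) - g.V j P Q t i) =
      P + itp g.s i l • (Q - P) + (Q none - P none) • J N j (itp (g.ζ t) i l) := by
  simp only [V, itp, map_add, map_smul, map_sub, smul_eq_mul]
  module

lemma s_mono {i i' : ℕ} (h : i ≤ i') (hi' : i' ≤ g.n) : g.s i ≤ g.s i' := by
  induction i', h using Nat.le_induction with
  | base => exact le_rfl
  | succ k hk ih => exact (ih (by omega)).trans (g.slt k (by omega)).le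

lemma s_nonneg {i : ℕ} (hi : i ≤ g.n) : 0 ≤ g.s i := g.s0 ▸ g.s_mono (Nat.zero_le i) hi
lemma s_le_one {i : ℕ} (hi : i ≤ g.n) : g.s i ≤ 1 := g.sn ▸ g.s_mono hi le_rfl

lemma X_finite [Finite T] (j : ℕ) (P Q : Amb N κ) : (g.X j P Q).Finite := by
  induction j generalizing P Q with
  | zero => rw [X]; exact Set.toFinite _
  | succ j ih =>
    rw [X]
    split_ifs
    · exact (Finset.range g.n).finite_toSet.biUnion fun i _ => Set.finite_iUnion fun t => ih _ _
    · exact Set.toFinite _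

lemma child_sub {j : ℕ} {P Q : Amb N κ} (h : ‖Q - P‖ ^ 2 ≤ 2 * (Q none - P none) ^ 2) (t : T)
    {i : ℕ} (hi : i < g.n) :
    g.X j (g.V j P Q t i) (g.V j P Q t (i + 1)) ⊆ g.X (j + 1) P Q := by
  intro p hp
  rw [X, if_pos h]
  simp only [Set.mem_iUnion]
  exact ⟨i, Finset.mem_range.2 hi, t, hp⟩

lemma ends_mem [Nonempty T] (j : ℕ) (P Q : Amb N κ) : P ∈ g.X j P Q ∧ Q ∈ g.X j P Q := by
  induction j generalizing P Q with
  | zero => simp [X]
  | succ j ih =>
    by_cases h : ‖Q - P‖ ^ 2 ≤ 2 * (Q none - P none) ^ 2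
    · obtain ⟨t⟩ := ‹Nonempty T›
      constructor
      · apply g.child_sub h t g.npos
        have := (ih (g.V j P Q t 0) (g.V j P Q t (0 + 1))).1
        rwa [V_zero] at this ⊢
      · have hn := g.npos
        apply g.child_sub h t (i := g.n - 1) (by omega)
        have := (ih (g.V j P Q t (g.n - 1)) (g.V j P Q t (g.n - 1 + 1))).2
        rw [show g.n - 1 + 1 = g.n by omega] at this ⊢
        rwa [V_n] at this ⊢
    · rw [X, if_neg h]; simp

lemma itp_norm {i : ℕ} (hi : i < g.n) (t : T) {l : ℝ} (h0 : 0 ≤ l) (h1 : l ≤ 1) :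
    ‖itp (g.ζ t) i l‖ ≤ g.ρ := by
  have : itp (g.ζ t) i l = (1 - l) • g.ζ t i + l • g.ζ t (i + 1) := by
    simp only [itp]; module
  rw [this]
  refine (norm_add_le _ _).trans ?_
  rw [norm_smul, norm_smul, Real.norm_eq_abs, Real.norm_eq_abs, abs_of_nonneg h0,
    abs_of_nonneg (by linarith)]
  have h2 := g.ρbd i hi.le t
  have h3 := g.ρbd (i + 1) hi t
  nlinarith

lemma hair (j : ℕ) (P Q : Amb N κ) (hL : 0 < Q none - P none) (p : Amb N κ) (hp : p ∈ g.X j P Q) :
    ∃ l : ℝ, 0 ≤ l ∧ l ≤ 1 ∧ ∃ φ : Amb N κ, p = P + l • (Q - P) + φ ∧ Below j φ ∧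
      ‖φ‖ ≤ 3 * g.ρ * (Q none - P none) ∧
      ‖φ‖ ≤ 9 * g.ρ * (Q none - P none) * min l (1 - l) := by
  have hρ := g.ρpos
  have base : ∀ (j : ℕ) (P Q : Amb N κ), 0 < Q none - P none → ∀ p ∈ ({P, Q} : Set (Amb N κ)),
      ∃ l : ℝ, 0 ≤ l ∧ l ≤ 1 ∧ ∃ φ : Amb N κ, p = P + l • (Q - P) + φ ∧ Below j φ ∧
      ‖φ‖ ≤ 3 * g.ρ * (Q none - P none) ∧
      ‖φ‖ ≤ 9 * g.ρ * (Q none - P none) * min l (1 - l) := by
    intro j P Q hL p hp
    rcases hp with rfl | rfl
    · exact ⟨0, le_rfl, zero_le_one, 0, by simp, ⟨rfl, fun _ _ _ => rfl⟩, by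
        rw [norm_zero]; positivity, by simp⟩
    · exact ⟨1, zero_le_one, le_rfl, 0, by simp, ⟨rfl, fun _ _ _ => rfl⟩, by
        rw [norm_zero]; positivity, by simp⟩
  induction j generalizing P Q with
  | zero => exact base 0 P Q hL p hp
  | succ j ih =>
    rw [X] at hp
    split_ifs at hp with h
    swap
    · exact base _ P Q hL p hp
    simp only [Set.mem_iUnion, Finset.mem_range] at hp
    obtain ⟨i, hi, t, hp⟩ := hp
    have hs := g.slt i hi
    have hs' := g.sle i hi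
    have hs0 := g.s_nonneg hi.le
    have hs1 := g.s_le_one (i := i + 1) hi
    obtain ⟨l, h0, h1, φ, hpe, hb, hφ1, hφ2⟩ := ih _ _ (by
      rw [V_len]; exact mul_pos (by linarith) hL) hp
    rw [V_len] at hφ1 hφ2
    rw [V_itp] at hpe
    set L := Q none - P none with hLdef
    have hl0 : 0 ≤ itp g.s i l := by simp only [itp, smul_eq_mul]; nlinarith
    have hl1 : itp g.s i l ≤ 1 := by simp only [itp, smul_eq_mul]; nlinarith
    have hA : ‖L • J N j (itp (g.ζ t) i l) + φ‖ ≤ 3 * g.ρ * L := by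
      refine (norm_add_le _ _).trans ?_
      rw [norm_smul, Real.norm_eq_abs, abs_of_pos hL]
      have h2 := (norm_J_le N j _).trans (g.itp_norm hi t h0 h1)
      have h3 : L * ‖J N j (itp (g.ζ t) i l)‖ ≤ L * g.ρ := mul_le_mul_of_nonneg_left h2 hL.le
      have h4 : 3 * g.ρ * ((g.s (i + 1) - g.s i) * L) ≤ 3 * g.ρ * (2 / 3 * L) := by gcongr
      linarith
    refine ⟨itp g.s i l, hl0, hl1, L • J N j (itp (g.ζ t) i l) + φ, by rw [hpe, add_assoc],
      ⟨by simp [hb.1], fun a ha k => ?_⟩, hA, ?_⟩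
    · simp [J_some, hb.2 a (by omega) k, show (a : ℕ) ≠ j by omega]
    · rcases g.mid i hi with hm | ⟨hm1, hm2, -⟩
      · have : itp (g.ζ t) i l = 0 := by simp [itp, (hm t).1, (hm t).2]
        rw [this, map_zero, smul_zero, zero_add]
        refine hφ2.trans ?_
        have h5 : (g.s (i + 1) - g.s i) * min l (1 - l) ≤ min (itp g.s i l) (1 - itp g.s i l) := by
          simp only [itp, smul_eq_mul]
          refine le_min ?_ ?_
          · have := min_le_left l (1 - l); nlinarith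
          · have := min_le_right l (1 - l); nlinarith
        calc _ = 9 * g.ρ * L * ((g.s (i + 1) - g.s i) * min l (1 - l)) := by ring
          _ ≤ _ := by gcongr
      · refine hA.trans ?_
        have h5 : 1 / 3 ≤ min (itp g.s i l) (1 - itp g.s i l) := by
          simp only [itp, smul_eq_mul]
          refine le_min ?_ ?_ <;> nlinarith
        calc _ = 9 * g.ρ * L * (1 / 3) := by ring
          _ ≤ _ := by gcongr

lemma cov_pair {ι : Type} [Fintype ι] (P Q : EuclideanSpace ℝ ι) : Cov {P, Q} := by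
  classical
  intro r hr S hS _
  refine ⟨fun p => if p = P then (0, 0, true) else (0, 0, false), fun p hp q hq h => ?_⟩
  have : p = q := by
    by_cases h1 : p = P <;> by_cases h2 : q = P
    · rw [h1, h2]
    · simp [h1, h2] at h
    · simp [h1, h2] at h
    · have h3 := hS hp
      have h4 := hS hq
      simp only [Set.mem_insert_iff, h1, h2, false_or, Set.mem_singleton_iff] at h3 h4
      rw [h3, h4]
  rw [this, sub_self, norm_zero]; exact hr.le

lemma cov [Nonempty T] (j : ℕ) (hj : j ≤ N) (P Q : Amb N κ) (hP : Fresh j P) (hQ : Fresh j Q)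
    (hL : 0 < Q none - P none) : Cov (g.X j P Q) := by
  classical
  have hρ := g.ρpos
  induction j generalizing P Q with
  | zero => exact cov_pair P Q
  | succ j ih =>
    rw [X]
    split_ifs with h
    swap
    · exact cov_pair P Q
    intro r hr S hS hd
    have hlen : ∀ t, ∀ i < g.n, 0 < g.V j P Q t (i + 1) none - g.V j P Q t i none := by
      intro t i hi
      rw [V_len]; exact mul_pos (by linarith [g.slt i hi]) hL
    by_cases hone : ∃ i < g.n, ∃ t, S ⊆ g.X j (g.V j P Q t i) (g.V j P Q t (i + 1))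
    · obtain ⟨i, hi, t, hsub⟩ := hone
      exact ih (by omega) _ _ (g.V_fresh hP hQ t i) (g.V_fresh hP hQ t (i + 1)) (hlen t i hi)
        r hr S hsub hd
    push Not at hone
    set L := Q none - P none with hLdef
    have hrep : ∀ p ∈ S, ∃ i < g.n, ∃ t, ∃ l : ℝ, ∃ φ : Amb N κ,
        p ∈ g.X j (g.V j P Q t i) (g.V j P Q t (i + 1)) ∧ 0 ≤ l ∧ l ≤ 1 ∧
        p = P + itp g.s i l • (Q - P) + L • J N j (itp (g.ζ t) i l) + φ ∧ Below j φ ∧
        ‖φ‖ ≤ 9 * g.ρ * ((g.s (i + 1) - g.s i) * L) * min l (1 - l) := by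
      intro p hp
      have := hS hp
      simp only [Set.mem_iUnion, Finset.mem_range] at this
      obtain ⟨i, hi, t, hp'⟩ := this
      obtain ⟨l, h0, h1, φ, hpe, hb, -, hφ2⟩ := g.hair j _ _ (hlen t i hi) p hp'
      rw [V_len] at hφ2
      rw [V_itp] at hpe
      exact ⟨i, hi, t, l, φ, hp', h0, h1, hpe, hb, hφ2⟩
    choose! I hI τ lam φ hmem h0 h1 hpe hb hφ using hrep
    have hx : ∀ p ∈ S, p none = P none + itp g.s (I p) (lam p) * L := by
      intro p hp
      have := congrArg (fun v : Amb N κ => v none) (hpe p hp)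
      simpa [(hb p hp).1] using this
    have hz : ∀ p ∈ S, ∀ k, p (some (⟨j, hj⟩, k)) = L * itp (g.ζ (τ p)) (I p) (lam p) k := by
      intro p hp k
      have := congrArg (fun v : Amb N κ => v (some (⟨j, hj⟩, k))) (hpe p hp)
      simpa [(hb p hp).2 ⟨j, hj⟩ le_rfl k, J_some, hP ⟨j, hj⟩ (by simp) k,
        hQ ⟨j, hj⟩ (by simp) k] using this
    have hdx : ∀ p ∈ S, ∀ q ∈ S,
        |itp g.s (I p) (lam p) - itp g.s (I q) (lam q)| ≤ 64 * (r / L) := by
      intro p hp q hq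
      have := hd p hp q hq none
      rw [hx p hp, hx q hq, show P none + itp g.s (I p) (lam p) * L -
        (P none + itp g.s (I q) (lam q) * L) =
        (itp g.s (I p) (lam p) - itp g.s (I q) (lam q)) * L by ring, abs_mul, abs_of_pos hL] at this
      rw [← mul_div_assoc, le_div_iff₀ hL]; exact this
    have hdz : ∀ p ∈ S, ∀ q ∈ S, ∀ k,
        |itp (g.ζ (τ p)) (I p) (lam p) k - itp (g.ζ (τ q)) (I q) (lam q) k| ≤ 64 * (r / L) := by
      intro p hp q hq k
      have := hd p hp q hq (some (⟨j, hj⟩, k))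
      rw [hz p hp, hz q hq, ← mul_sub, abs_mul, abs_of_pos hL] at this
      rw [← mul_div_assoc, le_div_iff₀ hL]; linarith
    have hsmall : ∀ p ∈ S, ‖φ p‖ ≤ r / 4 := by
      intro p hp
      obtain ⟨q, hq, hqn⟩ := Set.not_subset.1 (hone (I p) (hI p hp) (τ p))
      have hs := g.slt _ (hI p hp)
      have hsq := g.slt _ (hI q hq)
      have hdx' := hdx p hp q hq
      have hfin : (g.s (I p + 1) - g.s (I p)) * min (lam p) (1 - lam p) ≤ 64 * (r / L) →
          ‖φ p‖ ≤ r / 4 := by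
        intro hh
        refine (hφ p hp).trans ?_
        calc _ = 9 * g.ρ * L * ((g.s (I p + 1) - g.s (I p)) * min (lam p) (1 - lam p)) := by ring
          _ ≤ 9 * g.ρ * L * (64 * (r / L)) := by gcongr
          _ = 9 * g.ρ * 64 * r := by field_simp
          _ ≤ 1 / 4 * r := by gcongr; exact g.small1
          _ = r / 4 := by ring
      have h0p := h0 p hp
      have h1p := h1 p hp
      have h0q := h0 q hq
      have h1q := h1 q hq
      rcases lt_trichotomy (I p) (I q) with hlt | heq | hgt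
      · apply hfin
        have h2 := g.s_mono (i := I p + 1) hlt (hI q hq).le
        have h3 := (abs_le.1 hdx').1
        simp only [itp, smul_eq_mul] at h3
        have h4 := min_le_right (lam p) (1 - lam p)
        nlinarith
      · have hne : ¬ (g.ζ (τ p) (I p) = g.ζ (τ q) (I p) ∧
            g.ζ (τ p) (I p + 1) = g.ζ (τ q) (I p + 1)) := by
          rintro ⟨e1, e2⟩
          apply hqn
          have := hmem q hq
          rw [← heq] at this
          simpa only [V, e1, e2] using this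
        obtain ⟨k, hk⟩ := (g.nocross _ (hI p hp) (τ p) (τ q)).resolve_left hne
        obtain ⟨-, -, hμ⟩ := (g.mid _ (hI p hp)).resolve_left fun hm =>
          hne ⟨by rw [(hm _).1, (hm _).1], by rw [(hm _).2, (hm _).2]⟩
        have h2 := hk (lam p) h0p h1p
        have h3 := hdz p hp q hq k
        rw [← heq] at h3 hdx'
        have h4 : |itp (g.ζ (τ q)) (I p) (lam q) k - itp (g.ζ (τ q)) (I p) (lam p) k| ≤
            64 * (r / L) := by
          refine le_trans ?_ hdx'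
          have e1 : itp (g.ζ (τ q)) (I p) (lam q) k - itp (g.ζ (τ q)) (I p) (lam p) k =
              (lam q - lam p) * (g.ζ (τ q) (I p + 1) - g.ζ (τ q) (I p)) k := by
            simp only [itp, PiLp.add_apply, PiLp.smul_apply, smul_eq_mul]; ring
          have e2 : itp g.s (I p) (lam p) - itp g.s (I p) (lam q) =
              (lam p - lam q) * (g.s (I p + 1) - g.s (I p)) := by
            simp only [itp, smul_eq_mul]; ring
          rw [e1, e2, abs_mul, abs_mul, abs_sub_comm (lam q)]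
          refine mul_le_mul_of_nonneg_left ?_ (abs_nonneg _)
          rw [abs_of_pos (by linarith : 0 < g.s (I p + 1) - g.s (I p))]
          exact (PiLp.norm_apply_le _ k).trans (g.slope _ (hI p hp) _)
        have h5 : g.c * min (lam p) (1 - lam p) ≤ 128 * (r / L) := by
          refine h2.trans ?_
          have := abs_sub_le (itp (g.ζ (τ p)) (I p) (lam p) k) (itp (g.ζ (τ q)) (I p) (lam q) k)
            (itp (g.ζ (τ q)) (I p) (lam p) k)
          linarith
        have hmin : 0 ≤ min (lam p) (1 - lam p) := le_min h0p (by linarith)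
        have hc := g.cpos
        have hμ0 : 0 ≤ g.μ := by linarith
        refine (hφ p hp).trans ?_
        have h6 : min (lam p) (1 - lam p) ≤ 128 * (r / L) / g.c := by
          rw [le_div_iff₀ hc]; linarith
        calc _ ≤ 9 * g.ρ * (g.μ * L) * (128 * (r / L) / g.c) := by gcongr
          _ = 9 * g.ρ * g.μ * 128 * r / g.c := by field_simp
          _ ≤ g.c / 4 * r / g.c := by gcongr; exact g.small2
          _ = r / 4 := by field_simp
      · apply hfin
        have h2 := g.s_mono (i := I q + 1) hgt (hI p hp).le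
        have h3 := (abs_le.1 hdx').2
        simp only [itp, smul_eq_mul] at h3
        have h4 := min_le_left (lam p) (1 - lam p)
        nlinarith
    obtain ⟨col, hcol⟩ := g.skel (r / L) (div_pos hr hL)
    refine ⟨fun p => col (I p) (τ p) (lam p), fun p hp q hq hc => ?_⟩
    obtain ⟨h2, h3⟩ := hcol _ (hI p hp) _ (hI q hq) _ _ _ _ (h0 p hp) (h1 p hp) (h0 q hq) (h1 q hq)
      (hdx p hp q hq) (hdz p hp q hq) hc
    have e : p - q = (itp g.s (I p) (lam p) - itp g.s (I q) (lam q)) • (Q - P) +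
        L • J N j (itp (g.ζ (τ p)) (I p) (lam p) - itp (g.ζ (τ q)) (I q) (lam q)) +
        (φ p - φ q) := by
      have e1 := hpe p hp
      have e2 := hpe q hq
      rw [map_sub]
      generalize itp g.s (I p) (lam p) = a, itp g.s (I q) (lam q) = b,
        J N j (itp (g.ζ (τ p)) (I p) (lam p)) = u, J N j (itp (g.ζ (τ q)) (I q) (lam q)) = v,
        φ p = x, φ q = y at e1 e2 ⊢
      rw [e1, e2]
      module
    have hQP : ‖Q - P‖ ≤ 2 * L := by
      apply (abs_le_of_sq_le_sq' _ (by linarith)).2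
      nlinarith
    rw [e]
    refine (norm_add_le _ _).trans ?_
    have h4 := (norm_sub_le (φ p) (φ q)).trans (add_le_add (hsmall p hp) (hsmall q hq))
    have h5 := norm_add_le ((itp g.s (I p) (lam p) - itp g.s (I q) (lam q)) • (Q - P))
      (L • J N j (itp (g.ζ (τ p)) (I p) (lam p) - itp (g.ζ (τ q)) (I q) (lam q)))
    rw [norm_smul, norm_smul, Real.norm_eq_abs, Real.norm_eq_abs, abs_of_pos hL] at h5
    have h6 : |itp g.s (I p) (lam p) - itp g.s (I q) (lam q)| * ‖Q - P‖ ≤ r / L / 8 * (2 * L) := by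
      gcongr
    have h7 : L * ‖J N j (itp (g.ζ (τ p)) (I p) (lam p) - itp (g.ζ (τ q)) (I q) (lam q))‖ ≤
        L * (r / L / 4) := mul_le_mul_of_nonneg_left ((norm_J_le _ _ _).trans h3) hL.le
    have h8 : r / L / 8 * (2 * L) = r / 4 := by field_simp; ring
    have h9 : L * (r / L / 4) = r / 4 := by field_simp
    linarith

lemma force_aux [Nonempty T] {Y : Type} [NormedAddCommGroup Y] [NormedSpace ℝ Y] {K : ℕ}
    {η D D₁ : ℝ} (hD : 0 ≤ D) (hD₁ : D ≤ D₁) (hD₁pos : 0 < D₁) (hη : 0 ≤ η)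
    (hF : g.Force (2 * D₁ ^ 2) η D Y K) (F : Amb N κ → Y) (X0 : Set (Amb N κ))
    (hup : ∀ p ∈ X0, ∀ q ∈ X0, ‖F p - F q‖ ≤ D * ‖p - q‖)
    (hlow : ∀ p ∈ X0, ∀ q ∈ X0, ∀ o, |p o - q o| ≤ D * ‖F p - F q‖) (hcon : ¬ Concl Y K D)
    (j : ℕ) (hj : j ≤ N) (P Q : Amb N κ) (hP : Fresh j P) (hQ : Fresh j Q)
    (hL : 0 < Q none - P none) (hsub : g.X j P Q ⊆ X0) :
    (‖F Q - F P‖ ^ 2 - 2 * D₁ ^ 2 * ‖Q - P‖ ^ 2) / (Q none - P none) ^ 2 < -2 * D₁ ^ 2 ∨
    (‖F Q - F P‖ ^ 2 - 2 * D₁ ^ 2 * ‖Q - P‖ ^ 2) / (Q none - P none) ^ 2 + j * η ≤ 0 := by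
  have hbase : ∀ j (P Q : Amb N κ), g.X j P Q ⊆ X0 → ‖F Q - F P‖ ^ 2 ≤ D₁ ^ 2 * ‖Q - P‖ ^ 2 := by
    intro j P Q hsub
    have h1 := hup Q (hsub (g.ends_mem j P Q).2) P (hsub (g.ends_mem j P Q).1)
    rw [← mul_pow]
    refine pow_le_pow_left₀ (norm_nonneg _) (h1.trans ?_) 2
    gcongr
  induction j generalizing P Q with
  | zero =>
    right
    have h1 := hbase 0 P Q hsub
    simp only [Nat.cast_zero, zero_mul, add_zero]
    apply div_nonpos_of_nonpos_of_nonneg _ (sq_nonneg _)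
    nlinarith [mul_nonneg (sq_nonneg D₁) (sq_nonneg ‖Q - P‖)]
  | succ j ih =>
    have h1 := hbase _ P Q hsub
    set L := Q none - P none with hLdef
    have hL2 : 0 < L ^ 2 := by positivity
    by_cases h : ‖Q - P‖ ^ 2 ≤ 2 * L ^ 2
    swap
    · left
      rw [div_lt_iff₀ hL2]
      push Not at h
      nlinarith [mul_lt_mul_of_pos_left h (by positivity : 0 < D₁ ^ 2)]
    set Φ := (‖F Q - F P‖ ^ 2 - 2 * D₁ ^ 2 * ‖Q - P‖ ^ 2) / L ^ 2 with hΦ
    have hch : ∀ t, ∀ i < g.n, g.X j (g.V j P Q t i) (g.V j P Q t (i + 1)) ⊆ X0 :=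
      fun t i hi => (g.child_sub h t hi).trans hsub
    have hV : ∀ t, ∀ i ≤ g.n, g.V j P Q t i ∈ X0 := by
      intro t i hi
      rcases Nat.lt_or_ge i g.n with h' | h'
      · exact hch t i h' (g.ends_mem _ _ _).1
      · rw [le_antisymm hi h', V_n]; exact hsub (g.ends_mem _ _ _).2
    have hex : ∃ t, ∃ i < g.n, Φ + η < (‖F (g.V j P Q t (i + 1)) - F (g.V j P Q t i)‖ ^ 2 -
        2 * D₁ ^ 2 * ‖g.V j P Q t (i + 1) - g.V j P Q t i‖ ^ 2) /
          (g.V j P Q t (i + 1) none - g.V j P Q t i none) ^ 2 := by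
      by_contra hno
      push Not at hno
      apply hcon
      have hn : ∀ a b : Y, ‖L⁻¹ • a - L⁻¹ • b‖ = ‖a - b‖ / L := by
        intro a b
        rw [← smul_sub, norm_smul, norm_inv, Real.norm_eq_abs, abs_of_pos hL, inv_mul_eq_div]
      have hVV : ∀ t t' i, g.V j P Q t i - g.V j P Q t' i = L • J N j (g.ζ t i - g.ζ t' i) := by
        intro t t' i
        simp only [V, map_sub]; module
      refine hF (fun t i => L⁻¹ • F (g.V j P Q t i)) (L⁻¹ • F P) (L⁻¹ • F Q - L⁻¹ • F P)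
        (fun t => by simp only [V_zero]) (fun t => by simp only [V_n]; abel) ?_ ?_ ?_
      · intro i hi t
        have h2 := hno t i hi
        have hs := g.slt i hi
        rw [V_len, div_le_iff₀ (by
          have : 0 < (g.s (i + 1) - g.s i) * L := mul_pos (by linarith) hL
          positivity)] at h2
        have e : g.V j P Q t (i + 1) - g.V j P Q t i = (g.s (i + 1) - g.s i) • (Q - P) +
            L • J N j (g.ζ t (i + 1) - g.ζ t i) := by
          simp only [V, map_sub]; module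
        have hfr : Fresh (j + 1) (Q - P) := fun a ha k => by simp [hP a ha k, hQ a ha k]
        have h3 : ‖g.V j P Q t (i + 1) - g.V j P Q t i‖ ^ 2 ≤
            (g.s (i + 1) - g.s i) ^ 2 * ‖Q - P‖ ^ 2 + L ^ 2 * ‖g.ζ t (i + 1) - g.ζ t i‖ ^ 2 := by
          rw [e, norm_add_sq_real, inner_smul_left, inner_smul_right, inner_J hfr, norm_smul,
            norm_smul, mul_pow, mul_pow, Real.norm_eq_abs, Real.norm_eq_abs, sq_abs, sq_abs]
          have := pow_le_pow_left₀ (norm_nonneg _) (norm_J_le N j (g.ζ t (i + 1) - g.ζ t i)) 2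
          simp only [mul_zero, add_zero]
          gcongr
        beta_reduce
        rw [hn, hn, div_pow, div_pow, div_le_iff₀ hL2]
        have h4 : Φ * L ^ 2 = ‖F Q - F P‖ ^ 2 - 2 * D₁ ^ 2 * ‖Q - P‖ ^ 2 := by
          rw [hΦ]; field_simp
        have h5 := mul_le_mul_of_nonneg_left h3 (by positivity : 0 ≤ 2 * D₁ ^ 2)
        have h6 : ((‖F Q - F P‖ ^ 2 / L ^ 2 + η) * (g.s (i + 1) - g.s i) ^ 2 +
            2 * D₁ ^ 2 * ‖g.ζ t (i + 1) - g.ζ t i‖ ^ 2) * L ^ 2 =
            (‖F Q - F P‖ ^ 2 + η * L ^ 2) * (g.s (i + 1) - g.s i) ^ 2 +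
            2 * D₁ ^ 2 * ‖g.ζ t (i + 1) - g.ζ t i‖ ^ 2 * L ^ 2 := by field_simp
        have h7 : (Φ + η) * ((g.s (i + 1) - g.s i) * L) ^ 2 =
            (Φ * L ^ 2 + η * L ^ 2) * (g.s (i + 1) - g.s i) ^ 2 := by ring
        rw [h6]
        rw [h7, h4] at h2
        nlinarith
      · intro i hi t t'
        beta_reduce
        rw [hn, div_le_iff₀ hL]
        refine (hup _ (hV t i hi) _ (hV t' i hi)).trans ?_
        rw [hVV, norm_smul, Real.norm_eq_abs, abs_of_pos hL]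
        have := norm_J_le N j (g.ζ t i - g.ζ t' i)
        calc _ ≤ D * (L * ‖g.ζ t i - g.ζ t' i‖) := by gcongr
          _ = _ := by ring
      · intro i hi t t' k
        beta_reduce
        rw [hn, ← mul_div_assoc, le_div_iff₀ hL]
        refine le_trans ?_ (hlow _ (hV t i hi) _ (hV t' i hi) (some (⟨j, hj⟩, k)))
        have := congrArg (fun v : Amb N κ => v (some (⟨j, hj⟩, k))) (hVV t t' i)
        simp only [PiLp.sub_apply, PiLp.smul_apply, J_some, if_true, smul_eq_mul] at this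
        rw [this, abs_mul, abs_of_pos hL, mul_comm]
    obtain ⟨t, i, hi, hlt⟩ := hex
    have := ih (by omega) _ _ (g.V_fresh hP hQ t i) (g.V_fresh hP hQ t (i + 1)) (by
      rw [V_len]; exact mul_pos (by linarith [g.slt i hi]) hL) (hch t i hi)
    rcases this with h2 | h2
    · left; linarith
    · right; push_cast; linarith

end Gad

theorem outer [Nonempty T] [Finite T] (g : Gad κ T) (K : ℕ) (η D₁ : ℝ) (hη : 0 < η)
    (hD₁ : 0 < D₁) :
    ∃ (ι : Type) (_ : Fintype ι) (X : Set (EuclideanSpace ℝ ι)), X.Finite ∧ X.Nonempty ∧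
      (∀ p ∈ X, ‖p‖ ≤ 2) ∧ Cov X ∧
      ∀ (Y : Type) [NormedAddCommGroup Y] [NormedSpace ℝ Y] (D : ℝ), 0 ≤ D → D ≤ D₁ →
        g.Force (2 * D₁ ^ 2) η D Y K → ∀ F : EuclideanSpace ℝ ι → Y,
        (∀ p ∈ X, ∀ q ∈ X, ‖F p - F q‖ ≤ D * ‖p - q‖) →
        (∀ p ∈ X, ∀ q ∈ X, ∀ o, |p o - q o| ≤ D * ‖F p - F q‖) → Concl Y K D := by
  classical
  obtain ⟨N, hN⟩ := exists_nat_gt (2 * D₁ ^ 2 / η)
  rw [div_lt_iff₀ hη] at hN
  set e : Amb N κ := EuclideanSpace.single none 1 with he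
  have he0 : e none - (0 : Amb N κ) none = 1 := by simp [he]
  have hef : Fresh N e := fun i _ k => by simp [he]
  have h0f : Fresh N (0 : Amb N κ) := fun i _ k => rfl
  have hen : ‖e‖ = 1 := by simp [he]
  refine ⟨Option (Fin N × κ), inferInstance, g.X N 0 e, g.X_finite _ _ _,
    ⟨0, (g.ends_mem _ _ _).1⟩, fun p hp => ?_, g.cov N le_rfl _ _ h0f hef (by rw [he0]; norm_num),
    fun Y _ _ D hD hDD hF F hup hlow => ?_⟩
  · obtain ⟨l, h0, h1, φ, hpe, -, hφ, -⟩ := g.hair N 0 e (by rw [he0]; norm_num) p hp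
    rw [he0] at hφ
    rw [hpe, zero_add, sub_zero]
    refine (norm_add_le _ _).trans ?_
    rw [norm_smul, hen, Real.norm_eq_abs, abs_of_nonneg h0]
    have := g.small1
    linarith
  · by_contra hcon
    have := g.force_aux hD hDD hD₁ hη.le hF F _ hup hlow hcon N le_rfl 0 e h0f hef
      (by rw [he0]; norm_num) subset_rfl
    rw [he0, sub_zero, hen] at this
    simp only [one_pow, div_one, mul_one] at this
    rcases this with h | h <;> nlinarith [sq_nonneg ‖F e - F 0‖]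

end Crest.Agent.H1.LP
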