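import Crest.Agent.H1.LPb

/-!
The cross-section system (sheet and rows) and the inner (column) ascent argument.
-/

set_option autoImplicit false
set_option linter.unusedSectionVars false
open scoped InnerProductSpace

namespace Crest.Agent.H1.LP

lemma straight {Y : Type} [NormedAddCommGroup Y] [InnerProductSpace ℝ Y] (n : ℕ) (s e : ℕ → ℝ)
    (v : ℕ → Y) (sl : Y) (hs : ∀ i < n, s i < s (i + 1))
    (ht : ∀ i < n, ‖v (i + 1) - v i‖ ^ 2 / (s (i + 1) - s i) ≤ ‖sl‖ ^ 2 * (s (i + 1) - s i) + e i)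
    {a b : ℕ} (hab : a ≤ b) (hb : b ≤ n) :
    ‖(v b - s b • sl) - (v a - s a • sl)‖ ^ 2 ≤ (s b - s a) *
      (∑ i ∈ Finset.range n, e i + 2 * ((s n - s 0) * ‖sl‖ ^ 2 - ⟪v n - v 0, sl⟫_ℝ)) := by
  set u : ℕ → Y := fun i => v i - s i • sl with hu
  have h1 : ∀ i < n, ‖u (i + 1) - u i‖ ^ 2 / (s (i + 1) - s i) ≤
      e i + 2 * ((s (i + 1) * ‖sl‖ ^ 2 - ⟪v (i + 1), sl⟫_ℝ) - (s i * ‖sl‖ ^ 2 - ⟪v i, sl⟫_ℝ)) := by
    intro i hi
    have hp : 0 < s (i + 1) - s i := by linarith [hs i hi]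
    have e1 : u (i + 1) - u i = (v (i + 1) - v i) - (s (i + 1) - s i) • sl := by
      simp only [hu]; module
    have h2 := ht i hi
    rw [e1, norm_sub_sq_real, inner_smul_right, norm_smul, Real.norm_eq_abs, mul_pow, sq_abs,
      inner_sub_left]
    rw [div_le_iff₀ hp] at h2 ⊢
    nlinarith
  have h2 : ∑ i ∈ Finset.range n, ‖u (i + 1) - u i‖ ^ 2 / (s (i + 1) - s i) ≤
      ∑ i ∈ Finset.range n, e i + 2 * ((s n - s 0) * ‖sl‖ ^ 2 - ⟪v n - v 0, sl⟫_ℝ) := by
    refine (Finset.sum_le_sum fun i hi => h1 i (Finset.mem_range.1 hi)).trans ?_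
    rw [Finset.sum_add_distrib, ← Finset.mul_sum,
      Finset.sum_range_sub (fun i => s i * ‖sl‖ ^ 2 - ⟪v i, sl⟫_ℝ), inner_sub_left]
    apply le_of_eq; ring
  rcases hab.eq_or_lt with rfl | hab'
  · simp
  have h3 : ∑ i ∈ Finset.Ico a b, ‖u (i + 1) - u i‖ ^ 2 / (s (i + 1) - s i) ≤
      ∑ i ∈ Finset.range n, ‖u (i + 1) - u i‖ ^ 2 / (s (i + 1) - s i) := by
    refine Finset.sum_le_sum_of_subset_of_nonneg (fun i hi => ?_) fun i hi _ => ?_
    · rw [Finset.mem_Ico] at hi; rw [Finset.mem_range]; omega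
    · exact div_nonneg (sq_nonneg _) (by linarith [hs i (Finset.mem_range.1 hi)])
  have hpos : ∀ i ∈ Finset.Ico a b, 0 < s (i + 1) - s i := fun i hi => by
    rw [Finset.mem_Ico] at hi; linarith [hs i (by omega)]
  have h4 := Finset.sq_sum_div_le_sum_sq_div (Finset.Ico a b) (fun i => ‖u (i + 1) - u i‖) hpos
  have h5 : ∑ i ∈ Finset.Ico a b, (s (i + 1) - s i) = s b - s a := Finset.sum_Ico_sub s hab
  have h6 : 0 < s b - s a := by
    rw [← h5]; exact Finset.sum_pos hpos ⟨a, Finset.mem_Ico.2 ⟨le_rfl, hab'⟩⟩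
  have h7 : ‖u b - u a‖ ≤ ∑ i ∈ Finset.Ico a b, ‖u (i + 1) - u i‖ := by
    rw [← Finset.sum_Ico_sub u hab]; exact norm_sum_le _ _
  rw [h5, div_le_iff₀ h6] at h4
  have h8 := pow_le_pow_left₀ (norm_nonneg _) h7 2
  change ‖u b - u a‖ ^ 2 ≤ _
  calc _ ≤ _ := h8.trans h4
    _ ≤ _ := by rw [mul_comm]; exact mul_le_mul_of_nonneg_left (h3.trans h2) h6.le

def dz (U y : ℕ) : ℕ := min (y % U) (U - y % U)

lemma dz_step {U : ℕ} (hU : 0 < U) (y : ℕ) : dz U (y + 1) ≤ dz U y + 1 ∧ dz U y ≤ dz U (y + 1) + 1 := by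
  have h1 := Nat.mod_lt y hU
  have h2 : (y + 1) % U = if y % U + 1 = U then 0 else y % U + 1 := by
    rw [← Nat.mod_add_mod]
    split_ifs with h
    · rw [h, Nat.mod_self]
    · exact Nat.mod_eq_of_lt (by omega)
  unfold dz
  rw [h2]
  split_ifs <;> omega

lemma dz_add {U : ℕ} (hU : 0 < U) (y d : ℕ) : dz U (y + d) ≤ dz U y + d ∧ dz U y ≤ dz U (y + d) + d := by
  induction d with
  | zero => simp
  | succ d ih =>
    have := dz_step hU (y + d)
    rw [← add_assoc]; omega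

lemma dz_lip {U : ℕ} (hU : 0 < U) (y y' : ℕ) : ((dz U y : ℝ) - dz U y') ^ 2 ≤ ((y : ℝ) - y') ^ 2 := by
  wlog h : y' ≤ y generalizing y y'
  · have := this y' y (by omega); nlinarith
  obtain ⟨d, rfl⟩ := Nat.exists_eq_add_of_le h
  obtain ⟨h1, h2⟩ := dz_add hU y' d
  have h3 : (dz U (y' + d) : ℝ) ≤ dz U y' + d := by exact_mod_cast h1
  have h4 : (dz U y' : ℝ) ≤ dz U (y' + d) + d := by exact_mod_cast h2
  push_cast
  apply sq_le_sq' <;> linarith

lemma dz_of_dvd {U y : ℕ} (h : U ∣ y) : dz U y = 0 := by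
  simp [dz, Nat.mod_eq_zero_of_dvd h]

lemma two_dz_le (U y : ℕ) (hU : 0 < U) : 2 * dz U y ≤ U := by
  have := Nat.mod_lt y hU
  unfold dz; omega

section sys
variable (m G : ℕ) (θ : ℝ)

def U (g : ℕ) : ℕ := m ^ (G - g)

noncomputable def hh (g y : ℕ) : ℝ := θ * dz (U m G g) y

noncomputable def Zc (σ : List ℕ) (g y : ℕ) : EuclideanSpace ℝ (Option (Fin G × Fin m)) :=
  WithLp.toLp 2 fun o => o.elim (y : ℝ) fun x =>
    if (x.1 : ℕ) = g then
      (if g ≤ σ.length ∧ (x.2 : ℕ) = y / U m G (g + 1) % m then hh m G θ g y else 0)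
    else (if σ[(x.1 : ℕ)]? = some (x.2 : ℕ) then hh m G θ x.1 y else 0)

def Valid (g y : ℕ) : Prop := g ≤ G ∧ y ≤ m ^ G ∧ U m G (g + 1) ∣ y

variable {m G θ}

@[simp] lemma Zc_none (σ : List ℕ) (g y : ℕ) : Zc m G θ σ g y none = y := rfl
lemma Zc_some (σ : List ℕ) (g y : ℕ) (i : Fin G) (c : Fin m) :
    Zc m G θ σ g y (some (i, c)) = if (i : ℕ) = g then
      (if g ≤ σ.length ∧ (c : ℕ) = y / U m G (g + 1) % m then hh m G θ g y else 0)
    else (if σ[(i : ℕ)]? = some (c : ℕ) then hh m G θ i y else 0) := rfl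

lemma U_pos (hm : 0 < m) (g : ℕ) : 0 < U m G g := pow_pos hm _

lemma U_dvd {g g' : ℕ} (h : g ≤ g') : U m G g' ∣ U m G g := pow_dvd_pow _ (by omega)

lemma U_succ {g : ℕ} (h : g < G) : U m G g = m * U m G (g + 1) := by
  unfold U; rw [← pow_succ']; congr 1; omega

lemma hh_of_dvd {g y : ℕ} (h : U m G g ∣ y) : hh m G θ g y = 0 := by
  simp [hh, dz_of_dvd h]

lemma hh_nonneg (hθ : 0 ≤ θ) (g y : ℕ) : 0 ≤ hh m G θ g y := by unfold hh; positivity

lemma sum_ite_le {p : Fin m → Prop} [DecidablePred p] (hp : ∀ a b, p a → p b → a = b) {x : ℝ}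
    (hx : 0 ≤ x) : ∑ c, (if p c then x else 0) ≤ x := by
  rw [← Finset.sum_filter, Finset.sum_const, nsmul_eq_mul]
  have : (Finset.univ.filter p).card ≤ 1 := by
    rw [Finset.card_le_one]
    intro a ha b hb
    simp only [Finset.mem_filter, Finset.mem_univ, true_and] at ha hb
    exact hp a b ha hb
  have h : ((Finset.univ.filter p).card : ℝ) ≤ 1 := by exact_mod_cast this
  nlinarith

lemma sheet_lip (hm : 0 < m) (σ : List ℕ) (y y' : ℕ) :
    ‖Zc m G θ σ G y - Zc m G θ σ G y'‖ ^ 2 ≤ (1 + G * θ ^ 2) * ((y : ℝ) - y') ^ 2 := by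
  rw [EuclideanSpace.real_norm_sq_eq, Fintype.sum_option, Fintype.sum_prod_type]
  simp only [PiLp.sub_apply, Zc_none, Zc_some]
  have : ∀ i : Fin G, ∑ c : Fin m, ((if (i : ℕ) = G then
      (if G ≤ σ.length ∧ (c : ℕ) = y / U m G (G + 1) % m then hh m G θ G y else 0)
      else (if σ[(i : ℕ)]? = some (c : ℕ) then hh m G θ i y else 0)) - (if (i : ℕ) = G then
      (if G ≤ σ.length ∧ (c : ℕ) = y' / U m G (G + 1) % m then hh m G θ G y' else 0)
      else (if σ[(i : ℕ)]? = some (c : ℕ) then hh m G θ i y' else 0))) ^ 2 ≤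
      θ ^ 2 * ((y : ℝ) - y') ^ 2 := by
    intro i
    simp only [if_neg i.2.ne]
    refine le_trans (Finset.sum_le_sum (g := fun c : Fin m =>
      if σ[(i : ℕ)]? = some (c : ℕ) then θ ^ 2 * ((y : ℝ) - y') ^ 2 else 0) fun c _ => ?_)
      (sum_ite_le (fun a b ha hb => Fin.ext (by simpa [ha] using hb)) (by positivity))
    split_ifs
    · unfold hh
      rw [← mul_sub, mul_pow]
      exact mul_le_mul_of_nonneg_left (dz_lip (U_pos hm _) _ _) (sq_nonneg _)
    · simp
  refine (add_le_add_right (Finset.sum_le_sum fun i _ => this i) _).trans ?_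
  simp only [Finset.sum_const, Finset.card_univ, Fintype.card_fin, nsmul_eq_mul]
  apply le_of_eq; ring

lemma row_sheet (hθ : 0 ≤ θ) (σ : List ℕ) (g y : ℕ) :
    ‖Zc m G θ σ g y - Zc m G θ σ G y‖ ≤ 2 * hh m G θ g y := by
  have h0 := hh_nonneg (m := m) (G := G) hθ g y
  apply (abs_le_of_sq_le_sq' _ (by positivity)).2
  rw [EuclideanSpace.real_norm_sq_eq, Fintype.sum_option, Fintype.sum_prod_type]
  simp only [PiLp.sub_apply, Zc_none, Zc_some]
  have : ∀ i : Fin G, ∑ c : Fin m, ((if (i : ℕ) = g then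
      (if g ≤ σ.length ∧ (c : ℕ) = y / U m G (g + 1) % m then hh m G θ g y else 0)
      else (if σ[(i : ℕ)]? = some (c : ℕ) then hh m G θ i y else 0)) - (if (i : ℕ) = G then
      (if G ≤ σ.length ∧ (c : ℕ) = y / U m G (G + 1) % m then hh m G θ G y else 0)
      else (if σ[(i : ℕ)]? = some (c : ℕ) then hh m G θ i y else 0))) ^ 2 ≤
      if (i : ℕ) = g then 2 * hh m G θ g y ^ 2 else 0 := by
    intro i
    simp only [if_neg i.2.ne]
    by_cases hi : (i : ℕ) = g
    · simp only [hi, if_true]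
      have h1 := sum_ite_le (m := m) (p := fun c => σ[g]? = some (c : ℕ))
        (fun a b ha hb => Fin.ext (by simpa [ha] using hb)) (sq_nonneg (hh m G θ g y))
      have h2 := sum_ite_le (m := m)
        (p := fun c => g ≤ σ.length ∧ (c : ℕ) = y / U m G (g + 1) % m)
        (fun a b ha hb => Fin.ext (ha.2.trans hb.2.symm)) (sq_nonneg (hh m G θ g y))
      refine le_trans ?_ ((add_le_add h2 h1).trans (le_of_eq (two_mul _).symm))
      rw [← Finset.sum_add_distrib]
      refine Finset.sum_le_sum fun c _ => ?_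
      split_ifs <;> simp
      positivity
    · simp [hi]
  refine (add_le_add_right (Finset.sum_le_sum fun i _ => this i) _).trans ?_
  have h3 := sum_ite_le (m := G) (p := fun i => (i : ℕ) = g)
    (fun a b ha hb => Fin.ext (ha.trans hb.symm)) (x := 2 * hh m G θ g y ^ 2) (by positivity)
  nlinarith

lemma static {σ : List ℕ} (l : ℕ) {g g0 y : ℕ} (hv : Valid m G g y) (hσ : g0 ≤ σ.length)
    (hg : g = g0 ∨ (g = G ∧ U m G g0 ∣ y)) : Zc m G θ (σ ++ [l]) g y = Zc m G θ σ g y := by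
  ext o
  rcases o with _ | ⟨i, c⟩
  · rfl
  rw [Zc_some, Zc_some]
  by_cases hi : (i : ℕ) = g
  · have hg' : g = g0 := by
      rcases hg with h | h
      · exact h
      · have := i.2; omega
    have h1 : g ≤ σ.length := by omega
    have h2 : g ≤ (σ ++ [l]).length := by simp; omega
    simp only [hi, if_true, h1, h2, true_and]
  · simp only [if_neg hi]
    rcases lt_or_ge (i : ℕ) σ.length with h | h
    · rw [List.getElem?_append_left h]
    · have : hh m G θ i y = 0 := by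
        apply hh_of_dvd
        rcases hg with h' | h'
        · exact (U_dvd (by omega)).trans hv.2.2
        · exact (U_dvd (by omega)).trans h'.2
      simp [this]

lemma cross {σ : List ℕ} {y : ℕ} :
    Zc m G θ (σ ++ [y / U m G (σ.length + 1) % m]) σ.length y =
      Zc m G θ (σ ++ [y / U m G (σ.length + 1) % m]) G y := by
  ext o
  rcases o with _ | ⟨i, c⟩
  · rfl
  rw [Zc_some, Zc_some, if_neg i.2.ne]
  split_ifs with h1 h2 h3 h4 <;> simp_all

lemma row_triv (σ : List ℕ) {g y : ℕ} (h : hh m G θ g y = 0) :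
    Zc m G θ σ g y = Zc m G θ σ G y := by
  ext o
  rcases o with _ | ⟨i, c⟩
  · rfl
  rw [Zc_some, Zc_some, if_neg i.2.ne]
  split_ifs <;> simp_all

lemma row_alt (hm : 0 < m) (hθ : 0 ≤ θ) (σ : List ℕ) {g : ℕ} (hg : g < G) (y : ℕ) :
    Zc m G θ σ g y = Zc m G θ σ G y ∨
      θ ≤ Zc m G θ σ g y (some (⟨g, hg⟩, ⟨y / U m G (g + 1) % m, Nat.mod_lt _ hm⟩)) -
        Zc m G θ σ G y (some (⟨g, hg⟩, ⟨y / U m G (g + 1) % m, Nat.mod_lt _ hm⟩)) := by
  by_cases h0 : dz (U m G g) y = 0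
  · left; exact row_triv σ (by simp [hh, h0])
  by_cases h1 : g ≤ σ.length ∧ σ[g]? ≠ some (y / U m G (g + 1) % m)
  · right
    rw [Zc_some, Zc_some]
    simp only [if_true, h1.1, true_and, if_neg hg.ne, if_neg h1.2, sub_zero, hh]
    have : (1 : ℝ) ≤ dz (U m G g) y := by exact_mod_cast Nat.pos_of_ne_zero h0
    nlinarith
  · left
    ext o
    rcases o with _ | ⟨i, c⟩
    · rfl
    rw [Zc_some, Zc_some, if_neg i.2.ne]
    by_cases hi : (i : ℕ) = g
    · simp only [hi, if_true]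
      by_cases h2 : g ≤ σ.length
      · have h3 : σ[g]? = some (y / U m G (g + 1) % m) := by
          by_contra h; exact h1 ⟨h2, h⟩
        simp only [h2, true_and, h3, Option.some.injEq, eq_comm]
      · have h3 : σ[g]? = none := List.getElem?_eq_none (by omega)
        simp [h2, h3]
    · simp only [if_neg hi]

end sys

lemma final_est {Y : Type} [NormedAddCommGroup Y] {x1 x2 y1 y2 y3 w1 w2 : Y} {δ τ D D₁ : ℝ}
    (hδ : 0 < δ) (hD : 1 ≤ D) (hD₁ : D ≤ D₁) (h10 : 2 * τ ≤ δ / (4 * D₁)) (h1 : ‖y1 - x1‖ ≤ τ)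
    (h2 : ‖y3 - x2‖ ≤ τ) (h4 : ‖y2 - w1 - (y3 - w2)‖ ≤ δ / (4 * D₁)) (h7 : δ ≤ D * ‖y1 - y2‖)
    (h11 : ‖y1 - y2‖ ≤ D * (3 * δ)) :
    δ / (2 * D) ≤ ‖x1 - w1 - (x2 - w2)‖ ∧ ‖x1 - w1 - (x2 - w2)‖ ≤ 8 * D ^ 2 * (δ / (2 * D)) := by
  have h8 : ‖(x1 - w1 - (x2 - w2)) - (y1 - y2)‖ ≤ δ / (2 * D) := by
    have e : (x1 - w1 - (x2 - w2)) - (y1 - y2) =
        ((y3 - x2) - (y1 - x1)) + ((y2 - w1) - (y3 - w2)) := by abel
    rw [e]
    refine (norm_add_le _ _).trans ?_
    have h9 := (norm_sub_le _ _).trans (add_le_add h2 h1)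
    have h11 : δ / (4 * D₁) ≤ δ / (4 * D) := by gcongr
    have h12 : δ / (2 * D) = δ / (4 * D) + δ / (4 * D) := by field_simp; ring
    linarith
  have h9 := abs_le.1 ((abs_norm_sub_norm_le _ _).trans h8)
  have h10 : δ / D ≤ ‖y1 - y2‖ := by
    rw [div_le_iff₀ (by linarith)]; linarith
  have h12 : δ / D = δ / (2 * D) + δ / (2 * D) := by field_simp; ring
  have h13 : 8 * D ^ 2 * (δ / (2 * D)) = 4 * D * δ := by field_simp; ring
  have h14 : δ / (2 * D) ≤ D * δ := by
    rw [div_le_iff₀ (by linarith)]; nlinarith [mul_le_mul hD hD zero_le_one (by linarith)]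
  constructor
  · linarith [h9.1]
  · rw [h13]; linarith [h9.2]

set_option maxHeartbeats 800000 in
theorem inner_asc {Y : Type} [NormedAddCommGroup Y] [InnerProductSpace ℝ Y] {K m₀ m G : ℕ}
    {θ η τ D D₁ : ℝ} (hm : m = 3 * m₀) (hK : K ≤ m₀) (hm₀ : 0 < m₀) (hθ : 0 < θ) (hη : 0 ≤ η)
    (hτ : 0 ≤ τ) (hD : 1 ≤ D) (hD₁ : D ≤ D₁) (hG1 : G * θ ^ 2 ≤ 1) (hG2 : 2 * D₁ ^ 2 < G * η)
    (hE1 : K * (m * η + 8 * D₁ * τ) ≤ (θ * m₀ / (4 * D₁)) ^ 2) (hE2 : 2 * τ ≤ θ * m₀ / (4 * D₁))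
    (H : List ℕ → ℕ → ℕ → Y)
    (hup : ∀ σ : List ℕ, (∀ x ∈ σ, x < m) → σ.length ≤ G → ∀ g y g' y', Valid m G g y →
      Valid m G g' y' → ‖H σ g y - H σ g' y'‖ ≤ D * ‖Zc m G θ σ g y - Zc m G θ σ g' y'‖)
    (hlow : ∀ σ : List ℕ, (∀ x ∈ σ, x < m) → σ.length ≤ G → ∀ g y g' y', Valid m G g y →
      Valid m G g' y' → ∀ k, |Zc m G θ σ g y k - Zc m G θ σ g' y' k| ≤ D * ‖H σ g y - H σ g' y'‖)
    (htr : ∀ σ : List ℕ, (∀ x ∈ σ, x < m) → σ.length < G → ∀ l < m, ∀ g y, Valid m G g y →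
      (g = σ.length ∨ (g = G ∧ U m G σ.length ∣ y)) → ‖H (σ ++ [l]) g y - H σ g y‖ ≤ τ) :
    Concl Y K D := by
  by_contra hcon
  have hmpos : 0 < m := by omega
  have hsv : ∀ y ≤ m ^ G, Valid m G G y := fun y hy => ⟨le_rfl, hy, by simp [U]⟩
  have hD₁pos : 0 < D₁ := by linarith
  have hbase : ∀ σ : List ℕ, (∀ x ∈ σ, x < m) → σ.length ≤ G → ∀ a u : ℕ, a + u ≤ m ^ G →
      ‖H σ G (a + u) - H σ G a‖ ^ 2 ≤ 2 * D₁ ^ 2 * (u : ℝ) ^ 2 := by
    intro σ hσ hl a u hau
    have h1 := hup σ hσ hl G (a + u) G a (hsv _ hau) (hsv _ (by omega))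
    have h2 := sheet_lip (G := G) (θ := θ) hmpos σ (a + u) a
    have h3 := pow_le_pow_left₀ (norm_nonneg _) h1 2
    rw [mul_pow] at h3
    push_cast at h2
    rw [add_sub_cancel_left] at h2
    have h4 : D ^ 2 ≤ D₁ ^ 2 := by gcongr
    calc _ ≤ D ^ 2 * ((1 + G * θ ^ 2) * (u : ℝ) ^ 2) := h3.trans (by gcongr)
      _ ≤ D₁ ^ 2 * ((1 + 1) * (u : ℝ) ^ 2) := by gcongr
      _ = _ := by ring
  have key : ∀ j : ℕ, ∀ σ : List ℕ, (∀ x ∈ σ, x < m) → σ.length + j = G → ∀ a : ℕ,
      U m G σ.length ∣ a → a + U m G σ.length ≤ m ^ G →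
      ‖H σ G (a + U m G σ.length) - H σ G a‖ ^ 2 / (U m G σ.length : ℝ) ^ 2 + j * η ≤
        2 * D₁ ^ 2 := by
    intro j
    induction j with
    | zero =>
      intro σ hσ hl a _ ha
      have hU : (0 : ℝ) < U m G σ.length := by exact_mod_cast U_pos hmpos _
      simp only [Nat.cast_zero, zero_mul, add_zero]
      rw [div_le_iff₀ (by positivity)]
      exact hbase σ hσ (by omega) a _ ha
    | succ j ih =>
      intro σ hσ hl a hda ha
      have hg : σ.length < G := by omega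
      obtain ⟨u, hu⟩ : ∃ u, u = U m G (σ.length + 1) := ⟨_, rfl⟩
      have hupos : 0 < u := hu ▸ U_pos hmpos _
      have hur : (1 : ℝ) ≤ u := by exact_mod_cast hupos
      have hU : U m G σ.length = m * u := hu ▸ U_succ hg
      have hmr : (0 : ℝ) < m := by exact_mod_cast hmpos
      rw [hU] at hda ha ⊢
      have hok : ∀ l < m, ∀ x ∈ σ ++ [l], x < m := by
        intro l hl x hx
        rcases List.mem_append.1 hx with h | h
        · exact hσ x h
        · rw [List.mem_singleton.1 h]; exact hl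
      have hlen : ∀ l : ℕ, (σ ++ [l]).length = σ.length + 1 := by simp
      have hcu : ∀ c ≤ m, a + c * u ≤ m ^ G := fun c hc =>
        le_trans (by gcongr) ha
      set sl : Y := ((m * u : ℕ) : ℝ)⁻¹ • (H σ G (a + m * u) - H σ G a) with hsl
      have hmu : (0 : ℝ) < ((m * u : ℕ) : ℝ) := by push_cast; positivity
      have hsl2 : ‖sl‖ ^ 2 = ‖H σ G (a + m * u) - H σ G a‖ ^ 2 / ((m * u : ℕ) : ℝ) ^ 2 := by
        rw [hsl, norm_smul, norm_inv, Real.norm_eq_abs, abs_of_pos hmu, inv_mul_eq_div, div_pow]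
      rw [← hsl2]
      by_contra hbig
      push Not at hbig
      have htest : ∀ l < m, ∀ c < m,
          ‖H (σ ++ [l]) G (a + (c + 1) * u) - H (σ ++ [l]) G (a + c * u)‖ ^ 2 / (u : ℝ) ^ 2 ≤
            ‖sl‖ ^ 2 + η := by
        intro l hl' c hc
        have := ih (σ ++ [l]) (hok l hl') (by rw [hlen]; omega) (a + c * u) (by
          rw [hlen, ← hu]
          exact dvd_add ((Dvd.intro_left _ rfl).trans hda) (Dvd.intro_left _ rfl)) (by
          rw [hlen, ← hu]
          have := hcu (c + 1) hc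
          linarith)
        rw [hlen, ← hu, show a + c * u + u = a + (c + 1) * u by ring] at this
        push_cast at hbig
        linarith
      have hsln : ‖sl‖ ≤ 2 * D₁ := by
        apply (abs_le_of_sq_le_sq' _ (by positivity)).2
        rw [hsl2, div_le_iff₀ (by positivity)]
        have := hbase σ hσ hg.le a _ ha
        nlinarith [sq_nonneg (D₁ * ((m * u : ℕ) : ℝ))]
      set δ : ℝ := θ * m₀ * u with hδ
      have hδpos : 0 < δ := by
        have : (0 : ℝ) < m₀ := by exact_mod_cast hm₀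
        positivity
      have hcol : ∀ l < m, ∀ c c' : ℕ, c ≤ c' → c' ≤ m → c' ≤ c + K →
          ‖(H (σ ++ [l]) G (a + c' * u) - ((c' : ℝ) * u) • sl) -
            (H (σ ++ [l]) G (a + c * u) - ((c : ℝ) * u) • sl)‖ ≤ δ / (4 * D₁) := by
        intro l hl' c c' hcc hc' hcK
        have h1 := straight m (fun c => (c : ℝ) * u) (fun _ => η * u)
          (fun c => H (σ ++ [l]) G (a + c * u)) sl (fun i _ => by push_cast; nlinarith)
          (fun i hi => by
            have := htest l hl' i hi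
            have e : ((i + 1 : ℕ) : ℝ) * u - (i : ℝ) * u = u := by push_cast; ring
            rw [e]
            rw [div_le_iff₀ (by positivity)] at this ⊢
            nlinarith) hcc hc'
        simp only [Finset.sum_const, Finset.card_range, nsmul_eq_mul, Nat.cast_zero, zero_mul,
          add_zero, sub_zero] at h1
        have h2 := htr σ hσ hg l hl' G (a + m * u) (hsv _ ha)
          (Or.inr ⟨rfl, by rw [hU]; exact dvd_add hda dvd_rfl⟩)
        have h3 := htr σ hσ hg l hl' G a (hsv _ (by omega)) (Or.inr ⟨rfl, by rw [hU]; exact hda⟩)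
        have e : H (σ ++ [l]) G (a + m * u) - H (σ ++ [l]) G a = ((m : ℝ) * u) • sl +
            ((H (σ ++ [l]) G (a + m * u) - H σ G (a + m * u)) - (H (σ ++ [l]) G a - H σ G a)) := by
          rw [hsl, smul_smul]
          push_cast
          rw [mul_inv_cancel₀ (by positivity), one_smul]; abel
        rw [e, inner_add_left, inner_smul_left, real_inner_self_eq_norm_sq] at h1
        have h4 := abs_real_inner_le_norm ((H (σ ++ [l]) G (a + m * u) - H σ G (a + m * u)) -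
          (H (σ ++ [l]) G a - H σ G a)) sl
        have h5 := (norm_sub_le _ _).trans (add_le_add h2 h3)
        have h6 : ‖(H (σ ++ [l]) G (a + m * u) - H σ G (a + m * u)) -
          (H (σ ++ [l]) G a - H σ G a)‖ * ‖sl‖ ≤ (τ + τ) * (2 * D₁) := by gcongr
        have h7 := (abs_le.1 (h4.trans h6)).1
        simp only [conj_trivial] at h1
        apply (abs_le_of_sq_le_sq' _ (by positivity)).2
        refine h1.trans ?_
        have h8 : (c' : ℝ) * u - c * u ≤ K * u := by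
          have : (c' : ℝ) ≤ c + K := by exact_mod_cast hcK
          nlinarith
        have h9 : 0 ≤ (c' : ℝ) * u - c * u := by
          have : (c : ℝ) ≤ c' := by exact_mod_cast hcc
          nlinarith
        have h10 : 8 * D₁ * τ ≤ 8 * D₁ * τ * u := le_mul_of_one_le_right (by positivity) hur
        calc _ ≤ ((c' : ℝ) * u - c * u) * ((m * η + 8 * D₁ * τ) * u) :=
              mul_le_mul_of_nonneg_left (by linarith) h9
          _ ≤ (K * u) * ((m * η + 8 * D₁ * τ) * u) := by gcongr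
          _ = K * (m * η + 8 * D₁ * τ) * (u : ℝ) ^ 2 := by ring
          _ ≤ (θ * m₀ / (4 * D₁)) ^ 2 * (u : ℝ) ^ 2 := by gcongr
          _ = _ := by rw [hδ]; ring
      apply hcon
      have hdig : ∀ c < m, (a + c * u) / U m G (σ.length + 1) % m = c := by
        intro c hc
        obtain ⟨b, rfl⟩ := hda
        rw [← hu, show m * u * b + c * u = (c + m * b) * u by ring, Nat.mul_div_cancel _ hupos,
          Nat.add_mul_mod_self_left, Nat.mod_eq_of_lt hc]
      have hrv : ∀ c ≤ m, Valid m G σ.length (a + c * u) := fun c hc => ⟨hg.le, hcu c hc, by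
        rw [← hu]; exact dvd_add ((Dvd.intro_left _ rfl).trans hda) (Dvd.intro_left _ rfl)⟩
      refine ⟨δ / (2 * D), by positivity, fun k => H σ σ.length (a + (m₀ + k) * u) -
        (((m₀ + k : ℕ) : ℝ) * u) • sl, fun k hk l hl' hkl => ?_⟩
      have hkm : m₀ + k < m := by omega
      have hlm : m₀ + l < m := by omega
      have h1 := htr σ hσ hg (m₀ + l) hlm _ _ (hrv _ hkm.le) (Or.inl rfl)
      have h2 := htr σ hσ hg (m₀ + l) hlm _ _ (hrv _ hlm.le) (Or.inl rfl)
      have h3 : H (σ ++ [m₀ + l]) σ.length (a + (m₀ + l) * u) =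
          H (σ ++ [m₀ + l]) G (a + (m₀ + l) * u) := by
        have := hup (σ ++ [m₀ + l]) (hok _ hlm) (by rw [hlen]; omega) _ _ _ _ (hrv _ hlm.le)
          (hsv _ (hcu _ hlm.le))
        have h4 := cross (m := m) (G := G) (θ := θ) (σ := σ) (y := a + (m₀ + l) * u)
        rw [hdig _ hlm] at h4
        rw [h4, sub_self, norm_zero, mul_zero] at this
        exact sub_eq_zero.1 (norm_le_zero_iff.1 this)
      have h4 : ‖(H (σ ++ [m₀ + l]) G (a + (m₀ + k) * u) - (((m₀ + k : ℕ) : ℝ) * u) • sl) -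
          (H (σ ++ [m₀ + l]) G (a + (m₀ + l) * u) - (((m₀ + l : ℕ) : ℝ) * u) • sl)‖ ≤
          δ / (4 * D₁) := by
        rcases le_total k l with h | h
        · rw [norm_sub_rev]; exact hcol _ hlm _ _ (by omega) hlm.le (by omega)
        · exact hcol _ hlm _ _ (by omega) hkm.le (by omega)
      have hhk : δ ≤ hh m G θ σ.length (a + (m₀ + k) * u) ∧
          2 * hh m G θ σ.length (a + (m₀ + k) * u) ≤ 3 * δ := by
        unfold hh
        constructor
        · have : m₀ * u ≤ dz (U m G σ.length) (a + (m₀ + k) * u) := by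
            obtain ⟨b, rfl⟩ := hda
            have h5 : (m₀ + k) * u < m * u := by gcongr
            unfold dz
            rw [hU, add_comm (m * u * b), Nat.add_mul_mod_self_left, Nat.mod_eq_of_lt h5]
            refine le_min (by gcongr; omega) ?_
            rw [← Nat.sub_mul]; gcongr; omega
          have h5 : (m₀ : ℝ) * u ≤ dz (U m G σ.length) (a + (m₀ + k) * u) := by exact_mod_cast this
          rw [hδ, mul_assoc]; gcongr
        · have := two_dz_le (U m G σ.length) (a + (m₀ + k) * u) (U_pos hmpos _)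
          have h5 : 2 * (dz (U m G σ.length) (a + (m₀ + k) * u) : ℝ) ≤ 3 * m₀ * u := by
            rw [hU] at this ⊢; rw [hm] at this ⊢; exact_mod_cast this
          rw [hδ]; nlinarith
      have h5 := hup (σ ++ [m₀ + l]) (hok _ hlm) (by rw [hlen]; omega) _ _ _ _ (hrv _ hkm.le)
          (hsv _ (hcu _ hkm.le))
      have h6 := row_sheet (m := m) (G := G) hθ.le (σ ++ [m₀ + l]) σ.length (a + (m₀ + k) * u)
      have h7 := hlow (σ ++ [m₀ + l]) (hok _ hlm) (by rw [hlen]; omega) _ _ _ _ (hrv _ hkm.le)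
          (hsv _ (hcu _ hkm.le)) (some (⟨σ.length, hg⟩, ⟨m₀ + k, hkm⟩))
      rw [Zc_some, Zc_some] at h7
      simp only [if_true, hdig _ hkm, hlen, Nat.le_succ, true_and, if_neg hg.ne,
        List.getElem?_append_right le_rfl, Nat.sub_self, List.getElem?_cons_zero,
        Option.some.injEq, Nat.add_left_cancel_iff, if_neg hkl.symm, sub_zero] at h7
      rw [abs_of_nonneg (by linarith [hhk.1])] at h7
      rw [h3] at h2
      have h10 : 2 * τ ≤ δ / (4 * D₁) := by
        refine hE2.trans (div_le_div_of_nonneg_right ?_ (by positivity))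
        rw [hδ]; exact le_mul_of_one_le_right (by positivity) hur
      exact final_est hδpos hD hD₁ h10 h1 h2 h4 (hhk.1.trans h7)
        (h5.trans (mul_le_mul_of_nonneg_left (h6.trans hhk.2) (by linarith)))
  have := key G [] (by simp) (by simp) 0 (dvd_zero _) (by simp [U])
  have h2 : 0 ≤ ‖H [] G (0 + U m G ([] : List ℕ).length) - H [] G 0‖ ^ 2 /
    (U m G ([] : List ℕ).length : ℝ) ^ 2 := by positivity
  linarith

end Crest.Agent.H1.LP
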