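import Crest.Agent.H1.LPb

/-!
The depth-first tour with geometric step lengths, and the covering property of the skeleton.
-/

set_option autoImplicit false
set_option linter.unusedSectionVars false

namespace Crest.Agent.H1.LP

def nn (m : ℕ) : ℕ → ℕ
  | 0 => 0
  | d + 1 => m * (nn m d + 2)

def st (m : ℕ) : ℕ → ℕ → List ℕ
  | 0, _ => []
  | d + 1, i => if i % (nn m d + 2) = 0 then [] else
      (i / (nn m d + 2)) :: st m d (i % (nn m d + 2) - 1)

def al (m : ℕ) : ℕ → List ℕ → ℕ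
  | d + 1, q :: r => q * (nn m d + 2) + 1 + al m d r
  | _, _ => 0

variable {m : ℕ}

lemma st_zero (d : ℕ) : st m d 0 = [] := by cases d <;> simp [st]

lemma st_nn (d : ℕ) : st m d (nn m d) = [] := by cases d <;> simp [st, nn]

lemma st_len (d i : ℕ) : (st m d i).length ≤ d := by
  induction d generalizing i with
  | zero => simp [st]
  | succ d ih =>
    rw [st]; split_ifs
    · simp
    · simpa using ih _

lemma st_mul (d q : ℕ) : st m (d + 1) (q * (nn m d + 2)) = [] := by simp [st]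

lemma st_cons (d q r : ℕ) (hr : r ≤ nn m d) :
    st m (d + 1) (q * (nn m d + 2) + 1 + r) = q :: st m d r := by
  have h1 : (q * (nn m d + 2) + 1 + r) % (nn m d + 2) = 1 + r := by
    rw [add_assoc, add_comm, Nat.add_mul_mod_self_right, Nat.mod_eq_of_lt (by omega)]
  have h2 : (q * (nn m d + 2) + 1 + r) / (nn m d + 2) = q := by
    rw [add_assoc, add_comm, Nat.add_mul_div_right _ _ (by omega), Nat.div_eq_of_lt (by omega),
      zero_add]
  rw [st, h1, h2, if_neg (by omega)]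
  congr 2; omega

lemma st_adj (d i : ℕ) (hi : i < nn m d) :
    ∃ l, st m d (i + 1) = st m d i ++ [l] ∨ st m d i = st m d (i + 1) ++ [l] := by
  induction d generalizing i with
  | zero => simp [nn] at hi
  | succ d ih =>
    obtain ⟨q, r, hr, rfl⟩ : ∃ q r, r < nn m d + 2 ∧ i = q * (nn m d + 2) + r :=
      ⟨i / (nn m d + 2), i % (nn m d + 2), Nat.mod_lt _ (by omega), (Nat.div_add_mod' _ _).symm⟩
    rcases r with _ | r
    · refine ⟨q, Or.inl ?_⟩
      have := st_cons (m := m) d q 0 (Nat.zero_le _)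
      rw [add_zero] at this ⊢
      rw [this, st_mul, st_zero]; rfl
    · rw [show q * (nn m d + 2) + (r + 1) = q * (nn m d + 2) + 1 + r by ring,
        st_cons d q r (by omega)]
      rcases Nat.lt_or_ge r (nn m d) with h | h
      · rw [add_assoc _ r, st_cons d q (r + 1) h]
        obtain ⟨l, hl | hl⟩ := ih r h
        · exact ⟨l, Or.inl (by rw [hl]; rfl)⟩
        · exact ⟨l, Or.inr (by rw [hl]; rfl)⟩
      · obtain rfl : r = nn m d := by omega
        rw [show q * (nn m d + 2) + 1 + nn m d + 1 = (q + 1) * (nn m d + 2) by ring, st_mul, st_nn]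
        exact ⟨q, Or.inr rfl⟩

lemma al_nil (d : ℕ) : al m d [] = 0 := by cases d <;> rfl

lemma al_spec (d : ℕ) (σ : List ℕ) (hσ : ∀ x ∈ σ, x < m) (hl : σ.length ≤ d) :
    al m d σ ≤ nn m d ∧ st m d (al m d σ) = σ := by
  induction d generalizing σ with
  | zero =>
    obtain rfl : σ = [] := List.length_eq_zero_iff.1 (by omega)
    simp [al_nil, st]
  | succ d ih =>
    rcases σ with _ | ⟨q, r⟩
    · simp [al_nil, st_zero]
    · obtain ⟨h1, h2⟩ := ih r (fun x hx => hσ x (List.mem_cons_of_mem _ hx)) (by simpa using hl)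
      have hq : q + 1 ≤ m := hσ q (by simp)
      rw [al, st_cons d q _ h1, h2, nn]
      refine ⟨?_, rfl⟩
      have := Nat.mul_le_mul_right (nn m d + 2) hq
      nlinarith

lemma al_mono (d : ℕ) (σ : List ℕ) (hσ : ∀ x ∈ σ, x < m) (l : ℕ) (hl : l < m)
    (hd : σ.length < d) : al m d σ ≤ al m d (σ ++ [l]) ∧
      ∀ i, al m d σ ≤ i → i ≤ al m d (σ ++ [l]) → σ.length ≤ (st m d i).length := by
  induction d generalizing σ with
  | zero => omega
  | succ d ih =>
    rcases σ with _ | ⟨q, r⟩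
    · simp [al_nil]
    · have hr : ∀ x ∈ r, x < m := fun x hx => hσ x (List.mem_cons_of_mem _ hx)
      have hd' : r.length < d := by simpa using hd
      obtain ⟨h1, h2⟩ := ih r hr hd'
      have h3 := (al_spec (m := m) d (r ++ [l]) (fun x hx => by
        rcases List.mem_append.1 hx with h | h
        · exact hr x h
        · rw [List.mem_singleton.1 h]; exact hl) (by simp; omega)).1
      rw [List.cons_append, al, al]
      refine ⟨by omega, fun i hi1 hi2 => ?_⟩
      obtain ⟨i', rfl⟩ : ∃ i', i = q * (nn m d + 2) + 1 + i' := ⟨i - (q * (nn m d + 2) + 1), by omega⟩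
      rw [st_cons d q i' (by omega)]
      simpa using h2 i' (by omega) (by omega)

lemma tour (m d : ℕ) (μ ω : ℝ) (hμ : 0 < μ) (hω : 0 < ω) (hω1 : ω ≤ 1)
    (hμn : μ * nn m d ≤ 1 / 3) :
    ∃ (s : ℕ → ℝ) (S : ℕ → List ℕ) (α : List ℕ → ℕ), s 0 = 0 ∧ s (nn m d + 2) = 1 ∧ S 0 = [] ∧
      S (nn m d + 2) = [] ∧
      (∀ i < nn m d + 2, (S i = [] ∧ S (i + 1) = [] ∧ s i < s (i + 1) ∧ s (i + 1) - s i ≤ 2 / 3) ∨
        ((∃ l, S (i + 1) = S i ++ [l] ∨ S i = S (i + 1) ++ [l]) ∧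
          s (i + 1) - s i = μ * ω ^ max (S i).length (S (i + 1)).length ∧
          1 / 3 ≤ s i ∧ s (i + 1) ≤ 2 / 3)) ∧
      (∀ i, (S i).length ≤ d) ∧
      (∀ σ : List ℕ, (∀ x ∈ σ, x < m) → σ.length ≤ d → α σ ≤ nn m d + 2 ∧ S (α σ) = σ) ∧
      (∀ σ : List ℕ, (∀ x ∈ σ, x < m) → ∀ l < m, σ.length < d → α σ ≤ α (σ ++ [l]) ∧
        s (α (σ ++ [l])) - s (α σ) ≤ nn m d * (μ * ω ^ (σ.length + 1))) := by
  set ξ : ℕ → ℝ := fun i => ∑ j ∈ Finset.range i,
    μ * ω ^ max (st m d j).length (st m d (j + 1)).length with hξ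
  have hξ0 : ∀ i, 0 ≤ ξ i := fun i => Finset.sum_nonneg fun j _ => by positivity
  have hξ1 : ∀ i ≤ nn m d, ξ i ≤ 1 / 3 := by
    intro i hi
    refine le_trans ?_ hμn
    have : ξ i ≤ ∑ _j ∈ Finset.range i, μ := Finset.sum_le_sum fun j _ =>
      mul_le_of_le_one_right hμ.le (pow_le_one₀ hω.le hω1)
    rw [Finset.sum_const, Finset.card_range, nsmul_eq_mul, mul_comm] at this
    exact this.trans (by gcongr)
  set s : ℕ → ℝ := fun i => if i = 0 then 0 else if i ≤ nn m d + 1 then 1 / 3 + ξ (i - 1) else 1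
    with hs
  have hs1 : ∀ j ≤ nn m d, s (j + 1) = 1 / 3 + ξ j := fun j hj => by
    simp [hs, hj]
  have hs2 : s (nn m d + 2) = 1 := by simp [hs]
  set S : ℕ → List ℕ := fun i => st m d (min (i - 1) (nn m d)) with hS
  have hS1 : ∀ j ≤ nn m d, S (j + 1) = st m d j := fun j hj => by simp [hS, hj]
  have hS2 : S (nn m d + 2) = [] := by simp [hS, st_nn]
  have hS0 : S 0 = [] := by simp [hS, st_zero]
  refine ⟨s, S, fun σ => al m d σ + 1, by simp [hs], hs2, hS0, hS2, fun i hi => ?_,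
    fun i => st_len _ _, fun σ hσ hl => ?_, fun σ hσ l hl hd => ?_⟩
  · rcases i with _ | j
    · left
      rw [hS1 0 (Nat.zero_le _), hs1 0 (Nat.zero_le _), st_zero d]
      refine ⟨rfl, rfl, ?_, ?_⟩ <;> simp [hs, hξ] <;> norm_num
    rcases Nat.lt_or_ge j (nn m d) with h | h
    · right
      rw [hS1 j h.le, hS1 (j + 1) h, hs1 j h.le, hs1 (j + 1) h]
      refine ⟨st_adj d j h, ?_, by linarith [hξ0 j], by linarith [hξ1 (j + 1) h]⟩
      simp only [hξ, Finset.sum_range_succ]; ring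
    · obtain rfl : j = nn m d := by omega
      left
      rw [hS1 _ le_rfl, hs1 _ le_rfl, hs2, st_nn]
      exact ⟨rfl, hS2, by linarith [hξ1 _ le_rfl], by linarith [hξ0 (nn m d)]⟩
  · obtain ⟨h1, h2⟩ := al_spec d σ hσ hl
    beta_reduce
    exact ⟨by omega, by rw [hS1 _ h1, h2]⟩
  · obtain ⟨h1, h2⟩ := al_mono d σ hσ l hl hd
    have h3 := (al_spec (m := m) d (σ ++ [l]) (fun x hx => by
        rcases List.mem_append.1 hx with h | h
        · exact hσ x h
        · rw [List.mem_singleton.1 h]; exact hl) (by simp; omega)).1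
    beta_reduce
    refine ⟨by omega, ?_⟩
    rw [hs1 _ h3, hs1 _ (by omega), add_sub_add_left_eq_sub]
    simp only [hξ]
    rw [← Finset.sum_Ico_eq_sub _ h1]
    have : ∀ j ∈ Finset.Ico (al m d σ) (al m d (σ ++ [l])),
        μ * ω ^ max (st m d j).length (st m d (j + 1)).length ≤ μ * ω ^ (σ.length + 1) := by
      intro j hj
      rw [Finset.mem_Ico] at hj
      have h4 := h2 j hj.1 hj.2.le
      have h5 := h2 (j + 1) (by omega) hj.2
      refine mul_le_mul_of_nonneg_left (pow_le_pow_of_le_one hω.le hω1 ?_) hμ.le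
      obtain ⟨l', h6 | h6⟩ := st_adj (m := m) d j (by omega)
      · have := congrArg List.length h6
        simp only [List.length_append, List.length_singleton] at this
        omega
      · have := congrArg List.length h6
        simp only [List.length_append, List.length_singleton] at this
        omega
    refine (Finset.sum_le_sum this).trans ?_
    rw [Finset.sum_const, Nat.card_Ico, nsmul_eq_mul]
    gcongr
    omega

lemma floor_col {a b r : ℝ} (hr : 0 < r) (h : |a - b| ≤ 64 * r)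
    (hc : ((⌊32 * a / r⌋ : ℤ) : ZMod 2050) = ((⌊32 * b / r⌋ : ℤ) : ZMod 2050)) :
    |a - b| ≤ r / 32 := by
  rw [ZMod.intCast_eq_intCast_iff_dvd_sub] at hc
  have h1 : |32 * a / r - 32 * b / r| ≤ 2048 := by
    rw [← sub_div, ← mul_sub, abs_div, abs_mul, abs_of_pos hr, div_le_iff₀ hr]
    norm_num; linarith
  obtain ⟨h2, h3⟩ := abs_le.1 h1
  have a1 := Int.floor_le (32 * a / r)
  have a2 := Int.lt_floor_add_one (32 * a / r)
  have b1 := Int.floor_le (32 * b / r)
  have b2 := Int.lt_floor_add_one (32 * b / r)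
  have h4 : ⌊32 * b / r⌋ - ⌊32 * a / r⌋ < 2050 := by
    have : ((⌊32 * b / r⌋ - ⌊32 * a / r⌋ : ℤ) : ℝ) < 2050 := by push_cast; linarith
    exact_mod_cast this
  have h5 : -2050 < ⌊32 * b / r⌋ - ⌊32 * a / r⌋ := by
    have : (-2050 : ℝ) < ((⌊32 * b / r⌋ - ⌊32 * a / r⌋ : ℤ) : ℝ) := by push_cast; linarith
    exact_mod_cast this
  have h6 : ⌊32 * b / r⌋ = ⌊32 * a / r⌋ := by
    push_cast at hc
    omega
  rw [h6] at b1 b2
  have h7 : |32 * a / r - 32 * b / r| ≤ 1 := abs_le.2 ⟨by linarith, by linarith⟩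
  rw [← sub_div, ← mul_sub, abs_div, abs_mul, abs_of_pos hr, div_le_iff₀ hr] at h7
  norm_num at h7
  linarith

lemma itp_lip {V : Type} [NormedAddCommGroup V] [NormedSpace ℝ V] (n : ℕ) (s : ℕ → ℝ) (z : ℕ → V)
    (hsl : ∀ i < n, ‖z (i + 1) - z i‖ ≤ s (i + 1) - s i) {i i' : ℕ} (hi : i < n) (hi' : i' < n)
    {l l' : ℝ} (h0 : 0 ≤ l) (h1 : l ≤ 1) (h0' : 0 ≤ l') (h1' : l' ≤ 1) :
    ‖itp z i l - itp z i' l'‖ ≤ |itp s i l - itp s i' l'| := by
  have hA : ∀ a b, a ≤ b → b ≤ n → ‖z b - z a‖ ≤ s b - s a := by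
    intro a b hab hb
    induction b, hab using Nat.le_induction with
    | base => simp
    | succ k hk ih =>
      have h2 := norm_add_le (z (k + 1) - z k) (z k - z a)
      rw [sub_add_sub_cancel] at h2
      linarith [ih (by omega), hsl k (by omega)]
  wlog h : i' ≤ i generalizing i i' l l'
  · rw [norm_sub_rev, abs_sub_comm]; exact this hi' hi h0' h1' h0 h1 (by omega)
  rcases h.eq_or_lt with rfl | h
  · have e1 : itp z i' l - itp z i' l' = (l - l') • (z (i' + 1) - z i') := by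
      simp only [itp]; module
    have e2 : itp s i' l - itp s i' l' = (l - l') * (s (i' + 1) - s i') := by
      simp only [itp, smul_eq_mul]; ring
    rw [e1, e2, norm_smul, abs_mul, Real.norm_eq_abs]
    exact mul_le_mul_of_nonneg_left ((hsl i' hi).trans (le_abs_self _)) (abs_nonneg _)
  · have e1 : itp z i l - itp z i' l' = l • (z (i + 1) - z i) + (z i - z (i' + 1)) +
        (1 - l') • (z (i' + 1) - z i') := by
      simp only [itp]; module
    rw [e1]
    refine le_trans ?_ (le_abs_self _)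
    refine norm_add₃_le.trans ?_
    rw [norm_smul, norm_smul, Real.norm_eq_abs, Real.norm_eq_abs, abs_of_nonneg h0,
      abs_of_nonneg (by linarith)]
    have h2 := mul_le_mul_of_nonneg_left (hsl i hi) h0
    have h3 := mul_le_mul_of_nonneg_left (hsl i' hi') (by linarith : 0 ≤ 1 - l')
    have h4 := hA (i' + 1) i h hi.le
    simp only [itp, smul_eq_mul]
    linarith

lemma itp_conv {V : Type} [NormedAddCommGroup V] [NormedSpace ℝ V] (z z' : ℕ → V) (χ : ℕ → ℝ)
    (c : ℝ) (i : ℕ) (h : ∀ i, ‖z i - z' i‖ ≤ χ i * c) {l : ℝ} (h0 : 0 ≤ l) (h1 : l ≤ 1) :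
    ‖itp z i l - itp z' i l‖ ≤ itp χ i l * c := by
  have e1 : itp z i l - itp z' i l = (1 - l) • (z i - z' i) + l • (z (i + 1) - z' (i + 1)) := by
    simp only [itp]; module
  rw [e1]
  refine (norm_add_le _ _).trans ?_
  rw [norm_smul, norm_smul, Real.norm_eq_abs, Real.norm_eq_abs, abs_of_nonneg h0,
    abs_of_nonneg (by linarith)]
  have h2 := mul_le_mul_of_nonneg_left (h (i + 1)) h0
  have h3 := mul_le_mul_of_nonneg_left (h i) (by linarith : 0 ≤ 1 - l)
  simp only [itp, smul_eq_mul]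
  linarith

lemma skel_of {κ T : Type} [Fintype κ] (n : ℕ) (s : ℕ → ℝ) (ζ : T → ℕ → EuclideanSpace ℝ κ)
    (hsl : ∀ i < n, ∀ t, ‖ζ t (i + 1) - ζ t i‖ ≤ s (i + 1) - s i) (k₀ : κ) (χ : ℕ → ℝ)
    (hχ : ∀ i, 0 ≤ χ i) (y d : T → ℝ) (π : T → T) (hy : ∀ t i, ζ t i k₀ = χ i * y t)
    (h1 : ∀ t t' i, ‖ζ (π t) i - ζ (π t') i‖ ≤ χ i * (2 * |y t - y t'|))
    (h2 : ∀ t i, ‖ζ t i - ζ (π t) i‖ ≤ χ i * d t)
    (h3 : ∀ t t', t ≠ t' → 2 * min (d t) (d t') ≤ |y t - y t'|) (r : ℝ) (hr : 0 < r) :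
    ∃ col : ℕ → T → ℝ → Col, ∀ i < n, ∀ i' < n, ∀ t t' l l',
    0 ≤ l → l ≤ 1 → 0 ≤ l' → l' ≤ 1 → |itp s i l - itp s i' l'| ≤ 64 * r →
    (∀ k, |itp (ζ t) i l k - itp (ζ t') i' l' k| ≤ 64 * r) → col i t l = col i' t' l' →
    |itp s i l - itp s i' l'| ≤ r / 8 ∧ ‖itp (ζ t) i l - itp (ζ t') i' l'‖ ≤ r / 4 := by
  classical
  refine ⟨fun i t l => (((⌊32 * itp s i l / r⌋ : ℤ) : ZMod 2050),
    ((⌊32 * itp (ζ t) i l k₀ / r⌋ : ℤ) : ZMod 2050), decide (r / 32 < itp χ i l * d t)),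
    fun i hi i' hi' t t' l l' h0 h1' h0' h1'' hs hz hc => ?_⟩
  simp only [Prod.mk.injEq, decide_eq_decide] at hc
  obtain ⟨c1, c2, c3⟩ := hc
  have a1 := floor_col hr hs c1
  have a2 := floor_col hr (hz k₀) c2
  refine ⟨by linarith, ?_⟩
  have hlip : ∀ t, ‖itp (ζ t) i l - itp (ζ t) i' l'‖ ≤ r / 32 := fun t =>
    (itp_lip n s (ζ t) (fun i hi => hsl i hi t) hi hi' h0 h1' h0' h1'').trans a1
  have hyy : ∀ t i l, itp (ζ t) i l k₀ = itp χ i l * y t := by
    intro t i l
    simp only [itp, PiLp.add_apply, PiLp.smul_apply, PiLp.sub_apply, hy, smul_eq_mul]; ring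
  have hχ' : ∀ i l, 0 ≤ l → l ≤ 1 → 0 ≤ itp χ i l := by
    intro i l a b
    simp only [itp, smul_eq_mul]
    nlinarith [hχ i, hχ (i + 1)]
  have hlipy : ∀ t, |itp χ i l * y t - itp χ i' l' * y t| ≤ r / 32 := by
    intro t
    have := (PiLp.norm_apply_le (itp (ζ t) i l - itp (ζ t) i' l') k₀).trans (hlip t)
    rwa [PiLp.sub_apply, hyy, hyy] at this
  rw [hyy, hyy] at a2
  have b1 : itp χ i l * |y t - y t'| ≤ r / 16 := by
    rw [← abs_of_nonneg (hχ' i l h0 h1'), ← abs_mul, mul_sub]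
    have := abs_sub_le (itp χ i l * y t) (itp χ i' l' * y t') (itp χ i l * y t')
    rw [abs_sub_comm (itp χ i' l' * y t')] at this
    linarith [hlipy t']
  have b2 : itp χ i' l' * |y t - y t'| ≤ r / 16 := by
    rw [← abs_of_nonneg (hχ' i' l' h0' h1''), ← abs_mul, mul_sub]
    have := abs_sub_le (itp χ i' l' * y t) (itp χ i l * y t) (itp χ i' l' * y t')
    rw [abs_sub_comm (itp χ i' l' * y t) (itp χ i l * y t)] at this
    linarith [hlipy t]
  by_cases hb : r / 32 < itp χ i l * d t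
  · have hb' := c3.1 hb
    have : t = t' := by
      by_contra hne
      have h4 := h3 t t' hne
      rcases le_total (d t) (d t') with h | h
      · rw [min_eq_left h] at h4
        have := mul_le_mul_of_nonneg_left h4 (hχ' i l h0 h1')
        linarith
      · rw [min_eq_right h] at h4
        have := mul_le_mul_of_nonneg_left h4 (hχ' i' l' h0' h1'')
        linarith
    subst this
    linarith [hlip t]
  · have hb' : ¬ r / 32 < itp χ i' l' * d t' := fun h => hb (c3.2 h)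
    push Not at hb hb'
    have e1 := (itp_conv _ _ χ _ i (h2 t) h0 h1').trans hb
    have e2 := (itp_conv _ _ χ _ i' (h2 t') h0' h1'').trans hb'
    have e3 := itp_conv _ _ χ _ i (h1 t t') h0 h1'
    have e4 := hlip (π t')
    have e : itp (ζ t) i l - itp (ζ t') i' l' = ((itp (ζ t) i l - itp (ζ (π t)) i l) +
        (itp (ζ (π t)) i l - itp (ζ (π t')) i l) + (itp (ζ (π t')) i l - itp (ζ (π t')) i' l')) -
        (itp (ζ t') i' l' - itp (ζ (π t')) i' l') := by abel
    rw [e]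
    refine (norm_sub_le _ _).trans ?_
    have := norm_add₃_le (a := itp (ζ t) i l - itp (ζ (π t)) i l)
      (b := itp (ζ (π t)) i l - itp (ζ (π t')) i l)
      (c := itp (ζ (π t')) i l - itp (ζ (π t')) i' l')
    linarith

lemma nc {κ : Type} [Fintype κ] (a b : ℕ → EuclideanSpace ℝ κ) (i : ℕ) (k : κ) {c : ℝ} (hc : 0 ≤ c)
    (h : ∀ i, a i = b i ∨ c ≤ a i k - b i k) :
    (a i = b i ∧ a (i + 1) = b (i + 1)) ∨
      ∀ l, 0 ≤ l → l ≤ 1 → c * min l (1 - l) ≤ |itp a i l k - itp b i l k| := by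
  have e : ∀ l, itp a i l k - itp b i l k =
      (1 - l) * (a i k - b i k) + l * (a (i + 1) k - b (i + 1) k) := by
    intro l
    simp only [itp, PiLp.add_apply, PiLp.smul_apply, PiLp.sub_apply, smul_eq_mul]; ring
  rcases h i with h1 | h1 <;> rcases h (i + 1) with h2 | h2
  · exact Or.inl ⟨h1, h2⟩
  all_goals
    refine Or.inr fun l h0 h1' => le_trans ?_ (le_abs_self _)
    rw [e]
    have m1 := mul_le_mul_of_nonneg_left (min_le_left l (1 - l)) hc
    have m2 := mul_le_mul_of_nonneg_left (min_le_right l (1 - l)) hc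
  · rw [h1]; nlinarith
  · rw [h2]; nlinarith
  · nlinarith

end Crest.Agent.H1.LP
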