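import Crest.Agent.H1.LPc
import Crest.Agent.H1.LPd

/-!
Existence of the gadget and of the finite pieces.
-/

set_option autoImplicit false
set_option linter.unusedSectionVars false
open scoped InnerProductSpace

namespace Crest.Agent.H1.LP

section sys
variable {m G : ℕ} {θ : ℝ}

noncomputable def Z' (m G : ℕ) (θ : ℝ) : List ℕ → ℕ → ℕ → EuclideanSpace ℝ (Option (Fin G × Fin m))
  | [], _, _ => 0
  | _ :: σ, g, y => Zc m G θ σ g y

abbrev Lane (m G : ℕ) := {t : ℕ × ℕ // Valid m G t.1 t.2}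

instance : Finite (Lane m G) := by
  have : ({t : ℕ × ℕ | Valid m G t.1 t.2}).Finite :=
    ((Set.finite_Iic G).prod (Set.finite_Iic (m ^ G))).subset fun t ht => ⟨ht.1, ht.2.1⟩
  exact this

instance : Nonempty (Lane m G) := ⟨⟨(0, 0), Nat.zero_le _, Nat.zero_le _, dvd_zero _⟩⟩

lemma sheet_valid {y : ℕ} (hy : y ≤ m ^ G) : Valid m G G y := ⟨le_rfl, hy, by simp [U]⟩

lemma sheet_lip' (hm : 0 < m) (hG1 : G * θ ^ 2 ≤ 1) (σ : List ℕ) (y y' : ℕ) :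
    ‖Zc m G θ σ G y - Zc m G θ σ G y'‖ ≤ 2 * |(y : ℝ) - y'| := by
  apply (abs_le_of_sq_le_sq' _ (by positivity)).2
  refine (sheet_lip hm σ y y').trans ?_
  rw [mul_pow, sq_abs]
  gcongr; linarith

lemma two_hh_le (hm : 0 < m) (hθ : 0 ≤ θ) (g y : ℕ) : 2 * hh m G θ g y ≤ θ * U m G g := by
  have : 2 * (dz (U m G g) y : ℝ) ≤ U m G g := by exact_mod_cast two_dz_le _ y (U_pos hm g)
  unfold hh; nlinarith

lemma Z'_bound (hm : 0 < m) (hθ : 0 ≤ θ) (hθ1 : θ ≤ 1) (hG1 : G * θ ^ 2 ≤ 1) (τ : List ℕ)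
    {g y : ℕ} (hv : Valid m G g y) : ‖Z' m G θ τ g y‖ ≤ 3 * (m : ℝ) ^ G := by
  rcases τ with _ | ⟨q, σ⟩
  · simp [Z']
  rw [Z']
  have h0 : Zc m G θ σ G 0 = 0 := by
    ext o
    rcases o with _ | ⟨i, c⟩
    · simp
    · rw [Zc_some, if_neg i.2.ne, hh_of_dvd (dvd_zero _)]; simp
  have h1 := sheet_lip' hm hG1 σ y 0
  rw [h0, sub_zero, Nat.cast_zero, sub_zero, Nat.abs_cast] at h1
  have h2 := (row_sheet hθ σ g y).trans (two_hh_le (G := G) hm hθ g y)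
  have h3 : (y : ℝ) ≤ (m : ℝ) ^ G := by exact_mod_cast hv.2.1
  have h4 : (U m G g : ℝ) ≤ (m : ℝ) ^ G := by
    exact_mod_cast Nat.pow_le_pow_right hm (Nat.sub_le _ _)
  have h5 : θ * U m G g ≤ (m : ℝ) ^ G := (mul_le_of_le_one_left (by positivity) hθ1).trans h4
  have h6 := norm_add_le (Zc m G θ σ g y - Zc m G θ σ G y) (Zc m G θ σ G y)
  rw [sub_add_cancel] at h6
  linarith

lemma hh_same {g g' y : ℕ} (hv : Valid m G g y) (h : g < g') : hh m G θ g' y = 0 :=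
  hh_of_dvd ((U_dvd h).trans hv.2.2)

lemma alt_aux (hm : 0 < m) (hθ : 0 ≤ θ) (hθ1 : θ ≤ 1) (t t' : Lane m G)
    (h : t'.1.2 < t.1.2 ∨ (t.1.2 = t'.1.2 ∧ t.1.1 ≤ t'.1.1)) :
    ∃ k, ∀ τ, Z' m G θ τ t.1.1 t.1.2 = Z' m G θ τ t'.1.1 t'.1.2 ∨
      θ ≤ Z' m G θ τ t.1.1 t.1.2 k - Z' m G θ τ t'.1.1 t'.1.2 k := by
  obtain ⟨⟨g, y⟩, hv⟩ := t
  obtain ⟨⟨g', y'⟩, hv'⟩ := t'
  dsimp only at *
  rcases h with h | ⟨rfl, h⟩
  · refine ⟨none, fun τ => ?_⟩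
    rcases τ with _ | ⟨q, σ⟩
    · exact Or.inl rfl
    · right
      simp only [Z', Zc_none]
      have : (y' : ℝ) + 1 ≤ y := by exact_mod_cast h
      linarith
  rcases h.eq_or_lt with rfl | h
  · exact ⟨none, fun τ => Or.inl rfl⟩
  have hg : g < G := lt_of_lt_of_le h hv'.1
  refine ⟨some (⟨g, hg⟩, ⟨y / U m G (g + 1) % m, Nat.mod_lt _ hm⟩), fun τ => ?_⟩
  rcases τ with _ | ⟨q, σ⟩
  · exact Or.inl rfl
  · simp only [Z']
    rw [row_triv σ (hh_same hv h)]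
    exact row_alt hm hθ σ hg y

lemma row_sep (hm : 0 < m) (hθ : 0 ≤ θ) (hθm : θ * m ≤ 1 / 2) (t t' : Lane m G) (hne : t ≠ t') :
    2 * min (2 * hh m G θ t.1.1 t.1.2) (2 * hh m G θ t'.1.1 t'.1.2) ≤
      |(t.1.2 : ℝ) - t'.1.2| := by
  wlog h : t.1.1 ≤ t'.1.1 generalizing t t'
  · rw [min_comm, abs_sub_comm]; exact this t' t hne.symm (by omega)
  obtain ⟨⟨g, y⟩, hv⟩ := t
  obtain ⟨⟨g', y'⟩, hv'⟩ := t'
  dsimp only at *
  refine le_trans (mul_le_mul_of_nonneg_left (min_le_right _ _) (by norm_num)) ?_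
  by_cases hy : y = y'
  · subst hy
    have : g < g' := lt_of_le_of_ne h fun e => hne (by subst e; rfl)
    rw [hh_same hv this]; simp
  rcases hv'.1.eq_or_lt with e | hg
  · dsimp only at e
    rw [hh_of_dvd (by simp [U, e])]; simp
  have h1 := two_hh_le (G := G) hm hθ g' y'
  rw [U_succ hg] at h1
  have h2 : (U m G (g' + 1) : ℤ) ∣ (y : ℤ) - y' :=
    dvd_sub (Int.natCast_dvd_natCast.2 ((U_dvd (by omega)).trans hv.2.2))
      (Int.natCast_dvd_natCast.2 hv'.2.2)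
  have h3 : (U m G (g' + 1) : ℤ) ≤ |(y : ℤ) - y'| :=
    Int.le_of_dvd (abs_pos.2 (by omega)) ((dvd_abs _ _).2 h2)
  have h4 : (U m G (g' + 1) : ℝ) ≤ |(y : ℝ) - y'| := by exact_mod_cast h3
  push_cast at h1
  have h5 : (0 : ℝ) ≤ U m G (g' + 1) := by positivity
  nlinarith

lemma Z'_static {τ : List ℕ} (l : ℕ) {g g0 y : ℕ} (hv : Valid m G g y) (hσ : g0 + 1 ≤ τ.length)
    (hg : g = g0 ∨ (g = G ∧ U m G g0 ∣ y)) : Z' m G θ (τ ++ [l]) g y = Z' m G θ τ g y := by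
  rcases τ with _ | ⟨q, σ⟩
  · simp at hσ
  · exact static l hv (by simpa using hσ) hg

end sys

lemma params (K D : ℕ) (hK : 1 ≤ K) (hD : 1 ≤ D) : ∃ (m₀ G : ℕ) (θ η τ : ℝ), K ≤ m₀ ∧ 0 < m₀ ∧
    0 < θ ∧ 0 ≤ η ∧ 0 < τ ∧ G * θ ^ 2 ≤ 1 ∧ 2 * (D : ℝ) ^ 2 < G * η ∧
    K * (((3 * m₀ : ℕ) : ℝ) * η + 8 * D * τ) ≤ (θ * m₀ / (4 * D)) ^ 2 ∧
    2 * τ ≤ θ * m₀ / (4 * D) ∧ θ * ((3 * m₀ : ℕ) : ℝ) ≤ 1 / 2 := by
  obtain ⟨m₀, hm₀⟩ : ∃ m₀, m₀ = 193 * D ^ 4 * K := ⟨_, rfl⟩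
  have hKr : (1 : ℝ) ≤ K := by exact_mod_cast hK
  have hDr : (1 : ℝ) ≤ D := by exact_mod_cast hD
  have hm : (m₀ : ℝ) = 193 * D ^ 4 * K := by rw [hm₀]; push_cast; ring
  have hD4 : (1 : ℝ) ≤ D ^ 4 := one_le_pow₀ hDr
  have hm1 : (193 : ℝ) ≤ m₀ := by rw [hm]; nlinarith
  refine ⟨m₀, 2304 * D ^ 4 * K * (3 * m₀) + 1, 1 / (6 * m₀), 1 / (1152 * D ^ 2 * K * (3 * m₀)),
    1 / (9216 * D ^ 3 * K), ?_, ?_, by positivity, by positivity, by positivity, ?_, ?_, ?_, ?_, ?_⟩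
  · rw [hm₀]; exact Nat.le_mul_of_pos_left _ (by positivity)
  · rw [hm₀]; positivity
  · push_cast
    rw [div_pow, one_pow, mul_one_div, div_le_one (by positivity)]
    have : (D : ℝ) ^ 4 * K = m₀ / 193 := by rw [hm]; ring
    rw [mul_assoc 2304, this]
    nlinarith
  · push_cast
    rw [mul_one_div, lt_div_iff₀ (by positivity)]
    nlinarith
  · push_cast
    apply le_of_eq; field_simp; ring
  · rw [mul_one_div, show (1 / (6 * (m₀ : ℝ)) * m₀ / (4 * D)) = 1 / (24 * D) by field_simp; ring,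
      div_le_div_iff₀ (by positivity) (by positivity)]
    have h3 : (D : ℝ) ≤ D ^ 3 := le_self_pow₀ hDr (by norm_num)
    nlinarith [mul_le_mul_of_nonneg_left hKr (by positivity : (0 : ℝ) ≤ D ^ 3)]
  · push_cast
    apply le_of_eq; field_simp; ring

lemma small_params (R θ τ C n : ℝ) (G : ℕ) (hR : 0 < R) (hθ : 0 < θ) (hτ : 0 < τ) (hC : 0 < C)
    (hn : 0 < n) : ∃ ω μ ρ : ℝ, 0 < ω ∧ ω ≤ 1 ∧ 0 < μ ∧ 0 < ρ ∧ μ * n ≤ 1 / 3 ∧
      8 * C * n ^ 2 * R ^ 2 * ω ≤ τ ^ 2 ∧ 4608 * R * μ ≤ θ ∧ 2304 * R * ρ ≤ 1 ∧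
      2 * R * ρ ≤ μ * ω ^ (G + 1) := by
  obtain ⟨ω, hω⟩ : ∃ ω, ω = min 1 (τ ^ 2 / (8 * C * n ^ 2 * R ^ 2)) := ⟨_, rfl⟩
  obtain ⟨μ, hμ⟩ : ∃ μ, μ = min (1 / 3 / n) (θ / (4608 * R)) := ⟨_, rfl⟩
  have hω0 : 0 < ω := by rw [hω]; positivity
  have hμ0 : 0 < μ := by rw [hμ]; positivity
  obtain ⟨ρ, hρ⟩ : ∃ ρ, ρ = min (1 / (2304 * R)) (μ * ω ^ (G + 1) / (2 * R)) := ⟨_, rfl⟩
  refine ⟨ω, μ, ρ, hω0, hω ▸ min_le_left _ _, hμ0, by rw [hρ]; positivity, ?_, ?_, ?_, ?_, ?_⟩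
  · rw [← le_div_iff₀ hn]; exact hμ ▸ min_le_left _ _
  · rw [← le_div_iff₀' (by positivity)]; exact hω ▸ min_le_right _ _
  · rw [← le_div_iff₀' (by positivity)]; exact hμ ▸ min_le_right _ _
  · rw [← le_div_iff₀' (by positivity)]; exact hρ ▸ min_le_left _ _
  · rw [← le_div_iff₀' (by positivity)]; exact hρ ▸ min_le_right _ _

theorem exists_gad (K D₁ : ℕ) (hK : 1 ≤ K) (hD₁ : 1 ≤ D₁) :
    ∃ (κ T : Type) (_ : Fintype κ) (_ : Finite T) (_ : Nonempty T) (g : Gad κ T) (η : ℝ), 0 < η ∧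
      ∀ (Y : Type) [NormedAddCommGroup Y] [InnerProductSpace ℝ Y] (D : ℝ), 1 ≤ D → D ≤ D₁ →
        g.Force (2 * (D₁ : ℝ) ^ 2) η D Y K := by
  classical
  obtain ⟨m₀, G, θ, η₂, τ, hKm, hm₀, hθ, hη₂, hτ, hG1, hG2, hE1, hE2, hθm⟩ := params K D₁ hK hD₁
  obtain ⟨m, hm⟩ : ∃ m, m = 3 * m₀ := ⟨_, rfl⟩
  rw [← hm] at hE1 hθm
  have hmpos : 0 < m := by omega
  have hm1 : (1 : ℝ) ≤ m := by exact_mod_cast hmpos
  have hθ1 : θ ≤ 1 := by nlinarith
  have hD1r : (1 : ℝ) ≤ D₁ := by exact_mod_cast hD₁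
  obtain ⟨R, hR⟩ : ∃ R : ℝ, R = 3 * (m : ℝ) ^ G := ⟨_, rfl⟩
  have hR0 : 0 < R := by rw [hR]; positivity
  obtain ⟨n, hn⟩ : ∃ n, n = nn m (G + 1) + 2 := ⟨_, rfl⟩
  have hn0 : (0 : ℝ) < n := by rw [hn]; positivity
  have hnn : (nn m (G + 1) : ℝ) ≤ n := by rw [hn]; push_cast; linarith
  obtain ⟨ω, μ, ρ, hω0, hω1, hμ0, hρ0, hμn, hωτ, hμθ, hρ1, hρ2⟩ :=
    small_params R θ τ (2 * (D₁ : ℝ) ^ 2) n G hR0 hθ hτ (by positivity) hn0
  obtain ⟨s, S, α, hs0, hsn, hS0, hSn, hstep, hlen, hα, htr⟩ :=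
    tour m (G + 1) μ ω hμ0 hω0 hω1 (le_trans (by gcongr) hμn)
  rw [← hn] at hsn hSn hstep hα
  obtain ⟨ζ, hζ⟩ : ∃ ζ : Lane m G → ℕ → EuclideanSpace ℝ (Option (Fin G × Fin m)),
    ∀ t i, ζ t i = ρ • Z' m G θ (S i) t.1.1 t.1.2 := ⟨_, fun _ _ => rfl⟩
  have hζ0 : ∀ t i, S i = [] → ζ t i = 0 := fun t i h => by rw [hζ, h]; simp [Z']
  have hζb : ∀ t i, ‖ζ t i‖ ≤ ρ * R := fun t i => by
    rw [hζ, norm_smul, Real.norm_eq_abs, abs_of_pos hρ0, hR]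
    exact mul_le_mul_of_nonneg_left (Z'_bound hmpos hθ.le hθ1 hG1 _ t.2) hρ0.le
  have hζd : ∀ t i, ‖ζ t (i + 1) - ζ t i‖ ≤ 2 * R * ρ := fun t i => by
    linarith [norm_sub_le (ζ t (i + 1)) (ζ t i), hζb t i, hζb t (i + 1)]
  have hslt : ∀ i < n, s i < s (i + 1) := by
    intro i hi
    rcases hstep i hi with h | h
    · exact h.2.2.1
    · have : 0 < μ * ω ^ max (S i).length (S (i + 1)).length := by positivity
      linarith [h.2.1]
  have hslope : ∀ i < n, ∀ t, ‖ζ t (i + 1) - ζ t i‖ ≤ s (i + 1) - s i := by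
    intro i hi t
    rcases hstep i hi with h | h
    · rw [hζ0 t i h.1, hζ0 t _ h.2.1, sub_self, norm_zero]; linarith [h.2.2.1]
    · rw [h.2.1]
      refine (hζd t i).trans (hρ2.trans ?_)
      exact mul_le_mul_of_nonneg_left (pow_le_pow_of_le_one hω0.le hω1
        (max_le (hlen _) (hlen _))) hμ0.le
  let g : Gad (Option (Fin G × Fin m)) (Lane m G) :=
    { n := n, s := s, ζ := ζ, ρ := ρ * R, μ := μ, c := ρ * θ
      npos := by omega
      s0 := hs0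
      sn := hsn
      slt := hslt
      sle := fun i hi => by
        rcases hstep i hi with h | h
        · exact h.2.2.2
        · linarith [h.2.2.1, h.2.2.2]
      ζ0 := fun t => hζ0 t _ hS0
      ζn := fun t => hζ0 t _ hSn
      ρpos := by positivity
      cpos := by positivity
      ρbd := fun i _ t => hζb t i
      mid := fun i hi => by
        rcases hstep i hi with h | h
        · exact Or.inl fun t => ⟨hζ0 t _ h.1, hζ0 t _ h.2.1⟩
        · refine Or.inr ⟨h.2.2.1, h.2.2.2, ?_⟩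
          rw [h.2.1]; exact mul_le_of_le_one_right hμ0.le (pow_le_one₀ hω0.le hω1)
      nocross := fun i _ t t' => by
        have key : ∀ t t' : Lane m G, (t'.1.2 < t.1.2 ∨ (t.1.2 = t'.1.2 ∧ t.1.1 ≤ t'.1.1)) →
            (ζ t i = ζ t' i ∧ ζ t (i + 1) = ζ t' (i + 1)) ∨ ∃ k, ∀ l, 0 ≤ l → l ≤ 1 →
              ρ * θ * min l (1 - l) ≤ |itp (ζ t) i l k - itp (ζ t') i l k| := by
          intro t t' h
          obtain ⟨k, hk⟩ := alt_aux hmpos hθ.le hθ1 t t' h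
          refine (nc (ζ t) (ζ t') i k (by positivity) fun j => ?_).imp_right fun h => ⟨k, h⟩
          rcases hk (S j) with h1 | h1
          · left; rw [hζ, hζ, h1]
          · right
            rw [hζ, hζ, PiLp.smul_apply, PiLp.smul_apply, smul_eq_mul, smul_eq_mul, ← mul_sub]
            exact mul_le_mul_of_nonneg_left h1 hρ0.le
        by_cases h : t'.1.2 < t.1.2 ∨ (t.1.2 = t'.1.2 ∧ t.1.1 ≤ t'.1.1)
        · exact key t t' h
        · rcases key t' t (by omega) with h1 | ⟨k, hk⟩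
          · exact Or.inl ⟨h1.1.symm, h1.2.symm⟩
          · exact Or.inr ⟨k, fun l a b => by rw [abs_sub_comm]; exact hk l a b⟩
      slope := hslope
      skel := skel_of n s ζ hslope none (fun i => if S i = [] then 0 else ρ)
        (fun i => by split_ifs <;> positivity) (fun t => t.1.2)
        (fun t => 2 * hh m G θ t.1.1 t.1.2) (fun t => ⟨(G, t.1.2), sheet_valid t.2.2.1⟩)
        (fun t i => by
          rw [hζ]
          rcases S i with _ | ⟨q, σ⟩ <;> simp [Z'])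
        (fun t t' i => by
          rw [hζ, hζ]
          rcases S i with _ | ⟨q, σ⟩
          · simp [Z']
          · simp only [Z', ← smul_sub, norm_smul, Real.norm_eq_abs, abs_of_pos hρ0,
              reduceCtorEq, if_false]
            exact mul_le_mul_of_nonneg_left (sheet_lip' hmpos hG1 σ _ _) hρ0.le)
        (fun t i => by
          rw [hζ, hζ]
          rcases S i with _ | ⟨q, σ⟩
          · simp [Z']
          · simp only [Z', ← smul_sub, norm_smul, Real.norm_eq_abs, abs_of_pos hρ0,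
              reduceCtorEq, if_false]
            exact mul_le_mul_of_nonneg_left (row_sheet hθ.le σ _ _) hρ0.le)
        (row_sep hmpos hθ.le hθm)
      small1 := by nlinarith
      small2 := by nlinarith }
  refine ⟨_, _, inferInstance, inferInstance, inferInstance, g, ρ ^ 2 * τ ^ 2 / 2, by positivity,
    fun Y _ _ D hD hDD f A sl hf0 hfn htest hup hlow => ?_⟩
  change ∀ t, f t n = A + sl at hfn
  change ∀ i < n, ∀ t, ‖f t (i + 1) - f t i‖ ^ 2 ≤ (‖sl‖ ^ 2 + ρ ^ 2 * τ ^ 2 / 2) *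
    (s (i + 1) - s i) ^ 2 + 2 * (D₁ : ℝ) ^ 2 * ‖ζ t (i + 1) - ζ t i‖ ^ 2 at htest
  change ∀ i ≤ n, ∀ t t', ‖f t i - f t' i‖ ≤ D * ‖ζ t i - ζ t' i‖ at hup
  change ∀ i ≤ n, ∀ t t' k, |ζ t i k - ζ t' i k| ≤ D * ‖f t i - f t' i‖ at hlow
  clear_value g
  have hok : ∀ σ : List ℕ, (∀ x ∈ σ, x < m) → ∀ x ∈ 0 :: σ, x < m := by
    intro σ hσ x hx
    rcases List.mem_cons.1 hx with rfl | h
    · exact hmpos
    · exact hσ x h
  have hnorm : ∀ a b c : Y, ‖ρ⁻¹ • (a - c) - ρ⁻¹ • (b - c)‖ = ‖a - b‖ / ρ := by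
    intro a b c
    rw [← smul_sub, sub_sub_sub_cancel_right, norm_smul, norm_inv, Real.norm_eq_abs,
      abs_of_pos hρ0, inv_mul_eq_div]
  refine inner_asc hm hKm hm₀ hθ hη₂ hτ.le hD hDD hG1 hG2 hE1 hE2
    (fun σ g y => if h : Valid m G g y then
      ρ⁻¹ • (f ⟨(g, y), h⟩ (α (0 :: σ)) - s (α (0 :: σ)) • sl) else 0) ?_ ?_ ?_
  · intro σ hσ hl g y g' y' hv hv'
    obtain ⟨h1, h2⟩ := hα (0 :: σ) (hok σ hσ) (by simpa using hl)
    simp only [dif_pos hv, dif_pos hv', hnorm]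
    have := hup _ h1 ⟨(g, y), hv⟩ ⟨(g', y'), hv'⟩
    rw [hζ, hζ, h2, ← smul_sub, norm_smul, Real.norm_eq_abs, abs_of_pos hρ0] at this
    rw [div_le_iff₀ hρ0]
    simp only [Z'] at this
    linarith
  · intro σ hσ hl g y g' y' hv hv' k
    obtain ⟨h1, h2⟩ := hα (0 :: σ) (hok σ hσ) (by simpa using hl)
    simp only [dif_pos hv, dif_pos hv', hnorm]
    have := hlow _ h1 ⟨(g, y), hv⟩ ⟨(g', y'), hv'⟩ k
    rw [hζ, hζ, h2, PiLp.smul_apply, PiLp.smul_apply, smul_eq_mul, smul_eq_mul, ← mul_sub,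
      abs_mul, abs_of_pos hρ0] at this
    rw [← mul_div_assoc, le_div_iff₀ hρ0]
    simp only [Z'] at this
    linarith
  · intro σ hσ hl l hlm g y hv hg
    simp only [dif_pos hv]
    obtain ⟨h1, h2⟩ := htr (0 :: σ) (hok σ hσ) l hlm (by simpa using hl)
    rw [List.cons_append] at h1 h2
    have h3 := (hα (0 :: (σ ++ [l])) (hok _ fun x hx => by
        rcases List.mem_append.1 hx with h | h
        · exact hσ x h
        · rw [List.mem_singleton.1 h]; exact hlm) (by simp; omega)).1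
    obtain ⟨t, ht⟩ : ∃ t : Lane m G, t = ⟨(g, y), hv⟩ := ⟨_, rfl⟩
    rw [← ht]
    have h4 := straight n s (fun i => ρ ^ 2 * τ ^ 2 / 2 * (s (i + 1) - s i) +
      2 * (D₁ : ℝ) ^ 2 * (‖ζ t (i + 1) - ζ t i‖ ^ 2 / (s (i + 1) - s i))) (f t) sl hslt
      (fun i hi => by
        have hp : 0 < s (i + 1) - s i := by linarith [hslt i hi]
        rw [div_le_iff₀ hp]
        refine (htest i hi t).trans (le_of_eq ?_)
        field_simp; ring) h1 h3
    rw [hfn, hf0, hsn, hs0, add_sub_cancel_left, real_inner_self_eq_norm_sq, Finset.sum_add_distrib,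
      ← Finset.mul_sum, ← Finset.mul_sum, Finset.sum_range_sub, hsn, hs0] at h4
    have h5 : ∀ i ∈ Finset.range n, ‖ζ t (i + 1) - ζ t i‖ ^ 2 / (s (i + 1) - s i) ≤
        (2 * R * ρ) ^ 2 / (μ * ω ^ (σ.length + 1)) := by
      intro i hi
      rw [Finset.mem_range] at hi
      by_cases h0 : ζ t (i + 1) = ζ t i
      · rw [h0, sub_self, norm_zero]; simp only [ne_eq, OfNat.ofNat_ne_zero, not_false_eq_true,
          zero_pow, zero_div]; positivity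
      rcases hstep i hi with h | h
      · exact absurd (by rw [hζ0 t i h.1, hζ0 t _ h.2.1]) h0
      have hlev : max (S i).length (S (i + 1)).length ≤ σ.length + 1 := by
        by_contra hc
        apply h0
        obtain ⟨l', h6 | h6⟩ := h.1
        · have := congrArg List.length h6
          simp only [List.length_append, List.length_singleton] at this
          rw [hζ, hζ, h6, ht, Z'_static l' hv (g0 := σ.length) (by omega) hg]
        · have := congrArg List.length h6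
          simp only [List.length_append, List.length_singleton] at this
          rw [hζ, hζ, h6, ht, Z'_static l' hv (g0 := σ.length) (by omega) hg]
      rw [h.2.1]
      refine div_le_div₀ (by positivity) (pow_le_pow_left₀ (norm_nonneg _) (hζd t i) 2)
        (by positivity) ?_
      exact mul_le_mul_of_nonneg_left (pow_le_pow_of_le_one hω0.le hω1 hlev) hμ0.le
    have h6 := Finset.sum_le_sum h5
    rw [Finset.sum_const, Finset.card_range, nsmul_eq_mul] at h6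
    have h7 : 0 ≤ s (α (0 :: (σ ++ [l]))) - s (α (0 :: σ)) := by
      have : ∀ a b, a ≤ b → b ≤ n → s a ≤ s b := by
        intro a b hab hb
        induction b, hab using Nat.le_induction with
        | base => exact le_rfl
        | succ k hk ih => exact (ih (by omega)).trans (hslt k (by omega)).le
      linarith [this _ _ h1 h3]
    have h8 : s (α (0 :: (σ ++ [l]))) - s (α (0 :: σ)) ≤ n * (μ * ω ^ (σ.length + 2)) :=
      h2.trans (by simp only [List.length_cons]; gcongr)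
    have h9 : s (α (0 :: (σ ++ [l]))) - s (α (0 :: σ)) ≤ 1 := by
      refine h8.trans ?_
      have : ω ^ (σ.length + 2) ≤ 1 := pow_le_one₀ hω0.le hω1
      have h10 : n * (μ * ω ^ (σ.length + 2)) ≤ n * (μ * 1) := by gcongr
      linarith
    rw [← smul_sub, norm_smul, norm_inv, Real.norm_eq_abs, abs_of_pos hρ0, inv_mul_le_iff₀ hρ0]
    apply (abs_le_of_sq_le_sq' _ (by positivity)).2
    refine h4.trans ?_
    generalize s (α (0 :: (σ ++ [l]))) - s (α (0 :: σ)) = ℓ at h7 h8 h9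
    generalize ∑ i ∈ Finset.range n, ‖ζ t (i + 1) - ζ t i‖ ^ 2 / (s (i + 1) - s i) = E at h6
    have h10 : ℓ * (2 * (D₁ : ℝ) ^ 2 * E) ≤ n * (μ * ω ^ (σ.length + 2)) * (2 * (D₁ : ℝ) ^ 2 *
        (n * ((2 * R * ρ) ^ 2 / (μ * ω ^ (σ.length + 1))))) :=
      (mul_le_mul_of_nonneg_left (mul_le_mul_of_nonneg_left h6 (by positivity)) h7).trans
        (mul_le_mul_of_nonneg_right h8 (by positivity))
    have h11 : n * (μ * ω ^ (σ.length + 2)) * (2 * (D₁ : ℝ) ^ 2 *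
        (n * ((2 * R * ρ) ^ 2 / (μ * ω ^ (σ.length + 1))))) =
        ρ ^ 2 * (8 * (2 * (D₁ : ℝ) ^ 2) * n ^ 2 * R ^ 2 * ω) / 2 := by
      field_simp; ring
    have h12 : ρ ^ 2 * (8 * (2 * (D₁ : ℝ) ^ 2) * n ^ 2 * R ^ 2 * ω) / 2 ≤ ρ ^ 2 * τ ^ 2 / 2 := by
      gcongr
    have h13 : ℓ * (ρ ^ 2 * τ ^ 2 / 2) ≤ ρ ^ 2 * τ ^ 2 / 2 :=
      mul_le_of_le_one_left (by positivity) h9
    calc _ = ℓ * (ρ ^ 2 * τ ^ 2 / 2) + ℓ * (2 * (D₁ : ℝ) ^ 2 * E) := by ring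
      _ ≤ ρ ^ 2 * τ ^ 2 / 2 + ρ ^ 2 * τ ^ 2 / 2 := by linarith
      _ = _ := by ring

theorem exists_piece (M : ℕ) (hM : 1 ≤ M) :
    ∃ (ι : Type) (_ : Fintype ι) (X : Set (EuclideanSpace ℝ ι)), X.Finite ∧
      (∀ p ∈ X, ‖p‖ ≤ 2) ∧ Cov X ∧
      ∀ (Y : Type) [NormedAddCommGroup Y] [InnerProductSpace ℝ Y] (D : ℝ), 1 ≤ D → D ≤ M →
        ∀ F : EuclideanSpace ℝ ι → Y,
        (∀ p ∈ X, ∀ q ∈ X, ‖F p - F q‖ ≤ D * ‖p - q‖) →
        (∀ p ∈ X, ∀ q ∈ X, ∀ o, |p o - q o| ≤ D * ‖F p - F q‖) → Concl Y M D := by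
  obtain ⟨κ, T, _, _, _, g, η, hη, hF⟩ := exists_gad M M hM hM
  obtain ⟨ι, _, X, h1, -, h2, h3, h4⟩ := outer g M η M hη (by exact_mod_cast hM)
  exact ⟨ι, inferInstance, X, h1, h2, h3, fun Y _ _ D hD hDM F hup hlow =>
    h4 Y D (by linarith) hDM (hF Y D hD hDM) F hup hlow⟩

end Crest.Agent.H1.LP
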