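import Crest.Agent.H1.LPa
import Crest.Agent.H1.LPe

/-!
Transfer of the finite pieces into an infinite-dimensional normed space and their assembly.
-/

set_option autoImplicit false
set_option linter.unusedSectionVars false

namespace Crest.Agent.H1.LP

lemma not_concl (Y : Type) [NormedAddCommGroup Y] [NormedSpace ℝ Y] [FiniteDimensional ℝ Y]
    (D : ℝ) : ∃ K₀ : ℕ, ∀ K, K₀ ≤ K → ¬ Concl Y K D := by
  classical
  have := FiniteDimensional.proper_real Y
  obtain ⟨t, -, ht, hcov⟩ := finite_cover_balls_of_compact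
    (isCompact_closedBall (0 : Y) (8 * D ^ 2)) (e := 1 / 2) (by norm_num)
  refine ⟨ht.toFinset.card + 1, fun K hK ⟨δ, hδ, z, hz⟩ => ?_⟩
  have h1 : ∀ k ∈ Finset.range K, ∃ c ∈ ht.toFinset, δ⁻¹ • (z k - z 0) ∈ Metric.ball c (1 / 2) := by
    intro k hk
    have : δ⁻¹ • (z k - z 0) ∈ Metric.closedBall (0 : Y) (8 * D ^ 2) := by
      rw [mem_closedBall_zero_iff, norm_smul, norm_inv, Real.norm_eq_abs, abs_of_pos hδ,
        inv_mul_le_iff₀ hδ]
      by_cases h0 : k = 0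
      · rw [h0, sub_self, norm_zero]; positivity
      · linarith [(hz k (Finset.mem_range.1 hk) 0 (by omega) h0).2]
    simpa using hcov this
  choose! c hc1 hc2 using h1
  obtain ⟨k, hk, l, hl, hkl, he⟩ := Finset.exists_ne_map_eq_of_card_lt_of_maps_to
    (s := Finset.range K) (t := ht.toFinset) (by simp only [Finset.card_range]; omega) hc1
  have h2 := hc2 k hk
  have h3 := hc2 l hl
  rw [he] at h2
  have h4 := dist_triangle_right (δ⁻¹ • (z k - z 0)) (δ⁻¹ • (z l - z 0)) (c l)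
  rw [Metric.mem_ball] at h2 h3
  rw [dist_eq_norm, ← smul_sub, sub_sub_sub_cancel_right, norm_smul, norm_inv, Real.norm_eq_abs,
    abs_of_pos hδ, inv_mul_le_iff₀ hδ] at h4
  have h5 := (hz k (Finset.mem_range.1 hk) l (Finset.mem_range.1 hl) hkl).1
  nlinarith

variable {B : Type*} [NormedAddCommGroup B] [NormedSpace ℝ B]

lemma pieceB (hB : ¬ FiniteDimensional ℝ B) (M : ℕ) (hM : 1 ≤ M) :
    ∃ P : Set B, P.Finite ∧ (∀ b ∈ P, ‖b‖ ≤ 2) ∧
      (∀ r : ℝ, 0 < r → ∀ S ⊆ P, (∀ p ∈ S, ∀ q ∈ S, ‖p - q‖ ≤ 4 * r) →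
        ∃ col : B → Col, ∀ p ∈ S, ∀ q ∈ S, col p = col q → ‖p - q‖ ≤ r) ∧
      ∀ (Y : Type) [NormedAddCommGroup Y] [InnerProductSpace ℝ Y] (D : ℝ), 1 ≤ D → D ≤ M →
        ∀ F : B → Y, (∀ p ∈ P, ∀ q ∈ P, ‖F p - F q‖ ≤ D * ‖p - q‖) →
        (∀ p ∈ P, ∀ q ∈ P, 16 * ‖p - q‖ ≤ D * ‖F p - F q‖) → Concl Y M D := by
  obtain ⟨ι, _, X, h1, h2, h3, h4⟩ := exists_piece M hM
  obtain ⟨T, hT1, hT2⟩ := exists_DR B hB ι
  refine ⟨T '' X, h1.image _, ?_, fun r hr S hS hd => ?_, fun Y _ _ D hD hDM F hup hlow => ?_⟩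
  · rintro _ ⟨p, hp, rfl⟩
    exact (hT1 p).trans (h2 p hp)
  · obtain ⟨col, hcol⟩ := h3 r hr (X ∩ T ⁻¹' S) Set.inter_subset_left fun p hp q hq o => by
      have := hT2 (p - q) o
      rw [map_sub, PiLp.sub_apply] at this
      linarith [hd _ hp.2 _ hq.2]
    have : ∀ b ∈ S, ∃ p ∈ X, T p = b := fun b hb => hS hb
    choose! w hw1 hw2 using this
    refine ⟨fun b => col (w b), fun p hp q hq hc => ?_⟩
    have := hcol _ ⟨hw1 p hp, by simpa [hw2 p hp] using hp⟩ _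
      ⟨hw1 q hq, by simpa [hw2 q hq] using hq⟩ hc
    have h5 := hT1 (w p - w q)
    rw [map_sub, hw2 p hp, hw2 q hq] at h5
    linarith
  · refine h4 Y D hD hDM (fun p => F (T p)) (fun p hp q hq => ?_) fun p hp q hq o => ?_
    · refine (hup _ ⟨p, hp, rfl⟩ _ ⟨q, hq, rfl⟩).trans ?_
      rw [← map_sub]
      exact mul_le_mul_of_nonneg_left (hT1 _) (by linarith)
    · have := hT2 (p - q) o
      rw [map_sub, PiLp.sub_apply] at this
      exact this.trans (hlow _ ⟨p, hp, rfl⟩ _ ⟨q, hq, rfl⟩)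

theorem assemble (hB : ¬ FiniteDimensional ℝ B) :
    ∃ K : Set B, IsCompact K ∧
      (∀ r : ℝ, 0 < r → ∀ S ⊆ K, (∀ p ∈ S, ∀ q ∈ S, ‖p - q‖ ≤ 4 * r) →
        ∃ col : B → Col, ∀ p ∈ S, ∀ q ∈ S, col p = col q → ‖p - q‖ ≤ r) ∧
      ∀ (Y : Type) [NormedAddCommGroup Y] [InnerProductSpace ℝ Y] [FiniteDimensional ℝ Y]
        (f : K → Y) (c C : NNReal), ¬ (LipschitzWith C f ∧ AntilipschitzWith c f) := by
  classical
  choose P hP1 hP2 hP3 hP4 using fun m : ℕ => pieceB hB (m + 1) (by omega)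
  have : Nontrivial B := by
    by_contra h
    rw [not_nontrivial_iff_subsingleton] at h
    exact hB inferInstance
  obtain ⟨x0, hx0⟩ := exists_norm_eq B (zero_le_one' ℝ)
  obtain ⟨φ, hφ⟩ : ∃ φ : ℕ → B → B, ∀ m b,
    φ m b = (1 / 2 : ℝ) ^ m • x0 + ((1 / 2 : ℝ) ^ m / 200) • b := ⟨_, fun _ _ => rfl⟩
  have hφd : ∀ m p q, ‖φ m p - φ m q‖ = (1 / 2 : ℝ) ^ m / 200 * ‖p - q‖ := by
    intro m p q
    rw [hφ, hφ, add_sub_add_left_eq_sub, ← smul_sub, norm_smul, Real.norm_eq_abs,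
      abs_of_pos (by positivity)]
  have he : ∀ m, ∀ b ∈ P m, ‖((1 / 2 : ℝ) ^ m / 200) • b‖ ≤ (1 / 2 : ℝ) ^ m / 100 := by
    intro m b hb
    rw [norm_smul, Real.norm_eq_abs, abs_of_pos (by positivity)]
    have := hP2 m b hb
    have h2 : (0 : ℝ) < (1 / 2 : ℝ) ^ m := by positivity
    nlinarith
  refine ⟨insert 0 (⋃ m, φ m '' P m), ?_, fun r hr S hS hd => ?_, fun Y _ _ _ f c C ⟨hC, hc⟩ => ?_⟩
  · have : Filter.Tendsto (Subtype.val : (⋃ m, φ m '' P m : Set B) → B) Filter.cofinite (nhds 0) := by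
      rw [Metric.tendsto_nhds]
      intro ε hε
      obtain ⟨N, hN⟩ := exists_pow_lt_of_lt_one (half_pos hε) (show (1 / 2 : ℝ) < 1 by norm_num)
      rw [Filter.eventually_cofinite]
      have hfin : (⋃ m ∈ Set.Iio N, φ m '' P m).Finite :=
        (Set.finite_Iio N).biUnion fun m _ => (hP1 m).image _
      refine (hfin.preimage Subtype.val_injective.injOn).subset ?_
      rintro ⟨x, hx⟩ hx'
      obtain ⟨m, b, hb, rfl⟩ := Set.mem_iUnion.1 hx
      simp only [Set.mem_preimage, Set.mem_iUnion]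
      refine ⟨m, ?_, b, hb, rfl⟩
      by_contra hm
      apply hx'
      rw [dist_zero_right]
      change ‖φ m b‖ < ε
      rw [hφ]
      refine (norm_add_le _ _).trans_lt ?_
      have h1 := he m b hb
      have h2 : (1 / 2 : ℝ) ^ m ≤ (1 / 2) ^ N :=
        pow_le_pow_of_le_one (by norm_num) (by norm_num) (not_lt.1 hm)
      rw [norm_smul, hx0, Real.norm_eq_abs, abs_of_pos (by positivity)]
      have h3 : (0 : ℝ) < (1 / 2 : ℝ) ^ m := by positivity
      linarith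
    have h := this.isCompact_insert_range_of_cofinite
    rwa [Subtype.range_val] at h
  · by_cases hone : ∃ m, S ⊆ φ m '' P m
    · obtain ⟨m, hm⟩ := hone
      have hl : (0 : ℝ) < (1 / 2 : ℝ) ^ m / 200 := by positivity
      obtain ⟨col, hcol⟩ := hP3 m (r / ((1 / 2 : ℝ) ^ m / 200)) (by positivity)
        (P m ∩ φ m ⁻¹' S) Set.inter_subset_left fun p hp q hq => by
          have := hd _ hp.2 _ hq.2
          rw [hφd] at this
          rw [← mul_div_assoc, le_div_iff₀ hl]; linarith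
      have : ∀ b ∈ S, ∃ p ∈ P m, φ m p = b := fun b hb => hm hb
      choose! w hw1 hw2 using this
      refine ⟨fun b => col (w b), fun p hp q hq hc => ?_⟩
      have := hcol _ ⟨hw1 p hp, by simpa [hw2 p hp] using hp⟩ _
        ⟨hw1 q hq, by simpa [hw2 q hq] using hq⟩ hc
      rw [le_div_iff₀ hl, mul_comm, ← hφd, hw2 p hp, hw2 q hq] at this
      exact this
    · push Not at hone
      have hlow : ∀ (a a' : ℝ) (e e' : B), |a - a'| - ‖e‖ - ‖e'‖ ≤
          ‖(a • x0 + e) - (a' • x0 + e')‖ := by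
        intro a a' e e'
        have h1 : (a - a') • x0 = ((a • x0 + e) - (a' • x0 + e')) - e + e' := by module
        have h2 : ‖(a - a') • x0‖ = |a - a'| := by rw [norm_smul, hx0, mul_one, Real.norm_eq_abs]
        have h3 := norm_add_le (((a • x0 + e) - (a' • x0 + e')) - e) e'
        have h4 := norm_sub_le ((a • x0 + e) - (a' • x0 + e')) e
        rw [← h1, h2] at h3
        linarith
      have hrep : ∀ p ∈ S, ∃ a : ℝ, ∃ e : B, p = a • x0 + e ∧ ‖e‖ ≤ r / 12 := by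
        intro p hp
        rcases hS hp with rfl | hp'
        · exact ⟨0, 0, by simp, by rw [norm_zero]; positivity⟩
        obtain ⟨m, b, hb, rfl⟩ := Set.mem_iUnion.1 hp'
        refine ⟨_, _, hφ m b, ?_⟩
        obtain ⟨q, hq, hqn⟩ := Set.not_subset.1 (hone m)
        have h1 := hd _ hp _ hq
        have h2 := he m b hb
        have h3 : (0 : ℝ) < (1 / 2 : ℝ) ^ m := by positivity
        rcases hS hq with rfl | hq'
        · have := hlow ((1 / 2 : ℝ) ^ m) 0 (((1 / 2 : ℝ) ^ m / 200) • b) 0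
          rw [← hφ, zero_smul, add_zero, sub_zero, norm_zero, abs_of_pos h3] at this
          linarith
        obtain ⟨m', b', hb', rfl⟩ := Set.mem_iUnion.1 hq'
        have hne : m' ≠ m := fun h => hqn (h ▸ ⟨b', hb', rfl⟩)
        have h4 := hlow ((1 / 2 : ℝ) ^ m) ((1 / 2 : ℝ) ^ m') (((1 / 2 : ℝ) ^ m / 200) • b)
          (((1 / 2 : ℝ) ^ m' / 200) • b')
        rw [← hφ, ← hφ] at h4
        have h5 := he m' b' hb'
        rcases lt_or_gt_of_ne hne with h | h
        · have h6 : (1 / 2 : ℝ) ^ m ≤ (1 / 2) ^ (m' + 1) :=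
            pow_le_pow_of_le_one (by norm_num) (by norm_num) h
          rw [pow_succ] at h6
          have := neg_le_abs ((1 / 2 : ℝ) ^ m - (1 / 2 : ℝ) ^ m')
          linarith
        · have h6 : (1 / 2 : ℝ) ^ m' ≤ (1 / 2) ^ (m + 1) :=
            pow_le_pow_of_le_one (by norm_num) (by norm_num) h
          rw [pow_succ] at h6
          have := le_abs_self ((1 / 2 : ℝ) ^ m - (1 / 2 : ℝ) ^ m')
          linarith
      choose! a e hae he' using hrep
      refine ⟨fun p => (((⌊32 * a p / r⌋ : ℤ) : ZMod 2050), 0, true), fun p hp q hq hc => ?_⟩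
      simp only [Prod.mk.injEq, and_true] at hc
      have h1 := hlow (a p) (a q) (e p) (e q)
      rw [← hae p hp, ← hae q hq] at h1
      have h2 := floor_col hr (by linarith [hd p hp q hq, he' p hp, he' q hq]) hc
      have h3 : p - q = (a p - a q) • x0 + (e p - e q) := by
        have e1 := hae p hp
        have e2 := hae q hq
        generalize a p = u, a q = v, e p = w, e q = z at e1 e2 ⊢
        rw [e1, e2]; module
      rw [h3]
      refine (norm_add_le _ _).trans ?_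
      rw [norm_smul, hx0, mul_one, Real.norm_eq_abs]
      linarith [norm_sub_le (e p) (e q), he' p hp, he' q hq]
  · obtain ⟨D, hD1, hD2, hD3⟩ : ∃ D : ℝ, 1 ≤ D ∧ (C : ℝ) ≤ D ∧ 16 * (c : ℝ) ≤ D :=
      ⟨max 1 (max C (16 * c)), le_max_left _ _, (le_max_left _ _).trans (le_max_right _ _),
        (le_max_right _ _).trans (le_max_right _ _)⟩
    obtain ⟨K₀, hK₀⟩ := not_concl Y D
    obtain ⟨m₁, hm₁⟩ := exists_nat_ge D
    obtain ⟨m, hm⟩ : ∃ m, m = max K₀ m₁ := ⟨_, rfl⟩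
    have hmem : ∀ b ∈ P m, φ m b ∈ insert 0 (⋃ m, φ m '' P m) := fun b hb =>
      Or.inr (Set.mem_iUnion.2 ⟨m, b, hb, rfl⟩)
    have hl : (0 : ℝ) < (1 / 2 : ℝ) ^ m / 200 := by positivity
    refine hK₀ (m + 1) (by omega) (hP4 m Y D hD1 (hm₁.trans (by exact_mod_cast (by omega)))
      (fun b => if h : φ m b ∈ insert 0 (⋃ m, φ m '' P m) then
        ((1 / 2 : ℝ) ^ m / 200)⁻¹ • f ⟨φ m b, h⟩ else 0) (fun p hp q hq => ?_) fun p hp q hq => ?_)
    · simp only [dif_pos (hmem p hp), dif_pos (hmem q hq)]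
      rw [← smul_sub, norm_smul, norm_inv, Real.norm_eq_abs, abs_of_pos hl, inv_mul_le_iff₀ hl]
      have := hC.dist_le_mul ⟨_, hmem p hp⟩ ⟨_, hmem q hq⟩
      rw [dist_eq_norm, Subtype.dist_eq, dist_eq_norm, hφd] at this
      refine this.trans ?_
      calc _ ≤ D * ((1 / 2 : ℝ) ^ m / 200 * ‖p - q‖) := by gcongr
        _ = _ := by ring
    · simp only [dif_pos (hmem p hp), dif_pos (hmem q hq)]
      rw [← smul_sub, norm_smul, norm_inv, Real.norm_eq_abs, abs_of_pos hl, inv_mul_eq_div,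
        ← mul_div_assoc, le_div_iff₀ hl]
      have := hc.le_mul_dist ⟨_, hmem p hp⟩ ⟨_, hmem q hq⟩
      rw [dist_eq_norm (f _), Subtype.dist_eq, dist_eq_norm, hφd] at this
      calc _ = 16 * ((1 / 2 : ℝ) ^ m / 200 * ‖p - q‖) := by ring
        _ ≤ 16 * (c * ‖f ⟨_, hmem p hp⟩ - f ⟨_, hmem q hq⟩‖) := by gcongr
        _ = 16 * c * ‖f ⟨_, hmem p hp⟩ - f ⟨_, hmem q hq⟩‖ := by ring
        _ ≤ _ := by gcongr

end Crest.Agent.H1.LP
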