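import Crest.Agent.Lead.P3I

/-! Row 40: nearby unit circles meet the mixed region. -/

set_option autoImplicit false

namespace Crest.Agent.H1.P3
open MeasureTheory Metric Set Filter Topology
open Crest.Agent.Lead.P3

lemma core (hB : BasicStmt) (F : Set ℝ) (hF : MeasurableSet F) (p q ρ κ γ g : ℝ) (hpq : p ≤ q)
    (hρ : q - p ≤ ρ) (hκ0 : 0 ≤ κ) (hκ : κ ≤ 1 / 2) (hγ : 0 ≤ γ) (u v : ℝ → ℝ)
    (hu : ∀ s t, |u s - s - (u t - t)| ≤ κ * |s - t|)
    (hv : ∀ s t, |v s - s - (v t - t)| ≤ κ * |s - t|)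
    (bu : ∀ s, |u s - s| ≤ κ) (bv : ∀ s, |v s - s| ≤ κ)
    (hq : volume (Icc (q - κ) (q + κ) \ F) ≤ ENNReal.ofReal (γ * κ))
    (hp : volume (Icc (p - κ) (p + κ) ∩ F) ≤ ENNReal.ofReal (γ * κ))
    (hg0 : 0 ≤ g) (hg : v q + g ≤ u q) :
    ENNReal.ofReal ((g - 2 * γ * κ - 4 * κ * (ρ + 2 * κ)) / 2) ≤
      volume {θ | θ ∈ Icc p q ∧ u θ ∈ F ∧ v θ ∉ F} := by
  have RL := hB.2.1
  set M := {θ | θ ∈ Icc p q ∧ u θ ∈ F ∧ v θ ∉ F} with hM
  set Su := {θ | θ ∈ Icc p q ∧ u θ ∈ F} with hSu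
  set Sv := {θ | θ ∈ Icc p q ∧ v θ ∈ F} with hSv
  have fin : ∀ (S : Set ℝ) (a b : ℝ), S ⊆ Icc a b → volume S ≠ ⊤ := fun S a b h =>
    ne_top_of_le_ne_top (by simp) (measure_mono h)
  have fM : volume M ≠ ⊤ := fin M p q fun _ h => h.1
  have fu : volume Su ≠ ⊤ := fin Su p q fun _ h => h.1
  have fv : volume Sv ≠ ⊤ := fin Sv p q fun _ h => h.1
  have lu : ∀ s t, |u s - u t| ≤ (1 + κ) * |s - t| := by
    intro s t
    have := hu s t
    calc |u s - u t| = |(u s - s - (u t - t)) + (s - t)| := by ring_nf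
      _ ≤ _ := abs_add_le _ _
      _ ≤ _ := by linarith
  have cu : Continuous u := by
    refine (LipschitzWith.of_dist_le_mul (K := ⟨1 + κ, by linarith⟩) fun s t => ?_).continuous
    rw [Real.dist_eq, Real.dist_eq]; exact lu s t
  have ev : ∀ s t, |s - t| ≤ (1 + 2 * κ) * |v s - v t| := by
    intro s t
    have h1 := hv s t
    have h2 : |s - t| ≤ |v s - v t| + |v s - s - (v t - t)| := by
      calc |s - t| = |(v s - v t) - (v s - s - (v t - t))| := by ring_nf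
        _ ≤ _ := abs_sub _ _
    have h3 := abs_nonneg (s - t)
    have h4 := abs_nonneg (v s - v t)
    nlinarith [mul_nonneg hκ0 h4, mul_nonneg hκ0 h3, mul_nonneg (mul_nonneg hκ0 h3) (sub_nonneg.2 hκ)]
  have mv : ∀ s t, s ≤ t → v s ≤ v t := by
    intro s t h
    have h1 := (abs_le.1 (hv s t)).2
    rw [abs_of_nonpos (by linarith)] at h1
    nlinarith
  have h1 : volume (F ∩ Icc (u p) (u q)) ≤ ENNReal.ofReal (1 + κ) * volume Su := by
    refine le_trans (measure_mono ?_) (RL (fun t w => t = u w) (1 + κ) Su (by linarith) ?_)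
    · rintro t ⟨ht, hI⟩
      obtain ⟨w, hw, rfl⟩ := intermediate_value_Icc hpq cu.continuousOn hI
      exact ⟨w, ⟨hw, ht⟩, rfl⟩
    · rintro _ w _ w' rfl rfl; exact lu w w'
  have h2 : volume Sv ≤ ENNReal.ofReal (1 + 2 * κ) * volume (F ∩ Icc (v p) (v q)) := by
    refine le_trans (measure_mono ?_) (RL (fun t w => w = v t) (1 + 2 * κ) _ (by linarith) ?_)
    · rintro t ⟨hI, ht⟩
      exact ⟨v t, ⟨ht, mv _ _ hI.1, mv _ _ hI.2⟩, rfl⟩
    · rintro t _ t' _ rfl rfl; exact ev t t'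
  have h3 : volume (F ∩ Icc (v p) (v q)) + volume (F ∩ Ioc (v q) (u q)) ≤
      volume (F ∩ Icc (u p) (u q)) + ENNReal.ofReal (γ * κ) := by
    rw [← measure_union _ (hF.inter measurableSet_Ioc)]
    · refine le_trans (measure_mono ?_) ((measure_union_le _ _).trans (add_le_add le_rfl hp))
      have a1 := abs_le.1 (bu p)
      have a2 := abs_le.1 (bv p)
      have a3 := mv p q hpq
      rintro x (⟨hx, h1, h2⟩ | ⟨hx, h1, h2⟩)
      · by_cases h : u p ≤ x
        · exact Or.inl ⟨hx, h, by linarith⟩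
        · exact Or.inr ⟨⟨by linarith, by linarith⟩, hx⟩
      · by_cases h : u p ≤ x
        · exact Or.inl ⟨hx, h, h2⟩
        · exact Or.inr ⟨⟨by linarith, by linarith⟩, hx⟩
    · rw [Set.disjoint_left]
      rintro x ⟨_, _, h1⟩ ⟨_, h2, _⟩
      linarith
  have h4 : ENNReal.ofReal g ≤ volume (F ∩ Ioc (v q) (u q)) + ENNReal.ofReal (γ * κ) := by
    calc ENNReal.ofReal g ≤ volume (Ioc (v q) (u q)) := by
          rw [Real.volume_Ioc]; exact ENNReal.ofReal_le_ofReal (by linarith)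
      _ ≤ _ := by
          refine le_trans (measure_mono ?_) ((measure_union_le _ _).trans (add_le_add le_rfl hq))
          have a1 := abs_le.1 (bu q)
          have a2 := abs_le.1 (bv q)
          intro x hx
          by_cases h : x ∈ F
          · exact Or.inl ⟨h, hx⟩
          · exact Or.inr ⟨⟨by linarith [hx.1], by linarith [hx.2]⟩, h⟩
  have h5 : volume Su ≤ volume M + volume Sv := by
    refine le_trans (measure_mono ?_) (measure_union_le _ _)
    rintro x ⟨hx, h⟩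
    by_cases h' : v x ∈ F
    · exact Or.inr ⟨hx, h'⟩
    · exact Or.inl ⟨hx, h, h'⟩
  have h6 : volume (F ∩ Icc (v p) (v q)) ≤ ENNReal.ofReal (ρ + 2 * κ) := by
    refine le_trans (measure_mono inter_subset_right) ?_
    rw [Real.volume_Icc]
    have a1 := abs_le.1 (bv p)
    have a2 := abs_le.1 (bv q)
    exact ENNReal.ofReal_le_ofReal (by linarith)
  have fa : volume (F ∩ Icc (u p) (u q)) ≠ ⊤ := fin _ _ _ inter_subset_right
  have fb : volume (F ∩ Icc (v p) (v q)) ≠ ⊤ := fin _ _ _ inter_subset_right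
  have fc : volume (F ∩ Ioc (v q) (u q)) ≠ ⊤ :=
    fin _ _ _ (inter_subset_right.trans Ioc_subset_Icc_self)
  lift volume M to NNReal using fM with m
  lift volume Su to NNReal using fu with su
  lift volume Sv to NNReal using fv with sv
  lift volume (F ∩ Icc (u p) (u q)) to NNReal using fa with a
  lift volume (F ∩ Icc (v p) (v q)) to NNReal using fb with b
  lift volume (F ∩ Ioc (v q) (u q)) to NNReal using fc with c
  have hgk : 0 ≤ γ * κ := mul_nonneg hγ hκ0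
  simp only [← ENNReal.ofReal_coe_nnreal] at h1 h2 h3 h4 h5 h6 ⊢
  rw [← ENNReal.ofReal_mul (by linarith), ENNReal.ofReal_le_ofReal_iff (by positivity)] at h1 h2
  rw [← ENNReal.ofReal_add (by positivity) (by positivity),
    ← ENNReal.ofReal_add (by positivity) (by positivity),
    ENNReal.ofReal_le_ofReal_iff (by positivity)] at h3
  rw [← ENNReal.ofReal_add (by positivity) (by positivity),
    ENNReal.ofReal_le_ofReal_iff (by positivity)] at h4 h5
  rw [ENNReal.ofReal_le_ofReal_iff (by linarith)] at h6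
  apply ENNReal.ofReal_le_ofReal
  have m0 := m.2
  have b0 := b.2
  have k1 : (a : ℝ) ≤ (1 + κ) * (m + (1 + 2 * κ) * b) :=
    h1.trans (mul_le_mul_of_nonneg_left (by linarith) (by linarith))
  have k2 : (1 + κ) * ((m : ℝ) + (1 + 2 * κ) * b) ≤ 2 * m + b + 4 * κ * b := by
    have : (0 : ℝ) ≤ m := m0
    have : (0 : ℝ) ≤ b := b0
    nlinarith [mul_nonneg hκ0 this, mul_nonneg (mul_nonneg hκ0 this) (sub_nonneg.2 hκ)]
  have k3 : 4 * κ * (b : ℝ) ≤ 4 * κ * (ρ + 2 * κ) := mul_le_mul_of_nonneg_left h6 (by linarith)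
  linarith

lemma e_add (s t : ℝ) : e (s + t) = e s * e t := by
  simp [e, add_mul, Complex.exp_add]

lemma norm_e (s : ℝ) : ‖e s‖ = 1 := Complex.norm_exp_ofReal_mul_I s

lemma e_lip (s t : ℝ) : ‖e s - e t‖ ≤ |s - t| := by
  have : e s - e t = e t * (e (s - t) - 1) := by
    rw [mul_sub, ← e_add]; simp
  rw [this, norm_mul, norm_e, one_mul]
  have := Real.norm_exp_I_mul_ofReal_sub_one_le (x := s - t)
  simpa [e, mul_comm] using this

lemma arg_lip (z w : ℂ) (hz : z ∈ closedBall (1 : ℂ) (1 / 2)) (hw : w ∈ closedBall (1 : ℂ) (1 / 2)) :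
    |z.arg - w.arg| ≤ 2 * ‖z - w‖ := by
  have key : ∀ x ∈ closedBall (1 : ℂ) (1 / 2), 1 / 2 ≤ x.re := by
    intro x hx
    have h1 := (Complex.abs_re_le_norm (x - 1)).trans (mem_closedBall_iff_norm.1 hx)
    have := (abs_le.1 h1).1
    simp at this; linarith
  have h := (convex_closedBall (1 : ℂ) (1 / 2)).norm_image_sub_le_of_norm_hasDerivWithin_le
    (f := Complex.log) (f' := fun x => x⁻¹) (C := 2)
    (fun x hx => (Complex.hasDerivAt_log (Or.inl (by linarith [key x hx]))).hasDerivWithinAt)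
    (fun x hx => by
      have h1 := (key x hx).trans (Complex.re_le_norm x)
      rw [norm_inv]
      exact inv_le_of_inv_le₀ (by norm_num) (by linarith)) hw hz
  have := Complex.abs_im_le_norm (Complex.log z - Complex.log w)
  rw [Complex.sub_im, Complex.log_im, Complex.log_im] at this
  exact this.trans h

lemma arccos_lip (x y : ℝ) (hx : x ∈ Icc (1 / 4 : ℝ) (3 / 4)) (hy : y ∈ Icc (1 / 4 : ℝ) (3 / 4)) :
    |Real.arccos x - Real.arccos y| ≤ 2 * |x - y| := by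
  have h := (convex_Icc (1 / 4 : ℝ) (3 / 4)).norm_image_sub_le_of_norm_hasDerivWithin_le
    (f := Real.arccos) (f' := fun x => -(1 / √(1 - x ^ 2))) (C := 2)
    (fun x hx => (Real.hasDerivAt_arccos (by linarith [hx.1]) (by linarith [hx.2])).hasDerivWithinAt)
    (fun x hx => by
      have h1 : (1 / 2 : ℝ) ≤ √(1 - x ^ 2) := by
        apply Real.le_sqrt_of_sq_le; nlinarith [hx.1, hx.2]
      rw [norm_neg, Real.norm_eq_abs, abs_of_nonneg (by positivity), div_le_iff₀ (by linarith)]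
      linarith) hy hx
  simpa [Real.norm_eq_abs] using h

/-- the two angles -/
lemma angles (τ : ℂ) (hτ : ‖τ‖ ≤ 1 / 4) : ∃ a b : ℝ → ℝ,
    (∀ s t, |a s - s - (a t - t)| ≤ 3 * ‖τ‖ * |s - t|) ∧
    (∀ s t, |b s - s - (b t - t)| ≤ 3 * ‖τ‖ * |s - t|) ∧
    (∀ s, |a s - s| ≤ 3 * ‖τ‖) ∧ (∀ s, |b s - s| ≤ 3 * ‖τ‖) ∧
    (∀ s, τ + e s = e (a s - Real.pi / 3) + e (b s + Real.pi / 3)) ∧
    ∀ s, ‖τ‖ / 2 ≤ |(τ * e (-s)).re| → ‖τ‖ / 4 ≤ |a s - b s| := by
  set z : ℝ → ℂ := fun s => 1 + τ * e (-s) with hz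
  have z1 : ∀ s, ‖z s - 1‖ = ‖τ‖ := fun s => by simp [hz, norm_e]
  have zb : ∀ s, z s ∈ closedBall (1 : ℂ) (1 / 2) := fun s => by
    rw [mem_closedBall_iff_norm, z1]; linarith
  have zl : ∀ s t, ‖z s - z t‖ ≤ ‖τ‖ * |s - t| := fun s t => by
    have : z s - z t = τ * (e (-s) - e (-t)) := by simp only [hz]; ring
    rw [this, norm_mul]
    refine mul_le_mul_of_nonneg_left ((e_lip _ _).trans (le_of_eq ?_)) (norm_nonneg _)
    rw [← abs_neg]; ring_nf
  have zn : ∀ s, |‖z s‖ - 1| ≤ ‖τ‖ := fun s => by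
    have := abs_norm_sub_norm_le (z s) 1
    rwa [z1, norm_one] at this
  have zi : ∀ s, ‖z s‖ / 2 ∈ Icc (1 / 4 : ℝ) (3 / 4) := fun s => by
    have := abs_le.1 (zn s)
    constructor <;> linarith
  set h : ℝ → ℝ := fun s => Real.arccos (‖z s‖ / 2) with hh
  have c3 : Real.arccos (1 / 2) = Real.pi / 3 := by
    rw [← Real.cos_pi_div_three, Real.arccos_cos] <;> linarith [Real.pi_pos]
  have al : ∀ s t, |(z s).arg - (z t).arg| ≤ 2 * (‖τ‖ * |s - t|) := fun s t =>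
    (arg_lip _ _ (zb s) (zb t)).trans (by linarith [zl s t])
  have hl : ∀ s t, |h s - h t| ≤ ‖τ‖ * |s - t| := fun s t => by
    refine (arccos_lip _ _ (zi s) (zi t)).trans ?_
    have := (abs_norm_sub_norm_le (z s) (z t)).trans (zl s t)
    rw [← sub_div, abs_div, abs_two]; linarith
  have ab : ∀ s, |(z s).arg| ≤ 2 * ‖τ‖ := fun s => by
    have := arg_lip _ 1 (zb s) (mem_closedBall_self (by norm_num))
    rwa [z1, Complex.arg_one, sub_zero] at this
  have hb : ∀ s, |h s - Real.pi / 3| ≤ ‖τ‖ := fun s => by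
    rw [← c3]
    refine (arccos_lip _ _ (zi s) (by norm_num)).trans ?_
    have := zn s
    rw [← sub_div, abs_div, abs_two]; linarith
  have hc : ∀ s, Real.cos (h s) = ‖z s‖ / 2 := fun s =>
    Real.cos_arccos (by linarith [(zi s).1]) (by linarith [(zi s).2])
  refine ⟨fun s => s + (z s).arg - h s + Real.pi / 3, fun s => s + (z s).arg + h s - Real.pi / 3,
    fun s t => ?_, fun s t => ?_, fun s => ?_, fun s => ?_, fun s => ?_, fun s hs => ?_⟩
  · have h1 := abs_le.1 (al s t); have h2 := abs_le.1 (hl s t)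
    rw [abs_le]; constructor <;> linarith
  · have h1 := abs_le.1 (al s t); have h2 := abs_le.1 (hl s t)
    rw [abs_le]; constructor <;> linarith
  · have h1 := abs_le.1 (ab s); have h2 := abs_le.1 (hb s)
    rw [abs_le]; constructor <;> linarith
  · have h1 := abs_le.1 (ab s); have h2 := abs_le.1 (hb s)
    rw [abs_le]; constructor <;> linarith
  · have e1 : s + (z s).arg - h s + Real.pi / 3 - Real.pi / 3 = s + (z s).arg + -h s := by ring
    have e2 : s + (z s).arg + h s - Real.pi / 3 + Real.pi / 3 = s + (z s).arg + h s := by ring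
    have e3 : e (-h s) + e (h s) = (‖z s‖ : ℂ) := by
      have : ((‖z s‖ : ℝ) : ℂ) = 2 * Complex.cos (h s : ℝ) := by
        rw [← Complex.ofReal_cos, hc]; push_cast; ring
      rw [this, Complex.two_cos]; simp [e, add_comm]
    have e4 : (‖z s‖ : ℂ) * e (z s).arg = z s := Complex.norm_mul_exp_arg_mul_I _
    have e5 : e s * e (-s) = 1 := by rw [← e_add]; simp [e]
    simp only [e1, e2, e_add]
    calc τ + e s = e s * z s := by simp only [hz]; linear_combination (-τ) * e5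
      _ = _ := by linear_combination (-e s) * e4 - e s * e (z s).arg * e3
  · have e1 : s + (z s).arg - h s + Real.pi / 3 - (s + (z s).arg + h s - Real.pi / 3) =
        -(2 * (h s - Real.pi / 3)) := by ring
    simp only [e1, abs_neg, abs_mul, abs_two]
    have h1 := Real.abs_cos_sub_cos_le (h s) (Real.pi / 3)
    rw [hc, Real.cos_pi_div_three, ← sub_div, abs_div, abs_two] at h1
    have h2 : ‖z s‖ ^ 2 = 1 + 2 * (τ * e (-s)).re + ‖τ‖ ^ 2 := by
      have n1 : ‖τ‖ = ‖τ * e (-s)‖ := by simp [norm_e]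
      rw [n1, Complex.sq_norm, Complex.sq_norm, Complex.normSq_add]
      simp; ring
    have h3 := (zi s).1
    have h4 := (zi s).2
    have h5 := norm_nonneg τ
    have h6 : ‖τ‖ / 4 ≤ |‖z s‖ - 1| := by
      by_contra hn
      push Not at hn
      have h7 := abs_lt.1 hn
      rcases le_abs.1 hs with h8 | h8 <;> nlinarith
    linarith

lemma dir (τ : ℂ) (q : ℝ) : ∃ d : ℝ, (d = 0 ∨ d = Real.pi / 3) ∧
    ‖τ‖ / 2 ≤ |(τ * e (-(q + d))).re| := by
  set w := τ * e (-q) with hw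
  have n1 : ‖τ‖ ^ 2 = w.re ^ 2 + w.im ^ 2 := by
    have : ‖τ‖ = ‖w‖ := by simp [hw, norm_e]
    rw [this, Complex.sq_norm, Complex.normSq_apply]; ring
  by_cases h : ‖τ‖ / 2 ≤ |w.re|
  · exact ⟨0, Or.inl rfl, by rw [add_zero]; exact h⟩
  refine ⟨Real.pi / 3, Or.inr rfl, ?_⟩
  have e1 : (τ * e (-(q + Real.pi / 3))).re = w.re / 2 + √3 / 2 * w.im := by
    rw [neg_add, e_add, ← mul_assoc, ← hw, Complex.mul_re]
    have a : (e (-(Real.pi / 3))).re = 1 / 2 := by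
      rw [e, Complex.exp_ofReal_mul_I_re, Real.cos_neg, Real.cos_pi_div_three]
    have b : (e (-(Real.pi / 3))).im = -(√3 / 2) := by
      rw [e, Complex.exp_ofReal_mul_I_im, Real.sin_neg, Real.sin_pi_div_three]
    rw [a, b]; ring
  rw [e1]
  by_contra h'
  push Not at h h'
  have h1 := abs_lt.1 h
  have h2 := abs_lt.1 h'
  have s3 : √3 ^ 2 = 3 := Real.sq_sqrt (by norm_num)
  have h3 : (√3 / 2 * w.im) ^ 2 < (3 * ‖τ‖ / 4) ^ 2 := sq_lt_sq' (by linarith) (by linarith)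
  have h4 : w.re ^ 2 < (‖τ‖ / 2) ^ 2 := sq_lt_sq' (by linarith) (by linarith)
  nlinarith

lemma ae_sh {P : ℝ → Prop} (h : ∀ᵐ s : ℝ, P s) (c : ℝ) : ∀ᵐ s : ℝ, P (s + c) :=
  (measurePreserving_add_right volume c).quasiMeasurePreserving.ae h

lemma half (hB : BasicStmt) (E E' : Set ℝ) (hE : MeasurableSet E)
    (h1 : ∀ᵐ s : ℝ, s ∈ E ∨ s ∈ E') (h2 : ∀ᵐ s : ℝ, ¬ (s ∈ E ∧ s + Real.pi / 3 ∈ E))
    (h3 : ∀ᵐ s : ℝ, ¬ (s ∈ E' ∧ s + Real.pi / 3 ∈ E')) (p q : ℝ) (hpq : p ≤ q)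
    (hρ : q - p ≤ 1 / 400) (hq : Dens E q) (hp : Dens E' p) :
    ∃ τ₀ > 0, ∀ τ : ℂ, τ ≠ 0 → ‖τ‖ < τ₀ → ∃ a : ℝ,
      ENNReal.ofReal (1 / 16 * ‖τ‖) ≤
        volume {θ | θ ∈ Icc a (a + 1) ∧ ∃ s ∈ E, ∃ s' ∈ E', τ + e θ = e s + e s'} := by
  have good : ∀ᵐ x : ℝ, (x ∈ E → x ∉ E') ∧ ∀ d, (d = 0 ∨ d = Real.pi / 3) →
      (x ∈ E → if d = 0 then x + d - Real.pi / 3 ∈ E' ∧ x + d + Real.pi / 3 ∈ E'
        else x + d - Real.pi / 3 ∈ E ∧ x + d + Real.pi / 3 ∈ E) ∧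
      (x ∉ E → if d = 0 then x + d - Real.pi / 3 ∈ E ∧ x + d + Real.pi / 3 ∈ E
        else x + d - Real.pi / 3 ∈ E' ∧ x + d + Real.pi / 3 ∈ E') := by
    filter_upwards [ae_sh h1 (-(Real.pi / 3)), h1, ae_sh h1 (Real.pi / 3),
      ae_sh (ae_sh h1 (Real.pi / 3)) (Real.pi / 3), ae_sh h2 (-(Real.pi / 3)), h2,
      ae_sh h2 (Real.pi / 3), ae_sh h3 (-(Real.pi / 3)), h3, ae_sh h3 (Real.pi / 3)]
      with x a0 a1 a2 a3 b0 b1 b2 c0 c1 c2
    rw [← sub_eq_add_neg] at a0 b0 c0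
    rw [sub_add_cancel] at b0 c0
    refine ⟨by tauto, ?_⟩
    rintro d (rfl | rfl)
    · simp only [if_true, add_zero]; tauto
    · have : Real.pi / 3 ≠ 0 := by positivity
      simp only [if_neg this, add_sub_cancel_right]; tauto
  have dq := hq (1 / 200) (by norm_num)
  have dp := hp (1 / 200) (by norm_num)
  obtain ⟨r, hr0, hr⟩ : ∃ r > 0, ∀ κ, 0 < κ → κ < r →
      volume (Icc (q - κ) (q + κ) \ E) ≤ ENNReal.ofReal (1 / 200 * κ) ∧
      volume (Icc (p - κ) (p + κ) \ E') ≤ ENNReal.ofReal (1 / 200 * κ) := by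
    obtain ⟨r, hr0, hr⟩ := (nhdsGT_basis (0 : ℝ)).eventually_iff.1 (dq.and dp)
    exact ⟨r, hr0, fun κ h1 h2 => hr ⟨h1, h2⟩⟩
  refine ⟨min (r / 3) (1 / 2400), by positivity, fun τ hτ0 hτ => ?_⟩
  have t0 : 0 < ‖τ‖ := norm_pos_iff.2 hτ0
  obtain ⟨t1, t2⟩ := lt_min_iff.1 hτ
  obtain ⟨a, b, la, lb, ba, bb, hab, hgap⟩ := angles τ (by linarith)
  obtain ⟨d, hd, hdir⟩ := dir τ q
  obtain ⟨dq', dp'⟩ := hr (3 * ‖τ‖) (by linarith) (by linarith)
  have dp'' : volume (Icc (p - 3 * ‖τ‖) (p + 3 * ‖τ‖) ∩ E) ≤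
      ENNReal.ofReal (1 / 200 * (3 * ‖τ‖)) := by
    refine le_trans (measure_mono_ae ?_) dp'
    filter_upwards [good] with x hx h
    exact ⟨h.1, hx.1 h.2⟩
  -- the two shifted angle functions
  have sh : ∀ f : ℝ → ℝ, (∀ s t, |f s - s - (f t - t)| ≤ 3 * ‖τ‖ * |s - t|) →
      (∀ s, |f s - s| ≤ 3 * ‖τ‖) →
      (∀ s t, |f (s + d) - d - s - (f (t + d) - d - t)| ≤ 3 * ‖τ‖ * |s - t|) ∧
      (∀ s, |f (s + d) - d - s| ≤ 3 * ‖τ‖) ∧
      ∀ᵐ s : ℝ, ∀ N : Set ℝ, volume N = 0 → True := by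
    intro f h1 h2
    refine ⟨fun s t => ?_, fun s => ?_, by simp⟩
    · have := h1 (s + d) (t + d)
      rw [add_sub_add_right_eq_sub] at this
      convert this using 2; ring
    · convert h2 (s + d) using 2; ring
  have pull : ∀ f : ℝ → ℝ, (∀ s t, |f s - s - (f t - t)| ≤ 3 * ‖τ‖ * |s - t|) →
      ∀ P : ℝ → Prop, (∀ᵐ x : ℝ, P x) → ∀ᵐ x : ℝ, P (f x) := by
    intro f hf P hP
    have := hB.2.1 (fun t w => w = f t) 2 {x | ¬ P x} (by norm_num) (by
      rintro t _ t' _ rfl rfl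
      have h1 := hf t t'
      have h2 : |t - t'| ≤ |f t - f t'| + |f t - t - (f t' - t')| := by
        calc |t - t'| = |(f t - f t') - (f t - t - (f t' - t'))| := by ring_nf
          _ ≤ _ := abs_sub _ _
      have h3 := abs_nonneg (t - t')
      nlinarith)
    rw [ae_iff.1 hP, mul_zero] at this
    rw [ae_iff]
    refine le_antisymm (le_trans (measure_mono fun t ht => ?_) this) zero_le
    exact ⟨f t, ht, rfl⟩
  obtain ⟨la', ba', -⟩ := sh a la ba
  obtain ⟨lb', bb', -⟩ := sh b lb bb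
  have ga := pull (fun s => a (s + d) - d) la' _ good
  have gb := pull (fun s => b (s + d) - d) lb' _ good
  refine ⟨p + d, ?_⟩
  rw [← measure_preimage_add_right volume d]
  have num : ENNReal.ofReal (1 / 16 * ‖τ‖) ≤ ENNReal.ofReal ((‖τ‖ / 4 - 2 * (1 / 200) * (3 * ‖τ‖) -
      4 * (3 * ‖τ‖) * (1 / 400 + 2 * (3 * ‖τ‖))) / 2) :=
    ENNReal.ofReal_le_ofReal (by nlinarith)
  rcases le_abs.1 (hgap (q + d) hdir) with hs | hs
  · refine le_trans (num.trans (core hB E hE p q _ _ _ _ hpq hρ (by positivity) (by linarith)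
      (by norm_num) (fun s => a (s + d) - d) (fun s => b (s + d) - d) la' lb' ba' bb' dq' dp''
      (by positivity) (by linarith))) (measure_mono_ae ?_)
    filter_upwards [ga, gb] with θ h1 h2 h
    obtain ⟨hI, hu, hv⟩ := h
    refine ⟨⟨by linarith [hI.1], by linarith [hI.2]⟩, ?_⟩
    have k1 := (h1.2 d hd).1 hu
    have k2 := (h2.2 d hd).2 hv
    simp only [sub_add_cancel] at k1 k2
    split_ifs at k1 k2
    · exact ⟨_, k2.2, _, k1.1, by rw [hab, add_comm]⟩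
    · exact ⟨_, k1.1, _, k2.2, hab _⟩
  · refine le_trans (num.trans (core hB E hE p q _ _ _ _ hpq hρ (by positivity) (by linarith)
      (by norm_num) (fun s => b (s + d) - d) (fun s => a (s + d) - d) lb' la' bb' ba' dq' dp''
      (by positivity) (by linarith))) (measure_mono_ae ?_)
    filter_upwards [ga, gb] with θ h1 h2 h
    obtain ⟨hI, hu, hv⟩ := h
    refine ⟨⟨by linarith [hI.1], by linarith [hI.2]⟩, ?_⟩
    have k1 := (h1.2 d hd).2 hv
    have k2 := (h2.2 d hd).1 hu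
    simp only [sub_add_cancel] at k1 k2
    split_ifs at k1 k2
    · exact ⟨_, k1.1, _, k2.2, hab _⟩
    · exact ⟨_, k2.2, _, k1.1, by rw [hab, add_comm]⟩

theorem mixStmt (hB : BasicStmt) : MixStmt := by
  intro E E' hE hE' _ _ h1 h2 h3
  have nn : ∀ F F' : Set ℝ, (∀ᵐ s : ℝ, s ∈ F ∨ s ∈ F') →
      (∀ᵐ s : ℝ, ¬ (s ∈ F' ∧ s + Real.pi / 3 ∈ F')) → volume F ≠ 0 := by
    intro F F' a b h0
    have c : ∀ᵐ s : ℝ, s ∉ F := measure_eq_zero_iff_ae_notMem.1 h0
    have : ∀ᵐ s : ℝ, False := by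
      filter_upwards [a, ae_sh a (Real.pi / 3), b, c, ae_sh c (Real.pi / 3)] with s a1 a2 a3 a4 a5
      tauto
    simp only [Filter.eventually_false_iff_eq_bot, ae_eq_bot] at this
    exact NeZero.ne _ this
  have h1' : ∀ᵐ s : ℝ, s ∈ E' ∨ s ∈ E := h1.mono fun _ h => h.symm
  obtain ⟨s, a1, a2⟩ := hB.2.2.2.2.2.2.2.2.2.1 E E' hE hE' h1 (nn E E' h1 h3) (nn E' E h1' h2)
  obtain ⟨α, hα, dα⟩ := a1 (1 / 800) (by norm_num)
  obtain ⟨β, hβ, dβ⟩ := a2 (1 / 800) (by norm_num)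
  have b1 := abs_lt.1 hα
  have b2 := abs_lt.1 hβ
  refine ⟨1 / 16, by norm_num, ?_⟩
  rcases le_total β α with h | h
  · exact half hB E E' hE h1 h2 h3 β α h (by linarith) dα dβ
  · obtain ⟨τ₀, h0, hτ⟩ := half hB E' E hE' h1' h3 h2 α β h (by linarith) dβ dα
    refine ⟨τ₀, h0, fun τ t1 t2 => ?_⟩
    obtain ⟨a, ha⟩ := hτ τ t1 t2
    refine ⟨a, ha.trans (measure_mono ?_)⟩
    rintro θ ⟨hI, s, hs, s', hs', he⟩
    exact ⟨hI, s', hs', s, hs, by rw [he, add_comm]⟩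

end Crest.Agent.H1.P3
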