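import Crest.Agent.H1.CubeE

/-! The Park–Pham theorem (Kahn–Kalai conjecture) with an explicit constant. -/

set_option autoImplicit false

noncomputable section

namespace Crest.Agent.H1.Cube

open Finset Crest.FinProb

variable {ι : Type*} [Fintype ι] [DecidableEq ι]

lemma Ex_single (p : ℝ) (f : (ι → Bool) → ℝ) :
    Ex p f = ∑ z, f z * Ex p (fun x => if x = z then 1 else 0) := by
  simp [Ex, mul_comm]

lemma Ex_union (a b : ℝ) (f : (ι → Bool) → ℝ) :
    Ex (1 - (1 - a) * (1 - b)) f = Ex a fun x => Ex b fun y => f fun e => x e || y e := by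
  have h1 : ∀ x y : ι → Bool, f (fun e => x e || y e) =
      ∑ z, f z * ∏ e, if (x e || y e) = z e then 1 else 0 := by
    intro x y
    simp only [prod_ite_zero, mem_univ, forall_const, prod_const_one, ← funext_iff]
    simp
  simp only [h1, Ex_sum, Ex_const_mul]
  rw [Ex]
  refine sum_congr rfl fun z _ => ?_
  rw [mul_comm]
  congr 1
  have h2 : ∀ x : ι → Bool, (Ex b fun y => ∏ e, if (x e || y e) = z e then (1 : ℝ) else 0) =
      ∏ e, (b * (if (x e || true) = z e then 1 else 0) +
        (1 - b) * if (x e || false) = z e then 1 else 0) := fun x =>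
    Ex_prod (fun e c => if (x e || c) = z e then (1 : ℝ) else 0)
  simp only [h2]
  rw [Ex_prod (fun e c => (b * (if (c || true) = z e then 1 else 0) +
        (1 - b) * if (c || false) = z e then 1 else 0)), bernoulliWeight]
  refine prod_congr rfl fun e _ => ?_
  cases z e <;> simp
  ring

/-- the set coded by `x` -/
def st (x : ι → Bool) : Finset ι := univ.filter fun e => x e = true

/-- `G` covers `F` -/
def Covers (G F : Finset (Finset ι)) : Prop := ∀ S ∈ F, ∃ T ∈ G, T ⊆ S

omit [Fintype ι] in
lemma exists_frag {F : Finset (Finset ι)} (W : Finset ι) {S : Finset ι} (hS : S ∈ F) :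
    ∃ T : Finset ι, (∃ S' ∈ F, S' ⊆ W ∪ S ∧ T = S' \ W) ∧
      ∀ S' ∈ F, S' ⊆ W ∪ S → #T ≤ #(S' \ W) := by
  obtain ⟨S', h1, h2⟩ := exists_min_image (F.filter (· ⊆ W ∪ S)) (fun S' => #(S' \ W))
    ⟨S, mem_filter.2 ⟨hS, subset_union_right⟩⟩
  exact ⟨S' \ W, ⟨S', (mem_filter.1 h1).1, (mem_filter.1 h1).2, rfl⟩,
    fun S'' h3 h4 => h2 S'' (mem_filter.2 ⟨h3, h4⟩)⟩

open Classical in
/-- minimal fragments -/
def frags (F : Finset (Finset ι)) (W : Finset ι) : Finset (Finset ι) :=
  univ.filter fun T => ∃ S ∈ F, (∃ S' ∈ F, S' ⊆ W ∪ S ∧ T = S' \ W) ∧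
      ∀ S' ∈ F, S' ⊆ W ∪ S → #T ≤ #(S' \ W)

lemma frags_cover (F : Finset (Finset ι)) (W : Finset ι) : Covers (frags F W) F := by
  intro S hS
  obtain ⟨T, h1, h2⟩ := exists_frag W hS
  refine ⟨T, by simp only [frags, mem_filter, mem_univ, true_and]; exact ⟨S, hS, h1, h2⟩, ?_⟩
  obtain ⟨S', _, h3, rfl⟩ := h1
  intro e he
  rcases mem_union.1 (h3 (mem_sdiff.1 he).1) with h | h
  · exact absurd h (mem_sdiff.1 he).2
  · exact h

lemma frags_spec {F : Finset (Finset ι)} {W T : Finset ι} (h : T ∈ frags F W) :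
    (∃ S' ∈ F, T = S' \ W) ∧ ∀ S ∈ F, S ⊆ W ∪ T → T ⊆ S := by
  simp only [frags, mem_filter, mem_univ, true_and] at h
  obtain ⟨S, hS, ⟨S', h1, h2, rfl⟩, h3⟩ := h
  refine ⟨⟨S', h1, rfl⟩, fun S'' h4 h5 => ?_⟩
  have h6 : S'' \ W ⊆ S' \ W := fun e he => by
    rcases mem_union.1 (h5 (mem_sdiff.1 he).1) with h | h
    · exact absurd h (mem_sdiff.1 he).2
    · exact h
  have h7 := h3 S'' h4 (h5.trans (union_subset subset_union_left (sdiff_subset.trans h2)))
  rw [← eq_of_subset_of_card_le h6 h7]
  exact sdiff_subset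

lemma cost_bound {q : ℝ} (hq0 : 0 ≤ q) (hq : 16 * q ≤ 1) (F : Finset (Finset ι)) (m : ℕ)
    (hF : ∀ S ∈ F, #S ≤ 2 * m) :
    Ex (16 * q) (fun x => ∑ T ∈ (frags F (st x)).filter (m ≤ #·), q ^ #T) ≤ (1 / 4) ^ m := by
  classical
  set j : (ι → Bool) → Finset ι → ι → Bool := fun x T e => x e || decide (e ∈ T) with hj
  have w0 := fun x : ι → Bool => wt_nonneg (p := 16 * q) (by linarith) hq x
  have h1 : ∀ (x : ι → Bool) (T : Finset ι), bernoulliWeight (16 * q) x * q ^ #T ≤
      bernoulliWeight (16 * q) (j x T) * (1 / 16) ^ #T := by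
    intro x T
    have : bernoulliWeight (16 * q) x * (16 * q) ^ #T ≤ bernoulliWeight (16 * q) (j x T) := by
      rw [← prod_const, ← univ_inter T, ← prod_ite_mem, bernoulliWeight, bernoulliWeight,
        ← prod_mul_distrib]
      refine prod_le_prod (fun e _ => by split_ifs <;> nlinarith) fun e _ => ?_
      by_cases h : e ∈ T <;> cases hx : x e <;> simp [hj, h, hx] <;> nlinarith
    calc _ = bernoulliWeight (16 * q) x * (16 * q) ^ #T * (1 / 16) ^ #T := by
          rw [mul_assoc, ← mul_pow]
          congr 2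
          ring
      _ ≤ _ := mul_le_mul_of_nonneg_right this (by positivity)
  have hst : ∀ x T, st (j x T) = st x ∪ T := fun x T => by
    ext e
    simp [st, hj]
  calc _ ≤ ∑ x : ι → Bool, ∑ T ∈ (frags F (st x)).filter (m ≤ #·),
        bernoulliWeight (16 * q) (j x T) * (1 / 16) ^ m := by
        refine sum_le_sum fun x _ => ?_
        rw [mul_sum]
        refine sum_le_sum fun T hT => (h1 x T).trans (mul_le_mul_of_nonneg_left ?_ (w0 _))
        exact pow_le_pow_of_le_one (by norm_num) (by norm_num) (mem_filter.1 hT).2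
    _ = ∑ z : ι → Bool, bernoulliWeight (16 * q) z * ((1 / 16) ^ m *
        #((univ.sigma fun x => (frags F (st x)).filter (m ≤ #·)).filter
          fun a => j a.1 a.2 = z)) := by
        rw [sum_sigma', ← sum_fiberwise (g := fun a => j a.1 a.2)]
        refine sum_congr rfl fun z _ => ?_
        rw [sum_congr rfl (g := fun _ => bernoulliWeight (16 * q) z * (1 / 16) ^ m)
          (fun a ha => by rw [(mem_filter.1 ha).2]), sum_const, nsmul_eq_mul]
        ring
    _ ≤ Ex (16 * q) fun _ : ι → Bool => (1 / 4 : ℝ) ^ m := by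
        refine sum_le_sum fun z _ => mul_le_mul_of_nonneg_left ?_ (w0 z)
        have : #((univ.sigma fun x => (frags F (st x)).filter (m ≤ #·)).filter
            fun a => j a.1 a.2 = z) ≤ 4 ^ m := by
          by_cases hz : ∃ S ∈ F, S ⊆ st z
          · obtain ⟨S, hS, hS2⟩ := hz
            refine le_trans (card_le_card_of_injOn (t := S.powerset) (fun a => a.2)
              (fun a ha => ?_) fun a ha b hb hab => ?_) ?_
            · simp only [coe_filter, mem_sigma, mem_univ, true_and, mem_filter,
                Set.mem_ofPred_eq] at ha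
              rw [mem_coe, mem_powerset]
              exact (frags_spec ha.1.1).2 S hS (by rwa [← hst, ha.2])
            · simp only [coe_filter, mem_sigma, mem_univ, true_and, mem_filter,
                Set.mem_ofPred_eq] at ha hb
              obtain ⟨x, T⟩ := a
              obtain ⟨y, T'⟩ := b
              simp only at hab ha hb
              subst hab
              obtain ⟨⟨S1, _, e1⟩, -⟩ := frags_spec ha.1.1
              obtain ⟨⟨S2, _, e2⟩, -⟩ := frags_spec hb.1.1
              congr 1
              ext e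
              have h3 := congrFun (ha.2.trans hb.2.symm) e
              by_cases he : e ∈ T
              · have h4 := (mem_sdiff.1 (e1 ▸ he)).2
                have h5 := (mem_sdiff.1 (e2 ▸ he)).2
                simp only [st, mem_filter, mem_univ, true_and, Bool.not_eq_true] at h4 h5
                rw [h4, h5]
              · simpa [hj, he] using h3
            · rw [card_powerset, show 4 = 2 ^ 2 by rfl, ← pow_mul]
              exact Nat.pow_le_pow_right two_pos (hF S hS)
          · rw [filter_eq_empty_iff.2, card_empty]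
            · exact Nat.zero_le _
            · intro a ha h
              simp only [mem_sigma, mem_univ, true_and, mem_filter] at ha
              obtain ⟨⟨S1, h2, e1⟩, -⟩ := frags_spec ha.1
              refine hz ⟨S1, h2, ?_⟩
              rw [← h, hst, e1]
              simp
        calc _ ≤ (1 / 16 : ℝ) ^ m * 4 ^ m :=
              mul_le_mul_of_nonneg_left (by exact_mod_cast this) (by positivity)
          _ = _ := by rw [← mul_pow]; norm_num
    _ = _ := Ex_const _

theorem park_pham {q : ℝ} (hq0 : 0 ≤ q) (hq : 16 * q < 1) (k : ℕ) :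
    ∀ (F : Finset (Finset ι)) (c r : ℝ), (∀ S ∈ F, #S < 2 ^ k) →
      (∀ G, Covers G F → c ≤ ∑ T ∈ G, q ^ #T) → 0 ≤ r → r ≤ 1 → 1 - r ≤ (1 - 16 * q) ^ k →
      c * Ex r (ind {x | ∀ S ∈ F, ¬ S ⊆ st x}) ≤ (1 - (1 / 4) ^ k) / 3 := by
  induction k with
  | zero =>
    intro F c r hF hc r0 r1 _
    by_cases h : F = ∅
    · have := hc ∅ (by simp [h, Covers])
      simp only [sum_empty] at this
      have h2 : 0 ≤ Ex r (ind {x : ι → Bool | ∀ S ∈ F, ¬ S ⊆ st x}) :=
        Ex_nonneg r0 r1 fun x => by rcases ind_isBool _ x with h | h <;> rw [h] <;> norm_num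
      simpa using mul_nonpos_of_nonpos_of_nonneg this h2
    · obtain ⟨S, hS⟩ := nonempty_iff_ne_empty.2 h
      have h2 : S = ∅ := by simpa using hF S hS
      have : ind {x : ι → Bool | ∀ S ∈ F, ¬ S ⊆ st x} = fun _ => 0 := by
        ext x
        rw [ind, if_neg]
        intro h3
        exact h3 S hS (by simp [h2])
      simp [this, Ex_const]
  | succ k ih =>
    intro F c r hF hc r0 r1 hr
    have h1 : 0 < 1 - 16 * q := by linarith
    set r' := 1 - (1 - r) / (1 - 16 * q) with hr'
    have h2 : (1 - r) / (1 - 16 * q) ≤ (1 - 16 * q) ^ k := by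
      rw [div_le_iff₀ h1, ← pow_succ]
      exact hr
    have h3 : (1 - 16 * q) ^ k ≤ 1 := pow_le_one₀ h1.le (by linarith)
    have h4 : 0 ≤ (1 - r) / (1 - 16 * q) := div_nonneg (by linarith) h1.le
    have e : r = 1 - (1 - 16 * q) * (1 - r') := by
      rw [hr']
      field_simp
      ring
    rw [e, Ex_union, ← Ex_const_mul]
    have hb := cost_bound hq0 hq.le F (2 ^ k) (fun S hS => by
      have := hF S hS
      rw [pow_succ] at this
      omega)
    have hk : (1 / 4 : ℝ) ^ 2 ^ k ≤ (1 / 4) ^ (k + 1) :=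
      pow_le_pow_of_le_one (by norm_num) (by norm_num) Nat.lt_two_pow_self
    refine le_trans (Ex_mono (by linarith) hq.le (g := fun x =>
      (∑ T ∈ (frags F (st x)).filter (2 ^ k ≤ #·), q ^ #T) + (1 - (1 / 4) ^ k) / 3)
      fun x => ?_) ?_
    · set u := ∑ T ∈ (frags F (st x)).filter (2 ^ k ≤ #·), q ^ #T
      have u0 : 0 ≤ u := sum_nonneg fun _ _ => by positivity
      have k1 := ih ((frags F (st x)).filter (#· < 2 ^ k)) (c - u) r'
        (fun S hS => (mem_filter.1 hS).2) (fun G hG => by
          have := hc (G ∪ (frags F (st x)).filter (2 ^ k ≤ #·)) (fun S hS => by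
            obtain ⟨T, hT, hT2⟩ := frags_cover F (st x) S hS
            by_cases h : #T < 2 ^ k
            · obtain ⟨T', h5, h6⟩ := hG T (mem_filter.2 ⟨hT, h⟩)
              exact ⟨T', mem_union_left _ h5, h6.trans hT2⟩
            · exact ⟨T, mem_union_right _ (mem_filter.2 ⟨hT, not_lt.1 h⟩), hT2⟩)
          have h5 := sum_union_inter (s₁ := G) (s₂ := (frags F (st x)).filter (2 ^ k ≤ #·))
            (f := fun T => q ^ #T)
          have h6 : 0 ≤ ∑ T ∈ G ∩ (frags F (st x)).filter (2 ^ k ≤ #·), q ^ #T :=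
            sum_nonneg fun _ _ => by positivity
          linarith) (by linarith) (by linarith) (by linarith)
      set A := Ex r' fun y => ind {x : ι → Bool | ∀ S ∈ F, ¬ S ⊆ st x} fun e => x e || y e
      set B := Ex r' (ind {y | ∀ S ∈ (frags F (st x)).filter (#· < 2 ^ k), ¬ S ⊆ st y})
      have A0 : 0 ≤ A := Ex_nonneg (by linarith) (by linarith) fun y => by
        rcases ind_isBool _ _ with h | h <;> rw [h] <;> norm_num
      have A1 : A ≤ 1 := by
        rw [← Ex_const (ι := ι) (p := r') 1]
        exact Ex_mono (by linarith) (by linarith) fun y => by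
          rcases ind_isBool _ _ with h | h <;> rw [h] <;> norm_num
      have AB : A ≤ B := Ex_mono (by linarith) (by linarith) fun y => by
        unfold ind
        split_ifs with h5 h6
        · rfl
        · refine absurd (fun T hT hT2 => ?_) h6
          obtain ⟨⟨S1, h7, e1⟩, -⟩ := frags_spec (mem_filter.1 hT).1
          refine h5 S1 h7 fun e he => ?_
          by_cases h8 : e ∈ st x
          · simp only [st, mem_filter, mem_univ, true_and] at h8 ⊢
            simp [h8]
          · have := hT2 (e1 ▸ mem_sdiff.2 ⟨he, h8⟩)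
            simp only [st, mem_filter, mem_univ, true_and] at this ⊢
            simp [this]
        · norm_num
        · rfl
      have h7 : (1 / 4 : ℝ) ^ k ≤ 1 := pow_le_one₀ (by norm_num) (by norm_num)
      rcases le_total 0 (c - u) with h8 | h8
      · nlinarith [mul_le_mul_of_nonneg_left AB h8]
      · nlinarith [mul_nonneg (neg_nonneg.2 h8) A0]
    · rw [Ex_add, Ex_const, pow_succ] at *
      linarith

end Crest.Agent.H1.Cube
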