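import Crest.Agent.H6.TkI

/-! Row 186: rows and columns of linear complexes. -/

set_option autoImplicit false

noncomputable section
namespace Crest.Agent.H1.TkC
open Crest.Agent.H6.Tk MulOpposite Finsupp

variable {R : Type} [Ring R]

lemma unit_ext {M : Type} [AddCommGroup M] [Module R M] (u v : (Unit →₀ R) →ₗ[R] M)
    (h : u (single () 1) = v (single () 1)) : u = v := by
  refine Finsupp.lhom_ext fun i a => ?_
  have : (single i a : Unit →₀ R) = a • single () 1 := by simp
  rw [this, map_smul, map_smul, h]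

lemma gen_ext {I M : Type} [AddCommGroup M] [Module R M] (u v : (I →₀ R) →ₗ[R] M)
    (h : ∀ i, u (single i 1) = v (single i 1)) : u = v := by
  refine Finsupp.lhom_ext fun i a => ?_
  have : (single i a : I →₀ R) = a • single i 1 := by simp
  rw [this, map_smul, map_smul, h]

lemma ap_single {I M : Type} [AddCommGroup M] [Module R M] (u : (I →₀ R) →ₗ[R] M) (i : I) (a : R) :
    u (single i a) = a • u (single i 1) := by
  have : (single i a : I →₀ R) = a • single i 1 := by simp
  rw [this, map_smul]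

variable (P : Cx R)

lemma δ_row (v : Ch (pt R) P R) : δ (pt R) P R v = P.d ∘ₗ v := by
  have : (pt R).d = 0 := rfl
  simp only [δ, this, LinearMap.comp_zero, zero_add, tens_self]

lemma δ_col (w : Ch P (pt R) R) : δ P (pt R) R w = w ∘ₗ P.d := by
  have : (pt R).d = 0 := rfl
  simp only [δ, this, tens_zero, LinearMap.zero_comp, add_zero]

lemma isC_row (n : ℤ) (v : Ch (pt R) P R) : IsC (pt R) P R n v ↔
    ∀ j, (P.deg j ≠ n → v (single () 1) j = 0) ∧ v (single () 1) j * P.ε j = v (single () 1) j := by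
  constructor
  · intro h j
    obtain ⟨h1, _, h3⟩ := h () j
    exact ⟨fun hj => h1 (by simpa [pt] using hj), h3⟩
  · intro h i j
    obtain ⟨h1, h3⟩ := h j
    exact ⟨fun hj => h1 (by simpa [pt] using hj), by simp [pt], h3⟩

lemma isC_col (n : ℤ) (w : Ch P (pt R) R) : IsC P (pt R) R n w ↔
    ∀ i, (P.deg i + n ≠ 0 → w (single i 1) () = 0) ∧ P.ε i * w (single i 1) () = w (single i 1) () := by
  constructor
  · intro h i
    obtain ⟨h1, h2, _⟩ := h i ()
    exact ⟨fun hj => h1 (fun e => hj e.symm), h2⟩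
  · intro h i j
    obtain ⟨h1, h2⟩ := h i
    exact ⟨fun hj => h1 (fun e => hj e.symm), h2, by simp [pt]⟩

lemma row_cy (n : ℤ) (v : Ch (pt R) P R) (h : Cy (pt R) P R n v) :
    (∀ j, (P.deg j ≠ n → v (single () 1) j = 0) ∧ v (single () 1) j * P.ε j = v (single () 1) j) ∧
      P.d (v (single () 1)) = 0 := by
  refine ⟨(isC_row P n v).1 h.1, ?_⟩
  have := h.2
  rw [δ_row] at this
  exact LinearMap.congr_fun this (single () 1)

lemma row_bd (n : ℤ) (v : Ch (pt R) P R) : Bd (pt R) P R n v ↔ ∃ r : P.I →₀ R,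
    (∀ j, (P.deg j ≠ n - 1 → r j = 0) ∧ r j * P.ε j = r j) ∧ P.d r = v (single () 1) := by
  constructor
  · rintro ⟨u, hu, e⟩
    refine ⟨u (single () 1), (isC_row P _ u).1 hu, ?_⟩
    rw [δ_row] at e
    exact LinearMap.congr_fun e (single () 1)
  · rintro ⟨r, h, e⟩
    refine ⟨Finsupp.linearCombination R fun _ => r, (isC_row P _ _).2 (by simpa using h), ?_⟩
    rw [δ_row]
    refine unit_ext _ _ ?_
    show P.d ((Finsupp.linearCombination R fun _ : Unit => r) (single () 1)) = _
    rw [Finsupp.linearCombination_single, one_smul]; exact e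

lemma col_cy (n : ℤ) (w : Ch P (pt R) R) (h : Cy P (pt R) R n w) :
    (∀ i, (P.deg i + n ≠ 0 → w (single i 1) () = 0) ∧ P.ε i * w (single i 1) () = w (single i 1) ()) ∧
      ∀ i, w (P.d (single i 1)) () = 0 := by
  refine ⟨(isC_col P n w).1 h.1, fun i => ?_⟩
  have := h.2
  rw [δ_col] at this
  have h2 := LinearMap.congr_fun this (single i 1)
  rw [LinearMap.comp_apply] at h2
  rw [h2]; rfl

def mkCol (c : P.I → R) : Ch P (pt R) R := Finsupp.linearCombination R fun i => single () (c i)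

lemma mkCol_single (c : P.I → R) (i : P.I) (a : R) : mkCol P c (single i a) () = a * c i := by
  simp [mkCol]

lemma col_bd (n : ℤ) (w : Ch P (pt R) R) : Bd P (pt R) R n w ↔ ∃ u : Ch P (pt R) R,
    (∀ i, (P.deg i + (n - 1) ≠ 0 → u (single i 1) () = 0) ∧ P.ε i * u (single i 1) () = u (single i 1) ()) ∧
      ∀ i, u (P.d (single i 1)) () = w (single i 1) () := by
  constructor
  · rintro ⟨u, hu, e⟩
    refine ⟨u, (isC_col P _ u).1 hu, fun i => ?_⟩
    rw [δ_col] at e
    rw [← e]; rfl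
  · rintro ⟨u, h, e⟩
    refine ⟨u, (isC_col P _ _).2 h, ?_⟩
    rw [δ_col]
    refine gen_ext _ _ fun i => ?_
    ext j
    exact e i

/-- descending differential -/
def dn (a : ℕ → R) : (ℕ →₀ R) →ₗ[R] (ℕ →₀ R) :=
  Finsupp.linearCombination R fun i => Nat.casesOn i 0 fun j => single j (a j)

/-- ascending differential -/
def up (b : ℕ → R) : (ℕ →₀ R) →ₗ[R] (ℕ →₀ R) :=
  Finsupp.linearCombination R fun i => single (i + 1) (b i)

lemma dn_zero (a : ℕ → R) (c : R) : dn a (single 0 c) = 0 := by simp [dn]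
lemma dn_succ (a : ℕ → R) (i : ℕ) (c : R) : dn a (single (i + 1) c) = single i (c * a i) := by simp [dn]
lemma up_single (b : ℕ → R) (i : ℕ) (c : R) : up b (single i c) = single (i + 1) (c * b i) := by simp [up]

lemma dn_apply (a : ℕ → R) (r : ℕ →₀ R) (j : ℕ) : dn a r j = r (j + 1) * a j := by
  induction r using Finsupp.induction_linear with
  | zero => simp
  | add x y hx hy => simp [hx, hy, add_mul]
  | single i c =>
    cases i with
    | zero => simp [dn_zero]
    | succ i =>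
      rw [dn_succ]
      by_cases h : i = j
      · subst h; simp
      · simp [h]

lemma up_apply_zero (b : ℕ → R) (r : ℕ →₀ R) : up b r 0 = 0 := by
  induction r using Finsupp.induction_linear with
  | zero => simp
  | add x y hx hy => simp [hx, hy]
  | single i c => simp [up_single]

lemma up_apply (b : ℕ → R) (r : ℕ →₀ R) (j : ℕ) : up b r (j + 1) = r j * b j := by
  induction r using Finsupp.induction_linear with
  | zero => simp
  | add x y hx hy => simp [hx, hy, add_mul]
  | single i c =>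
    rw [up_single]
    by_cases h : i = j
    · subst h; simp
    · simp [h]

@[reducible] def Dn (ε a : ℕ → R) (hε : ∀ i, ε i * ε i = ε i) (h1 : ∀ i, ε (i + 1) * a i = a i) (h2 : ∀ i, a i * ε i = a i)
    (h3 : ∀ i, a (i + 1) * a i = 0) : Cx R where
  I := ℕ
  deg i := -(i : ℤ)
  fin n := Set.Subsingleton.finite fun i hi j hj => by
    simp only [Set.mem_setOf_eq] at hi hj; omega
  ε := ε
  idem := hε
  d := dn a
  d_isM i j := by
    rw [dn_apply]
    by_cases h : i = j + 1
    · subst h; simp [h1, h2]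
    · simp [Finsupp.single_apply, h]
  dd := by
    refine LinearMap.ext fun r => Finsupp.ext fun j => ?_
    simp [dn_apply, mul_assoc, h3]

@[reducible] def Up (m : ℕ) (ε b : ℕ → R) (hε : ∀ i, ε i * ε i = ε i) (h1 : ∀ i, ε i * b i = b i)
    (h2 : ∀ i, b i * ε (i + 1) = b i) (h3 : ∀ i, b i * b (i + 1) = 0) : Cx R where
  I := ℕ
  deg i := (i : ℤ) - m
  fin n := Set.Subsingleton.finite fun i hi j hj => by
    simp only [Set.mem_setOf_eq] at hi hj; omega
  ε := ε
  idem := hε
  d := up b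
  d_isM i j := by
    rw [up_single]
    by_cases h : i + 1 = j
    · subst h; simp [h1, h2]; intro h; exact absurd (by ring) h
    · simp [Finsupp.single_apply, h]
  dd := by
    refine gen_ext _ _ fun i => ?_
    simp [up_single, h3]

lemma bd_row_zero (n : ℤ) (v : Ch (pt R) P R) (h : v (single () 1) = 0) : Bd (pt R) P R n v :=
  (row_bd P n v).2 ⟨0, fun j => by simp, by rw [h, map_zero]⟩

lemma bd_col_zero (n : ℤ) (w : Ch P (pt R) R) (h : ∀ i, w (single i 1) () = 0) : Bd P (pt R) R n w :=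
  (col_bd P n w).2 ⟨0, fun j => ⟨fun _ => rfl, mul_zero _⟩, fun i => by rw [h]; rfl⟩

section
variable (ε a : ℕ → R) (hε : ∀ i, ε i * ε i = ε i) (h1 : ∀ i, ε (i + 1) * a i = a i)
  (h2 : ∀ i, a i * ε i = a i) (h3 : ∀ i, a (i + 1) * a i = 0)

lemma Dn_row (n : ℤ) (v : Ch (pt R) (Dn ε a hε h1 h2 h3) R)
    (hs : ∀ j : ℕ, -(j : ℤ) ≠ n → v (single () 1) j = 0)
    (H : ∀ j : ℕ, -(j : ℤ) = n → ∃ c, c * ε (j + 1) = c ∧ c * a j = v (single () 1) j) :
    Bd (pt R) (Dn ε a hε h1 h2 h3) R n v := by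
  by_cases hn : ∃ j : ℕ, -(j : ℤ) = n
  · obtain ⟨j, hj⟩ := hn
    obtain ⟨c, hc, e⟩ := H j hj
    refine (row_bd _ n v).2 ⟨(single (j + 1) c : ℕ →₀ R), fun (i : ℕ) => ?_, ?_⟩
    · show (-(i : ℤ) ≠ n - 1 → (single (j + 1) c : ℕ →₀ R) i = 0) ∧
        (single (j + 1) c : ℕ →₀ R) i * ε i = (single (j + 1) c : ℕ →₀ R) i
      by_cases h : j + 1 = i
      · subst h; simp only [single_eq_same, hc, and_true]; intro h; exact absurd (by push_cast; omega) h
      · simp [h]
    · refine Finsupp.ext fun (i : ℕ) => ?_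
      show dn a (single (j + 1) c) i = _
      rw [dn_succ]
      by_cases h : j = i
      · subst h; rw [single_eq_same, e]
      · rw [hs i (by omega)]; simp [h]
  · exact bd_row_zero _ n v (Finsupp.ext fun (i : ℕ) => hs i fun h => hn ⟨i, h⟩)

lemma Dn_col (n : ℤ) (w : Ch (Dn ε a hε h1 h2 h3) (pt R) R)
    (hs : ∀ i : ℕ, -(i : ℤ) + n ≠ 0 → w (single i 1) () = 0)
    (H0 : n = 0 → w (single (0 : ℕ) 1) () = 0)
    (H : ∀ i : ℕ, -((i + 1 : ℕ) : ℤ) + n = 0 → ∃ c, ε i * c = c ∧ a i * c = w (single (i + 1 : ℕ) 1) ()) :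
    Bd (Dn ε a hε h1 h2 h3) (pt R) R n w := by
  by_cases hn : ∃ j : ℕ, -((j + 1 : ℕ) : ℤ) + n = 0
  · obtain ⟨j, hj⟩ := hn
    obtain ⟨c, hc, e⟩ := H j hj
    refine (col_bd _ n w).2 ⟨mkCol (Dn ε a hε h1 h2 h3) (fun i : ℕ => if i = j then c else 0),
      fun (i : ℕ) => ?_, fun (i : ℕ) => ?_⟩
    · rw [mkCol_single]
      show (-(i : ℤ) + (n - 1) ≠ 0 → _) ∧ ε i * _ = _
      by_cases h : i = j
      · subst h; simp only [if_true, one_mul, hc, and_true]; intro h; exact absurd (by push_cast at hj; omega) h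
      · simp [h]
    · cases i with
      | zero =>
        have : (Dn ε a hε h1 h2 h3).d (single (0 : ℕ) 1) = 0 := dn_zero a 1
        rw [this, map_zero, hs 0 (by push_cast at hj ⊢; omega)]; rfl
      | succ i =>
        have : (Dn ε a hε h1 h2 h3).d (single (i + 1 : ℕ) 1) = single i (1 * a i) := dn_succ a i 1
        rw [this]
        refine (mkCol_single (Dn ε a hε h1 h2 h3) _ i _).trans ?_
        by_cases h : i = j
        · subst h; simp only [if_true, one_mul, e]
        · rw [hs (i + 1) (by push_cast at hj ⊢; omega)]; simp [h]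
  · refine bd_col_zero _ n w fun (i : ℕ) => ?_
    cases i with
    | zero =>
      by_cases h : n = 0
      · exact H0 h
      · exact hs 0 (by simpa using h)
    | succ i => exact hs (i + 1) fun h => hn ⟨i, h⟩
end

section
variable (m : ℕ) (ε b : ℕ → R) (hε : ∀ i, ε i * ε i = ε i) (h1 : ∀ i, ε i * b i = b i)
  (h2 : ∀ i, b i * ε (i + 1) = b i) (h3 : ∀ i, b i * b (i + 1) = 0)

lemma Up_row (n : ℤ) (v : Ch (pt R) (Up m ε b hε h1 h2 h3) R)
    (hs : ∀ j : ℕ, (j : ℤ) - m ≠ n → v (single () 1) j = 0)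
    (H0 : -(m : ℤ) = n → v (single () 1) (0 : ℕ) = 0)
    (H : ∀ j : ℕ, ((j + 1 : ℕ) : ℤ) - m = n → ∃ c, c * ε j = c ∧ c * b j = v (single () 1) (j + 1 : ℕ)) :
    Bd (pt R) (Up m ε b hε h1 h2 h3) R n v := by
  by_cases hn : ∃ j : ℕ, ((j + 1 : ℕ) : ℤ) - m = n
  · obtain ⟨j, hj⟩ := hn
    obtain ⟨c, hc, e⟩ := H j hj
    refine (row_bd _ n v).2 ⟨(single j c : ℕ →₀ R), fun (i : ℕ) => ?_, ?_⟩
    · show ((i : ℤ) - m ≠ n - 1 → (single j c : ℕ →₀ R) i = 0) ∧
        (single j c : ℕ →₀ R) i * ε i = (single j c : ℕ →₀ R) i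
      by_cases h : j = i
      · subst h; simp only [single_eq_same, hc, and_true]; intro h; exact absurd (by push_cast at hj; omega) h
      · simp [h]
    · refine Finsupp.ext fun (i : ℕ) => ?_
      show up b (single j c) i = _
      rw [up_single]
      by_cases h : j + 1 = i
      · subst h; rw [single_eq_same, e]
      · rw [hs i (by push_cast at hj; omega)]; simp [h]
  · refine bd_row_zero _ n v (Finsupp.ext fun (i : ℕ) => ?_)
    cases i with
    | zero =>
      by_cases h : -(m : ℤ) = n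
      · exact H0 h
      · exact hs 0 (by simpa using h)
    | succ i => exact hs (i + 1) fun h => hn ⟨i, h⟩

lemma Up_col (n : ℤ) (w : Ch (Up m ε b hε h1 h2 h3) (pt R) R)
    (hs : ∀ i : ℕ, (i : ℤ) - m + n ≠ 0 → w (single i 1) () = 0)
    (H : ∀ i : ℕ, (i : ℤ) - m + n = 0 → ∃ c, ε (i + 1) * c = c ∧ b i * c = w (single i 1) ()) :
    Bd (Up m ε b hε h1 h2 h3) (pt R) R n w := by
  by_cases hn : ∃ j : ℕ, (j : ℤ) - m + n = 0
  · obtain ⟨j, hj⟩ := hn
    obtain ⟨c, hc, e⟩ := H j hj
    refine (col_bd _ n w).2 ⟨mkCol (Up m ε b hε h1 h2 h3) (fun i : ℕ => if i = j + 1 then c else 0),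
      fun (i : ℕ) => ?_, fun (i : ℕ) => ?_⟩
    · rw [mkCol_single]
      show ((i : ℤ) - m + (n - 1) ≠ 0 → _) ∧ ε i * _ = _
      by_cases h : i = j + 1
      · subst h; simp only [if_true, one_mul, hc, and_true]; intro h; exact absurd (by push_cast; omega) h
      · simp [h]
    · have : (Up m ε b hε h1 h2 h3).d (single i 1) = single (i + 1 : ℕ) (1 * b i) := up_single b i 1
      rw [this]
      refine (mkCol_single (Up m ε b hε h1 h2 h3) _ (i + 1 : ℕ) _).trans ?_
      by_cases h : i = j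
      · subst h; simp only [if_true, one_mul, e]
      · rw [hs i (by omega)]; simp [h]
  · exact bd_col_zero _ n w fun (i : ℕ) => hs i fun h => hn ⟨i, h⟩
end

end Crest.Agent.H1.TkC
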