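import Crest.Agent.H1.TkCA
import Crest.Agent.H1.TkCG

/-! Row 186: the algebra `C` gives `CStmt`. -/

set_option autoImplicit false
set_option linter.unusedSimpArgs false

noncomputable section
namespace Crest.Agent.H1.TkC
open Crest.Agent.H6.Tk MulOpposite Finsupp

variable {k : Type} [Field k] {q : k}

def ep (q : k) : ℕ → CA k q
  | 0 => F q
  | _ + 1 => E q
def aa (q : k) : ℕ → CA k q
  | 0 => PI q
  | j + 1 => XY q (q ^ j)
def bb (q : k) : ℕ → CA k q
  | 0 => IO q
  | j + 1 => XY q (q⁻¹ ^ (j + 2))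

lemma ep_idem (i : ℕ) : ep q i * ep q i = ep q i := by
  cases i <;> ext <;> simp [ep, E, F]
lemma aa1 (i : ℕ) : ep q (i + 1) * aa q i = aa q i := by
  cases i <;> ext <;> simp [ep, aa, E, PI, XY]
lemma aa2 (i : ℕ) : aa q i * ep q i = aa q i := by
  cases i <;> ext <;> simp [ep, aa, E, F, PI, XY]
lemma bb1 (i : ℕ) : ep q i * bb q i = bb q i := by
  cases i <;> ext <;> simp [ep, bb, E, F, IO, XY]
lemma bb2 (i : ℕ) : bb q i * ep q (i + 1) = bb q i := by
  cases i <;> ext <;> simp [ep, bb, E, IO, XY]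

lemma mulE {r : CA k q} (h : r * E q = r) : r.p = 0 ∧ r.p' = 0 ∧ r.f = 0 ∧ r.n = 0 := by
  have h1 := congrArg CA.p h; have h2 := congrArg CA.p' h
  have h3 := congrArg CA.f h; have h4 := congrArg CA.n h
  simp [E] at h1 h2 h3 h4
  exact ⟨h1.symm, h2.symm, h3.symm, h4.symm⟩
lemma mulF {r : CA k q} (h : r * F q = r) : r.e = 0 ∧ r.x = 0 ∧ r.y = 0 ∧ r.z = 0 ∧ r.i = 0 ∧ r.i' = 0 := by
  have h1 := congrArg CA.e h; have h2 := congrArg CA.x h; have h3 := congrArg CA.y h
  have h4 := congrArg CA.z h; have h5 := congrArg CA.i h; have h6 := congrArg CA.i' h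
  simp [F] at h1 h2 h3 h4 h5 h6
  exact ⟨h1.symm, h2.symm, h3.symm, h4.symm, h5.symm, h6.symm⟩
lemma Emul {r : CA k q} (h : E q * r = r) : r.i = 0 ∧ r.i' = 0 ∧ r.f = 0 ∧ r.n = 0 := by
  have h1 := congrArg CA.i h; have h2 := congrArg CA.i' h
  have h3 := congrArg CA.f h; have h4 := congrArg CA.n h
  simp [E] at h1 h2 h3 h4
  exact ⟨h1.symm, h2.symm, h3.symm, h4.symm⟩
lemma Fmul {r : CA k q} (h : F q * r = r) : r.e = 0 ∧ r.x = 0 ∧ r.y = 0 ∧ r.z = 0 ∧ r.p = 0 ∧ r.p' = 0 := by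
  have h1 := congrArg CA.e h; have h2 := congrArg CA.x h; have h3 := congrArg CA.y h
  have h4 := congrArg CA.z h; have h5 := congrArg CA.p h; have h6 := congrArg CA.p' h
  simp [F] at h1 h2 h3 h4 h5 h6
  exact ⟨h1.symm, h2.symm, h3.symm, h4.symm, h5.symm, h6.symm⟩

lemma rowXY0 {r : CA k q} {t : k} (h : r * XY q t = 0) :
    r.e = 0 ∧ q * t * r.x + r.y = 0 ∧ r.i * (1 + q ^ 2 * t) = 0 := by
  have h1 := congrArg CA.x h; have h2 := congrArg CA.z h; have h3 := congrArg CA.i' h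
  simp [XY] at h1 h2 h3
  exact ⟨h1, by linear_combination h2, by linear_combination h3⟩
lemma colXY0 {c : CA k q} {t : k} (h : XY q t * c = 0) :
    c.e = 0 ∧ q * c.y + t * c.x = 0 ∧ (1 + t) * c.p = 0 := by
  have h1 := congrArg CA.x h; have h2 := congrArg CA.z h; have h3 := congrArg CA.p' h
  simp [XY] at h1 h2 h3
  exact ⟨h1, by linear_combination h2, by linear_combination h3⟩

lemma rowXY {r : CA k q} {t : k} (hE : r * E q = r) (he : r.e = 0) (hi : r.i = 0) (hy : r.y = t * r.x)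
    (s : k) (hs : s * (1 + q ^ 2 * t) = r.i') : ∃ c, c * E q = c ∧ c * XY q t = r := by
  obtain ⟨a1, a2, a3, a4⟩ := mulE hE
  refine ⟨⟨r.x, 0, r.z, 0, 0, 0, s, 0, 0, 0⟩, by ext <;> simp [E], ?_⟩
  ext <;> simp [XY, a1, a2, a3, a4, he, hi, hy]
  · ring
  · linear_combination hs
lemma colXY (hq : q ≠ 0) {c : CA k q} {t : k} (hE : E q * c = c) (he : c.e = 0) (hp : c.p = 0)
    (hy : c.y = t * c.x) (s : k) (hs : (1 + t) * s = c.p') : ∃ c', E q * c' = c' ∧ XY q t * c' = c := by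
  obtain ⟨a1, a2, a3, a4⟩ := Emul hE
  refine ⟨⟨c.x, 0, q⁻¹ * c.z, 0, s, 0, 0, 0, 0, 0⟩, by ext <;> simp [E], ?_⟩
  ext <;> simp [XY, a1, a2, a3, a4, he, hp, hy]
  · field_simp
  · linear_combination hs

variable [CharP k 2]

lemma two : (2 : k) = 0 := CharTwo.two_eq_zero

lemma aa3 (i : ℕ) : aa q (i + 1) * aa q i = 0 := by
  cases i with
  | zero => ext <;> simp [aa, PI, XY]; linear_combination two (k := k)
  | succ i => ext <;> simp [aa, XY]; linear_combination (q ^ (i + 1)) * two (k := k)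
lemma bb3 (hq : q ≠ 0) (i : ℕ) : bb q i * bb q (i + 1) = 0 := by
  have hu : q * q⁻¹ = 1 := mul_inv_cancel₀ hq
  cases i with
  | zero =>
    ext <;> simp [bb, IO, XY, -inv_pow]
    linear_combination two (k := k) + (q * q⁻¹ + 1) * hu
  | succ i =>
    ext <;> simp [bb, XY, -inv_pow]
    linear_combination (q⁻¹ ^ (i + 2)) * two (k := k) + (q⁻¹ ^ (i + 2)) * hu

@[reducible] def Qp (q : k) : Cx (CA k q) := Dn (ep q) (aa q) ep_idem aa1 aa2 aa3
@[reducible] def Qm (hq : q ≠ 0) : Cx (CA k q) := Up 2 (ep q) (bb q) ep_idem bb1 bb2 (bb3 hq)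

def ph (q : k) : ℕ → (ℕ →₀ CA k q)
  | 0 => single 2 (IO' q)
  | 1 => single 1 (Y q)
  | 2 => single 0 (PI' q)
  | _ + 3 => 0

def phi (q : k) : (ℕ →₀ CA k q) →ₗ[CA k q] (ℕ →₀ CA k q) := Finsupp.linearCombination (CA k q) (ph q)

omit [CharP k 2] in
lemma phi_single (i : ℕ) (c : CA k q) : phi q (single i c) = c • ph q i := by simp [phi]

lemma phi_cy (hq : q ≠ 0) : Cy (Qp q) (Qm hq) (CA k q) 0 (phi q) := by
  constructor
  · intro (i : ℕ) (j : ℕ)
    show ((j : ℤ) - (2 : ℕ) ≠ -(i : ℤ) + 0 → phi q (single i 1) j = 0) ∧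
      ep q i * phi q (single i 1) j = phi q (single i 1) j ∧
      phi q (single i 1) j * ep q j = phi q (single i 1) j
    rw [phi_single, one_smul]
    match i with
    | 0 =>
      by_cases h : 2 = j
      · subst h; simp only [ph, single_eq_same]
        exact ⟨fun h => absurd (by norm_num) h, by ext <;> simp [ep, F, IO'], by ext <;> simp [ep, E, IO']⟩
      · simp [ph, h]
    | 1 =>
      by_cases h : 1 = j
      · subst h; simp only [ph, single_eq_same]
        exact ⟨fun h => absurd (by norm_num) h, by ext <;> simp [ep, E, Y], by ext <;> simp [ep, E, Y]⟩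
      · simp [ph, h]
    | 2 =>
      by_cases h : 0 = j
      · subst h; simp only [ph, single_eq_same]
        exact ⟨fun h => absurd (by norm_num) h, by ext <;> simp [ep, E, PI'], by ext <;> simp [ep, F, PI']⟩
      · simp [ph, h]
    | _ + 3 => simp [ph]
  · show phi q ∘ₗ dn (aa q) + tens (CA k q) (up (bb q)) ∘ₗ phi q = 0
    rw [tens_self]
    refine gen_ext _ _ fun i => ?_
    simp only [LinearMap.add_apply, LinearMap.comp_apply, phi_single, one_smul, LinearMap.zero_apply]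
    match i with
    | 0 =>
      simp only [dn_zero, map_zero, zero_add, ph, up_single]
      rw [show IO' q * bb q 2 = 0 by ext <;> simp [IO', bb, XY], single_zero]
    | 1 =>
      simp only [dn_succ (aa q) 0, phi_single, ph, up_single, smul_single, one_mul, smul_eq_mul, ← single_add]
      rw [show aa q 0 * IO' q + Y q * bb q 1 = 0 by
        ext <;> simp [IO', bb, XY, aa, PI, Y]; linear_combination two (k := k), single_zero]
    | 2 =>
      simp only [dn_succ (aa q) 1, phi_single, ph, up_single, smul_single, one_mul, smul_eq_mul, ← single_add]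
      rw [show aa q 1 * Y q + PI' q * bb q 0 = 0 by
        ext <;> simp [IO, bb, XY, aa, PI', Y]; linear_combination q * two (k := k), single_zero]
    | 3 =>
      simp only [dn_succ (aa q) 2, phi_single, ph, map_zero, add_zero, smul_single, one_mul, smul_eq_mul]
      rw [show aa q 2 * PI' q = 0 by ext <;> simp [XY, aa, PI'], single_zero]
    | i + 4 =>
      simp only [dn_succ (aa q) (i + 3), phi_single, ph, map_zero, add_zero, smul_zero]

section
variable (hq : q ≠ 0) (hn : ∀ n : ℕ, 0 < n → q ^ n ≠ 1)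
include hn

lemma ne1 (n : ℕ) (h : 0 < n) : 1 + q ^ n ≠ 0 := fun e =>
  hn n h (by linear_combination e - two (k := k))

include hq in
lemma ne2 (n : ℕ) (h : 0 < n) : 1 + q⁻¹ ^ n ≠ 0 := fun e => by
  have h1 : q ^ n * q⁻¹ ^ n = 1 := by rw [← mul_pow, mul_inv_cancel₀ hq, one_pow]
  exact ne1 hn n h (by linear_combination q ^ n * e - h1)

lemma rowp (n : ℤ) (v : Ch (pt (CA k q)) (Qp q) (CA k q)) (h : Cy _ _ _ n v)
    (h0 : (v (single () 1) (0 : ℕ)).f = 0) : Bd _ _ _ n v := by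
  obtain ⟨h1, h2⟩ := row_cy _ n v h
  refine Dn_row _ _ _ _ _ _ n v (fun j => (h1 j).1) fun j _ => ?_
  have e := (h1 j).2
  have hd : ∀ i : ℕ, v (single () 1) (i + 1 : ℕ) * aa q i = 0 := fun i => by
    rw [← dn_apply]; exact DFunLike.congr_fun h2 i
  match j with
  | 0 =>
    generalize v (single () 1) (0 : ℕ) = r at e h0
    obtain ⟨a1, a2, a3, a4, a5, a6⟩ := mulF e
    have hq1 : q + 1 ≠ 0 := by simpa [add_comm] using ne1 hn 1 one_pos
    refine ⟨⟨r.p, r.p', 0, 0, 0, 0, (q + 1)⁻¹ * r.n, 0, 0, 0⟩, by ext <;> simp [ep, E], ?_⟩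
    ext <;> simp [aa, PI, a1, a2, a3, a4, a5, a6, h0]
    field_simp
  | 1 =>
    have e2 := hd 0
    generalize v (single () 1) (0 + 1 : ℕ) = r at e e2
    have b1 := congrArg CA.p e2; have b2 := congrArg CA.p' e2; have b3 := congrArg CA.n e2
    have hq1 : q + 1 ≠ 0 := by simpa [add_comm] using ne1 hn 1 one_pos
    simp [aa, PI, hq1] at b1 b2 b3
    have h5 := ne1 hn 2 two_pos
    exact rowXY (t := q ^ 0) e b1 b3 (by linear_combination b2 - r.x * two (k := k)) (r.i' / (1 + q ^ 2))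
      (by field_simp)
  | j + 2 =>
    have e2 := hd (j + 1)
    generalize v (single () 1) (j + 1 + 1 : ℕ) = r at e e2
    obtain ⟨b1, b2, b3⟩ := rowXY0 e2
    have h4 := ne1 hn (2 + j) (by omega)
    have h5 := ne1 hn (2 + (j + 1)) (by omega)
    rw [pow_add] at h4 h5
    exact rowXY (t := q ^ (j + 1)) e b1 ((mul_eq_zero.1 b3).resolve_right h4)
      (by linear_combination b2 - q ^ (j + 1) * r.x * two (k := k)) (r.i' / (1 + q ^ 2 * q ^ (j + 1)))
      (by field_simp)

lemma colp0 (n : ℤ) (w : Ch (Qp q) (pt (CA k q)) (CA k q))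
    (h1 : ∀ i : ℕ, (-(i : ℤ) + n ≠ 0 → w (single i 1) () = 0) ∧ ep q i * w (single i 1) () = w (single i 1) ())
    (hd : ∀ i : ℕ, aa q i * w (single i 1) () = 0) (hq : q ≠ 0)
    (h2 : n = 2 → (w (single (2 : ℕ) 1) ()).p' = 0) : Bd _ _ _ n w := by
  refine Dn_col _ _ _ _ _ _ n w (fun j => (h1 j).1) (fun _ => ?_) fun j hj => ?_
  · have e := (h1 0).2
    have e2 := hd 0
    generalize w (single (0 : ℕ) 1) () = c at e e2
    obtain ⟨a1, a2, a3, a4, a5, a6⟩ := Fmul e
    have b1 := congrArg CA.y e2; have b2 := congrArg CA.z e2; have b3 := congrArg CA.p e2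
    have b4 := congrArg CA.p' e2
    simp [aa, PI] at b1 b2 b3 b4
    ext <;> simp [*]
  have e := (h1 (j + 1)).2
  have e2 := hd (j + 1)
  match j with
  | 0 =>
    generalize w (single (0 + 1 : ℕ) 1) () = c at e e2
    obtain ⟨a1, a2, a3, a4⟩ := Emul e
    obtain ⟨b1, b2, -⟩ := colXY0 e2
    refine ⟨⟨0, 0, 0, 0, 0, 0, c.y, c.z, c.p, c.p'⟩, by ext <;> simp [ep, F], ?_⟩
    ext <;> simp [aa, PI, a1, a2, a3, a4, b1]
    linear_combination b2 - c.x * two (k := k)
  | j + 1 =>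
    have h2' : j = 0 → (w (single (j + 1 + 1 : ℕ) 1) ()).p' = 0 := by
      rintro rfl; exact h2 (by push_cast at hj; omega)
    generalize w (single (j + 1 + 1 : ℕ) 1) () = c at e e2 h2'
    obtain ⟨b1, b2, b3⟩ := colXY0 e2
    have hy : c.y = q ^ j * c.x := mul_left_cancel₀ hq (by
      linear_combination b2 - q ^ (j + 1) * c.x * two (k := k))
    have hp := (mul_eq_zero.1 b3).resolve_left (ne1 hn (j + 1) (by omega))
    by_cases h0 : j = 0
    · exact colXY hq (t := q ^ j) e b1 hp hy 0 (by rw [h2' h0, mul_zero])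
    · have h5 := ne1 hn j (by omega)
      exact colXY hq (t := q ^ j) e b1 hp hy (c.p' / (1 + q ^ j)) (by field_simp)

lemma rowm0 (n : ℤ) (v : Ch (pt (CA k q)) (Qm hq) (CA k q))
    (h1 : ∀ j : ℕ, ((j : ℤ) - (2 : ℕ) ≠ n → v (single () 1) j = 0) ∧
      v (single () 1) j * ep q j = v (single () 1) j)
    (hd : ∀ i : ℕ, v (single () 1) i * bb q i = 0)
    (h2 : n = 0 → (v (single () 1) (2 : ℕ)).i' = 0) : Bd _ _ _ n v := by
  have hu : q * q⁻¹ = 1 := mul_inv_cancel₀ hq
  refine Up_row _ _ _ _ _ _ _ n v (fun j => (h1 j).1) (fun _ => ?_) fun j hj => ?_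
  · have e := (h1 0).2
    have e2 := hd 0
    generalize v (single () 1) (0 : ℕ) = r at e e2
    obtain ⟨a1, a2, a3, a4, a5, a6⟩ := mulF e
    have b1 := congrArg CA.y e2; have b2 := congrArg CA.z e2; have b3 := congrArg CA.i e2
    have b4 := congrArg CA.i' e2
    simp [bb, IO, hq] at b1 b2 b3 b4
    ext <;> simp [*]
  have e := (h1 (j + 1)).2
  have e2 := hd (j + 1)
  match j with
  | 0 =>
    generalize v (single () 1) (0 + 1 : ℕ) = r at e e2
    obtain ⟨a1, a2, a3, a4⟩ := mulE e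
    obtain ⟨b1, b2, -⟩ := rowXY0 e2
    refine ⟨⟨0, 0, 0, 0, r.y, q⁻¹ * r.z, 0, 0, r.i, q⁻¹ * r.i'⟩, by ext <;> simp [ep, F], ?_⟩
    ext <;> simp [bb, IO, a1, a2, a3, a4, b1, hq]
    linear_combination q * b2 - r.x * two (k := k) - (q * q⁻¹ - 1) * r.x * hu
      - 2 * r.x * hu + r.x * two (k := k) - r.x * two (k := k)
  | j + 1 =>
    have h2' : j = 0 → (v (single () 1) (j + 1 + 1 : ℕ)).i' = 0 := by
      rintro rfl; exact h2 (by push_cast at hj; omega)
    generalize v (single () 1) (j + 1 + 1 : ℕ) = r at e e2 h2'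
    obtain ⟨b1, b2, b3⟩ := rowXY0 e2
    have s1 : q ^ 2 * q⁻¹ ^ (j + 1 + 2) = q⁻¹ ^ (j + 1) := by
      linear_combination (q * q⁻¹ + 1) * q⁻¹ ^ (j + 1) * hu
    have s2 : q ^ 2 * q⁻¹ ^ (j + 2) = q⁻¹ ^ j := by
      linear_combination (q * q⁻¹ + 1) * q⁻¹ ^ j * hu
    have hy : r.y = q⁻¹ ^ (j + 2) * r.x := by
      linear_combination b2 - q⁻¹ ^ (j + 2) * r.x * hu - q⁻¹ ^ (j + 2) * r.x * two (k := k)
    rw [s1] at b3
    have hi := (mul_eq_zero.1 b3).resolve_right (ne2 hq hn (j + 1) (by omega))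
    by_cases h0 : j = 0
    · exact rowXY (t := q⁻¹ ^ (j + 2)) e b1 hi hy 0 (by rw [h2' h0, zero_mul])
    · have h5 := ne2 hq hn j (by omega)
      exact rowXY (t := q⁻¹ ^ (j + 2)) e b1 hi hy (r.i' / (1 + q⁻¹ ^ j)) (by rw [s2, div_mul_cancel₀ _ h5])

lemma colm (n : ℤ) (w : Ch (Qm hq) (pt (CA k q)) (CA k q)) (h : Cy _ _ _ n w)
    (h0 : (w (single (0 : ℕ) 1) ()).f = 0) : Bd _ _ _ n w := by
  have hu : q * q⁻¹ = 1 := mul_inv_cancel₀ hq
  obtain ⟨h1, h2⟩ := col_cy _ n w h
  refine Up_col _ _ _ _ _ _ _ n w (fun j => (h1 j).1) fun j _ => ?_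
  have e := (h1 j).2
  have hd : ∀ i : ℕ, bb q i * w (single (i + 1 : ℕ) 1) () = 0 := fun i => by
    have := h2 i
    rw [show (Qm hq).d (single i 1) = single (i + 1 : ℕ) (1 * bb q i) from up_single _ i 1, ap_single,
      one_mul] at this
    exact this
  have hq1 : q + 1 ≠ 0 := by simpa [add_comm] using ne1 hn 1 one_pos
  match j with
  | 0 =>
    generalize w (single (0 : ℕ) 1) () = c at e h0
    obtain ⟨a1, a2, a3, a4, a5, a6⟩ := Fmul e
    refine ⟨⟨c.i, c.i', 0, 0, (q + 1)⁻¹ * c.n, 0, 0, 0, 0, 0⟩, by ext <;> simp [ep, E], ?_⟩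
    ext <;> simp [bb, IO, a1, a2, a3, a4, a5, a6, h0]
    field_simp
  | 1 =>
    have e2 := hd 0
    generalize w (single (0 + 1 : ℕ) 1) () = c at e e2
    have b1 := congrArg CA.i e2; have b2 := congrArg CA.i' e2; have b3 := congrArg CA.n e2
    simp [bb, IO, hq1] at b1 b2 b3
    have h5 := ne2 hq hn 2 two_pos
    exact colXY hq (t := q⁻¹ ^ (0 + 2)) e b1 b3
      (by linear_combination q⁻¹ ^ 2 * b2 - (q * q⁻¹ + 1) * c.y * hu - q⁻¹ ^ 2 * c.x * two (k := k))
      (c.p' / (1 + q⁻¹ ^ 2)) (mul_div_cancel₀ _ h5)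
  | j + 2 =>
    have e2 := hd (j + 1)
    generalize w (single (j + 1 + 1 : ℕ) 1) () = c at e e2
    obtain ⟨b1, b2, b3⟩ := colXY0 e2
    have h5 := ne2 hq hn (j + 1 + 2) (by omega)
    exact colXY hq (t := q⁻¹ ^ (j + 1 + 2)) e b1
      ((mul_eq_zero.1 b3).resolve_left (ne2 hq hn (j + 2) (by omega)))
      (by linear_combination q⁻¹ * b2 - c.y * hu - q⁻¹ ^ (j + 3) * c.x * two (k := k))
      (c.p' / (1 + q⁻¹ ^ (j + 1 + 2))) (mul_div_cancel₀ _ h5)
end

lemma row_val : (phi q ∘ₗ (Qp q).row (0 : ℕ)) (single () 1) = single 2 (IO' q) := by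
  have : (Qp q).row (0 : ℕ) (single () 1) = single 0 (F q) := by
    simp [Cx.row, ep]
  rw [LinearMap.comp_apply, this, phi_single]
  simp only [ph, smul_single, smul_eq_mul]
  congr 1; ext <;> simp [F, IO']

lemma col_val (hq : q ≠ 0) (i : ℕ) : ((Qm hq).col (0 : ℕ) ∘ₗ phi q) (single i 1) () =
    if i = 2 then PI' q else 0 := by
  have : ∀ (j : ℕ) (c : CA k q), (Qm hq).col (0 : ℕ) (single j c) () = if j = 0 then c * F q else 0 := by
    intro j c
    by_cases h : j = 0
    · subst h; simp [Cx.col, Cx.one, ep]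
    · simp [Cx.col, Cx.one, h]; rfl
  rw [LinearMap.comp_apply, phi_single, one_smul]
  match i with
  | 0 => simp [ph, this]
  | 1 => simp [ph, this]
  | 2 => simp only [ph, this, if_true]; ext <;> simp [PI', F]
  | _ + 3 => simp [ph]; rfl

def bd (hq : q ≠ 0) (hn : ∀ n : ℕ, 0 < n → q ^ n ≠ 1) : BD k (CA k q) 2 where
  fd := inferInstance
  χ := chi q
  f := F q
  ff := ep_idem 0
  χf := rfl
  tr := trace_zero
  Qp := Qp q
  Qm := Qm hq
  ip := (0 : ℕ)
  im := (0 : ℕ)
  degp i := by show -(i : ℤ) ≤ 0; omega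
  degm i := by show -((2 : ℕ) : ℤ) ≤ (i : ℤ) - (2 : ℕ); omega
  deg_ip := rfl
  deg_im := rfl
  χ_ip := rfl
  χ_im := rfl
  χp i hi := by cases i with
    | zero => exact absurd rfl hi
    | succ i => rfl
  χm i hi := by cases i with
    | zero => exact absurd rfl hi
    | succ i => rfl
  φ := phi q
  φ_cy := phi_cy hq
  rowp n v h h0 := rowp hn n v h h0
  rowm n v h := by
    obtain ⟨h1, h2⟩ := row_cy _ n v h
    have hd : ∀ i : ℕ, v (single () 1) i * bb q i = 0 := fun i => by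
      rw [← up_apply]; exact DFunLike.congr_fun h2 (i + 1)
    have A : n ≠ 0 → Bd _ _ _ n v := fun h0 => rowm0 hq hn n v h1 hd fun h => absurd h h0
    refine ⟨A, ?_⟩
    by_cases h0 : n = 0
    · subst h0
      refine ⟨(v (single () 1) (2 : ℕ)).i', ?_⟩
      have val : ∀ j : ℕ, (v + (v (single () 1) (2 : ℕ)).i' • (phi q ∘ₗ (Qp q).row (0 : ℕ))) (single () 1) j =
          v (single () 1) j + if 2 = j then (v (single () 1) (2 : ℕ)).i' • IO' q else 0 := fun j => by
        rw [LinearMap.add_apply, LinearMap.smul_apply, row_val, Finsupp.add_apply, smul_single, single_apply]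
      refine rowm0 hq hn 0 _ (fun j => ?_) (fun j => ?_) fun _ => ?_
      · rw [val]
        by_cases hj : 2 = j
        · subst hj
          refine ⟨fun h => absurd (by norm_num) h, ?_⟩
          rw [add_mul, (h1 2).2, if_pos rfl]; congr 1; ext <;> simp [ep, E, IO']
        · rw [if_neg hj, add_zero]; exact h1 j
      · rw [val, add_mul, hd, zero_add]
        by_cases hj : 2 = j
        · subst hj; rw [if_pos rfl]; ext <;> simp [bb, XY, IO']
        · rw [if_neg hj, zero_mul]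
      · rw [val, if_pos rfl]; simp [IO']; linear_combination (v (single () 1) (2 : ℕ)).i' * two (k := k)
    · exact ⟨0, by rw [zero_smul, add_zero]; exact A h0⟩
  rowm' h := by
    obtain ⟨r, -, e⟩ := (row_bd _ _ _).1 h
    have hu : q * q⁻¹ = 1 := mul_inv_cancel₀ hq
    have e2 : r 1 * bb q 1 = IO' q := by
      rw [← up_apply]
      have := DFunLike.congr_fun (e.trans row_val) (2 : ℕ)
      rw [single_eq_same] at this; exact this
    have b := congrArg CA.i' e2
    simp [bb, XY, IO', -inv_pow] at b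
    exact one_ne_zero (α := k) (by
      linear_combination -b + (r 1).i * two (k := k) + (q * q⁻¹ + 1) * (r 1).i * hu)
  colm n w h h0 := colm hq hn n w h h0
  colp n w h := by
    obtain ⟨h1, h2⟩ := col_cy _ n w h
    have hd : ∀ i : ℕ, aa q i * w (single i 1) () = 0 := fun i => by
      have := h2 (i + 1)
      rw [show (Qp q).d (single (i + 1 : ℕ) 1) = single i (1 * aa q i) from dn_succ _ i 1, ap_single,
        one_mul] at this
      exact this
    have A : n ≠ (2 : ℕ) → Bd _ _ _ n w := fun h0 => colp0 hn n w h1 hd hq fun h => absurd h h0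
    refine ⟨A, ?_⟩
    by_cases h0 : n = (2 : ℕ)
    · subst h0
      refine ⟨(w (single (2 : ℕ) 1) ()).p', ?_⟩
      have val : ∀ j : ℕ, (w + (w (single (2 : ℕ) 1) ()).p' • ((Qm hq).col (0 : ℕ) ∘ₗ phi q)) (single j 1) () =
          w (single j 1) () + (w (single (2 : ℕ) 1) ()).p' • if j = 2 then PI' q else 0 := fun j => by
        rw [LinearMap.add_apply, LinearMap.smul_apply, Finsupp.add_apply, Finsupp.smul_apply, col_val]
      refine colp0 hn _ _ (fun j => ?_) (fun j => ?_) hq fun _ => ?_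
      · rw [val]
        by_cases hj : j = 2
        · subst hj
          refine ⟨fun h => absurd (by norm_num) h, ?_⟩
          rw [mul_add, (h1 2).2, if_pos rfl]; congr 1; ext <;> simp [ep, E, PI']
        · rw [if_neg hj, smul_zero, add_zero]; exact h1 j
      · rw [val, mul_add, hd, zero_add]
        by_cases hj : j = 2
        · subst hj; rw [if_pos rfl]; ext <;> simp [aa, XY, PI']
        · rw [if_neg hj, smul_zero, mul_zero]
      · rw [val, if_pos rfl]; simp [PI']; linear_combination (w (single (2 : ℕ) 1) ()).p' * two (k := k)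
    · exact ⟨0, by rw [zero_smul, add_zero]; exact A h0⟩
  colp' h := by
    obtain ⟨u, -, e⟩ := (col_bd _ _ _).1 h
    have e2 := e (2 : ℕ)
    rw [show (Qp q).d (single (2 : ℕ) 1) = single 1 (1 * aa q 1) from dn_succ _ 1 1, ap_single, one_mul] at e2
    have e3 : aa q 1 * u (single (1 : ℕ) 1) () = PI' q := (e2.trans (col_val hq 2)).trans (if_pos rfl)
    have b := congrArg CA.p' e3
    simp [aa, XY, PI'] at b
    exact one_ne_zero (α := k) (by linear_combination -b + (u (single (1 : ℕ) 1) ()).p * two (k := k))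

theorem cStmt : CStmt := fun k _ _ q hq hn =>
  ⟨CA k q, inferInstance, inferInstance, bd hq hn, pr q, pr_surj, ⟨5, pr_nil⟩, Y q, XY q 0,
    (pr_zero _).2 ⟨rfl, rfl⟩, (pr_zero _).2 ⟨rfl, rfl⟩, fun h => by
      have := congrArg CA.z h
      simp [Y, XY] at this⟩

end Crest.Agent.H1.TkC
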