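import Mathlib

/-! Row 186: the ten-dimensional algebra `C = End (A ⊕ N)`. -/

set_option autoImplicit false

noncomputable section
namespace Crest.Agent.H1.TkC

@[ext] structure CA (k : Type) (q : k) where
  e : k
  x : k
  y : k
  z : k
  p : k
  p' : k
  i : k
  i' : k
  f : k
  n : k

variable {k : Type} [Field k] {q : k}

def eqv (q : k) : CA k q ≃ (Fin 10 → k) where
  toFun a := ![a.e, a.x, a.y, a.z, a.p, a.p', a.i, a.i', a.f, a.n]
  invFun v := ⟨v 0, v 1, v 2, v 3, v 4, v 5, v 6, v 7, v 8, v 9⟩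
  left_inv a := by ext <;> rfl
  right_inv v := by ext i; fin_cases i <;> rfl

instance : Add (CA k q) := ⟨fun a b => ⟨a.e + b.e, a.x + b.x, a.y + b.y, a.z + b.z, a.p + b.p, a.p' + b.p',
  a.i + b.i, a.i' + b.i', a.f + b.f, a.n + b.n⟩⟩
instance : Zero (CA k q) := ⟨⟨0, 0, 0, 0, 0, 0, 0, 0, 0, 0⟩⟩
instance : One (CA k q) := ⟨⟨1, 0, 0, 0, 0, 0, 0, 0, 1, 0⟩⟩
instance : Neg (CA k q) := ⟨fun a => ⟨-a.e, -a.x, -a.y, -a.z, -a.p, -a.p', -a.i, -a.i', -a.f, -a.n⟩⟩
instance : SMul k (CA k q) := ⟨fun c a => ⟨c * a.e, c * a.x, c * a.y, c * a.z, c * a.p, c * a.p', c * a.i,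
  c * a.i', c * a.f, c * a.n⟩⟩
instance : Mul (CA k q) := ⟨fun a b =>
  ⟨a.e * b.e,
   a.e * b.x + a.x * b.e + q * a.p * b.i,
   a.e * b.y + a.y * b.e + a.p * b.i,
   a.e * b.z + a.z * b.e + q * a.x * b.y + a.y * b.x + q * a.p' * b.i + a.p * b.i',
   a.e * b.p + a.p * b.f,
   a.e * b.p' + a.p' * b.f + a.x * b.p + a.y * b.p + a.p * b.n,
   a.f * b.i + a.i * b.e,
   a.f * b.i' + a.i' * b.e + a.i * b.x + q ^ 2 * a.i * b.y + q * a.n * b.i,
   a.f * b.f,
   a.f * b.n + a.n * b.f + (q + 1) * a.i * b.p⟩⟩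

section
variable (a b : CA k q) (c : k)
@[simp] lemma add_e : (a + b).e = a.e + b.e := rfl
@[simp] lemma add_x : (a + b).x = a.x + b.x := rfl
@[simp] lemma add_y : (a + b).y = a.y + b.y := rfl
@[simp] lemma add_z : (a + b).z = a.z + b.z := rfl
@[simp] lemma add_p : (a + b).p = a.p + b.p := rfl
@[simp] lemma add_p' : (a + b).p' = a.p' + b.p' := rfl
@[simp] lemma add_i : (a + b).i = a.i + b.i := rfl
@[simp] lemma add_i' : (a + b).i' = a.i' + b.i' := rfl
@[simp] lemma add_f : (a + b).f = a.f + b.f := rfl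
@[simp] lemma add_n : (a + b).n = a.n + b.n := rfl
@[simp] lemma neg_e : (-a).e = -a.e := rfl
@[simp] lemma neg_x : (-a).x = -a.x := rfl
@[simp] lemma neg_y : (-a).y = -a.y := rfl
@[simp] lemma neg_z : (-a).z = -a.z := rfl
@[simp] lemma neg_p : (-a).p = -a.p := rfl
@[simp] lemma neg_p' : (-a).p' = -a.p' := rfl
@[simp] lemma neg_i : (-a).i = -a.i := rfl
@[simp] lemma neg_i' : (-a).i' = -a.i' := rfl
@[simp] lemma neg_f : (-a).f = -a.f := rfl
@[simp] lemma neg_n : (-a).n = -a.n := rfl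
@[simp] lemma smul_e : (c • a).e = c * a.e := rfl
@[simp] lemma smul_x : (c • a).x = c * a.x := rfl
@[simp] lemma smul_y : (c • a).y = c * a.y := rfl
@[simp] lemma smul_z : (c • a).z = c * a.z := rfl
@[simp] lemma smul_p : (c • a).p = c * a.p := rfl
@[simp] lemma smul_p' : (c • a).p' = c * a.p' := rfl
@[simp] lemma smul_i : (c • a).i = c * a.i := rfl
@[simp] lemma smul_i' : (c • a).i' = c * a.i' := rfl
@[simp] lemma smul_f : (c • a).f = c * a.f := rfl
@[simp] lemma smul_n : (c • a).n = c * a.n := rfl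
@[simp] lemma zero_e : (0 : CA k q).e = 0 := rfl
@[simp] lemma zero_x : (0 : CA k q).x = 0 := rfl
@[simp] lemma zero_y : (0 : CA k q).y = 0 := rfl
@[simp] lemma zero_z : (0 : CA k q).z = 0 := rfl
@[simp] lemma zero_p : (0 : CA k q).p = 0 := rfl
@[simp] lemma zero_p' : (0 : CA k q).p' = 0 := rfl
@[simp] lemma zero_i : (0 : CA k q).i = 0 := rfl
@[simp] lemma zero_i' : (0 : CA k q).i' = 0 := rfl
@[simp] lemma zero_f : (0 : CA k q).f = 0 := rfl
@[simp] lemma zero_n : (0 : CA k q).n = 0 := rfl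
@[simp] lemma one_e : (1 : CA k q).e = 1 := rfl
@[simp] lemma one_x : (1 : CA k q).x = 0 := rfl
@[simp] lemma one_y : (1 : CA k q).y = 0 := rfl
@[simp] lemma one_z : (1 : CA k q).z = 0 := rfl
@[simp] lemma one_p : (1 : CA k q).p = 0 := rfl
@[simp] lemma one_p' : (1 : CA k q).p' = 0 := rfl
@[simp] lemma one_i : (1 : CA k q).i = 0 := rfl
@[simp] lemma one_i' : (1 : CA k q).i' = 0 := rfl
@[simp] lemma one_f : (1 : CA k q).f = 1 := rfl
@[simp] lemma one_n : (1 : CA k q).n = 0 := rfl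
@[simp] lemma mul_e : (a * b).e = a.e * b.e := rfl
@[simp] lemma mul_x : (a * b).x = a.e * b.x + a.x * b.e + q * a.p * b.i := rfl
@[simp] lemma mul_y : (a * b).y = a.e * b.y + a.y * b.e + a.p * b.i := rfl
@[simp] lemma mul_z : (a * b).z =
  a.e * b.z + a.z * b.e + q * a.x * b.y + a.y * b.x + q * a.p' * b.i + a.p * b.i' := rfl
@[simp] lemma mul_p : (a * b).p = a.e * b.p + a.p * b.f := rfl
@[simp] lemma mul_p' : (a * b).p' = a.e * b.p' + a.p' * b.f + a.x * b.p + a.y * b.p + a.p * b.n := rfl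
@[simp] lemma mul_i : (a * b).i = a.f * b.i + a.i * b.e := rfl
@[simp] lemma mul_i' : (a * b).i' =
  a.f * b.i' + a.i' * b.e + a.i * b.x + q ^ 2 * a.i * b.y + q * a.n * b.i := rfl
@[simp] lemma mul_f : (a * b).f = a.f * b.f := rfl
@[simp] lemma mul_n : (a * b).n = a.f * b.n + a.n * b.f + (q + 1) * a.i * b.p := rfl
end

instance : AddCommGroup (CA k q) where
  add_assoc a b c := by ext <;> simp [add_assoc]
  zero_add a := by ext <;> simp
  add_zero a := by ext <;> simp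
  nsmul := nsmulRec
  zsmul := zsmulRec
  neg_add_cancel a := by ext <;> simp
  add_comm a b := by ext <;> simp [add_comm]

instance : Ring (CA k q) where
  left_distrib a b c := by ext <;> simp only [mul_e, mul_x, mul_y, mul_z, mul_p, mul_p', mul_i, mul_i',
    mul_f, mul_n, add_e, add_x, add_y, add_z, add_p, add_p', add_i, add_i', add_f, add_n] <;> ring
  right_distrib a b c := by ext <;> simp only [mul_e, mul_x, mul_y, mul_z, mul_p, mul_p', mul_i, mul_i',
    mul_f, mul_n, add_e, add_x, add_y, add_z, add_p, add_p', add_i, add_i', add_f, add_n] <;> ring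
  zero_mul a := by ext <;> simp
  mul_zero a := by ext <;> simp
  mul_assoc a b c := by ext <;> simp only [mul_e, mul_x, mul_y, mul_z, mul_p, mul_p', mul_i, mul_i',
    mul_f, mul_n] <;> ring
  one_mul a := by ext <;> simp
  mul_one a := by ext <;> simp

instance : Module k (CA k q) where
  one_smul a := by ext <;> simp
  mul_smul a b c := by ext <;> simp [mul_assoc]
  smul_zero a := by ext <;> simp
  smul_add a b c := by ext <;> simp [mul_add]
  add_smul a b c := by ext <;> simp [add_mul]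
  zero_smul a := by ext <;> simp

instance : Algebra k (CA k q) := Algebra.ofModule
  (fun r a b => by ext <;> simp <;> ring) (fun r a b => by ext <;> simp <;> ring)

def leqv (q : k) : CA k q ≃ₗ[k] (Fin 10 → k) :=
  { eqv q with
    map_add' := fun a b => by ext i; fin_cases i <;> rfl
    map_smul' := fun c a => by ext i; fin_cases i <;> rfl }

instance : FiniteDimensional k (CA k q) := (leqv q).symm.finiteDimensional

lemma algMap (c : k) : algebraMap k (CA k q) c = c • (1 : CA k q) := Algebra.algebraMap_eq_smul_one c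

def chi (q : k) : CA k q →ₐ[k] k where
  toFun a := a.f
  map_one' := rfl
  map_mul' _ _ := rfl
  map_zero' := rfl
  map_add' _ _ := rfl
  commutes' c := by rw [algMap]; simp

@[simp] lemma chi_apply (a : CA k q) : chi q a = a.f := rfl

def pr (q : k) : CA k q →ₐ[k] (Fin 2 → k) where
  toFun a := ![a.e, a.f]
  map_one' := by ext i; fin_cases i <;> rfl
  map_mul' _ _ := by ext i; fin_cases i <;> rfl
  map_zero' := by ext i; fin_cases i <;> rfl
  map_add' _ _ := by ext i; fin_cases i <;> rfl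
  commutes' c := by rw [algMap]; ext i; fin_cases i <;> simp

lemma pr_zero (a : CA k q) : pr q a = 0 ↔ a.e = 0 ∧ a.f = 0 := by
  constructor
  · intro h; exact ⟨congrFun h 0, congrFun h 1⟩
  · rintro ⟨h1, h2⟩; ext i; fin_cases i
    · exact h1
    · exact h2

lemma pr_surj : Function.Surjective (pr q) := fun v =>
  ⟨⟨v 0, 0, 0, 0, 0, 0, 0, 0, v 1, 0⟩, by ext i; fin_cases i <;> rfl⟩

/-- degree filtration -/
def G (m : ℕ) (a : CA k q) : Prop :=
  (1 ≤ m → a.e = 0 ∧ a.f = 0) ∧ (2 ≤ m → a.p = 0 ∧ a.i = 0) ∧ (3 ≤ m → a.x = 0 ∧ a.y = 0 ∧ a.n = 0) ∧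
    (4 ≤ m → a.p' = 0 ∧ a.i' = 0) ∧ (5 ≤ m → a.z = 0)

lemma pow_G (m : ℕ) : ∀ a ∈ RingHom.ker (pr q) ^ m, G m a := by
  induction m with
  | zero => intro a _; simp [G]
  | succ m ih =>
    intro a ha
    rw [Submodule.pow_succ] at ha
    refine Submodule.mul_induction_on ha ?_ ?_
    · intro u hu v hv
      obtain ⟨h1, h2, h3, h4, h5⟩ := ih u hu
      obtain ⟨ve, vf⟩ := (pr_zero v).1 hv
      refine ⟨fun _ => by simp [ve, vf], fun h => ?_, fun h => ?_, fun h => ?_, fun h => ?_⟩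
      · obtain ⟨a1, a2⟩ := h1 (by omega); simp [ve, vf, a1, a2]
      · obtain ⟨a1, a2⟩ := h1 (by omega); obtain ⟨a3, a4⟩ := h2 (by omega); simp [ve, vf, a1, a2, a3, a4]
      · obtain ⟨a1, a2⟩ := h1 (by omega); obtain ⟨a3, a4⟩ := h2 (by omega)
        obtain ⟨a5, a6, a7⟩ := h3 (by omega); simp [ve, vf, a1, a2, a3, a4, a5, a6, a7]
      · obtain ⟨a1, a2⟩ := h1 (by omega); obtain ⟨a3, a4⟩ := h2 (by omega)
        obtain ⟨a5, a6, a7⟩ := h3 (by omega); obtain ⟨a8, a9⟩ := h4 (by omega)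
        simp [ve, vf, a1, a2, a3, a4, a5, a6, a7, a8, a9]
    · rintro u v ⟨h1, h2, h3, h4, h5⟩ ⟨g1, g2, g3, g4, g5⟩
      refine ⟨fun h => ?_, fun h => ?_, fun h => ?_, fun h => ?_, fun h => ?_⟩
      · simp [h1 h, g1 h]
      · simp [h2 h, g2 h]
      · simp [h3 h, g3 h]
      · simp [h4 h, g4 h]
      · simp [h5 h, g5 h]

lemma pr_nil : RingHom.ker (pr q) ^ 5 = ⊥ := by
  rw [eq_bot_iff]
  intro a ha
  obtain ⟨h1, h2, h3, h4, h5⟩ := pow_G 5 a ha
  rw [Submodule.mem_bot]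
  ext <;> simp [h1, h2, h3, h4, h5]

def E (q : k) : CA k q := ⟨1, 0, 0, 0, 0, 0, 0, 0, 0, 0⟩
def F (q : k) : CA k q := ⟨0, 0, 0, 0, 0, 0, 0, 0, 1, 0⟩
def XY (q t : k) : CA k q := ⟨0, 1, t, 0, 0, 0, 0, 0, 0, 0⟩
def Y (q : k) : CA k q := ⟨0, 0, 1, 0, 0, 0, 0, 0, 0, 0⟩
def PI (q : k) : CA k q := ⟨0, 0, 0, 0, 1, 0, 0, 0, 0, 0⟩
def PI' (q : k) : CA k q := ⟨0, 0, 0, 0, 0, 1, 0, 0, 0, 0⟩
def IO (q : k) : CA k q := ⟨0, 0, 0, 0, 0, 0, 1, 0, 0, 0⟩
def IO' (q : k) : CA k q := ⟨0, 0, 0, 0, 0, 0, 0, 1, 0, 0⟩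

lemma trace_zero [CharP k 2] (c : CA k q) :
    LinearMap.trace k (CA k q) (LinearMap.mulLeft k (F q) ∘ₗ LinearMap.mulRight k c) = 0 := by
  rw [LinearMap.trace_eq_matrix_trace k (Module.Basis.ofEquivFun (leqv q))]
  simp only [Matrix.trace, Matrix.diag, LinearMap.toMatrix_apply, Module.Basis.ofEquivFun_repr_apply,
    Module.Basis.coe_ofEquivFun, Fin.sum_univ_succ, Fin.sum_univ_zero]
  simp [leqv, eqv, F, Pi.single_apply]
  have h2 : (2 : k) = 0 := CharTwo.two_eq_zero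
  linear_combination (c.e + c.f) * h2

end Crest.Agent.H1.TkC
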